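import Crest.Agent.R78.Defs
import Crest.Agent.R124.VN2
import Crest.Agent.R124.Kap
import Crest.Agent.R121.WL

/-! Row 78: Sakai's linear Radon–Nikodym theorem for a vector state. -/

set_option autoImplicit false
set_option linter.unusedSectionVars false
set_option linter.deprecated false

namespace Crest.Agent.R78

open Crest.Agent.R124 Crest.Agent.R121
open scoped InnerProductSpace

variable {H : Type*} [NormedAddCommGroup H] [InnerProductSpace ℂ H] [CompleteSpace H]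

open Filter Topology in
lemma rn_abstract {E : Type*} [NormedAddCommGroup E] [InnerProductSpace ℝ E] [CompleteSpace E]
    (W : Submodule ℝ E) (C : Set E) (hne : C.Nonempty) (hcl : IsClosed C) (hcv : Convex ℝ C)
    (hCW : C ⊆ W) {R : ℝ} (hR : ∀ c ∈ C, ‖c‖ ≤ R) (v : E)
    (h : ∀ w ∈ W, ∃ c ∈ C, ⟪v, w⟫_ℝ ≤ ⟪c, w⟫_ℝ) : ∃ c ∈ C, ∀ w ∈ W, ⟪v - c, w⟫_ℝ = 0 := by
  set ζ := W.topologicalClosure.starProjection v with hζ
  have hζW : ζ ∈ W.topologicalClosure := W.topologicalClosure.starProjection_apply_mem v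
  have hvζ : ∀ w ∈ W, ⟪v - ζ, w⟫_ℝ = 0 := fun w hw =>
    W.topologicalClosure.starProjection_inner_eq_zero v w (W.le_topologicalClosure hw)
  obtain ⟨c₀, hc₀, hmin⟩ := exists_norm_eq_iInf_of_complete_convex hne hcl.isComplete hcv ζ
  rw [norm_eq_iInf_iff_real_inner_le_zero hcv hc₀] at hmin
  have hη : ζ - c₀ ∈ closure (W : Set E) :=
    W.topologicalClosure.sub_mem hζW (W.le_topologicalClosure (hCW hc₀))
  have hR0 : 0 ≤ R := (norm_nonneg _).trans (hR _ hc₀)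
  have key : ∀ ε > 0, ‖ζ - c₀‖ ^ 2 ≤ ε * (2 * R + ‖ζ - c₀‖) := by
    intro ε hε
    obtain ⟨w, hw, hd⟩ := Metric.mem_closure_iff.mp hη ε hε
    rw [dist_eq_norm] at hd
    obtain ⟨c, hc, hcw⟩ := h w hw
    have h1 := hvζ w hw
    have h2 := hmin c hc
    have h3 : ⟪c - c₀, w - (ζ - c₀)⟫_ℝ ≤ 2 * R * ε := by
      refine (real_inner_le_norm _ _).trans (mul_le_mul ?_ ?_ (norm_nonneg _) (by positivity))
      · refine (norm_sub_le _ _).trans ?_
        linarith [hR c hc, hR c₀ hc₀]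
      · rw [norm_sub_rev]; exact hd.le
    have h4 : ⟪ζ - c₀, (ζ - c₀) - w⟫_ℝ ≤ ‖ζ - c₀‖ * ε :=
      (real_inner_le_norm _ _).trans (mul_le_mul_of_nonneg_left hd.le (norm_nonneg _))
    rw [inner_sub_right, real_inner_self_eq_norm_sq] at h4
    rw [inner_sub_right, real_inner_comm (ζ - c₀) (c - c₀)] at h3
    rw [inner_sub_left] at h1
    rw [inner_sub_left c c₀ w] at h3
    rw [inner_sub_left ζ c₀ w] at h4
    nlinarith
  have h0 : ‖ζ - c₀‖ ^ 2 ≤ 0 := by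
    refine le_of_forall_pos_le_add fun δ hδ => ?_
    have hp : 0 < 2 * R + ‖ζ - c₀‖ + 1 := by positivity
    have := key (δ / (2 * R + ‖ζ - c₀‖ + 1)) (by positivity)
    refine this.trans ?_
    rw [zero_add, div_mul_eq_mul_div, div_le_iff₀ hp]
    nlinarith
  have h5 : ζ = c₀ := by
    have : ‖ζ - c₀‖ = 0 := by nlinarith [norm_nonneg (ζ - c₀)]
    exact sub_eq_zero.mp (norm_eq_zero.mp this)
  exact ⟨c₀, hc₀, fun w hw => h5 ▸ hvζ w hw⟩

open Filter Topology in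
lemma rn_nonneg_of_lim {I : Type*} {l : Filter I} [l.NeBot] {a : I → H →L[ℂ] H} {b : H →L[ℂ] H}
    (ha : ∀ i, 0 ≤ a i) (h : ∀ η ξ, Tendsto (fun i => ⟪η, a i ξ⟫_ℂ) l (𝓝 ⟪η, b ξ⟫_ℂ)) : 0 ≤ b := by
  rw [ContinuousLinearMap.nonneg_iff_isPositive, ContinuousLinearMap.isPositive_iff_complex]
  intro x
  have h1 : ∀ i, (⟪x, a i x⟫_ℂ).im = 0 ∧ 0 ≤ (⟪x, a i x⟫_ℂ).re := fun i => by
    have := ((ContinuousLinearMap.isPositive_iff_complex _).mp
      ((ContinuousLinearMap.nonneg_iff_isPositive _).mp (ha i))) x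
    refine ⟨?_, re_inner_nonneg (ha i) x⟩
    have h2 := congrArg Complex.im this.1
    rw [← inner_conj_symm, Complex.conj_im, ← h2]
    simp
  have h2 : (⟪x, b x⟫_ℂ).im = 0 := by
    have := (Complex.continuous_im.tendsto _).comp (h x x)
    simp only [Function.comp_def, fun i => (h1 i).1] at this
    exact tendsto_nhds_unique this tendsto_const_nhds
  have h3 : 0 ≤ (⟪x, b x⟫_ℂ).re :=
    ge_of_tendsto' ((Complex.continuous_re.tendsto _).comp (h x x)) fun i => (h1 i).2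
  rw [← inner_conj_symm]
  refine ⟨Complex.ext (by simp) ?_, by rw [RCLike.re_to_complex, Complex.conj_re]; exact h3⟩
  rw [Complex.ofReal_im, Complex.conj_im, h2, neg_zero]

lemma rn_norm_le_one {y : H →L[ℂ] H} (h0 : 0 ≤ y) (h1 : y ≤ 1) : ‖y‖ ≤ 1 :=
  (CStarAlgebra.norm_le_one_iff_of_nonneg y h0).mpr h1

open Filter Topology in
lemma rn_closed (M : VonNeumannAlgebra H) (Ω : H) :
    IsClosed {v : H | ∃ y ∈ M, 0 ≤ y ∧ y ≤ 1 ∧ v = y Ω} := by
  refine isClosed_of_closure_subset fun v hv => ?_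
  obtain ⟨x, hx, hlim⟩ := mem_closure_iff_seq_limit.mp hv
  choose y hyM hy0 hy1 hxy using hx
  let U : Ultrafilter ℕ := Ultrafilter.of atTop
  have hU : (U : Filter ℕ) ≤ atTop := Ultrafilter.of_le _
  obtain ⟨b, -, hb⟩ := exists_wt (P := M) U (fun n => ⟨y n, hyM n⟩) (C := 1)
    (fun n => rn_norm_le_one (hy0 n) (hy1 n))
  refine ⟨b, b.2, rn_nonneg_of_lim hy0 hb, ?_, ?_⟩
  · rw [← sub_nonneg]
    refine rn_nonneg_of_lim (l := (U : Filter ℕ)) (a := fun n => 1 - y n)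
      (fun n => sub_nonneg.mpr (hy1 n)) fun η ξ => ?_
    simp only [ContinuousLinearMap.sub_apply, inner_sub_right]
    exact tendsto_const_nhds.sub (hb η ξ)
  · refine ext_inner_left ℂ fun η => ?_
    have h1 : Tendsto (fun n => ⟪η, x n⟫_ℂ) U (𝓝 ⟪η, v⟫_ℂ) :=
      (tendsto_const_nhds.inner hlim).mono_left hU
    simp only [hxy] at h1
    exact tendsto_nhds_unique h1 (hb η Ω)

lemma rn_cut (M : VonNeumannAlgebra H) (Ω : H) {z : H →L[ℂ] H} (hz : z ∈ M.commutant)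
    (h0 : 0 ≤ z) (h1 : z ≤ 1) {h : H →L[ℂ] H} (hh : h ∈ M) (hs : IsSelfAdjoint h) :
    ∃ p ∈ M, 0 ≤ p ∧ p ≤ 1 ∧ (⟪z Ω, h Ω⟫_ℂ).re ≤ (⟪p Ω, h Ω⟫_ℂ).re := by
  obtain ⟨p, hpM, hp, -, h2, h3⟩ := exists_cut_op hh hs 0
  rw [zero_smul, sub_zero] at h2 h3
  refine ⟨p, hpM, hp.nonneg, hp.le_one, ?_⟩
  have c1 : Commute (1 - z) (h * p) :=
    (comm_of_mem (mul_mem hh hpM) (sub_mem (one_mem _) hz)).symm
  have c2 : Commute z (-(h * (1 - p))) :=
    (comm_of_mem (neg_mem (mul_mem hh (sub_mem (one_mem _) hpM))) hz).symm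
  have p1 := re_inner_nonneg (Commute.mul_nonneg (sub_nonneg.mpr h1) h2 c1) Ω
  have p2 := re_inner_nonneg (Commute.mul_nonneg h0 (neg_nonneg.mpr h3) c2) Ω
  have e1 : ⟪z Ω, h Ω⟫_ℂ = ⟪Ω, (z * h) Ω⟫_ℂ := by
    rw [ContinuousLinearMap.mul_apply, ← inner_star_left z, h0.isSelfAdjoint.star_eq]
  have e2 : (⟪p Ω, h Ω⟫_ℂ).re = (⟪Ω, (h * p) Ω⟫_ℂ).re := by
    rw [ContinuousLinearMap.mul_apply, ← inner_star_left, hs.star_eq, ← inner_conj_symm,
      Complex.conj_re]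
  have e3 : h * p = (1 - z) * (h * p) + z * (-(h * (1 - p))) + z * h := by noncomm_ring
  rw [e1, e2, e3]
  simp only [ContinuousLinearMap.add_apply, inner_add_right, Complex.add_re]
  linarith

/-- PROOF.  `C = {y Ω | y ∈ M, 0 ≤ y ≤ 1}` is convex and norm closed (`exists_wlim` along an
ultrafilter; order and membership pass to weak limits).  Let `y₀ Ω` be the point of `C` nearest to
`z Ω` (`exists_norm_eq_iInf_of_complete_convex` for the real inner product `complexToReal`, or a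
minimising sequence and `exists_wlim`), `η = z Ω - y₀ Ω`: `re ⟪η, y Ω - y₀ Ω⟫ ≤ 0` on `C`.  Let `η₁` be
the real projection of `η` onto the closure of `{h Ω | h ∈ M self-adjoint}` and `‖h Ω - η₁‖ < ε`.  With
`p` from `exists_cut_op` (`t = 0`): `re ⟪z Ω, h Ω⟫ ≤ ⟪Ω, h p Ω⟫ = re ⟪p Ω, h Ω⟫` (`z`, `1 - z` are positive
and commute with `h p ≥ 0`, `-h (1 - p) ≥ 0`).  So `re ⟪η, h Ω⟫ ≤ re ⟪(p - y₀) Ω, h Ω⟫ ≤
re ⟪(p - y₀) Ω, η₁⟫ + 2 ε ‖Ω‖ = re ⟪(p - y₀) Ω, η⟫ + 2 ε ‖Ω‖ ≤ 2 ε ‖Ω‖`, hence `‖η₁‖² ≤ 0`. -/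
theorem exists_rn_pos (M : VonNeumannAlgebra H) (Ω : H) {z : H →L[ℂ] H} (hz : z ∈ M.commutant)
    (h0 : 0 ≤ z) (h1 : z ≤ 1) :
    ∃ y ∈ M, 0 ≤ y ∧ y ≤ 1 ∧ ∀ h ∈ M, IsSelfAdjoint h → (⟪z Ω - y Ω, h Ω⟫_ℂ).re = 0 := by
  let _ : InnerProductSpace ℝ H := InnerProductSpace.complexToReal
  let W : Submodule ℝ H :=
    { carrier := {w | ∃ h ∈ M, IsSelfAdjoint h ∧ w = h Ω}
      add_mem' := by
        rintro _ _ ⟨a, ha, ha', rfl⟩ ⟨b, hb, hb', rfl⟩
        exact ⟨a + b, add_mem ha hb, ha'.add hb', rfl⟩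
      zero_mem' := ⟨0, zero_mem _, .zero _, rfl⟩
      smul_mem' := by
        rintro c _ ⟨a, ha, ha', rfl⟩
        refine ⟨(c : ℂ) • a, smul_mem_vn ha _, ?_, ?_⟩
        · rw [IsSelfAdjoint, star_smul, ha'.star_eq]; simp
        · simp }
  obtain ⟨c, ⟨y, hyM, hy0, hy1, rfl⟩, hc⟩ := rn_abstract W {v : H | ∃ y ∈ M, 0 ≤ y ∧ y ≤ 1 ∧ v = y Ω}
    ⟨0, 0, zero_mem _, le_rfl, zero_le_one, rfl⟩ (rn_closed M Ω)
    (by
      rintro _ ⟨a, ha, ha0, ha1, rfl⟩ _ ⟨b, hb, hb0, hb1, rfl⟩ s t hs ht hst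
      refine ⟨s • a + t • b, add_mem (smul_mem_vn ha (s : ℂ)) (smul_mem_vn hb (t : ℂ)),
        add_nonneg (smul_nonneg hs ha0) (smul_nonneg ht hb0), ?_, rfl⟩
      calc s • a + t • b ≤ s • (1 : H →L[ℂ] H) + t • 1 :=
            add_le_add (smul_le_smul_of_nonneg_left ha1 hs) (smul_le_smul_of_nonneg_left hb1 ht)
        _ = 1 := by rw [← add_smul, hst, one_smul])
    (by
      rintro _ ⟨a, ha, ha0, -, rfl⟩
      exact ⟨a, ha, ha0.isSelfAdjoint, rfl⟩)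
    (R := ‖Ω‖)
    (by
      rintro _ ⟨a, -, ha0, ha1, rfl⟩
      exact (a.le_opNorm Ω).trans (mul_le_of_le_one_left (norm_nonneg _) (rn_norm_le_one ha0 ha1)))
    (z Ω)
    (by
      rintro _ ⟨h, hh, hs, rfl⟩
      obtain ⟨p, hpM, hp0, hp1, hp⟩ := rn_cut M Ω hz h0 h1 hh hs
      exact ⟨p Ω, ⟨p, hpM, hp0, hp1, rfl⟩, hp⟩)
  exact ⟨y, hyM, hy0, hy1, fun h hh hs => hc _ ⟨h, hh, hs, rfl⟩⟩

/-- `y` solves the Radon–Nikodym equation for `z`. -/
def RNSol (M : VonNeumannAlgebra H) (Ω : H) (z y : H →L[ℂ] H) : Prop :=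
  y ∈ M ∧ sp {v | ∃ z ∈ M.commutant, v = z Ω} * y * sp {v | ∃ z ∈ M.commutant, v = z Ω} = y ∧
    ∀ x ∈ M, ⟪Ω, (y * x) Ω⟫_ℂ + ⟪Ω, (x * y) Ω⟫_ℂ = 2 * ⟪Ω, (x * z) Ω⟫_ℂ

section Sol
variable {M : VonNeumannAlgebra H} {Ω : H}

lemma rn_s_mem (M : VonNeumannAlgebra H) (Ω : H) :
    sp {v | ∃ z ∈ M.commutant, v = z Ω} ∈ M :=
  sp_mem (by
    rintro y hy _ ⟨z, hz, rfl⟩
    exact ⟨y * z, mul_mem hy hz, rfl⟩)

lemma rn_s_apply (M : VonNeumannAlgebra H) (Ω : H) :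
    sp {v | ∃ z ∈ M.commutant, v = z Ω} Ω = Ω := sp_apply ⟨1, one_mem _, rfl⟩

lemma rn_mul_s {y : H →L[ℂ] H} (hy : y ∈ M) (h : y Ω = 0) :
    y * sp {v | ∃ z ∈ M.commutant, v = z Ω} = 0 :=
  mul_sp_eq_zero (by
    rintro _ ⟨z, hz, rfl⟩
    rw [← ContinuousLinearMap.mul_apply, comm_of_mem hy hz, ContinuousLinearMap.mul_apply, h,
      map_zero])

lemma RNSol.add {z y z' y' : H →L[ℂ] H} (h : RNSol M Ω z y) (h' : RNSol M Ω z' y') :
    RNSol M Ω (z + z') (y + y') := by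
  refine ⟨add_mem h.1 h'.1, by rw [mul_add, add_mul, h.2.1, h'.2.1], fun x hx => ?_⟩
  simp only [add_mul, mul_add, ContinuousLinearMap.add_apply, inner_add_right]
  linear_combination h.2.2 x hx + h'.2.2 x hx

lemma RNSol.smul {z y : H →L[ℂ] H} (h : RNSol M Ω z y) (c : ℂ) : RNSol M Ω (c • z) (c • y) := by
  refine ⟨smul_mem_vn h.1 c, by rw [mul_smul_comm, smul_mul_assoc, h.2.1], fun x hx => ?_⟩
  simp only [mul_smul_comm, smul_mul_assoc, ContinuousLinearMap.smul_apply, inner_smul_right]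
  linear_combination c * h.2.2 x hx

lemma RNSol.sub {z y z' y' : H →L[ℂ] H} (h : RNSol M Ω z y) (h' : RNSol M Ω z' y') :
    RNSol M Ω (z - z') (y - y') := by
  have := h.add (h'.smul (-1))
  simpa only [neg_smul, one_smul, ← sub_eq_add_neg] using this

lemma RNSol.unique {z y y' : H →L[ℂ] H} (h : RNSol M Ω z y) (h' : RNSol M Ω z y') : y = y' := by
  have h1 := h.sub h'
  rw [sub_self] at h1
  rw [← sub_eq_zero]
  generalize y - y' = d at h1
  have h2 := congrArg Complex.re (h1.2.2 (star d) (star_mem h1.1))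
  have h3 := norm_sq_eq_inner (star d) Ω
  rw [star_star] at h3
  rw [Complex.add_re, ← h3, ← norm_sq_eq_inner] at h2
  simp only [mul_zero, ContinuousLinearMap.zero_apply, inner_zero_right, Complex.zero_re] at h2
  have h4 : ‖d Ω‖ = 0 := by nlinarith [sq_nonneg ‖star d Ω‖, sq_nonneg ‖d Ω‖]
  rw [← h1.2.1, mul_assoc, rn_mul_s h1.1 (norm_eq_zero.mp h4), mul_zero]

lemma rn_conj (a : H →L[ℂ] H) (Ω : H) : (starRingEnd ℂ) ⟪Ω, a Ω⟫_ℂ = ⟪Ω, star a Ω⟫_ℂ := by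
  rw [inner_conj_symm, inner_star_right]

lemma RNSol.star {z y : H →L[ℂ] H} (hz : z ∈ M.commutant) (h : RNSol M Ω z y) :
    RNSol M Ω (star z) (star y) := by
  refine ⟨star_mem h.1, ?_, fun x hx => ?_⟩
  · have := congrArg Star.star h.2.1
    rwa [star_mul, star_mul, (sp_proj _).isSelfAdjoint.star_eq, ← mul_assoc] at this
  · have h1 := congrArg (starRingEnd ℂ) (h.2.2 (Star.star x) (star_mem hx))
    rw [map_add, map_mul, rn_conj, rn_conj, rn_conj, star_mul, star_mul, star_mul, star_star,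
      ← comm_of_mem hx (star_mem hz), add_comm] at h1
    rw [h1, map_ofNat]

lemma rnSol_one (M : VonNeumannAlgebra H) (Ω : H) :
    RNSol M Ω 1 (sp {v | ∃ z ∈ M.commutant, v = z Ω}) := by
  have hs := sp_proj {v | ∃ z ∈ M.commutant, v = z Ω}
  refine ⟨rn_s_mem M Ω, by rw [hs.isIdempotentElem, hs.isIdempotentElem], fun x _ => ?_⟩
  rw [ContinuousLinearMap.mul_apply, ContinuousLinearMap.mul_apply, rn_s_apply, ← inner_star_left,
    hs.isSelfAdjoint.star_eq, rn_s_apply, mul_one, two_mul]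

lemma exists_sol_unit {z : H →L[ℂ] H} (hz : z ∈ M.commutant) (h0 : 0 ≤ z) (h1 : z ≤ 1) :
    ∃ y, 0 ≤ y ∧ RNSol M Ω z y := by
  obtain ⟨y, hyM, hy0, -, hy⟩ := exists_rn_pos M Ω hz h0 h1
  have hs := sp_proj {v | ∃ z ∈ M.commutant, v = z Ω}
  have hsM := rn_s_mem M Ω
  have hsΩ := rn_s_apply M Ω
  generalize hS : sp {v | ∃ z ∈ M.commutant, v = z Ω} = s at hs hsM hsΩ
  have hsl : ∀ v, ⟪Ω, s v⟫_ℂ = ⟪Ω, v⟫_ℂ := fun v => by
    rw [← inner_star_left, hs.isSelfAdjoint.star_eq, hsΩ]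
  have hsa : ∀ x ∈ M, IsSelfAdjoint x →
      ⟪Ω, (s * y * s * x) Ω⟫_ℂ + ⟪Ω, (x * (s * y * s)) Ω⟫_ℂ = 2 * ⟪Ω, (x * z) Ω⟫_ℂ := by
    intro x hx hx'
    have hh : IsSelfAdjoint (s * x * s) := by
      have := hx'.conjugate s
      rwa [hs.isSelfAdjoint.star_eq] at this
    have hM : s * x * s ∈ M := mul_mem (mul_mem hsM hx) hsM
    have e0 := hy _ hM hh
    have e1 : ⟪Ω, (s * y * s * x) Ω⟫_ℂ = ⟪y Ω, (s * x * s) Ω⟫_ℂ := by
      simp only [ContinuousLinearMap.mul_apply, hsl, hsΩ]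
      rw [← inner_star_left, hy0.isSelfAdjoint.star_eq]
    have e2 : ⟪Ω, (x * (s * y * s)) Ω⟫_ℂ = (starRingEnd ℂ) ⟪y Ω, (s * x * s) Ω⟫_ℂ := by
      rw [← e1, rn_conj]
      simp only [star_mul, hs.isSelfAdjoint.star_eq, hx'.star_eq, hy0.isSelfAdjoint.star_eq,
        mul_assoc]
    have e3 : ⟪z Ω, (s * x * s) Ω⟫_ℂ = ⟪Ω, (x * z) Ω⟫_ℂ := by
      rw [← h0.isSelfAdjoint.star_eq, inner_star_left, h0.isSelfAdjoint.star_eq,
        ← ContinuousLinearMap.mul_apply, ← comm_of_mem hM hz, mul_assoc, comm_of_mem hsM hz]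
      simp only [ContinuousLinearMap.mul_apply, hsl, hsΩ]
    have e4 : (starRingEnd ℂ) ⟪Ω, (x * z) Ω⟫_ℂ = ⟪Ω, (x * z) Ω⟫_ℂ := by
      rw [rn_conj, star_mul, hx'.star_eq, h0.isSelfAdjoint.star_eq, comm_of_mem hx hz]
    rw [inner_sub_left, e3, Complex.sub_re, sub_eq_zero] at e0
    rw [e1, e2, Complex.add_conj, ← e0, two_mul ⟪Ω, (x * z) Ω⟫_ℂ]
    conv_rhs => enter [2]; rw [← e4]
    rw [Complex.add_conj]
  refine ⟨s * y * s, ?_, mul_mem (mul_mem hsM hyM) hsM, ?_, fun x hx => ?_⟩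
  · have := star_right_conjugate_nonneg hy0 s
    rwa [hs.isSelfAdjoint.star_eq] at this
  · rw [hS, ← mul_assoc, ← mul_assoc, hs.isIdempotentElem, mul_assoc, hs.isIdempotentElem]
  · have a1 := hsa (x + star x) (add_mem hx (star_mem hx)) (.add_star_self x)
    have a2 := hsa (Complex.I • (x - star x)) (smul_mem_vn (sub_mem hx (star_mem hx)) _) (by
      rw [IsSelfAdjoint, star_smul, star_sub, star_star, Complex.star_def, Complex.conj_I, neg_smul,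
        ← smul_neg, neg_sub])
    simp only [add_mul, mul_add, sub_mul, mul_sub, mul_smul_comm, smul_mul_assoc,
      ContinuousLinearMap.add_apply, ContinuousLinearMap.sub_apply, ContinuousLinearMap.smul_apply,
      inner_add_right, inner_sub_right, inner_smul_right] at a1 a2
    linear_combination (1 / 2 : ℂ) * a1 - (Complex.I / 2) * a2 +
      (1 / 2 : ℂ) * (⟪Ω, (s * y * s * x) Ω⟫_ℂ - ⟪Ω, (s * y * s * star x) Ω⟫_ℂ +
        (⟪Ω, (x * (s * y * s)) Ω⟫_ℂ - ⟪Ω, (star x * (s * y * s)) Ω⟫_ℂ) -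
        2 * (⟪Ω, (x * z) Ω⟫_ℂ - ⟪Ω, (star x * z) Ω⟫_ℂ)) * Complex.I_mul_I

lemma exists_sol_pos {z : H →L[ℂ] H} (hz : z ∈ M.commutant) (h0 : 0 ≤ z) :
    ∃ y, 0 ≤ y ∧ RNSol M Ω z y := by
  have hc : 0 < ‖z‖ + 1 := by positivity
  obtain ⟨y, hy0, hy⟩ := exists_sol_unit (M := M) (Ω := Ω) (z := (‖z‖ + 1)⁻¹ • z)
    (smul_mem_vn hz (((‖z‖ + 1)⁻¹ : ℝ) : ℂ)) (smul_nonneg (by positivity) h0) (by
      rw [← CStarAlgebra.norm_le_one_iff_of_nonneg _ (smul_nonneg (by positivity) h0), norm_smul,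
        Real.norm_of_nonneg (by positivity), inv_mul_le_iff₀ hc]
      linarith)
  refine ⟨(‖z‖ + 1) • y, smul_nonneg hc.le hy0, ?_⟩
  have := hy.smul ((‖z‖ + 1 : ℝ) : ℂ)
  rwa [Complex.coe_smul, Complex.coe_smul, smul_smul, mul_inv_cancel₀ hc.ne', one_smul] at this

lemma rn_nonneg_add {z : H →L[ℂ] H} (hs : IsSelfAdjoint z) :
    0 ≤ ((‖z‖ : ℝ) : ℂ) • (1 : H →L[ℂ] H) - z := by
  rw [sub_nonneg, Complex.coe_smul, ← Algebra.algebraMap_eq_smul_one]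
  exact hs.le_algebraMap_norm_self

lemma exists_sol_sa {z : H →L[ℂ] H} (hz : z ∈ M.commutant) (hs : IsSelfAdjoint z) :
    ∃ y, RNSol M Ω z y := by
  obtain ⟨y, -, hy⟩ := exists_sol_pos (M := M) (Ω := Ω)
    (sub_mem (smul_mem_vn (one_mem _) _) hz) (rn_nonneg_add hs)
  have := ((rnSol_one M Ω).smul ((‖z‖ : ℝ) : ℂ)).sub hy
  rw [sub_sub_cancel] at this
  exact ⟨_, this⟩

lemma exists_sol {z : H →L[ℂ] H} (hz : z ∈ M.commutant) : ∃ y, RNSol M Ω z y := by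
  obtain ⟨y1, h1⟩ := exists_sol_sa (M := M) (Ω := Ω) (add_mem hz (star_mem hz)) (.add_star_self z)
  obtain ⟨y2, h2⟩ := exists_sol_sa (M := M) (Ω := Ω) (z := Complex.I • (z - star z))
    (smul_mem_vn (sub_mem hz (star_mem hz)) _) (by
      rw [IsSelfAdjoint, star_smul, star_sub, star_star, Complex.star_def, Complex.conj_I, neg_smul,
        ← smul_neg, neg_sub])
  have := (h1.sub (h2.smul Complex.I)).smul (2⁻¹ : ℂ)
  have e : (2⁻¹ : ℂ) • (z + star z - Complex.I • Complex.I • (z - star z)) = z := by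
    rw [smul_smul, Complex.I_mul_I]
    module
  rw [e] at this
  exact ⟨_, this⟩

lemma rn_norm_le {a : H →L[ℂ] H} {c : ℝ} (hc : 0 ≤ c) (ha : IsSelfAdjoint a)
    (h1 : a ≤ algebraMap ℝ _ c) (h2 : -a ≤ algebraMap ℝ _ c) : ‖a‖ ≤ c := by
  rw [neg_le, ← map_neg, algebraMap_le_iff_le_spectrum] at h2
  rw [le_algebraMap_iff_spectrum_le] at h1
  rw [← cfc_id ℝ a]
  exact norm_cfc_le hc fun x hx => abs_le.mpr ⟨h2 x hx, h1 x hx⟩

end Sol

/-- PROOF.  `s = sp {z Ω | z ∈ M'} ∈ M`, `s Ω = Ω`.  Call `y` a solution for `z` if `y ∈ M`,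
`s y s = y` and the equation `eq` holds.  Solutions are unique (test with `x = star y`: `y Ω = 0`, so
`y s = 0`), the solution relation is linear and star-invariant; for `0 ≤ z ≤ 1` and `y` from
`exists_rn_pos`, `s y s` is a solution (both sides of `eq` are complex linear in `x`, for self-adjoint
`x` use `s x s`); every `z ∈ M'` is a linear combination of such; `s` solves `z = 1`.  Extend the linear
map from `M'` by `LinearMap.exists_extend`.  `contr`: `‖z‖ • 1 ± z ≥ 0`.  `nle`: `Λ z = Λ z s = y s`. -/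
theorem exists_rn (M M' : VonNeumannAlgebra H) (hM : M' = M.commutant) (Ω : H) :
    ∃ Λ, IsRN M M' Ω Λ := by
  subst hM
  let S : Submodule ℂ (H →L[ℂ] H) := M.commutant.toStarSubalgebra.toSubalgebra.toSubmodule
  choose f hf using fun z : S => exists_sol (M := M) (Ω := Ω) (z := z) z.2
  let F : S →ₗ[ℂ] (H →L[ℂ] H) :=
    { toFun := f
      map_add' := fun a b => (hf (a + b)).unique ((hf a).add (hf b))
      map_smul' := fun c a => (hf (c • a)).unique ((hf a).smul c) }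
  obtain ⟨Λ, hΛ⟩ := F.exists_extend
  have sol : ∀ z ∈ M.commutant, RNSol M Ω z (Λ z) := fun z hz => by
    have : Λ z = f ⟨z, hz⟩ := LinearMap.congr_fun hΛ ⟨z, hz⟩
    rw [this]
    exact hf ⟨z, hz⟩
  have pos : ∀ z ∈ M.commutant, 0 ≤ z → 0 ≤ Λ z := fun z hz h0 => by
    obtain ⟨y, hy0, hy⟩ := exists_sol_pos (M := M) (Ω := Ω) hz h0
    rwa [(sol z hz).unique hy]
  have hst : ∀ z ∈ M.commutant, Λ (star z) = star (Λ z) := fun z hz =>
    (sol _ (star_mem hz)).unique ((sol z hz).star hz)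
  have hle : ∀ z ∈ M.commutant, IsSelfAdjoint z → Λ z ≤ algebraMap ℝ _ ‖z‖ := fun z hz hs => by
    have h1 := pos _ (sub_mem (smul_mem_vn (one_mem _) _) hz) (rn_nonneg_add hs)
    rw [map_sub, map_smul, (sol 1 (one_mem _)).unique (rnSol_one M Ω), sub_nonneg,
      Complex.coe_smul] at h1
    refine h1.trans ?_
    rw [Algebra.algebraMap_eq_smul_one]
    exact smul_le_smul_of_nonneg_left (sp_proj _).le_one (norm_nonneg _)
  refine ⟨Λ, fun z hz => (sol z hz).1, fun z hz => (sol z hz).2.2, pos, hst, fun z hz hs => ?_,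
    fun z hz y hy h => ?_⟩
  · refine rn_norm_le (norm_nonneg _) (by rw [IsSelfAdjoint, ← hst z hz, hs.star_eq]) (hle z hz hs) ?_
    have := hle (-z) (neg_mem hz) hs.neg
    rwa [map_neg, norm_neg] at this
  · have hs := sp_proj {v | ∃ z ∈ M.commutant, v = z Ω}
    have h1 := rn_mul_s (Ω := Ω) (sub_mem (sol z hz).1 hy) (by
      rw [ContinuousLinearMap.sub_apply, h, sub_self])
    rw [sub_mul, sub_eq_zero] at h1
    have h2 : Λ z * sp {v | ∃ z ∈ M.commutant, v = z Ω} = Λ z := by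
      conv_lhs => rw [← (sol z hz).2.1]
      rw [mul_assoc, hs.isIdempotentElem, (sol z hz).2.1]
    rw [← h2, h1]
    exact (norm_mul_le _ _).trans (mul_le_of_le_one_right (norm_nonneg _) hs.norm_le)

end Crest.Agent.R78
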