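import Crest.Agent.R78.Defs

/-! Row 78: averaging of completely bounded maps with a bound for matrices of maps. -/

set_option autoImplicit false
set_option linter.unusedSectionVars false
set_option linter.deprecated false

namespace Crest.Agent.R78

open Crest.Agent.R124 Crest.Agent.R121 Crest.Agent.R95 Filter Topology
open scoped InnerProductSpace

variable {H : Type*} [NormedAddCommGroup H] [InnerProductSpace ℂ H] [CompleteSpace H]
  {P : VonNeumannAlgebra H}

theorem inner_mat {I : Type*} [Fintype I] [DecidableEq I] (x : I → I → H →L[ℂ] H) (η ξ : I → H) :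
    ⟪(WithLp.toLp 2 η : HH I H), mat x (WithLp.toLp 2 ξ)⟫_ℂ = ∑ i, ∑ j, ⟪η i, x i j (ξ j)⟫_ℂ := by
  simp [PiLp.inner_apply, inner_sum]

theorem norm_toLp_eq {I : Type*} [Fintype I] (η : I → H) :
    ‖(WithLp.toLp 2 η : HH I H)‖ = N2 η := by
  rw [N2, PiLp.norm_eq_of_L2]

theorem inner_le_mat {I : Type*} [Fintype I] [DecidableEq I] (x : I → I → H →L[ℂ] H)
    (η ξ : I → H) : ‖∑ i, ∑ j, ⟪η i, x i j (ξ j)⟫_ℂ‖ ≤ ‖mat x‖ * N2 η * N2 ξ := by
  rw [← inner_mat, ← norm_toLp_eq, ← norm_toLp_eq]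
  refine (norm_inner_le_norm _ _).trans ?_
  have := (mat x).le_opNorm (WithLp.toLp 2 ξ)
  have h1 := norm_nonneg (WithLp.toLp 2 η : HH I H)
  nlinarith

theorem mat_le_of_inner {I : Type*} [Fintype I] [DecidableEq I] {x : I → I → H →L[ℂ] H} {C : ℝ}
    (hC : 0 ≤ C) (h : ∀ η ξ : I → H, ‖∑ i, ∑ j, ⟪η i, x i j (ξ j)⟫_ℂ‖ ≤ C * N2 η * N2 ξ) :
    ‖mat x‖ ≤ C := by
  refine ContinuousLinearMap.opNorm_le_bound _ hC fun v => ?_
  have h1 := h (mat x v).ofLp v.ofLp
  rw [← inner_mat, ← norm_toLp_eq, ← norm_toLp_eq] at h1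
  simp only [WithLp.toLp_ofLp] at h1
  rw [inner_self_eq_norm_sq_to_K, norm_pow] at h1
  have h2 : ‖((‖mat x v‖ : ℝ) : ℂ)‖ = ‖mat x v‖ := by simp
  erw [h2] at h1
  rcases (norm_nonneg (mat x v)).eq_or_lt with h0 | h0
  · rw [← h0]; positivity
  · nlinarith

theorem N2_equiv {I J : Type*} [Fintype I] [Fintype J] (e : I ≃ J) (η : J → H) :
    N2 (fun i => η (e i)) = N2 η := by
  rw [N2, N2, e.sum_comp fun j => ‖η j‖ ^ 2]

theorem norm_mat_equiv_le {I J : Type*} [Fintype I] [DecidableEq I] [Fintype J] [DecidableEq J]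
    (e : I ≃ J) (x : J → J → H →L[ℂ] H) : ‖mat fun i j => x (e i) (e j)‖ ≤ ‖mat x‖ := by
  refine mat_le_of_inner (norm_nonneg _) fun η ξ => ?_
  have := inner_le_mat x (fun j => η (e.symm j)) (fun j => ξ (e.symm j))
  rw [N2_equiv, N2_equiv, ← e.sum_comp] at this
  simp only [← e.sum_comp (fun j => ⟪_, x _ j (ξ (e.symm j))⟫_ℂ), Equiv.symm_apply_apply] at this
  exact this

/-- Reindexing. -/
theorem norm_mat_equiv {I J : Type*} [Fintype I] [DecidableEq I] [Fintype J] [DecidableEq J]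
    (e : I ≃ J) (x : J → J → H →L[ℂ] H) : ‖mat fun i j => x (e i) (e j)‖ = ‖mat x‖ := by
  refine le_antisymm (norm_mat_equiv_le e x) ?_
  simpa using norm_mat_equiv_le e.symm fun i j => x (e i) (e j)

/-- Joint bound for a matrix of maps, in bilinear and rectangular form. -/
def JM {I : Type} [Fintype I] (S : I → I → Al P → Al P) (d : ℝ) : Prop :=
  ∀ (L L' : Type) [Fintype L] [Fintype L'] (X : L → L' → Al P),
    Contr (fun i j => (X i j : H →L[ℂ] H)) → ∀ (η : L × I → H) (ξ : L' × I → H),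
      ‖∑ a, ∑ b, ⟪η a, (S a.2 b.2 (X a.1 b.1) : H →L[ℂ] H) (ξ b)⟫_ℂ‖ ≤ d * N2 η * N2 ξ

theorem MB.jm {I : Type} [Fintype I] [DecidableEq I] {F : I → I → Al P →L[ℂ] Al P} {C : ℝ}
    (hC : 0 ≤ C) (h : MB F C) : JM (fun p q => F p q) C := by
  classical
  intro L L' _ _ X hX η ξ
  let y : L ⊕ L' → L ⊕ L' → Al P := fun a b =>
    Sum.elim (fun i => Sum.elim (fun _ => 0) (fun j => X i j) b) (fun _ => 0) a
  have hy : Contr fun a b => (y a b : H →L[ℂ] H) := fun ζ => by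
    have := hX (fun j => ζ (Sum.inr j))
    have h0 : 0 ≤ ∑ i, ‖ζ (Sum.inl i)‖ ^ 2 := Finset.sum_nonneg fun _ _ => by positivity
    simp only [Fintype.sum_sum_type, y, Sum.elim_inl, Sum.elim_inr, ZeroMemClass.coe_zero,
      ContinuousLinearMap.zero_apply, Finset.sum_const_zero, zero_add, norm_zero, add_zero, ne_eq,
      OfNat.ofNat_ne_zero, not_false_eq_true, zero_pow]
    linarith
  have h1 : mn (fun a b : (L ⊕ L') × I => F a.2 b.2 (y a.1 b.1)) ≤ C :=
    (h _ y).trans (mul_le_of_le_one_right hC (contr_iff.1 hy))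
  have h2 := inner_le_mat (fun a b : (L ⊕ L') × I => (F a.2 b.2 (y a.1 b.1) : H →L[ℂ] H))
    (fun a => Sum.elim (fun l => η (l, a.2)) (fun _ => 0) a.1)
    (fun a => Sum.elim (fun _ => 0) (fun l => ξ (l, a.2)) a.1)
  have e1 : N2 (fun a : (L ⊕ L') × I => Sum.elim (fun l => η (l, a.2)) (fun _ => 0) a.1) = N2 η := by
    simp [N2, Fintype.sum_prod_type, Fintype.sum_sum_type]
  have e2 : N2 (fun a : (L ⊕ L') × I => Sum.elim (fun _ => 0) (fun l => ξ (l, a.2)) a.1) = N2 ξ := by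
    simp [N2, Fintype.sum_prod_type, Fintype.sum_sum_type]
  rw [e1, e2] at h2
  have h3 := N2_nonneg η
  have h4 := N2_nonneg ξ
  refine le_trans (le_of_eq ?_) (h2.trans (by unfold mn at h1; gcongr))
  simp [Fintype.sum_prod_type, Fintype.sum_sum_type, y]

theorem JM.act {I : Type} [Fintype I] {S : I → I → Al P → Al P} {d : ℝ} (hd : 0 ≤ d) (h : JM S d)
    {M : Type} [Fintype M] (m : M → Al P)
    (hm : ∀ ζ, ∑ l, ‖(m l : H →L[ℂ] H) ζ‖ ^ 2 ≤ ‖ζ‖ ^ 2) :
    JM (fun p q y => ∑ l, star (m l) * S p q (m l * y)) d := by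
  intro L L' _ _ X hX η ξ
  have := h (L × M) L' (fun p j => m p.2 * X p.1 j) (fun ζ => by
    rw [Fintype.sum_prod_type]
    refine le_trans (Finset.sum_le_sum fun i _ => ?_) (hX ζ)
    have := hm (∑ j, (X i j : H →L[ℂ] H) (ζ j))
    simpa [map_sum] using this) (fun p => (m p.1.2 : H →L[ℂ] H) (η (p.1.1, p.2))) ξ
  have h1 : N2 (fun p : (L × M) × I => (m p.1.2 : H →L[ℂ] H) (η (p.1.1, p.2))) ≤ N2 η := by
    refine Real.sqrt_le_sqrt ?_
    simp only [Fintype.sum_prod_type]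
    refine Finset.sum_le_sum fun i _ => ?_
    rw [Finset.sum_comm]
    exact Finset.sum_le_sum fun p _ => hm _
  have h2 := N2_nonneg ξ
  refine le_trans (le_of_eq ?_) (this.trans (by gcongr))
  congr 1
  rw [Fintype.sum_prod_type, Fintype.sum_prod_type (f := fun a : (L × M) × I => _),
    Fintype.sum_prod_type]
  refine Finset.sum_congr rfl fun i _ => ?_
  rw [Finset.sum_comm (s := (Finset.univ : Finset M))]
  refine Finset.sum_congr rfl fun p _ => ?_
  rw [Finset.sum_comm]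
  refine Finset.sum_congr rfl fun j _ => ?_
  simp only [AddSubmonoidClass.coe_finset_sum, ContinuousLinearMap.sum_apply, inner_sum,
    MulMemClass.coe_mul, StarMemClass.coe_star, ContinuousLinearMap.mul_apply, inner_star_right]

theorem JM.mid {I : Type} [Fintype I] {S S' : I → I → Al P → Al P} {d : ℝ} (h : JM S d)
    (h' : JM S' d) : JM (fun p q y => (2⁻¹ : ℂ) • (S p q y + S' p q y)) d := by
  intro L L' _ _ X hX η ξ
  have h1 := h L L' X hX η ξ
  have h2 := h' L L' X hX η ξ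
  simp only [SetLike.val_smul, AddMemClass.coe_add, ContinuousLinearMap.smul_apply,
    ContinuousLinearMap.add_apply, inner_smul_right, inner_add_right, ← Finset.mul_sum,
    Finset.sum_add_distrib, norm_mul, norm_inv, Complex.norm_ofNat]
  have := norm_add_le (∑ a, ∑ b, ⟪η a, (S a.2 b.2 (X a.1 b.1) : H →L[ℂ] H) (ξ b)⟫_ℂ)
    (∑ a, ∑ b, ⟪η a, (S' a.2 b.2 (X a.1 b.1) : H →L[ℂ] H) (ξ b)⟫_ℂ)
  linarith

theorem JM.lim {I : Type} [Fintype I] {α : Type*} {l : Filter α} [l.NeBot]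
    {S : α → I → I → Al P → Al P} {S' : I → I → Al P → Al P} {d : ℝ}
    (h : ∀ᶠ a in l, JM (S a) d) (hl : ∀ p q y, WT l (fun a => S a p q y) (S' p q y)) :
    JM S' d := by
  intro L L' _ _ X hX η ξ
  have h1 : Tendsto (fun c => ‖∑ a, ∑ b, ⟪η a, (S c a.2 b.2 (X a.1 b.1) : H →L[ℂ] H) (ξ b)⟫_ℂ‖) l
      (𝓝 ‖∑ a, ∑ b, ⟪η a, (S' a.2 b.2 (X a.1 b.1) : H →L[ℂ] H) (ξ b)⟫_ℂ‖) :=
    (tendsto_finset_sum _ fun i _ => tendsto_finset_sum _ fun j _ => hl _ _ _ _ _).norm
  exact le_of_tendsto h1 (h.mono fun a ha => ha L L' X hX η ξ)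

theorem JM.one {I : Type} [Fintype I] [DecidableEq I] {S : I → I → Al P → Al P} {d : ℝ}
    (hd : 0 ≤ d) (h : JM S d) : mn (fun p q => S p q 1) ≤ d := by
  refine mat_le_of_inner hd fun η ξ => ?_
  have := h Unit Unit (fun _ _ => 1) (fun ζ => by simp) (fun a => η a.2) (fun a => ξ a.2)
  simpa [N2, Fintype.sum_prod_type] using this

theorem JM.entry {I : Type} [Fintype I] [DecidableEq I] {S : I → I → Al P → Al P} {d : ℝ}
    (h : JM S d) (p q : I) : IsCb (S p q) d := by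
  intro N X hX η ξ
  have := h (Fin N) (Fin N) X hX (fun a => if a.2 = p then η a.1 else 0)
    (fun a => if a.2 = q then ξ a.1 else 0)
  have e1 : ∀ (r : I) (η : Fin N → H),
      N2 (fun a : Fin N × I => if a.2 = r then η a.1 else 0) = N2 η := fun r η => by
    simp only [N2, Fintype.sum_prod_type]
    congr 1
    refine Finset.sum_congr rfl fun i _ => ?_
    rw [Finset.sum_eq_single r] <;> simp +contextual
  rw [e1, e1] at this
  refine le_trans (le_of_eq ?_) this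
  congr 1
  rw [Fintype.sum_prod_type]
  refine Finset.sum_congr rfl fun i _ => ?_
  rw [Finset.sum_eq_single p (by simp +contextual) (by simp), Fintype.sum_prod_type]
  refine Finset.sum_congr rfl fun j _ => ?_
  rw [Finset.sum_eq_single q (by simp +contextual) (by simp)]
  simp

/-- Every entry of a jointly bounded matrix of maps is completely bounded. -/
theorem MB.mem_cbs {I : Type} [Fintype I] [DecidableEq I] {F : I → I → Al P →L[ℂ] Al P} {C : ℝ}
    (hC : 0 ≤ C) (h : MB F C) (p q : I) : F p q ∈ CBs P := by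
  exact ⟨C, hC, (h.jm hC).entry p q⟩

theorem exists_minimal_sub {S₀ : Set (Om P)} (h₀ : Good S₀) :
    ∃ S : Set (Om P), S ⊆ S₀ ∧ Good S ∧ ∀ S', Good S' → S' ⊆ S → S ⊆ S' := by
  obtain ⟨S, hsub, hS⟩ := zorn_superset_nonempty {S : Set (Om P) | Good S} (fun c hc hch hne => by
    obtain ⟨S₀, hS₀⟩ := hne
    have : Nonempty c := ⟨⟨S₀, hS₀⟩⟩
    have hdir : Directed (· ≥ ·) fun S : c => 𝓟 (S : Set (Om P)) := by
      intro S S'
      rcases hch.total S.2 S'.2 with h | h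
      · exact ⟨S, le_rfl, principal_mono.mpr h⟩
      · exact ⟨S', principal_mono.mpr h, le_rfl⟩
    have hne : (⨅ S : c, 𝓟 (S : Set (Om P))).NeBot :=
      iInf_neBot_of_directed hdir fun S => principal_neBot_iff.mpr (Good.ne (hc S.2))
    obtain ⟨U, hU⟩ := Ultrafilter.exists_le (⨅ S : c, 𝓟 (S : Set (Om P)))
    have hU' : ∀ S ∈ c, S ∈ U := fun S hS =>
      le_principal_iff.mp (hU.trans (iInf_le (fun S : c => 𝓟 (S : Set (Om P))) ⟨S, hS⟩))
    obtain ⟨σ, hσ⟩ := exists_limO U (f := fun τ => τ)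
      (Filter.mem_of_superset (hU' S₀ hS₀) fun τ hτ => Good.sub (hc hS₀) τ hτ)
    refine ⟨⋂₀ c, ⟨fun τ hτ => Good.sub (hc hS₀) τ (hτ S₀ hS₀),
      ⟨σ, fun S hS => Good.cl (hc hS) U σ (hU' S hS) hσ⟩,
      fun V τ hV hl S hS => Good.cl (hc hS) V τ
        (Filter.mem_of_superset hV (Set.sInter_subset_of_mem hS)) hl,
      fun τ hτ τ' hτ' S hS => Good.mid (hc hS) τ (hτ S hS) τ' (hτ' S hS),
      fun M _ m hm τ hτ S hS => Good.inv (hc hS) M m hm τ (hτ S hS)⟩,
      fun S hS => Set.sInter_subset_of_mem hS⟩) _ h₀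
  exact ⟨S, hsub, hS.prop, fun S' h1 h2 => hS.le_of_le h1 h2⟩

/-- The matrix bound for an element of `Om P`. -/
def MatK (σ : Om P) : Prop :=
  ∀ (I : Type) [Fintype I] (F : I → I → CBs P) (C : ℝ), 0 ≤ C →
    JM (fun p q => (F p q).1) C → JM (fun p q => σ (F p q)) C

theorem good_matK : Good {σ : Om P | InK σ ∧ MatK σ} where
  sub σ h := h.1
  ne := ⟨(ContinuousLinearMap.coeLM ℂ).comp (CBs P).subtype,
    { right := fun T T' b h y => by
        change T'.1 y = T.1 y * b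
        rw [h]; rfl
      left := fun T T' x h y => by
        change T'.1 y = T.1 (y * x)
        rw [h]; rfl
      id := fun T h y => by
        change T.1 y = y
        rw [h]; rfl
      cb := fun T C hC h => h.jb }, fun I _ F C _ h => h⟩
  cl U σ hU hl := ⟨good_inK.cl U σ (Filter.mem_of_superset hU fun τ h => h.1) hl,
    fun I _ F C hC h => JM.lim (l := U) (S := fun (τ : Om P) p q => τ (F p q))
      (Filter.mem_of_superset hU fun τ hτ => hτ.2 I F C hC h) fun p q y => hl (F p q) y⟩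
  mid σ hσ τ hτ := ⟨good_inK.mid σ hσ.1 τ hτ.1,
    fun I _ F C hC h => (hσ.2 I F C hC h).mid (hτ.2 I F C hC h)⟩
  inv M _ m hm σ hσ := ⟨good_inK.inv M m hm σ hσ.1,
    fun I _ F C hC h => (hσ.2 I F C hC h).act hC m (col_le' hm)⟩

/-- PROOF.  Repeat the proof of `R121.avg_cb` inside the smaller `Good` set of the `σ` with `InK σ` and:
for every matrix `F` of elements of `CBs P` with `MB F C`, the matrix `σ (F p q)` has the same joint
bound (formulate it with bilinear forms and rectangular matrices as in `JB`, so that it is closed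
under limits, midpoints and `act`).  Copy `exists_minimal` starting Zorn's lemma at this set
(`zorn_superset_nonempty` returns a subset), then `minimal_subsingleton`.  Finally take `L = Unit`,
`X = 1`. -/
theorem avg_mat (P : VonNeumannAlgebra H) :
    ∃ 𝒜 : (Al P →L[ℂ] Al P) →ₗ[ℂ] Al P,
      (∀ T ∈ CBs P, (∀ b, 𝒜 ((rmul b).comp T) = 𝒜 T * b) ∧
        ∀ x, 𝒜 (T.comp (rmul x)) = x * 𝒜 T) ∧
      𝒜 (ContinuousLinearMap.id ℂ (Al P)) = 1 ∧
      ∀ (I : Type) [Fintype I] [DecidableEq I] (F : I → I → Al P →L[ℂ] Al P) (C : ℝ), 0 ≤ C →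
        MB F C → mn (fun p q => 𝒜 (F p q)) ≤ C := by
  obtain ⟨S, hsub, hS, hmin⟩ := exists_minimal_sub (P := P) good_matK
  obtain ⟨σ, hσ⟩ := hS.ne
  have hK := hS.sub σ hσ
  have hmod : ∀ (T : CBs P) (x : Al P), σ T x = x * σ T 1 := fun T x => by
    have hx : x ∈ Submodule.span ℂ (unitary (Al P) : Set (Al P)) := by
      rw [CStarAlgebra.span_unitary]; trivial
    induction hx using Submodule.span_induction with
    | mem u hu =>
      have h1 := minimal_subsingleton hS hmin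
        (hS.inv Unit (fun _ => u) (by simpa using hu.1) σ hσ) hσ
      have h2 : star u * σ T u = σ T 1 := by simpa [act_apply] using congr($h1 T 1)
      rw [← h2, ← mul_assoc, hu.2, one_mul]
    | zero => simp
    | add x y _ _ hx hy => rw [map_add, hx, hy, add_mul]
    | smul c x _ hx => rw [map_smul, hx, smul_mul_assoc]
  obtain ⟨𝒜, h𝒜⟩ := LinearMap.exists_extend (σ.flip 1)
  have h𝒜' : ∀ T : CBs P, 𝒜 T = σ T 1 := fun T => congr($h𝒜 T)
  refine ⟨𝒜, fun T hT' => ⟨fun b => ?_, fun x => ?_⟩, ?_, fun I _ _ F C hC hF => ?_⟩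
  · rw [h𝒜' ⟨T, hT'⟩, h𝒜' ⟨_, rmul_comp_mem hT' b⟩]
    exact hK.right ⟨T, hT'⟩ _ b rfl 1
  · rw [h𝒜' ⟨T, hT'⟩, h𝒜' ⟨_, comp_rmul_mem hT' x⟩, ← hmod, hK.left ⟨T, hT'⟩ _ x rfl 1, one_mul]
  · rw [h𝒜' ⟨_, 1, zero_le_one, isCb_id⟩]
    exact hK.id _ rfl 1
  · have := ((hsub hσ).2 I (fun p q => ⟨F p q, hF.mem_cbs hC p q⟩) C hC (hF.jm hC)).one hC
    simpa only [← h𝒜'] using this

end Crest.Agent.R78
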