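import Crest.Agent.R121.CB
import Crest.Agent.R124.Final

/-! Row 78, part S0103 (Kadison–Kastler): definitions.

OVERVIEW.  `Close M N γ`.  (1) `HB`, `Dist`: distance formula, closeness passes to commutants and
amplifications.  (2) `RN`, `Dual`, `Scal`, `Targ`, `Hat`, `MS`: for a vector `Ω`, elements of
`M ⊗ M_𝔸` built from `b ∈ M` by alternating the linear Radon–Nikodym maps have companions in the
commutant acting almost in the same way on a vector `Ξ`.  (3) `RW`, `Lett`, `KI`: a random word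
argument gives the key inequality `KIc`, then `KI2`: a linear map `T : M → N` completely close to the
inclusion.  (4) `Avg`, `Newton`: a star homomorphism close to the inclusion.  (5) `Unit`: the unitary. -/

set_option autoImplicit false
set_option linter.unusedSectionVars false

namespace Crest.Agent.R78

open Crest.Agent.R124 Crest.Agent.R121
open scoped InnerProductSpace

variable {H : Type*} [NormedAddCommGroup H] [InnerProductSpace ℂ H] [CompleteSpace H]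

/-- Near inclusion. -/
def Near (M N : VonNeumannAlgebra H) (γ : ℝ) : Prop := ∀ x ∈ M, ∃ y ∈ N, ‖x - y‖ ≤ γ * ‖x‖

/-- Two near inclusions. -/
def Close (M N : VonNeumannAlgebra H) (γ : ℝ) : Prop := Near M N γ ∧ Near N M γ

lemma Close.symm {M N : VonNeumannAlgebra H} {γ : ℝ} (h : Close M N γ) : Close N M γ := ⟨h.2, h.1⟩

lemma Near.mono {M N : VonNeumannAlgebra H} {γ γ' : ℝ} (h : Near M N γ) (h' : γ ≤ γ') :
    Near M N γ' := fun x hx =>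
  (h x hx).imp fun _ hy => ⟨hy.1, hy.2.trans (mul_le_mul_of_nonneg_right h' (norm_nonneg _))⟩

lemma Close.mono {M N : VonNeumannAlgebra H} {γ γ' : ℝ} (h : Close M N γ) (h' : γ ≤ γ') :
    Close M N γ' := ⟨h.1.mono h', h.2.mono h'⟩

/-- The algebra `P ⊗ 1` on `HH I H`. -/
noncomputable def dgA (P : VonNeumannAlgebra H) (I : Type*) [Fintype I] [DecidableEq I] :
    VonNeumannAlgebra (HH I H) := (amp P.commutant I).commutant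

/-- Sum of squares of norms. -/
noncomputable def sq2 {I : Type*} [Fintype I] (θ : I → H) : ℝ := ∑ i, ‖θ i‖ ^ 2

/-- The relation `∑ b i ⊗ ω_{θ' i, θ i}|N = 0`. -/
def Rel (N : VonNeumannAlgebra H) {I : Type*} [Fintype I] (b : I → H →L[ℂ] H) (θ θ' : I → H) :
    Prop :=
  ∀ f : (H →L[ℂ] H) →ₗ[ℂ] ℂ, ∀ n ∈ N, ∑ i, f (b i) * ⟪θ' i, n (θ i)⟫_ℂ = 0

/-- Common elements of the two commutants. -/
def Cc (M N : VonNeumannAlgebra H) (x : H →L[ℂ] H) : Prop := x ∈ M.commutant ∧ x ∈ N.commutant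

/-- The key inequality, cyclic form. -/
def KIc (M N : VonNeumannAlgebra H) (κ : ℝ) : Prop :=
  ∀ (I : Type) [Fintype I] (Ω : H) (b E : I → H →L[ℂ] H) (R₀ R₁ : H →L[ℂ] H), ‖Ω‖ ≤ 1 →
    (∀ i, b i ∈ M ∧ IsSelfAdjoint (b i) ∧ ‖b i‖ ≤ 1) →
    (∀ i, Cc M N (E i) ∧ IsStarProjection (E i)) → (Pairwise fun i j => E i * E j = 0) →
    Cc M N R₀ → Cc M N R₁ → ‖R₀‖ ≤ 1 → ‖R₁‖ ≤ 1 →
    Rel N b (fun i => E i (R₀ Ω)) (fun _ => R₁ Ω) →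
    ‖∑ i, ⟪R₁ Ω, b i (E i (R₀ Ω))⟫_ℂ‖ ≤ κ

/-- The key inequality. -/
def KI (M N : VonNeumannAlgebra H) (κ : ℝ) : Prop :=
  ∀ (I : Type) [Fintype I] (b : I → H →L[ℂ] H) (θ θ' : I → H), (∀ i, b i ∈ M ∧ ‖b i‖ ≤ 1) →
    Rel N b θ θ' → ‖∑ i, ⟪θ' i, b i (θ i)⟫_ℂ‖ ≤ κ * (sq2 θ + sq2 θ')

/-- The key inequality, matrix form. -/
def KIm (M N : VonNeumannAlgebra H) (κ : ℝ) : Prop :=
  ∀ (I : Type) [Fintype I] (B : I → I → H →L[ℂ] H) (Θ Θ' : I → H), (∀ i j, B i j ∈ M) → Contr B →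
    (∀ f : (H →L[ℂ] H) →ₗ[ℂ] ℂ, ∀ n ∈ N, ∑ i, ∑ j, f (B i j) * ⟪Θ' i, n (Θ j)⟫_ℂ = 0) →
    ‖∑ i, ∑ j, ⟪Θ' i, B i j (Θ j)⟫_ℂ‖ ≤ κ * (sq2 Θ + sq2 Θ')

/-- The norm of a matrix over `P`. -/
noncomputable def mn {P : VonNeumannAlgebra H} {I : Type*} [Fintype I] [DecidableEq I]
    (X : I → I → Al P) : ℝ := ‖mat fun i j => (X i j : H →L[ℂ] H)‖

/-- `T` is completely `κ`-close to the inclusion. -/
def CbC {M N : VonNeumannAlgebra H} (T : Al M →L[ℂ] Al N) (κ : ℝ) : Prop :=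
  ∀ (I : Type) [Fintype I] [DecidableEq I] (X : I → I → Al M),
    ‖mat fun i j => (T (X i j) : H →L[ℂ] H) - (X i j : H →L[ℂ] H)‖ ≤ κ * mn X

/-- A matrix of maps with a joint complete bound. -/
def MB {P : VonNeumannAlgebra H} {I : Type} [Fintype I] [DecidableEq I]
    (F : I → I → Al P →L[ℂ] Al P) (C : ℝ) : Prop :=
  ∀ (L : Type) [Fintype L] [DecidableEq L] (X : L → L → Al P),
    mn (fun a b : L × I => F a.2 b.2 (X a.1 b.1)) ≤ C * mn X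

/-- Linear Radon–Nikodym map from `M'` (the commutant) to `M` for the vector `Ω`. -/
structure IsRN (M M' : VonNeumannAlgebra H) (Ω : H) (Λ : (H →L[ℂ] H) →ₗ[ℂ] (H →L[ℂ] H)) :
    Prop where
  mem : ∀ z ∈ M', Λ z ∈ M
  eq : ∀ z ∈ M', ∀ x ∈ M, ⟪Ω, (Λ z * x) Ω⟫_ℂ + ⟪Ω, (x * Λ z) Ω⟫_ℂ = 2 * ⟪Ω, (x * z) Ω⟫_ℂ
  pos : ∀ z ∈ M', 0 ≤ z → 0 ≤ Λ z
  star : ∀ z ∈ M', Λ (star z) = star (Λ z)
  contr : ∀ z ∈ M', IsSelfAdjoint z → ‖Λ z‖ ≤ ‖z‖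
  nle : ∀ z ∈ M', ∀ y ∈ M, Λ z Ω = y Ω → ‖Λ z‖ ≤ ‖y‖

/-- The bounded substitute `A = (1 + Δ)⁻¹` for the modular operator. -/
structure IsMod (M : VonNeumannAlgebra H) (Ω : H) (A : H →L[ℂ] H) : Prop where
  nonneg : 0 ≤ A
  le_one : A ≤ 1
  w1 : ∀ α β : ℂ, ∀ y ∈ M, ∀ ζ : H,
    (∀ w ∈ M, α * ⟪Ω, (y * w) Ω⟫_ℂ + β * ⟪Ω, (w * y) Ω⟫_ℂ = ⟪Ω, w ζ⟫_ℂ) →
      β • A (y Ω) + α • (y Ω - A (y Ω)) = A ζ
  w2 : ∀ α β : ℂ, ∀ z ∈ M.commutant, ∀ x ∈ M,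
    (∀ w ∈ M.commutant, α * ⟪Ω, (z * w) Ω⟫_ℂ + β * ⟪Ω, (w * z) Ω⟫_ℂ = ⟪Ω, w (x Ω)⟫_ℂ) →
      β • (z Ω - A (z Ω)) + α • A (z Ω) = x Ω - A (x Ω)
  r1 : ∀ x ∈ M, x Ω ∈ closure (Set.range A)
  r2 : ∀ z ∈ M.commutant, z Ω ∈ closure (Set.range fun χ => χ - A χ)

/-- The multiplier of one double projection. -/
noncomputable def tt (α β s : ℝ) : ℝ := 4 * α * β * s * (1 - s) / (β * s + α * (1 - s)) ^ 2

section Hat
variable {𝔸 : Type*} [Fintype 𝔸] [DecidableEq 𝔸]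

/-- `M ⊗ M_𝔸 ⊗ 1`. -/
noncomputable def hat (M : VonNeumannAlgebra H) (𝔸 : Type*) [Fintype 𝔸] [DecidableEq 𝔸] :
    VonNeumannAlgebra (HH 𝔸 (HH 𝔸 H)) := dgA (amp M 𝔸) 𝔸

/-- A matrix acting on the inner index. -/
noncomputable def mL (x : 𝔸 → 𝔸 → H →L[ℂ] H) : HH 𝔸 (HH 𝔸 H) →L[ℂ] HH 𝔸 (HH 𝔸 H) := dg 𝔸 (mat x)

/-- A matrix acting on the outer index. -/
noncomputable def mR (z : 𝔸 → 𝔸 → H →L[ℂ] H) : HH 𝔸 (HH 𝔸 H) →L[ℂ] HH 𝔸 (HH 𝔸 H) :=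
  mat fun b b' => dg 𝔸 (z b b')

/-- `z ⊗ 1 ⊗ 1`. -/
noncomputable def dd (𝔸 : Type*) [Fintype 𝔸] [DecidableEq 𝔸] (z : H →L[ℂ] H) :
    HH 𝔸 (HH 𝔸 H) →L[ℂ] HH 𝔸 (HH 𝔸 H) := dg 𝔸 (dg 𝔸 z)

/-- The vector `∑ √(ϱ a) Ω ⊗ e_a ⊗ e_a`. -/
noncomputable def Xi (ϱ : 𝔸 → ℝ) (Ω : H) : HH 𝔸 (HH 𝔸 H) :=
  WithLp.toLp 2 fun b => inj b (((√(ϱ b) : ℝ) : ℂ) • Ω)

end Hat

end Crest.Agent.R78
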