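import Crest.Agent.R78.HB

/-! Row 78: the distance formula and its consequences. -/

set_option autoImplicit false
set_option linter.unusedSectionVars false
set_option linter.deprecated false

namespace Crest.Agent.R78

open Crest.Agent.R124 Crest.Agent.R121
open scoped InnerProductSpace

variable {H : Type*} [NormedAddCommGroup H] [InnerProductSpace ℂ H] [CompleteSpace H]

/-- The constant of the distance formula. -/
noncomputable def cD : ℝ := √(cC (2 * 2 ^ 6))

lemma one_le_cD : 1 ≤ cD := by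
  unfold cD cC cT
  exact Real.one_le_sqrt.mpr (by norm_num)

lemma der_bound' {P : VonNeumannAlgebra H} {Z : H →L[ℂ] H}
    (hZ : ∀ a ∈ P, ‖Z * a - a * Z‖ ≤ ‖a‖) {I : Type*} [Fintype I] [DecidableEq I]
    (x : I → I → H →L[ℂ] H) (hx : ∀ i j, x i j ∈ P) (hc : ‖mat x‖ ≤ 1) :
    ‖dg I Z * mat x - mat x * dg I Z‖ ≤ cD := by
  have hC : 0 ≤ cC (2 * 2 ^ 6) := cC_nonneg (by norm_num)
  refine ContinuousLinearMap.opNorm_le_bound _ (Real.sqrt_nonneg _) fun v => ?_
  have h0 : Contr fun i j => dg (Fin 2) (x i j) := fun ζ => by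
    simp only [HH.norm_sq]
    rw [Finset.sum_comm, Finset.sum_comm (f := fun j k => ‖ζ j k‖ ^ 2)]
    refine Finset.sum_le_sum fun k _ => ?_
    simpa using contr_iff.mpr hc fun j => ζ j k
  have h1 := (core (der_setup hZ)).apply (fun i j => dg (Fin 2) (x i j))
    (fun i j => dg_mem_commutant (by rw [VonNeumannAlgebra.commutant_commutant]; exact hx i j)) h0
    (fun j => WithLp.toLp 2 ![-Z (v j), v j])
  refine (sq_le_sq₀ (norm_nonneg _) (by unfold cD; positivity)).mp ?_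
  rw [mul_pow, cD, Real.sq_sqrt hC, HH.norm_sq, HH.norm_sq]
  refine le_trans (Finset.sum_le_sum fun i _ => ?_) (h1.trans (le_of_eq ?_))
  · refine pow_le_pow_left₀ (norm_nonneg _) (le_trans (le_of_eq ?_) (PiLp.norm_apply_le _ 0)) 2
    congr 1
    simp [sub_eq_add_neg, add_comm, Finset.sum_add_distrib]
  · congr 1
    refine Finset.sum_congr rfl fun j _ => ?_
    rw [HH.norm_sq]; simp

lemma dl_one {P : VonNeumannAlgebra H} {Z : H →L[ℂ] H} (h : ∀ a ∈ P, ‖Z * a - a * Z‖ ≤ ‖a‖) :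
    ∃ n ∈ P.commutant, ‖Z - n‖ ≤ cD := by
  have hc : 0 ≤ cD / 2 := by have := one_le_cD; positivity
  obtain ⟨T, hT, hb⟩ := hbl (LinearMap.toSpanSingleton ℂ _ Z) P.commutant
    (fun I _ β => ∀ i j, (i = j → β i j = 1) ∧ (i ≠ j → β i j = 0)) hc (fun i => i.elim)
    (fun I J _ _ B B' hB hB' => by
      rintro (i | i) (j | j)
      · simpa using hB i j
      · simp
      · simp
      · simpa using hB' i j)
    (fun b => by
      rcases eq_or_ne b 0 with h0 | h0
      · exact Or.inl h0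
      · exact Or.inr ⟨b⁻¹, inv_ne_zero h0, fun i j => ⟨fun _ => by simp [h0], fun h => by simp at h⟩⟩)
    (fun I _ B Θ Θ' hB hrel => by
      classical
      have hB' : ∀ i (F : I → ℂ), ∑ j, B i j * F j = F i := fun i F => by
        rw [Finset.sum_eq_single i (fun j _ hj => by rw [(hB i j).2 hj.symm, zero_mul]) (by simp),
          (hB i i).1 rfl, one_mul]
      let v : HH I H := WithLp.toLp 2 Θ
      let v' : HH I H := WithLp.toLp 2 Θ'
      let p := sp {w | ∃ n ∈ P.commutant, w = dg I n v}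
      have hp : p ∈ amp P I := by
        rw [amp, mem_cent]
        have key : ∀ y ∈ P.commutant, ∀ w ∈ {w | ∃ n ∈ P.commutant, w = dg I n v},
            dg I y w ∈ {w | ∃ n ∈ P.commutant, w = dg I n v} := by
          rintro y hy _ ⟨n, hn, rfl⟩
          exact ⟨y * n, mul_mem hy hn, by rw [dg_mul]; rfl⟩
        rintro _ ⟨y, hy, rfl⟩
        have k2 := key _ (star_mem hy)
        rw [dg_star] at k2
        exact ⟨sp_comm (key y hy) k2, sp_comm k2 (by rw [star_star]; exact key y hy)⟩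
      have h1 : p v = v := sp_apply ⟨1, one_mem _, by rw [dg_one]; rfl⟩
      have h2 : ∀ w, ⟪v', p w⟫_ℂ = 0 := fun w => by
        have : (innerSL ℂ v').smulRight v' * p = 0 := mul_sp_eq_zero (by
          rintro _ ⟨n, hn, rfl⟩
          have := hrel LinearMap.id n hn
          simp only [LinearMap.id_apply, hB'] at this
          have e : ⟪v', dg I n v⟫_ℂ = 0 := by rw [PiLp.inner_apply]; simpa using this
          simp [e])
        have h3 : ⟪v', p w⟫_ℂ • v' = 0 := congr($this w)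
        rcases smul_eq_zero.mp h3 with h4 | h4
        · exact h4
        · rw [h4, inner_zero_left]
      have h3 := der_bound' h (ent p) (mem_amp.mp hp) (by rw [mat_ent]; exact (sp_proj _).norm_le)
      rw [mat_ent] at h3
      have h4 : ∑ i, ∑ j, ⟪Θ' i, LinearMap.toSpanSingleton ℂ _ Z (B i j) (Θ j)⟫_ℂ =
          ⟪v', (dg I Z * p - p * dg I Z) v⟫_ℂ := by
        rw [ContinuousLinearMap.sub_apply, inner_sub_right, ContinuousLinearMap.mul_apply,
          ContinuousLinearMap.mul_apply, h2, h1, sub_zero, PiLp.inner_apply]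
        refine Finset.sum_congr rfl fun i _ => ?_
        simp only [LinearMap.toSpanSingleton_apply, ContinuousLinearMap.smul_apply,
          inner_smul_right, hB']
        simp [v, v']
      rw [h4]
      have h5 : sq2 Θ = ‖v‖ ^ 2 := (HH.norm_sq v).symm
      have h6 : sq2 Θ' = ‖v'‖ ^ 2 := (HH.norm_sq v').symm
      rw [h5, h6]
      have h7 := (norm_inner_le_norm (𝕜 := ℂ) v' _).trans (mul_le_mul_of_nonneg_left
        ((dg I Z * p - p * dg I Z).le_of_opNorm_le h3 v) (norm_nonneg _))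
      nlinarith [sq_nonneg (‖v‖ - ‖v'‖)])
  refine ⟨T 1, hT 1, ?_⟩
  rw [norm_sub_rev]
  refine (norm_le_of_inner hc fun ξ η => ?_).trans (le_of_eq (by ring))
  simpa [sq2] using hb Unit (fun _ _ => 1) (fun _ => ξ) (fun _ => η) (by simp)

/-- PROOF.  `hbl` with `E = ℂ`, `ι c = c • Y`, `Q = P.commutant`, `Ball I β` = "`β` is the identity
matrix" (`∀ i j, (i = j → β i j = 1) ∧ (i ≠ j → β i j = 0)`), `κ = cD g / 2`.  Hypothesis: `p = sp` of
`{dg n Θ | n ∈ P'}` lies in `amp P I` (`sp_mem`, `mem_commutant_amp`), `p Θ = Θ`, `p Θ' = 0`, so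
`⟪Θ', dg Y Θ⟫ = ⟪Θ', (dg Y p - p dg Y) Θ⟫`; `der_bound` (reindex to `Fin h`, scale `Z = g⁻¹ • Y`;
for `g = 0` take `n = Y`). -/
theorem dl {P : VonNeumannAlgebra H} {Y : H →L[ℂ] H} {g : ℝ} (hg : 0 ≤ g)
    (h : ∀ a ∈ P, ‖Y * a - a * Y‖ ≤ g * ‖a‖) : ∃ n ∈ P.commutant, ‖Y - n‖ ≤ cD * g := by
  rcases hg.eq_or_lt with rfl | hg
  · refine ⟨Y, VonNeumannAlgebra.mem_commutant_iff.mpr fun a ha => ?_, by simp⟩
    have := h a ha
    rw [zero_mul, norm_le_zero_iff, sub_eq_zero] at this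
    exact this.symm
  obtain ⟨n, hn, h1⟩ := dl_one (P := P) (Z := ((g⁻¹ : ℝ) : ℂ) • Y) fun a ha => by
    rw [smul_mul_assoc, mul_smul_comm, ← smul_sub, norm_smul, Complex.norm_real,
      Real.norm_of_nonneg (by positivity), inv_mul_le_iff₀ hg]
    exact h a ha
  refine ⟨(g : ℂ) • n, smul_mem_vn hn _, ?_⟩
  have e : Y - (g : ℂ) • n = (g : ℂ) • (((g⁻¹ : ℝ) : ℂ) • Y - n) := by
    rw [smul_sub, smul_smul, ← Complex.ofReal_mul, mul_inv_cancel₀ hg.ne']; simp
  rw [e, norm_smul, Complex.norm_real, Real.norm_of_nonneg hg.le, mul_comm]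
  exact mul_le_mul_of_nonneg_right h1 hg.le

/-- The same for a star representation of a C*-algebra.  PROOF.  `P = (cent (range lam)).commutant`.
For `g > 0`, `Z = g⁻¹ • Y`, `S = mat ![![1, Z], ![0, 1]]` on `HH (Fin 2) H` and `lam₂ = dgH ∘ lam`:
`S dg(a) S⁻¹ = [[a, Z a - a Z], [0, a]]`, so `‖S (lam₂ a ζ)‖ ≤ 2 ‖a‖ ‖S ζ‖`; `kap_selfAdjoint` (see the
proof of `kaplansky`) gives `‖S (x ζ)‖ ≤ 4 ‖x‖ ‖S ζ‖` on the bicommutant of `range lam₂`, which contains
`dg a`, `a ∈ P`; so `‖Z a - a Z‖ ≤ 4 ‖a‖` on `P`; `dl`. -/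
theorem dl_star {A : Type*} [CStarAlgebra A] (lam : A →⋆ₐ[ℂ] (H →L[ℂ] H)) {Y : H →L[ℂ] H} {g : ℝ}
    (hg : 0 ≤ g) (h : ∀ a, ‖Y * lam a - lam a * Y‖ ≤ g * ‖a‖) :
    ∃ n : H →L[ℂ] H, (∀ a, n * lam a = lam a * n) ∧ ‖Y - n‖ ≤ 4 * cD * g := by
  rcases hg.eq_or_lt with rfl | hg
  · refine ⟨Y, fun a => ?_, by simp⟩
    have := h a
    rwa [zero_mul, norm_le_zero_iff, sub_eq_zero] at this
  set Z : H →L[ℂ] H := ((g⁻¹ : ℝ) : ℂ) • Y with hZ
  have hc : ∀ x : H →L[ℂ] H, ‖Y * x - x * Y‖ = g * ‖Z * x - x * Z‖ := fun x => by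
    rw [hZ, smul_mul_assoc, mul_smul_comm, ← smul_sub, norm_smul, Complex.norm_real,
      Real.norm_of_nonneg (by positivity), ← mul_assoc, mul_inv_cancel₀ hg.ne', one_mul]
  have key : ∀ (x : H →L[ℂ] H) (ζ : HH (Fin 2) H),
      mat ![![1, Z], ![0, 1]] (dg (Fin 2) x ζ) = dg (Fin 2) x (mat ![![1, Z], ![0, 1]] ζ) +
        inj 0 ((Z * x - x * Z) (mat ![![1, Z], ![0, 1]] ζ 1)) := fun x ζ => by
    ext i; fin_cases i <;> simp
  obtain ⟨P₂, h1, h2⟩ := kaplansky ((dgH (Fin 2) H).comp lam) (mat ![![1, Z], ![0, 1]]) (B := 2)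
    zero_le_two fun a ζ => by
      change ‖mat ![![1, Z], ![0, 1]] (dg (Fin 2) (lam a) ζ)‖ ≤ _
      rw [key]
      set w := mat ![![1, Z], ![0, 1]] ζ
      have h3 : ‖Z * lam a - lam a * Z‖ ≤ ‖a‖ := by
        have := h a
        rw [hc] at this
        exact le_of_mul_le_mul_left this hg
      have h4 : ‖(Z * lam a - lam a * Z) (w 1)‖ ≤ ‖a‖ * ‖w‖ :=
        ((Z * lam a - lam a * Z).le_of_opNorm_le h3 _).trans
          (mul_le_mul_of_nonneg_left (PiLp.norm_apply_le w 1) (norm_nonneg _))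
      have h5 := (dg (Fin 2) (lam a)).le_of_opNorm_le ((norm_dg_le _).trans
        (NonUnitalStarAlgHom.norm_apply_le lam a)) w
      refine (norm_add_le _ _).trans ?_
      rw [norm_inj]; linarith
  obtain ⟨n, hn, h3⟩ := dl (P := (cent (Set.range lam)).commutant) (Y := Y) (g := 4 * g)
    (by positivity) fun x hx => by
      have h4 : dg (Fin 2) x ∈ P₂ := mem_of_comm fun y hy => ext_ent fun i j => by
        rw [ent_dg_mul, ent_mul_dg]
        have h5 : ∀ a, lam a * ent y i j = ent y i j * lam a := fun a => by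
          rw [← ent_dg_mul, ← ent_mul_dg]
          exact congrArg (fun X => ent X i j) (comm_of_mem (h1 a) hy)
        refine comm_of_mem (mem_cent.mpr ?_) hx
        rintro _ ⟨a, rfl⟩
        exact ⟨h5 a, by rw [← map_star]; exact h5 _⟩
      rw [hc, mul_comm 4, mul_assoc]
      refine mul_le_mul_of_nonneg_left (ContinuousLinearMap.opNorm_le_bound _ (by positivity)
        fun v => ?_) hg.le
      have h5 := h2 _ h4 (WithLp.toLp 2 ![-Z v, v])
      have h6 : mat ![![1, Z], ![0, 1]] (WithLp.toLp 2 ![-Z v, v] : HH (Fin 2) H) = inj 1 v := by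
        ext i; fin_cases i <;> simp
      rw [key, h6, norm_inj] at h5
      refine le_trans (le_trans (le_of_eq ?_) (PiLp.norm_apply_le _ 0)) (h5.trans ?_)
      · simp
      · have := norm_dg_le (I := Fin 2) x
        gcongr
        norm_num
  rw [VonNeumannAlgebra.commutant_commutant] at hn
  exact ⟨n, fun a => ((mem_cent.mp hn _ ⟨a, rfl⟩).1).symm, h3.trans (le_of_eq (by ring))⟩

variable {I : Type*} [Fintype I] [DecidableEq I]

/-- Compare `eq_dg_of_mem` in `R124/Final.lean` (if `I` is empty every operator is `dg 0`). -/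
theorem mem_commutant_amp {P : VonNeumannAlgebra H} {X : HH I H →L[ℂ] HH I H} :
    X ∈ (amp P I).commutant ↔ ∃ y ∈ P.commutant, X = dg I y ∧ ‖y‖ ≤ ‖X‖ := by
  refine ⟨fun hX => ?_, fun ⟨y, hy, h, _⟩ => h ▸ dg_mem_commutant hy⟩
  rcases isEmpty_or_nonempty I with hI | ⟨⟨i₀⟩⟩
  · exact ⟨0, zero_mem _, ext_ent fun i => isEmptyElim i, by simp⟩
  have h1 : ∀ y ∈ P, ∀ a b i j : I,
      (if i = a then y * ent X b j else 0) = if j = b then ent X i a * y else 0 := by
    intro y hy a b i j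
    have := congrArg (fun Z => ent Z i j) (comm_of_mem (mat_mem_amp
      (x := fun i j => if i = a ∧ j = b then y else 0)
      fun i j => by split_ifs; exacts [hy, zero_mem _]) hX)
    simp only [ent_mul, ent_mat] at this
    rw [Finset.sum_eq_single b (fun k _ hk => by simp [hk]) (by simp),
      Finset.sum_eq_single a (fun k _ hk => by simp [hk]) (by simp)] at this
    by_cases hi : i = a <;> by_cases hj : j = b <;> simpa [hi, hj] using this
  refine ⟨ent X i₀ i₀, VonNeumannAlgebra.mem_commutant_iff.mpr fun y hy => ?_,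
    ext_ent fun i j => ?_, ContinuousLinearMap.opNorm_le_bound _ (norm_nonneg _) fun v => ?_⟩
  · simpa using h1 y hy i₀ i₀ i₀ i₀
  · rw [ent_dg]
    split_ifs with h
    · subst h
      simpa using h1 1 (one_mem _) i₀ i i₀ i
    · simpa [Ne.symm h] using h1 1 (one_mem _) i i i j
  · have := X.le_opNorm (inj i₀ v)
    rw [norm_inj] at this
    exact (PiLp.norm_apply_le _ i₀).trans this

theorem mem_dgA {P : VonNeumannAlgebra H} {X : HH I H →L[ℂ] HH I H} :
    X ∈ dgA P I ↔ ∃ x ∈ P, X = dg I x ∧ ‖x‖ ≤ ‖X‖ := by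
  rw [dgA, mem_commutant_amp, VonNeumannAlgebra.commutant_commutant]

theorem dg_mem_dgA {P : VonNeumannAlgebra H} {x : H →L[ℂ] H} (hx : x ∈ P) : dg I x ∈ dgA P I := by
  exact dg_mem_commutant (by rwa [VonNeumannAlgebra.commutant_commutant])

theorem commutant_dgA (P : VonNeumannAlgebra H) : (dgA P I).commutant = amp P.commutant I := by
  exact VonNeumannAlgebra.commutant_commutant _

variable {M N : VonNeumannAlgebra H} {γ : ℝ}

/-- `y ∈ N'`, `a ∈ M`, `a = b + d`: `[y, a] = [y, d]`; `dl`. -/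
theorem Near.commutant (hγ : 0 ≤ γ) (h : Near M N γ) :
    Near N.commutant M.commutant (2 * cD * γ) := by
  intro y hy
  obtain ⟨n, hn, h1⟩ := dl (P := M) (Y := y) (g := 2 * γ * ‖y‖) (by positivity) fun a ha => by
    obtain ⟨b, hb, hab⟩ := h a ha
    have e : y * a - a * y = y * (a - b) - (a - b) * y := by
      rw [mul_sub, sub_mul, comm_of_mem hb hy]; abel
    rw [e]
    refine (norm_sub_le _ _).trans ?_
    have h1 := (norm_mul_le y (a - b)).trans (mul_le_mul_of_nonneg_left hab (norm_nonneg _))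
    have h2 := (norm_mul_le (a - b) y).trans (mul_le_mul_of_nonneg_right hab (norm_nonneg _))
    linarith
  exact ⟨n, hn, h1.trans (le_of_eq (by ring))⟩

/-- `dl` for `P = (amp N I).commutant`, whose elements are `dg y`, `y ∈ N'` close to `n ∈ M'`. -/
theorem Near.amp (hγ : 0 ≤ γ) (h : Near M N γ) : Near (amp M I) (amp N I) (4 * cD ^ 2 * γ) := by
  intro X hX
  have hc := one_le_cD
  obtain ⟨n, hn, h1⟩ := dl (P := (R124.amp N I).commutant) (Y := X) (g := 4 * cD * γ * ‖X‖)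
    (by positivity) fun a ha => by
      obtain ⟨y, hy, rfl, hy'⟩ := mem_commutant_amp.mp ha
      obtain ⟨b, hb, hab⟩ := h.commutant hγ y hy
      have e : X * dg I y - dg I y * X = X * dg I (y - b) - dg I (y - b) * X := by
        rw [dg_sub, mul_sub, sub_mul, comm_of_mem hX (dg_mem_commutant hb)]; abel
      have h0 : ‖dg I (y - b)‖ ≤ 2 * cD * γ * ‖dg I y‖ :=
        (norm_dg_le _).trans (hab.trans (by gcongr))
      rw [e]
      refine (norm_sub_le _ _).trans ?_
      have h1 := (norm_mul_le X _).trans (mul_le_mul_of_nonneg_left h0 (norm_nonneg _))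
      have h2 := (norm_mul_le _ X).trans (mul_le_mul_of_nonneg_right h0 (norm_nonneg _))
      linarith
  rw [VonNeumannAlgebra.commutant_commutant] at hn
  exact ⟨n, hn, h1.trans (le_of_eq (by ring))⟩

theorem Near.dgA (hγ : 0 ≤ γ) (h : Near M N γ) : Near (dgA M I) (dgA N I) γ := by
  intro X hX
  obtain ⟨x, hx, rfl, hx'⟩ := mem_dgA.mp hX
  obtain ⟨y, hy, hxy⟩ := h x hx
  refine ⟨dg I y, dg_mem_dgA hy, ?_⟩
  rw [← dg_sub]
  exact (norm_dg_le _).trans (hxy.trans (by gcongr))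

theorem Close.commutant (hγ : 0 ≤ γ) (h : Close M N γ) :
    Close M.commutant N.commutant (2 * cD * γ) := ⟨h.2.commutant hγ, h.1.commutant hγ⟩

theorem Close.amp (hγ : 0 ≤ γ) (h : Close M N γ) : Close (amp M I) (amp N I) (4 * cD ^ 2 * γ) :=
  ⟨h.1.amp hγ, h.2.amp hγ⟩

theorem Close.dgA (hγ : 0 ≤ γ) (h : Close M N γ) : Close (dgA M I) (dgA N I) γ :=
  ⟨h.1.dgA hγ, h.2.dgA hγ⟩

end Crest.Agent.R78
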