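import Crest.Agent.R78.Defs
import Crest.Agent.R124.VN2

/-! Row 78: the operator `A = (1 + Δ)⁻¹` without modular theory (Rieffel–van Daele). -/

set_option autoImplicit false
set_option linter.unusedSectionVars false
set_option linter.deprecated false

namespace Crest.Agent.R78

open Crest.Agent.R124 Crest.Agent.R121
open scoped InnerProductSpace

variable {H : Type*} [NormedAddCommGroup H] [InnerProductSpace ℂ H] [CompleteSpace H]

/-- `(A χ, B χ)` is the projection of `(χ, 0)` onto the closure of the graph `{(w Ω, w* Ω)}`. -/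
structure IsA (M : VonNeumannAlgebra H) (Ω : H) (A : H →L[ℂ] H) (B : H → H) : Prop where
  nonneg : 0 ≤ A
  le_one : A ≤ 1
  cl : ∀ χ, (A χ, B χ) ∈ closure {p : H × H | ∃ w ∈ M, p = (w Ω, star w Ω)}
  eq : ∀ χ, ∀ w ∈ M, ⟪χ - A χ, w Ω⟫_ℂ = ⟪star w Ω, B χ⟫_ℂ

/-- The real orthogonal projection onto the closure of a real subspace. -/
lemma exists_realProj (K : Submodule ℝ H) : ∃ P : H →L[ℝ] H,
    (∀ χ, P χ ∈ closure (K : Set H)) ∧
      ∀ χ, ∀ k ∈ closure (K : Set H), (⟪χ - P χ, k⟫_ℂ).re = 0 := by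
  let : InnerProductSpace ℝ H := InnerProductSpace.complexToReal
  refine ⟨K.topologicalClosure.starProjection,
    fun χ => K.topologicalClosure.starProjection_apply_mem χ, fun χ k hk => ?_⟩
  exact K.topologicalClosure.starProjection_inner_eq_zero χ k hk

/-- Real and imaginary parts inside a von Neumann algebra. -/
lemma exists_re_im {M : VonNeumannAlgebra H} {w : H →L[ℂ] H} (hw : w ∈ M) :
    ∃ h ∈ M, ∃ k ∈ M, IsSelfAdjoint h ∧ IsSelfAdjoint k ∧ w = h + Complex.I • k := by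
  refine ⟨(2⁻¹ : ℂ) • (w + star w), smul_mem_vn (add_mem hw (star_mem hw)) _,
    (-(2⁻¹ : ℂ) * Complex.I) • (w - star w), smul_mem_vn (sub_mem hw (star_mem hw)) _, ?_, ?_, ?_⟩
  · rw [IsSelfAdjoint, star_smul, star_add, star_star, add_comm]; simp
  · rw [IsSelfAdjoint, star_smul, star_sub, star_star, ← neg_sub w, smul_neg, ← neg_smul]
    congr 1
    simp
  · rw [smul_smul]
    have : Complex.I * (-(2⁻¹ : ℂ) * Complex.I) = 2⁻¹ := by
      rw [mul_comm, mul_assoc, Complex.I_mul_I]; ring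
    rw [this, ← smul_add]
    have : w + star w + (w - star w) = (2 : ℂ) • w := by rw [two_smul]; abel
    rw [this, smul_smul]; simp

theorem exists_isA (M : VonNeumannAlgebra H) (Ω : H) : ∃ A B, IsA M Ω A B := by
  let K : Submodule ℝ H :=
    { carrier := {v | ∃ h ∈ M, IsSelfAdjoint h ∧ v = h Ω}
      add_mem' := by
        rintro _ _ ⟨h, hh, hs, rfl⟩ ⟨k, hk, ks, rfl⟩
        exact ⟨h + k, add_mem hh hk, hs.add ks, rfl⟩
      zero_mem' := ⟨0, zero_mem _, IsSelfAdjoint.zero _, rfl⟩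
      smul_mem' := by
        rintro c _ ⟨h, hh, hs, rfl⟩
        refine ⟨(c : ℂ) • h, smul_mem_vn hh _, ?_, rfl⟩
        rw [IsSelfAdjoint, star_smul, hs.star_eq]; simp }
  obtain ⟨P, hP1, hP2⟩ := exists_realProj K
  have hsym : ∀ χ ξ, (⟪P χ, ξ⟫_ℂ).re = (⟪χ, P ξ⟫_ℂ).re := fun χ ξ => by
    have h1 := hP2 χ _ (hP1 ξ)
    have h2 := hP2 ξ _ (hP1 χ)
    rw [inner_sub_left, Complex.sub_re] at h1 h2
    have h3 : (⟪ξ, P χ⟫_ℂ).re = (⟪P χ, ξ⟫_ℂ).re := inner_re_symm (𝕜 := ℂ) _ _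
    have h4 : (⟪P ξ, P χ⟫_ℂ).re = (⟪P χ, P ξ⟫_ℂ).re := inner_re_symm (𝕜 := ℂ) _ _
    linarith
  have hsq : ∀ χ, (⟪P χ, χ⟫_ℂ).re = ‖P χ‖ ^ 2 := fun χ => by
    have h1 := hP2 χ _ (hP1 χ)
    rw [inner_sub_left, Complex.sub_re] at h1
    have h3 : (⟪χ, P χ⟫_ℂ).re = (⟪P χ, χ⟫_ℂ).re := inner_re_symm (𝕜 := ℂ) _ _
    have h4 : (⟪P χ, P χ⟫_ℂ).re = ‖P χ‖ ^ 2 := inner_self_eq_norm_sq (𝕜 := ℂ) _
    linarith
  have hle : ∀ χ, ‖P χ‖ ^ 2 ≤ ‖χ‖ ^ 2 := fun χ => by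
    have h1 : (⟪P χ, χ⟫_ℂ).re ≤ ‖P χ‖ * ‖χ‖ := re_inner_le_norm (𝕜 := ℂ) _ _
    rw [hsq] at h1
    nlinarith [norm_nonneg (P χ), norm_nonneg χ, sq_nonneg (‖P χ‖ - ‖χ‖)]
  have hI : ∀ χ : H, Complex.I • Complex.I • χ = -χ := fun χ => by
    rw [smul_smul, Complex.I_mul_I, neg_one_smul]
  let A₀ : H →ₗ[ℂ] H :=
    { toFun := fun χ => (2⁻¹ : ℂ) • (P χ - Complex.I • P (Complex.I • χ))
      map_add' := fun χ ξ => by simp only [smul_add, map_add, smul_sub]; abel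
      map_smul' := fun c χ => by
        have hc : ∀ v : H, c • v = c.re • v + c.im • (Complex.I • v) := fun v => by
          conv_lhs => rw [← Complex.re_add_im c]
          rw [add_smul, mul_smul]; rfl
        rw [RingHom.id_apply, smul_comm c, hc χ, hc (P χ - _)]
        congr 1
        simp only [map_add, map_smul, smul_add, smul_sub, smul_comm Complex.I c.re,
          smul_comm Complex.I c.im, hI, map_neg, smul_neg]
        abel }
  let A : H →L[ℂ] H := ⟨A₀, by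
    change Continuous fun χ => (2⁻¹ : ℂ) • (P χ - Complex.I • P (Complex.I • χ))
    fun_prop⟩
  have hA : ∀ χ, A χ = (2⁻¹ : ℂ) • (P χ - Complex.I • P (Complex.I • χ)) := fun χ => rfl
  have hin : ∀ χ, ⟪A χ, χ⟫_ℂ = ((2⁻¹ * (‖P χ‖ ^ 2 + ‖P (Complex.I • χ)‖ ^ 2) : ℝ) : ℂ) := fun χ => by
    have h1 := hsq χ
    have h2 := hsq (Complex.I • χ)
    have h3 := hsym (Complex.I • χ) χ
    have h4 : (⟪χ, P χ⟫_ℂ).im = -(⟪P χ, χ⟫_ℂ).im := inner_im_symm (𝕜 := ℂ) _ _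
    rw [inner_smul_right] at h2
    rw [inner_smul_left] at h3
    rw [hA, inner_smul_left, inner_sub_left, inner_smul_left]
    generalize ‖P χ‖ ^ 2 = a at *
    generalize ‖P (Complex.I • χ)‖ ^ 2 = b at *
    apply Complex.ext
    · simp at h1 h2 h3 ⊢
      linarith
    · simp at h1 h2 h3 ⊢
      linarith
  refine ⟨A, fun χ => (2⁻¹ : ℂ) • (P χ + Complex.I • P (Complex.I • χ)), ?_, ?_, fun χ => ?_,
    fun χ w hw => ?_⟩
  · rw [ContinuousLinearMap.nonneg_iff_isPositive, ContinuousLinearMap.isPositive_iff_complex]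
    intro χ
    rw [hin]
    exact ⟨rfl, by change 0 ≤ (2⁻¹ * (‖P χ‖ ^ 2 + ‖P (Complex.I • χ)‖ ^ 2) : ℝ); positivity⟩
  · rw [← sub_nonneg, ContinuousLinearMap.nonneg_iff_isPositive,
      ContinuousLinearMap.isPositive_iff_complex]
    intro χ
    have h1 : ⟪(1 - A) χ, χ⟫_ℂ =
        ((‖χ‖ ^ 2 - 2⁻¹ * (‖P χ‖ ^ 2 + ‖P (Complex.I • χ)‖ ^ 2) : ℝ) : ℂ) := by
      rw [ContinuousLinearMap.sub_apply, inner_sub_left, hin, ContinuousLinearMap.one_apply,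
        inner_self_eq_norm_sq_to_K]
      push_cast; rfl
    rw [h1]
    refine ⟨rfl, ?_⟩
    change 0 ≤ (‖χ‖ ^ 2 - 2⁻¹ * (‖P χ‖ ^ 2 + ‖P (Complex.I • χ)‖ ^ 2) : ℝ)
    have h2 := hle χ
    have h3 := hle (Complex.I • χ)
    rw [norm_smul, Complex.norm_I, one_mul] at h3
    linarith
  · refine map_mem_closure₂
      (f := fun a b : H => ((2⁻¹ : ℂ) • (a - Complex.I • b), (2⁻¹ : ℂ) • (a + Complex.I • b)))
      (by fun_prop) (hP1 χ) (hP1 (Complex.I • χ)) ?_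
    rintro _ ⟨h, hh, hs, rfl⟩ _ ⟨k, hk, ks, rfl⟩
    refine ⟨(2⁻¹ : ℂ) • (h - Complex.I • k), smul_mem_vn (sub_mem hh (smul_mem_vn hk _)) _, ?_⟩
    simp [star_smul, hs.star_eq, ks.star_eq]
  · have key : ∀ h ∈ M, IsSelfAdjoint h → ⟪χ - A χ, h Ω⟫_ℂ =
        ⟪h Ω, (2⁻¹ : ℂ) • (P χ + Complex.I • P (Complex.I • χ))⟫_ℂ := fun h hh hs => by
      have hm : h Ω ∈ closure (K : Set H) := subset_closure ⟨h, hh, hs, rfl⟩
      have h1 := hP2 χ _ hm
      have h2 := hP2 (Complex.I • χ) _ hm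
      rw [inner_sub_left] at h1 h2
      rw [inner_smul_left] at h2
      rw [hA, inner_sub_left, inner_smul_left, inner_sub_left, inner_smul_left, inner_smul_right,
        inner_add_right, inner_smul_right, ← inner_conj_symm (h Ω) (P χ),
        ← inner_conj_symm (h Ω) (P (Complex.I • χ))]
      generalize ⟪P χ, h Ω⟫_ℂ = a at *
      generalize ⟪P (Complex.I • χ), h Ω⟫_ℂ = b at *
      apply Complex.ext
      · simp at h1 h2 ⊢
        linarith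
      · simp at h1 h2 ⊢
        linarith
    obtain ⟨h, hh, k, hk, hs, ks, rfl⟩ := exists_re_im hw
    rw [star_add, star_smul, hs.star_eq, ks.star_eq, ContinuousLinearMap.add_apply,
      ContinuousLinearMap.add_apply, ContinuousLinearMap.smul_apply, ContinuousLinearMap.smul_apply,
      inner_add_right, inner_smul_right, key h hh hs, key k hk ks, inner_add_left, inner_smul_left,
      Complex.star_def, Complex.conj_conj]

/-- Equations between continuous functions pass from the graph to `(A χ, B χ)`. -/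
lemma IsA.limit {M : VonNeumannAlgebra H} {Ω : H} {A : H →L[ℂ] H} {B : H → H} (h : IsA M Ω A B)
    {f g : H × H → ℂ} (hf : Continuous f) (hg : Continuous g)
    (he : ∀ w ∈ M, f (w Ω, star w Ω) = g (w Ω, star w Ω)) (χ : H) :
    f (A χ, B χ) = g (A χ, B χ) := by
  refine (isClosed_eq hf hg).closure_subset_iff.mpr ?_ (h.cl χ)
  rintro _ ⟨w, hw, rfl⟩
  exact he w hw

lemma IsA.inner_left {M : VonNeumannAlgebra H} {Ω : H} {A : H →L[ℂ] H} {B : H → H}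
    (h : IsA M Ω A B) (u v : H) : ⟪A u, v⟫_ℂ = ⟪u, A v⟫_ℂ := by
  rw [← inner_star_left, h.nonneg.isSelfAdjoint.star_eq]

/-- PROOF.  Put `w = star v`; pass to the limit `(v Ω, v* Ω) → (A χ, B χ)`; use `eq` with `w = y`. -/
theorem IsA.wrn {M : VonNeumannAlgebra H} {Ω : H} {A : H →L[ℂ] H} {B : H → H} (h : IsA M Ω A B)
    (α β : ℂ) {y : H →L[ℂ] H} (hy : y ∈ M) (ζ : H)
    (he : ∀ w ∈ M, α * ⟪Ω, (y * w) Ω⟫_ℂ + β * ⟪Ω, (w * y) Ω⟫_ℂ = ⟪Ω, w ζ⟫_ℂ) :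
    β • A (y Ω) + α • (y Ω - A (y Ω)) = A ζ := by
  refine ext_inner_left ℂ fun χ => ?_
  have h1 := h.limit (f := fun p => α * ⟪star y Ω, p.2⟫_ℂ + β * ⟪p.1, y Ω⟫_ℂ)
    (g := fun p => ⟪p.1, ζ⟫_ℂ) (by fun_prop) (by fun_prop) (fun w hw => by
      have := he _ (star_mem hw)
      rw [ContinuousLinearMap.mul_apply, ContinuousLinearMap.mul_apply, ← inner_star_left y,
        inner_star_right w Ω (y Ω), inner_star_right w Ω ζ] at this
      exact this) χ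
  simp only at h1
  rw [← h.eq χ y hy, inner_sub_left, h.inner_left, h.inner_left] at h1
  rw [inner_add_right, inner_smul_right, inner_smul_right, inner_sub_right, ← h1]
  ring

lemma inner_sp_eq_zero {T : Set H} {u : H} (h : ∀ v ∈ T, ⟪u, v⟫_ℂ = 0) (ζ : H) :
    ⟪u, sp T ζ⟫_ℂ = 0 := by
  refine (isClosed_eq (f := fun v => ⟪u, v⟫_ℂ) (g := fun _ => 0) (by fun_prop)
    (by fun_prop)).closure_subset_iff.mpr ?_ (sp_apply_mem T ζ)
  intro v hv
  change ⟪u, v⟫_ℂ = 0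
  induction hv using Submodule.span_induction with
  | mem v hv => exact h v hv
  | zero => simp
  | add x y _ _ hx hy => rw [inner_add_right, hx, hy, add_zero]
  | smul c x _ hx => rw [inner_smul_right, hx, mul_zero]

lemma inner_sp_left (T : Set H) (u v : H) : ⟪sp T u, v⟫_ℂ = ⟪u, sp T v⟫_ℂ := by
  rw [← inner_star_left, (sp_proj T).isSelfAdjoint.star_eq]

lemma inner_sp_self (T : Set H) (u : H) : ⟪u, sp T u⟫_ℂ = ((‖sp T u‖ ^ 2 : ℝ) : ℂ) := by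
  have h1 : sp T (sp T u) = sp T u := congr($((sp_proj T).isIdempotentElem) u)
  conv_lhs => rw [← h1, ← inner_sp_left, inner_self_eq_norm_sq_to_K]
  push_cast; rfl

/-- The Rieffel–van Daele lemma. -/
theorem rvd {M : VonNeumannAlgebra H} {Ω η : H}
    (h1 : ∀ w ∈ M, ⟪η, w Ω⟫_ℂ = -⟪star w Ω, η⟫_ℂ)
    (h2 : ∀ z ∈ M.commutant, ⟪η, z Ω⟫_ℂ = ⟪star z Ω, η⟫_ℂ) : ∀ x ∈ M, ⟪η, x Ω⟫_ℂ = 0 := by
  let u : HH (Fin 2) H := inj 0 Ω + inj 1 η
  let T : Set (HH (Fin 2) H) := {v | ∃ x ∈ M, v = dg (Fin 2) x u}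
  have hE : sp T ∈ amp M.commutant (Fin 2) := by
    rw [amp, mem_cent, M.commutant_commutant]
    have key : ∀ y ∈ M, ∀ v ∈ T, dg (Fin 2) y v ∈ T := by
      rintro y hy _ ⟨x, hx, rfl⟩
      exact ⟨y * x, mul_mem hy hx, by rw [dg_mul]; rfl⟩
    rintro _ ⟨y, hy, rfl⟩
    have k1 := key y hy
    have k2 := key _ (star_mem hy)
    rw [dg_star] at k2
    exact ⟨sp_comm k1 k2, sp_comm k2 (by simpa using k1)⟩
  have hr : ent (sp T) 0 1 ∈ M.commutant := mem_amp.mp hE 0 1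
  have hu : sp T u = u := sp_apply ⟨1, one_mem _, by rw [dg_one]; rfl⟩
  have hperp : sp T (inj 0 η + inj 1 Ω) = 0 := by
    refine ext_inner_right ℂ fun ζ => ?_
    rw [inner_sp_left, inner_zero_left]
    refine inner_sp_eq_zero ?_ ζ
    rintro _ ⟨x, hx, rfl⟩
    rw [inner_add_left, inner_inj_left, inner_inj_left, dg_apply, dg_apply]
    have e0 : u 0 = Ω := by simp [u]
    have e1 : u 1 = η := by simp [u]
    rw [e0, e1, h1 x hx, inner_star_left, neg_add_cancel]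
  have hz : sp T (inj 0 η) = 0 := by
    have a1 : sp T (inj 0 η) = -sp T (inj 1 Ω) := by
      rw [map_add] at hperp; exact eq_neg_of_add_eq_zero_left hperp
    have a2 : sp T (inj 1 η) = u - sp T (inj 0 Ω) := by
      rw [eq_sub_iff_add_eq, add_comm, ← map_add]; exact hu
    have a3 : ((‖sp T (inj 0 η)‖ ^ 2 : ℝ) : ℂ) =
        ((‖sp T (inj 0 Ω)‖ ^ 2 : ℝ) : ℂ) - ((‖Ω‖ ^ 2 : ℝ) : ℂ) := by
      rw [← inner_sp_self, a1, inner_neg_right, inner_inj_left, ← ent_apply, h2 _ hr,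
        inner_star_left, ent_apply, ← inner_inj_left, a2, inner_sub_right, inner_sp_self,
        inner_inj_left]
      have e0 : u 0 = Ω := by simp [u]
      rw [e0, inner_self_eq_norm_sq_to_K]
      push_cast
      simp
    have a4 : ‖sp T (inj 0 η)‖ ^ 2 = ‖sp T (inj (0 : Fin 2) Ω)‖ ^ 2 - ‖Ω‖ ^ 2 := by
      exact_mod_cast a3
    have a5 : ‖sp T (inj (0 : Fin 2) Ω)‖ ≤ ‖Ω‖ := by
      have := (sp T).le_of_opNorm_le (sp_proj T).norm_le (inj (0 : Fin 2) Ω)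
      rwa [one_mul, norm_inj] at this
    have a6 := pow_le_pow_left₀ (norm_nonneg _) a5 2
    have a7 : ‖sp T (inj 0 η)‖ ^ 2 = 0 := le_antisymm (by linarith) (sq_nonneg _)
    simpa using a7
  intro x hx
  have b1 : sp T (dg (Fin 2) x u) = dg (Fin 2) x u := sp_apply ⟨x, hx, rfl⟩
  have b2 : ⟪inj (0 : Fin 2) η, dg (Fin 2) x u⟫_ℂ = 0 := by
    rw [← b1, ← inner_sp_left, hz, inner_zero_left]
  have e0 : u 0 = Ω := by simp [u]
  rwa [inner_inj_left, dg_apply, e0] at b2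

lemma inner_comm_vec {M : VonNeumannAlgebra H} (Ω : H) {w z : H →L[ℂ] H} (hw : w ∈ M)
    (hz : z ∈ M.commutant) : ⟪z Ω, w Ω⟫_ℂ = ⟪star w Ω, star z Ω⟫_ℂ := by
  rw [← inner_star_right, inner_star_left]
  exact congr(⟪Ω, $(comm_of_mem hw (star_mem hz)) Ω⟫_ℂ).symm

lemma dual1 {M : VonNeumannAlgebra H} {Ω : H} {A A' : H →L[ℂ] H} {B B' : H → H}
    (h : IsA M Ω A B) (h' : IsA M.commutant Ω A' B') :
    ∀ x ∈ M, A' (x Ω) = x Ω - A (x Ω) := by
  intro x hx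
  refine ext_inner_left ℂ fun χ => ?_
  set η₁ := χ - A χ - A' χ with e1
  set η₂ := B' χ - B χ with e2
  have p1 : ∀ w ∈ M, ⟪η₁, w Ω⟫_ℂ = -⟪star w Ω, η₂⟫_ℂ := fun w hw => by
    have := h'.limit (f := fun p => ⟪p.1, w Ω⟫_ℂ) (g := fun p => ⟪star w Ω, p.2⟫_ℂ)
      (by fun_prop) (by fun_prop) (fun z hz => inner_comm_vec Ω hw hz) χ
    simp only at this
    rw [e1, e2, inner_sub_left, h.eq χ w hw, this, inner_sub_right]; ring
  have p2 : ∀ z ∈ M.commutant, ⟪η₁, z Ω⟫_ℂ = ⟪star z Ω, η₂⟫_ℂ := fun z hz => by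
    have := h.limit (f := fun p => ⟪p.1, z Ω⟫_ℂ) (g := fun p => ⟪star z Ω, p.2⟫_ℂ)
      (by fun_prop) (by fun_prop)
      (fun w hw => inner_comm_vec Ω hz (by rwa [M.commutant_commutant])) χ
    simp only at this
    rw [e1, e2, sub_right_comm, inner_sub_left, h'.eq χ z hz, this, inner_sub_right]
  have q1 : ∀ w ∈ M, ⟪η₂, w Ω⟫_ℂ = -⟪star w Ω, η₁⟫_ℂ := fun w hw => by
    rw [← inner_conj_symm (star w Ω) η₁, p1 _ (star_mem hw), star_star, map_neg, inner_conj_symm,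
      neg_neg]
  have q2 : ∀ z ∈ M.commutant, ⟪η₂, z Ω⟫_ℂ = ⟪star z Ω, η₁⟫_ℂ := fun z hz => by
    rw [← inner_conj_symm (star z Ω) η₁, p2 _ (star_mem hz), star_star, inner_conj_symm]
  have r1 := rvd (M := M) (Ω := Ω) (η := η₁ + η₂)
    (fun w hw => by rw [inner_add_left, inner_add_right, p1 w hw, q1 w hw]; ring)
    (fun z hz => by rw [inner_add_left, inner_add_right, p2 z hz, q2 z hz]; ring) x hx
  have r2 := rvd (M := M) (Ω := Ω) (η := Complex.I • (η₁ - η₂))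
    (fun w hw => by
      rw [inner_smul_left, inner_smul_right, inner_sub_left, inner_sub_right, p1 w hw, q1 w hw,
        Complex.conj_I]; ring)
    (fun z hz => by
      rw [inner_smul_left, inner_smul_right, inner_sub_left, inner_sub_right, p2 z hz, q2 z hz,
        Complex.conj_I]; ring) x hx
  rw [inner_smul_left, mul_eq_zero, inner_sub_left] at r2
  rw [inner_add_left] at r1
  have r3 : ⟪η₁, x Ω⟫_ℂ = 0 := by
    rcases r2 with r2 | r2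
    · simp at r2
    · linear_combination (r1 + r2) / 2
  rw [e1, inner_sub_left, inner_sub_left, h.inner_left, h'.inner_left] at r3
  rw [inner_sub_right]
  linear_combination -r3

/-- The operators of `M` and `M'` add up to the identity on `M Ω` and on `M' Ω`. -/
theorem dual {M : VonNeumannAlgebra H} {Ω : H} {A A' : H →L[ℂ] H} {B B' : H → H}
    (h : IsA M Ω A B) (h' : IsA M.commutant Ω A' B') :
    (∀ x ∈ M, A' (x Ω) = x Ω - A (x Ω)) ∧ ∀ z ∈ M.commutant, A' (z Ω) = z Ω - A (z Ω) := by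
  refine ⟨dual1 h h', fun z hz => ?_⟩
  have h'' : IsA M.commutant.commutant Ω A B := by rwa [M.commutant_commutant]
  rw [dual1 h' h'' z hz, sub_sub_cancel]

lemma mem_closure_range {T : H →L[ℂ] H} (hT : IsSelfAdjoint T) {ξ : H}
    (h : ∀ v, T v = 0 → ⟪v, ξ⟫_ℂ = 0) : ξ ∈ closure (Set.range T) := by
  have h1 : ξ ∈ T.kerᗮ := fun v hv => h v hv
  rw [ContinuousLinearMap.orthogonal_ker, ← ContinuousLinearMap.star_eq_adjoint, hT.star_eq] at h1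
  exact h1

/-- The bounded substitute for the modular operator exists. -/
theorem exists_mod (M : VonNeumannAlgebra H) (Ω : H) : ∃ A, IsMod M Ω A := by
  obtain ⟨A, B, h⟩ := exists_isA M Ω
  obtain ⟨A', B', h'⟩ := exists_isA M.commutant Ω
  obtain ⟨d1, d2⟩ := dual h h'
  refine ⟨A, h.nonneg, h.le_one, fun α β y hy ζ he => h.wrn α β hy ζ he,
    fun α β z hz x hx he => ?_, fun x hx => ?_, fun z hz => ?_⟩
  · have := h'.wrn α β hz (x Ω) he
    rwa [d1 x hx, d2 z hz, sub_sub_cancel] at this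
  · refine mem_closure_range h.nonneg.isSelfAdjoint fun v hv => ?_
    have h1 := h.limit (f := fun p => ⟪v - A v, p.1⟫_ℂ) (g := fun p => ⟪p.2, B v⟫_ℂ)
      (by fun_prop) (by fun_prop) (fun w hw => h.eq v w hw) v
    simp only [hv, inner_zero_right] at h1
    have h2 := h.eq v x hx
    rwa [inner_self_eq_zero.mp h1.symm, inner_zero_right, hv, sub_zero] at h2
  · have hs : IsSelfAdjoint (1 - A) := (IsSelfAdjoint.one _).sub h.nonneg.isSelfAdjoint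
    refine mem_closure_range hs fun v hv => ?_
    have hv' : v - A v = 0 := hv
    have h1 := h.limit (f := fun p => ⟪v - A v, p.1⟫_ℂ) (g := fun p => ⟪p.2, B v⟫_ℂ)
      (by fun_prop) (by fun_prop) (fun w hw => h.eq v w hw) v
    simp only [hv', inner_zero_left] at h1
    have h2 := h.limit (f := fun p => ⟪p.1, z Ω⟫_ℂ) (g := fun p => ⟪star z Ω, p.2⟫_ℂ)
      (by fun_prop) (by fun_prop)
      (fun w hw => inner_comm_vec Ω hz (by rwa [M.commutant_commutant])) v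
    simp only at h2
    rwa [inner_self_eq_zero.mp h1.symm, inner_zero_right, ← sub_eq_zero.mp hv'] at h2

/-- `A Ω = Ω/2`: `w1` with `α = β = 1/2`, `y = 1`, `ζ = Ω`. -/
theorem IsMod.apply_self {M : VonNeumannAlgebra H} {Ω : H} {A : H →L[ℂ] H} (h : IsMod M Ω A) :
    A Ω = (2⁻¹ : ℂ) • Ω := by
  have := h.w1 2⁻¹ 2⁻¹ 1 (one_mem _) Ω (fun w _ => by rw [one_mul, mul_one]; ring)
  rw [← this, ContinuousLinearMap.one_apply, ← smul_add, add_sub_cancel]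

lemma IsMod.spectrum_subset {M : VonNeumannAlgebra H} {Ω : H} {A : H →L[ℂ] H} (h : IsMod M Ω A) :
    spectrum ℝ A ⊆ Set.Icc 0 1 := fun s hs =>
  ⟨spectrum_nonneg_of_nonneg h.nonneg hs,
    (CFC.le_one_iff (R := ℝ) A h.nonneg.isSelfAdjoint).mp h.le_one s hs⟩

/-- Weak recovery. -/
theorem IsMod.recover {M : VonNeumannAlgebra H} {Ω : H} {A : H →L[ℂ] H} (h : IsMod M Ω A)
    {x z : H →L[ℂ] H} (hx : x ∈ M) (hz : z ∈ M.commutant) {ε : ℝ} (hε : 0 < ε) :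
    ∃ η : ℝ, 0 < η ∧ ∀ G : ℝ → ℝ, ContinuousOn G (Set.Icc 0 1) →
      (∀ s ∈ Set.Icc (0 : ℝ) 1, |1 - G s| ≤ 1 ∧ s * (1 - s) * |1 - G s| ≤ η) →
      ‖⟪z Ω, cfc G A (x Ω)⟫_ℂ - ⟪z Ω, x Ω⟫_ℂ‖ ≤ ε := by
  have hA : IsSelfAdjoint A := h.nonneg.isSelfAdjoint
  obtain ⟨_, ⟨χ₂, rfl⟩, h2⟩ := Metric.mem_closure_iff.mp (h.r2 z hz) (ε / 3 / (‖x Ω‖ + 1))
    (by positivity)
  obtain ⟨_, ⟨χ₁, rfl⟩, h1⟩ := Metric.mem_closure_iff.mp (h.r1 x hx)
    (ε / 3 / (‖χ₂ - A χ₂‖ + 1)) (by positivity)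
  refine ⟨ε / 3 / (‖χ₂‖ * ‖χ₁‖ + 1), by positivity, fun G hG hb => ?_⟩
  have hsp := h.spectrum_subset
  have hG' : ContinuousOn G (spectrum ℝ A) := hG.mono hsp
  set T : H →L[ℂ] H := cfc (fun s => 1 - G s) A with hT
  have hT1 : T = 1 - cfc G A := by
    rw [hT, cfc_sub (fun _ => (1 : ℝ)) G A, cfc_const_one ℝ A]
  have hT2 : ‖T‖ ≤ 1 := norm_cfc_le zero_le_one fun s hs => (hb s (hsp hs)).1
  have hT3 : ‖(1 - A) * T * A‖ ≤ ε / 3 / (‖χ₂‖ * ‖χ₁‖ + 1) := by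
    have : (1 - A) * T * A = cfc (fun s => (1 - s) * (1 - G s) * s) A := by
      rw [cfc_mul _ _ A, cfc_mul _ _ A, cfc_sub (fun _ => (1 : ℝ)) (fun s => s) A,
        cfc_const_one ℝ A, cfc_id' ℝ A]
    rw [this]
    refine norm_cfc_le (by positivity) fun s hs => ?_
    have h3 := hsp hs
    have h4 := (hb s h3).2
    rw [Real.norm_eq_abs, abs_mul, abs_mul, abs_of_nonneg h3.1, abs_of_nonneg (sub_nonneg.mpr h3.2)]
    linarith
  have e : ⟪z Ω, x Ω⟫_ℂ - ⟪z Ω, cfc G A (x Ω)⟫_ℂ = ⟪z Ω - (χ₂ - A χ₂), T (x Ω)⟫_ℂ +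
      ⟪χ₂ - A χ₂, T (x Ω - A χ₁)⟫_ℂ + ⟪χ₂, ((1 - A) * T * A) χ₁⟫_ℂ := by
    have e1 : ⟪χ₂, ((1 - A) * T * A) χ₁⟫_ℂ = ⟪χ₂ - A χ₂, T (A χ₁)⟫_ℂ := by
      rw [ContinuousLinearMap.mul_apply, ContinuousLinearMap.mul_apply, ← inner_star_left,
        ((IsSelfAdjoint.one _).sub hA).star_eq]
      rfl
    rw [e1, map_sub, inner_sub_right (χ₂ - A χ₂), inner_sub_left (z Ω), ← inner_sub_right (z Ω)]
    have e2 : x Ω - cfc G A (x Ω) = T (x Ω) := by rw [hT1]; rfl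
    rw [e2]; ring
  rw [← norm_neg, neg_sub, e]
  rw [dist_eq_norm] at h1 h2
  have b1 : ‖⟪z Ω - (χ₂ - A χ₂), T (x Ω)⟫_ℂ‖ ≤ ε / 3 := by
    refine (norm_inner_le_norm _ _).trans ?_
    have c1 : ‖T (x Ω)‖ ≤ ‖x Ω‖ + 1 := by
      have := T.le_of_opNorm_le hT2 (x Ω); linarith
    calc _ ≤ ε / 3 / (‖x Ω‖ + 1) * (‖x Ω‖ + 1) := by gcongr
      _ = ε / 3 := by field_simp
  have b2 : ‖⟪χ₂ - A χ₂, T (x Ω - A χ₁)⟫_ℂ‖ ≤ ε / 3 := by
    refine (norm_inner_le_norm _ _).trans ?_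
    have c1 : ‖T (x Ω - A χ₁)‖ ≤ ε / 3 / (‖χ₂ - A χ₂‖ + 1) := by
      have := T.le_of_opNorm_le hT2 (x Ω - A χ₁); linarith
    calc _ ≤ (‖χ₂ - A χ₂‖ + 1) * (ε / 3 / (‖χ₂ - A χ₂‖ + 1)) := by gcongr; linarith
      _ = ε / 3 := by field_simp
  have b3 : ‖⟪χ₂, ((1 - A) * T * A) χ₁⟫_ℂ‖ ≤ ε / 3 := by
    refine (norm_inner_le_norm _ _).trans ?_
    have c1 := ((1 - A) * T * A).le_of_opNorm_le hT3 χ₁
    calc _ ≤ ‖χ₂‖ * (ε / 3 / (‖χ₂‖ * ‖χ₁‖ + 1) * ‖χ₁‖) := by gcongr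
      _ = ε / 3 / (‖χ₂‖ * ‖χ₁‖ + 1) * (‖χ₂‖ * ‖χ₁‖) := by ring
      _ ≤ ε / 3 / (‖χ₂‖ * ‖χ₁‖ + 1) * (‖χ₂‖ * ‖χ₁‖ + 1) := by gcongr; linarith
      _ = ε / 3 := by field_simp
  calc _ ≤ _ := norm_add₃_le
    _ ≤ ε := by linarith

end Crest.Agent.R78
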