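import Crest.Agent.R78.Defs

/-! Row 78: unitary letters, tensor relations, Latin squares. -/

set_option autoImplicit false
set_option linter.unusedSectionVars false

namespace Crest.Agent.R78

open Crest.Agent.R124 Crest.Agent.R121
open scoped InnerProductSpace ComplexConjugate

variable {H : Type*} [NormedAddCommGroup H] [InnerProductSpace ℂ H] [CompleteSpace H]

lemma exists_cosqrt {y : H →L[ℂ] H} (hy : IsSelfAdjoint y) (h1 : ‖y‖ ≤ 1) :
    ∃ w : H →L[ℂ] H, 0 ≤ w ∧ w * w = 1 - (2⁻¹ : ℂ) • y * (2⁻¹ : ℂ) • y ∧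
      (∀ v, 3 / 4 * ‖v‖ ^ 2 ≤ ‖w v‖ ^ 2) ∧ ∀ x, Commute y x → Commute w x := by
  set y₀ := (2⁻¹ : ℂ) • y with hy₀
  have hs : star y₀ = y₀ := by rw [hy₀, star_smul, hy.star_eq]; simp
  have hn : ∀ v, ‖y₀ v‖ ^ 2 ≤ ‖v‖ ^ 2 / 4 := fun v => by
    have : ‖y₀ v‖ ≤ ‖v‖ / 2 := by
      rw [hy₀, smul_apply, norm_smul, norm_inv, Complex.norm_two]
      have := y.le_of_opNorm_le h1 v
      linarith
    nlinarith [norm_nonneg (y₀ v)]
  have hq : ∀ v, (⟪v, (1 - y₀ * y₀) v⟫_ℂ).re = ‖v‖ ^ 2 - ‖y₀ v‖ ^ 2 := fun v => by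
    rw [sub_apply, inner_sub_right, mul_apply_eq_comp, Complex.sub_re]
    conv_lhs => arg 2; rw [← hs, inner_star_right, hs]
    simp only [inner_self_eq_norm_sq_to_K, one_apply_eq_self]
    norm_cast
  have h0 : 0 ≤ 1 - y₀ * y₀ := by
    rw [ContinuousLinearMap.nonneg_iff_isPositive, ContinuousLinearMap.isPositive_def']
    refine ⟨?_, fun v => ?_⟩
    · rw [IsSelfAdjoint, star_sub, star_one, star_mul, hs]
    · rw [ContinuousLinearMap.reApplyInnerSelf_apply, ← inner_conj_symm, RCLike.conj_re,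
        RCLike.re_to_complex, hq]
      nlinarith [hn v, sq_nonneg ‖v‖]
  obtain ⟨w, w0, ww, wn, wc⟩ := exists_sqrt h0
  refine ⟨w, w0, ww, fun v => ?_, fun x hx => wc x ?_⟩
  · rw [wn, hq]; linarith [hn v]
  · exact (Commute.one_left x).sub_left ((hx.smul_left _).mul_left (hx.smul_left _))

lemma letter_star {y w : H →L[ℂ] H} (hy : IsSelfAdjoint y) (w0 : 0 ≤ w) (c : ℂ) :
    star ((2⁻¹ : ℂ) • y + c • w) = (2⁻¹ : ℂ) • y + conj c • w := by
  rw [star_add, star_smul, star_smul, hy.star_eq, w0.isSelfAdjoint.star_eq]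
  simp

lemma letter_unitary {y w : H →L[ℂ] H} (hy : IsSelfAdjoint y) (w0 : 0 ≤ w)
    (ww : w * w = 1 - (2⁻¹ : ℂ) • y * (2⁻¹ : ℂ) • y) (hc : Commute w y) {c : ℂ} (h1 : conj c = -c)
    (h2 : c * c = -1) : (2⁻¹ : ℂ) • y + c • w ∈ unitary (H →L[ℂ] H) := by
  have h3 : w * ((2⁻¹ : ℂ) • y) = (2⁻¹ : ℂ) • y * w := (hc.smul_right _).eq
  rw [Unitary.mem_iff, letter_star hy w0, h1]
  generalize (2⁻¹ : ℂ) • y = y₀ at *
  constructor <;>
  · simp only [add_mul, mul_add, smul_mul_assoc, mul_smul_comm, h3, ww]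
    linear_combination (norm := module) h2 • (y₀ * y₀ - 1)

/-- PROOF.  `y₀ = y/2`, `z₀ = z/2`, `w = √(1 - y₀²) ∈ M`, `w' = √(1 - z₀²) ∈ M'` (`exists_sqrt`,
`mem_of_comm`), `u = y₀ + i w`, `u' = z₀ - i w'`.  `(w + w') (w - w') Ξ = -(y₀ + z₀) (y₀ - z₀) Ξ` and
`‖(w + w') v‖² = ‖w v‖² + ‖w' v‖² + 2 re ⟪v, w w' v⟫ ≥ (3/4 + 3/4) ‖v‖²` (`w w' ≥ 0`), so
`‖(w - w') Ξ‖ ≤ ‖(y₀ - z₀) Ξ‖`; `‖u u' Ξ - Ξ‖ = ‖u' Ξ - u* Ξ‖`. -/
theorem exists_letters {M : VonNeumannAlgebra H} {y z : H →L[ℂ] H} (hy : y ∈ M)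
    (hy' : IsSelfAdjoint y) (hy1 : ‖y‖ ≤ 1) (hz : z ∈ M.commutant) (hz' : IsSelfAdjoint z)
    (hz1 : ‖z‖ ≤ 1) (Ξ : H) :
    ∃ u u' : H →L[ℂ] H, u ∈ M ∧ u ∈ unitary (H →L[ℂ] H) ∧ u' ∈ M.commutant ∧
      u' ∈ unitary (H →L[ℂ] H) ∧ u + star u = y ∧ ‖u (u' Ξ) - Ξ‖ ≤ ‖y Ξ - z Ξ‖ ∧
      ‖star u (star u' Ξ) - Ξ‖ ≤ ‖y Ξ - z Ξ‖ := by
  obtain ⟨w, w0, ww, wn, wc⟩ := exists_cosqrt hy' hy1
  obtain ⟨w', w0', ww', wn', wc'⟩ := exists_cosqrt hz' hz1
  have hyz : Commute y z := comm_of_mem hy hz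
  have hwM : w ∈ M := mem_of_comm fun x hx => (wc x (comm_of_mem hy hx)).eq.symm
  have hwM' : w' ∈ M.commutant := VonNeumannAlgebra.mem_commutant_iff.2 fun x hx =>
    (wc' x (comm_of_mem hx hz).symm).eq.symm
  have hww : Commute w w' := comm_of_mem hwM hwM'
  set y₀ := (2⁻¹ : ℂ) • y with hy₀
  set z₀ := (2⁻¹ : ℂ) • z with hz₀
  have s1 := letter_star hy' w0
  have s2 := letter_star hz' w0'
  have hI : Complex.I * Complex.I = -1 := Complex.I_mul_I
  have hI' : -Complex.I * -Complex.I = -1 := by rw [neg_mul_neg, hI]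
  have u1 := letter_unitary hy' w0 ww (wc y rfl) (c := Complex.I) (by simp) hI
  have u2 := letter_unitary hz' w0' ww' (wc' z rfl) (c := -Complex.I) (by simp) hI'
  have key : ‖w Ξ - w' Ξ‖ ≤ ‖y₀ Ξ - z₀ Ξ‖ := by
    have e1 : (w + w') * (w - w') = -((y₀ + z₀) * (y₀ - z₀)) := by
      have : y₀ * z₀ = z₀ * y₀ := ((hyz.smul_left _).smul_right _).eq
      rw [add_mul, mul_sub, mul_sub, ww, ww', hww.eq, add_mul, mul_sub, mul_sub, this]
      abel
    have e2 : ‖(w + w') (w Ξ - w' Ξ)‖ ≤ ‖y₀ Ξ - z₀ Ξ‖ := by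
      have := congr($e1 Ξ)
      simp only [mul_apply_eq_comp, neg_apply, sub_apply] at this
      rw [this, norm_neg]
      refine ((y₀ + z₀).le_opNorm _).trans (mul_le_of_le_one_left (norm_nonneg _) ?_)
      refine (norm_add_le _ _).trans ?_
      rw [hy₀, hz₀, norm_smul, norm_smul, norm_inv, Complex.norm_two]
      linarith
    refine le_trans ?_ e2
    generalize w Ξ - w' Ξ = v
    refine (sq_le_sq₀ (norm_nonneg _) (norm_nonneg _)).1 ?_
    have h1 : 0 ≤ (⟪w v, w' v⟫_ℂ).re := by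
      have h2 := ((ContinuousLinearMap.nonneg_iff_isPositive _).1
        (hww.mul_nonneg w0 w0')).re_inner_nonneg_right v
      rwa [mul_apply_eq_comp, ← w0.isSelfAdjoint.star_eq, inner_star_right] at h2
    rw [add_apply, @norm_add_sq ℂ, RCLike.re_to_complex]
    nlinarith [wn v, wn' v, sq_nonneg ‖v‖]
  have hd : ‖y₀ Ξ - z₀ Ξ‖ + ‖y₀ Ξ - z₀ Ξ‖ = ‖y Ξ - z Ξ‖ := by
    rw [hy₀, hz₀, smul_apply, smul_apply, ← smul_sub, norm_smul, norm_inv, Complex.norm_two]
    ring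
  have fin : ∀ (U U' : H →L[ℂ] H) (c : ℂ), ‖c‖ = 1 → U ∈ unitary (H →L[ℂ] H) →
      star U = y₀ + c • w → U' = z₀ + c • w' → ‖U (U' Ξ) - Ξ‖ ≤ ‖y Ξ - z Ξ‖ := by
    intro U U' c hc hU h1 h2
    have e : U (U' Ξ) - Ξ = U (U' Ξ - star U Ξ) := by
      rw [map_sub, ← mul_apply_eq_comp U (star U), (Unitary.mem_iff.1 hU).2]; rfl
    have e' : U' Ξ - star U Ξ = -((y₀ Ξ - z₀ Ξ) + c • (w Ξ - w' Ξ)) := by
      rw [h1, h2, add_apply, add_apply, smul_apply, smul_apply, smul_sub]; abel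
    rw [e, ContinuousLinearMap.norm_map_of_mem_unitary hU, e', norm_neg, ← hd]
    refine (norm_add_le _ _).trans ?_
    rw [norm_smul, hc, one_mul]
    linarith
  refine ⟨y₀ + Complex.I • w, z₀ + (-Complex.I) • w',
    add_mem (M.toStarSubalgebra.smul_mem hy _) (M.toStarSubalgebra.smul_mem hwM _), u1,
    add_mem (M.commutant.toStarSubalgebra.smul_mem hz _)
      (M.commutant.toStarSubalgebra.smul_mem hwM' _), u2, ?_,
    fin _ _ (-Complex.I) (by simp) u1 (by rw [s1]; simp [hy₀]) rfl,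
    fin _ _ Complex.I (by simp) (Unitary.star_mem u1) (star_star _) (by rw [s2]; simp [hz₀])⟩
  rw [s1, hy₀]
  simp only [Complex.conj_I]
  module

/-- `∑ b i ⊗ c i = 0`: expand `b i` in a basis (`Module.Basis.ofVectorSpace`). -/
theorem sum_bilin_eq_zero {E V W : Type*} [AddCommGroup E] [Module ℂ E] [AddCommGroup V]
    [Module ℂ V] [AddCommGroup W] [Module ℂ W] {I : Type*} [Fintype I] (b : I → E) (c : I → V)
    (h : ∀ f : E →ₗ[ℂ] ℂ, ∑ i, f (b i) • c i = 0) (F : E →ₗ[ℂ] V →ₗ[ℂ] W) :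
    ∑ i, F (b i) (c i) = 0 := by
  classical
  let B := Module.Basis.ofVectorSpace ℂ E
  let s := Finset.univ.biUnion fun i => (B.repr (b i)).support
  have h1 : ∀ i, b i = ∑ k ∈ s, B.coord k (b i) • B k := fun i => by
    conv_lhs => rw [← B.linearCombination_repr (b i), Finsupp.linearCombination_apply]
    exact Finsupp.sum_of_support_subset _
      (Finset.subset_biUnion_of_mem (fun i => (B.repr (b i)).support) (Finset.mem_univ i)) _
      (by simp)
  calc ∑ i, F (b i) (c i) = ∑ i, ∑ k ∈ s, F (B k) (B.coord k (b i) • c i) := by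
        refine Finset.sum_congr rfl fun i _ => ?_
        conv_lhs => rw [h1 i]
        simp only [map_sum, map_smul, LinearMap.sum_apply, LinearMap.smul_apply]
    _ = 0 := by
        rw [Finset.sum_comm]
        exact Finset.sum_eq_zero fun k _ => by rw [← map_sum, h, map_zero]

/-- An operator vanishing on the cyclic subspaces (`mul_sp_eq_zero` twice). -/
theorem sp_mul_sp_eq_zero {N : VonNeumannAlgebra H} {ξ ζ : H} {x : H →L[ℂ] H}
    (h : ∀ n₁ ∈ N, ∀ n₂ ∈ N, ⟪n₁ ξ, x (n₂ ζ)⟫_ℂ = 0) :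
    sp {v | ∃ n ∈ N, v = n ξ} * x * sp {v | ∃ n ∈ N, v = n ζ} = 0 := by
  refine mul_sp_eq_zero ?_
  rintro _ ⟨n₂, hn₂, rfl⟩
  have h1 : (ContinuousLinearMap.toSpanSingleton ℂ ξ ∘L innerSL ℂ (x (n₂ ζ))) *
      sp {v | ∃ n ∈ N, v = n ξ} = 0 := by
    refine mul_sp_eq_zero ?_
    rintro _ ⟨n₁, hn₁, rfl⟩
    simp [inner_eq_zero_symm.1 (h n₁ hn₁ n₂ hn₂)]
  by_cases hξ : ξ = 0
  · have : sp {v | ∃ n ∈ N, v = n ξ} = 0 := by
      rw [← one_mul (sp _)]
      refine mul_sp_eq_zero ?_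
      rintro _ ⟨n, -, rfl⟩
      simp [hξ]
    simp [this]
  · refine ext_inner_left ℂ fun v => ?_
    have h2 := congr($h1 v)
    simp only [mul_apply_eq_comp, ContinuousLinearMap.comp_apply, innerSL_apply_apply,
      ContinuousLinearMap.toSpanSingleton_apply, zero_apply, smul_eq_zero, hξ, or_false] at h2
    rw [mul_apply_eq_comp, ← (sp_proj _).isSelfAdjoint.star_eq, inner_star_right, inner_zero_right,
      inner_eq_zero_symm, h2]

/-- A finite family of scalar unitary matrices with orthogonal entries.  PROOF.  Transport to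
`ZMod n`/`Fin n` by `Fintype.equivFin`; `G = I × (I → Bool)`, `u (s, ε) a i = if a = s + i then ± 1 else 0`;
`∑_ε ε i ε i' = 0` for `i ≠ i'` (flip one sign); `μ = 2^n`, `|G| = n 2^n`. -/
theorem exists_design (I : Type) [Fintype I] [DecidableEq I] [Nonempty I] :
    ∃ (G : Type) (_ : Fintype G) (u : G → Matrix I I ℂ) (μ : ℝ), Nonempty G ∧ 0 < μ ∧
      (∀ g, u g ∈ Matrix.unitaryGroup I ℂ) ∧
      ∀ a i c i', ∑ g, u g a i * conj (u g c i') = if a = c ∧ i = i' then (μ : ℂ) else 0 := by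
  classical
  obtain ⟨n, ⟨e⟩⟩ : ∃ n : ℕ, Nonempty (I ≃ Fin (n + 1)) := by
    obtain ⟨n, hn⟩ := Nat.exists_eq_succ_of_ne_zero (Fintype.card_ne_zero (α := I))
    exact ⟨n, ⟨Fintype.equivFinOfCardEq hn⟩⟩
  let sg : Bool → ℂ := fun b => if b then 1 else -1
  have sg2 : ∀ b, sg b * conj (sg b) = 1 := fun b => by cases b <;> simp [sg]
  let u : Fin (n + 1) × (I → Bool) → Matrix I I ℂ := fun g a i =>
    if e a = g.1 + e i then sg (g.2 i) else 0
  refine ⟨Fin (n + 1) × (I → Bool), inferInstance, u, Fintype.card (I → Bool), inferInstance,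
    Nat.cast_pos.2 Fintype.card_pos, fun g => ?_, fun a i c i' => ?_⟩
  · rw [Matrix.mem_unitaryGroup_iff']
    ext i i'
    simp only [Matrix.mul_apply, Matrix.star_apply]
    rw [Finset.sum_eq_single (e.symm (g.1 + e i))]
    · by_cases h : i = i'
      · subst h
        simpa [u, mul_comm] using sg2 (g.2 i)
      · simp [u, h]
    · intro a _ ha
      have : e a ≠ g.1 + e i := fun h => ha (by rw [← h]; simp)
      simp [u, this]
    · simp
  · rw [Fintype.sum_prod_type, Finset.sum_eq_single (e a - e i)]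
    · by_cases hi : i = i'
      · subst hi
        by_cases hc : a = c
        · subst hc
          simp [u, sg2]
        · simp [u, hc, Ne.symm hc]
      · rw [if_neg fun h => hi h.2]
        refine Finset.sum_involution (fun ε _ => Function.update ε i (!ε i)) (fun ε _ => ?_)
          (fun ε _ _ h => ?_) (fun _ _ => Finset.mem_univ _) (fun ε _ => ?_)
        · simp only [u, Function.update_self, Function.update_of_ne (Ne.symm hi), sub_add_cancel,
            if_true]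
          rw [← add_mul]
          cases ε i <;> simp [sg]
        · simpa using congrFun h i
        · simp
    · intro s _ hs
      have : e a ≠ s + e i := fun h => hs (by rw [h]; simp)
      simp [u, this]
    · simp

end Crest.Agent.R78
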