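import Crest.Agent.R78.Defs

/-! Row 78: the finite system of target vectors, and the Schur test. -/

set_option autoImplicit false
set_option linter.unusedSectionVars false
set_option linter.deprecated false

namespace Crest.Agent.R78

open Crest.Agent.R124
open scoped InnerProductSpace ComplexConjugate

lemma exists_chars {N : ℕ} (hN : 0 < N) : ∃ χ : Fin N → Fin N → ℂ, (∀ t k, ‖χ t k‖ = 1) ∧
    ∀ k l, ∑ t, conj (χ t k) * χ t l = if k = l then (N : ℂ) else 0 := by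
  have hω := Complex.isPrimitiveRoot_exp N hN.ne'
  set ω := Complex.exp (2 * Real.pi * Complex.I / N)
  have h1 : ‖ω‖ = 1 := hω.norm'_eq_one hN.ne'
  have h2 : ∀ k : ℕ, conj (ω ^ k) * ω ^ k = 1 := fun k => by
    rw [Complex.conj_mul', norm_pow, h1]; simp
  refine ⟨fun t k => (ω ^ (k : ℕ)) ^ (t : ℕ), fun t k => by simp [h1], fun k l => ?_⟩
  simp only [map_pow (starRingEnd ℂ) (ω ^ (k : ℕ)), ← mul_pow]
  split_ifs with h
  · subst h; simp only [h2]; simp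
  · rw [Fin.sum_univ_eq_sum_range (fun t => (conj (ω ^ (k : ℕ)) * ω ^ (l : ℕ)) ^ t), geom_sum_eq]
    · rw [mul_pow, ← map_pow, ← pow_mul, ← pow_mul, mul_comm _ N, mul_comm _ N, pow_mul, pow_mul,
        hω.pow_eq_one]
      simp
    · intro h3
      refine h (Fin.ext (hω.pow_inj k.2 l.2 ?_))
      calc ω ^ (k : ℕ) = ω ^ (k : ℕ) * (conj (ω ^ (k : ℕ)) * ω ^ (l : ℕ)) := by rw [h3, mul_one]
        _ = _ := by rw [← mul_assoc, mul_comm (ω ^ (k : ℕ)), h2, one_mul]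

lemma card_mod_le {D d : ℕ} (hD : d ≤ D) (j : ℕ) :
    (Finset.univ.filter fun i : Fin D => (i : ℕ) % d = j).card * d ≤ 2 * D := by
  have h1 : (Finset.univ.filter fun i : Fin D => (i : ℕ) % d = j).card ≤
      (Finset.range (D / d + 1)).card := by
    refine Finset.card_le_card_of_injOn (fun i => (i : ℕ) / d) (fun i _ => ?_) fun i hi i' hi' h => ?_
    · simp only [Finset.coe_range, Set.mem_Iio]
      exact Nat.lt_succ_of_le (Nat.div_le_div_right i.2.le)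
    · simp only [Finset.coe_filter, Set.mem_setOf_eq] at hi hi'
      refine Fin.ext ?_
      rw [← Nat.div_add_mod i d, ← Nat.div_add_mod i' d, hi.2, hi'.2]
      exact congrArg (fun x => d * x + j) h
  rw [Finset.card_range] at h1
  have h2 := Nat.div_mul_le_self D d
  calc _ ≤ (D / d + 1) * d := Nat.mul_le_mul_right _ h1
    _ ≤ _ := by rw [add_mul]; omega

/-- PROOF.  `d k = ⌈q^k⌉₊ ≥ 1`, `D = d N`, `𝔸 = Σ k : Fin N, Fin (d k)`, `𝕋 = ZMod N × Fin D` (or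
`Fin N × Fin D`), `Z = ∑ k, d k / q^k ∈ [N, 2 N]`, `w (t, i) ⟨k, i'⟩ = if i' = i % d k then ω^(k t) else 0`
with `ω` a primitive `N`-th root of unity (orthogonality of characters), `m ⟨k, i'⟩ = N #{i < D | i % d k = i'}
≤ N (D / d k + 1) ≤ 2 N D / d k`, and `Z q^k ≤ 2 N d k`. -/
theorem exists_targets {N : ℕ} (hN : 0 < N) {q : ℝ} (hq : 1 ≤ q) :
    ∃ (𝔸 𝕋 : Type) (_ : Fintype 𝔸) (_ : DecidableEq 𝔸) (_ : Fintype 𝕋) (lev : 𝔸 → Fin N) (Z : ℝ)
      (w : 𝕋 → 𝔸 → ℂ) (m : 𝔸 → ℝ), Nonempty 𝔸 ∧ Nonempty 𝕋 ∧ (N : ℝ) ≤ Z ∧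
      (Fintype.card 𝕋 : ℝ) ≤ N * (q ^ N + 1) ∧ ∑ a, (q ^ (lev a : ℕ))⁻¹ / Z = 1 ∧
      (∀ τ a, w τ a = 0 ∨ ‖w τ a‖ = 1) ∧
      (∀ τ (F : Fin N → ℝ), ∑ a, ‖w τ a‖ ^ 2 * F (lev a) = ∑ k, F k) ∧
      (∀ a a', ∑ τ, conj (w τ a) * w τ a' = if a = a' then (m a : ℂ) else 0) ∧
      ∀ a, m a * (Z * q ^ (lev a : ℕ)) ≤ 4 * N * Fintype.card 𝕋 := by
  classical
  obtain ⟨χ, hχ1, hχ⟩ := exists_chars hN
  have hq0 : 0 < q := one_pos.trans_le hq
  let d : ℕ → ℕ := fun k => ⌈q ^ k⌉₊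
  have hd0 : ∀ k, 0 < d k := fun k => Nat.ceil_pos.mpr (by positivity)
  have hd1 : ∀ k, q ^ k ≤ d k := fun k => Nat.le_ceil _
  have hd2 : ∀ k, (d k : ℝ) ≤ q ^ k + 1 := fun k => (Nat.ceil_lt_add_one (by positivity)).le
  have hd3 : ∀ k : Fin N, d k ≤ d N := fun k => Nat.ceil_mono (pow_le_pow_right₀ hq k.2.le)
  let sel : Fin (d N) → (k : Fin N) → Fin (d k) := fun i k => ⟨i % d k, Nat.mod_lt _ (hd0 k)⟩
  set Z : ℝ := ∑ k : Fin N, d k * (q ^ (k : ℕ))⁻¹ with hZ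
  have hZ1 : (N : ℝ) ≤ Z := by
    calc (N : ℝ) = ∑ _k : Fin N, (1 : ℝ) := by simp
      _ ≤ Z := Finset.sum_le_sum fun k _ => by
        rw [← div_eq_mul_inv, le_div_iff₀ (by positivity), one_mul]; exact hd1 k
  have hZ2 : Z ≤ 2 * N := by
    calc Z ≤ ∑ _k : Fin N, (2 : ℝ) := Finset.sum_le_sum fun k _ => by
          rw [← div_eq_mul_inv, div_le_iff₀ (by positivity)]
          have := one_le_pow₀ (n := k) hq
          linarith [hd2 k]
      _ = _ := by simp [mul_comm]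
  have hN' : (0 : ℝ) < N := by exact_mod_cast hN
  refine ⟨Σ k : Fin N, Fin (d k), Fin N × Fin (d N), inferInstance, inferInstance, inferInstance,
    fun a => a.1, Z, fun τ a => if sel τ.2 a.1 = a.2 then χ τ.1 a.1 else 0,
    fun a => N * (Finset.univ.filter fun i : Fin (d N) => (i : ℕ) % d a.1 = a.2).card,
    ⟨⟨⟨0, hN⟩, ⟨0, hd0 _⟩⟩⟩, ⟨⟨⟨0, hN⟩, ⟨0, hd0 _⟩⟩⟩, hZ1, ?_, ?_, fun τ a => ?_, fun τ F => ?_,
    ?_, fun a => ?_⟩
  · simp only [Fintype.card_prod, Fintype.card_fin, Nat.cast_mul]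
    exact mul_le_mul_of_nonneg_left (hd2 N) hN'.le
  · rw [← Finset.sum_div, div_eq_one_iff_eq (hN'.trans_le hZ1).ne', Fintype.sum_sigma, hZ]
    simp
  · beta_reduce
    split_ifs
    exacts [Or.inr (hχ1 _ _), Or.inl rfl]
  · rw [Fintype.sum_sigma]
    refine Finset.sum_congr rfl fun k _ => ?_
    rw [Finset.sum_eq_single (sel τ.2 k) (fun j _ hj => by simp [Ne.symm hj]) (by simp)]
    simp [hχ1]
  · rintro ⟨k, i⟩ ⟨l, j⟩
    rw [Fintype.sum_prod_type_right]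
    have e : ∀ x : Fin (d N), ∑ t, conj (if sel x k = i then χ t k else 0) *
        (if sel x l = j then χ t l else 0) =
        if sel x k = i ∧ sel x l = j then (if k = l then (N : ℂ) else 0) else 0 := fun x => by
      rw [← hχ k l]
      by_cases h1 : sel x k = i <;> by_cases h2 : sel x l = j <;> simp [h1, h2]
    simp only [e]
    by_cases hkl : k = l
    · subst hkl
      by_cases hij : i = j
      · subst hij
        simp only [and_self, if_true]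
        rw [← Finset.sum_filter, Finset.sum_const, nsmul_eq_mul, mul_comm]
        push_cast
        congr 3
        ext x
        simp [sel, Fin.ext_iff]
      · rw [if_neg (c := (⟨k, i⟩ : Σ k : Fin N, Fin (d k)) = ⟨k, j⟩) (by simpa using hij)]
        exact Finset.sum_eq_zero fun x _ => if_neg fun h => hij (h.1.symm.trans h.2)
    · rw [if_neg fun h => hkl (congrArg Sigma.fst h)]
      simp [hkl]
  · have h1 : ((Finset.univ.filter fun i : Fin (d N) => (i : ℕ) % d a.1 = a.2).card : ℝ) * d a.1 ≤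
        2 * d N := by exact_mod_cast card_mod_le (hd3 a.1) a.2
    simp only [Fintype.card_prod, Fintype.card_fin, Nat.cast_mul]
    calc _ ≤ N * (Finset.univ.filter fun i : Fin (d N) => (i : ℕ) % d a.1 = a.2).card *
          (2 * N * d a.1 : ℝ) := by gcongr; exact hd1 _
      _ = 2 * N * N * ((Finset.univ.filter fun i : Fin (d N) => (i : ℕ) % d a.1 = a.2).card *
          d a.1 : ℝ) := by ring
      _ ≤ 2 * N * N * (2 * d N : ℝ) := by gcongr
      _ = _ := by ring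

variable {H : Type*} [NormedAddCommGroup H] [InnerProductSpace ℂ H] [CompleteSpace H]
  {I : Type*} [Fintype I] [DecidableEq I]

/-- Schur test: `‖∑_j m i j ζ j‖² ≤ (∑_j ‖m i j‖) ∑_j ‖m i j‖ ‖ζ j‖²`. -/
theorem schur (m : I → I → ℂ) {c : ℝ} (hc : 0 ≤ c) (hr : ∀ i, ∑ j, ‖m i j‖ ≤ c)
    (hl : ∀ j, ∑ i, ‖m i j‖ ≤ c) : ‖mat fun i j => m i j • (1 : H →L[ℂ] H)‖ ≤ c := by
  refine ContinuousLinearMap.opNorm_le_bound _ hc fun v => ?_
  refine (sq_le_sq₀ (norm_nonneg _) (by positivity)).mp ?_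
  rw [HH.norm_sq, mul_pow, HH.norm_sq]
  calc _ ≤ ∑ i, c * ∑ j, ‖m i j‖ * ‖v j‖ ^ 2 := Finset.sum_le_sum fun i _ => by
        rw [mat_apply]
        have h1 : ‖∑ j, (m i j • (1 : H →L[ℂ] H)) (v j)‖ ≤ ∑ j, √‖m i j‖ * (√‖m i j‖ * ‖v j‖) :=
          (norm_sum_le _ _).trans (le_of_eq (Finset.sum_congr rfl fun j _ => by
            rw [← mul_assoc, Real.mul_self_sqrt (norm_nonneg _)]; simp [norm_smul]))
        refine (pow_le_pow_left₀ (norm_nonneg _) h1 2).trans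
          ((Finset.sum_mul_sq_le_sq_mul_sq _ _ _).trans ?_)
        simp only [mul_pow, Real.sq_sqrt (norm_nonneg _)]
        exact mul_le_mul_of_nonneg_right (hr i) (Finset.sum_nonneg fun _ _ => by positivity)
    _ = c * ∑ j, (∑ i, ‖m i j‖) * ‖v j‖ ^ 2 := by
        rw [← Finset.mul_sum, Finset.sum_comm]
        simp only [Finset.sum_mul]
    _ ≤ c * ∑ j, c * ‖v j‖ ^ 2 := by gcongr with j; exact hl j
    _ = _ := by rw [← Finset.mul_sum]; ring

/-- Orthogonal columns: `∑_τ ‖∑_a v τ a • η a‖² = ∑_a μ a ‖η a‖²`. -/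
theorem sum_norm_sq_orth {𝕋 : Type*} [Fintype 𝕋] (v : 𝕋 → I → ℂ) (μ : I → ℝ)
    (h : ∀ a a', ∑ τ, conj (v τ a) * v τ a' = if a = a' then (μ a : ℂ) else 0) (η : I → H) :
    ∑ τ, ‖∑ a, v τ a • η a‖ ^ 2 = ∑ a, μ a * ‖η a‖ ^ 2 := by
  have h1 : ∀ x : H, ((‖x‖ ^ 2 : ℝ) : ℂ) = ⟪x, x⟫_ℂ := fun x => by
    rw [inner_self_eq_norm_sq_to_K]; norm_cast
  have h2 : ((∑ τ, ‖∑ a, v τ a • η a‖ ^ 2 : ℝ) : ℂ) = ((∑ a, μ a * ‖η a‖ ^ 2 : ℝ) : ℂ) := by
    simp only [Complex.ofReal_sum, Complex.ofReal_mul, h1, sum_inner, inner_sum, inner_smul_left,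
      inner_smul_right, Finset.mul_sum]
    rw [Finset.sum_comm]
    refine Finset.sum_congr rfl fun a' _ => ?_
    rw [Finset.sum_comm]
    have e : ∀ a, ∑ τ, v τ a' * (conj (v τ a) * ⟪η a, η a'⟫_ℂ) =
        (if a = a' then (μ a : ℂ) else 0) * ⟪η a, η a'⟫_ℂ := fun a => by
      rw [← h, Finset.sum_mul]
      exact Finset.sum_congr rfl fun τ _ => by ring
    simp [e]
  exact_mod_cast h2

/-- `(w a conj (w b) y)` is positive for positive `y`: `⟪η, · η⟫ = ⟪v, y v⟫`, `v = ∑ conj (w b) • η b`. -/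
theorem mat_rank_one_nonneg (w : I → ℂ) {y : H →L[ℂ] H} (hy : 0 ≤ y) :
    0 ≤ mat fun a b => (w a * conj (w b)) • y := by
  obtain ⟨R, h0, hR, -⟩ := exists_sqrt hy
  rcases isEmpty_or_nonempty I with hI | ⟨⟨a₀⟩⟩
  · exact le_of_eq (ext_ent fun i => isEmptyElim i)
  have e : (mat fun a b => (w a * conj (w b)) • y) =
      star (mat fun a b => if a = a₀ then conj (w b) • R else 0) *
        mat fun a b => if a = a₀ then conj (w b) • R else 0 := by
    rw [star_mat, mat_mul]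
    congr 1
    funext a b
    rw [Finset.sum_eq_single a₀ (fun k _ hk => by simp [hk]) (by simp)]
    simp [h0.isSelfAdjoint.star_eq, hR, smul_smul, mul_comm]
  rw [e]
  exact star_mul_self_nonneg _

theorem dg_nonneg {y : H →L[ℂ] H} (hy : 0 ≤ y) : 0 ≤ dg I y := by
  obtain ⟨R, h0, hR, -⟩ := exists_sqrt hy
  have e : dg I y = star (dg I R) * dg I R := by
    rw [← dg_star, ← dg_mul, h0.isSelfAdjoint.star_eq, hR]
  rw [e]
  exact star_mul_self_nonneg _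

/-- If `-Y ≤ X ≤ Y` then `‖X‖ ≤ ‖Y‖`. -/
theorem norm_le_of_neg_le {X Y : H →L[ℂ] H} (h1 : 0 ≤ Y - X) (h2 : 0 ≤ Y + X) : ‖X‖ ≤ ‖Y‖ := by
  have hY : IsSelfAdjoint Y := by
    have := (IsSelfAdjoint.all (2⁻¹ : ℝ)).smul (h1.isSelfAdjoint.add h2.isSelfAdjoint)
    rwa [show (2⁻¹ : ℝ) • (Y - X + (Y + X)) = Y by module] at this
  have hX : IsSelfAdjoint X := by
    have := hY.sub h1.isSelfAdjoint
    rwa [sub_sub_cancel] at this
  have h3 : X ≤ algebraMap ℝ _ ‖Y‖ := (sub_nonneg.mp h1).trans hY.le_algebraMap_norm_self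
  have h4 : -X ≤ algebraMap ℝ _ ‖Y‖ :=
    (sub_nonneg.mp (by rwa [sub_neg_eq_add])).trans hY.le_algebraMap_norm_self
  rcases subsingleton_or_nontrivial (H →L[ℂ] H) with h | h
  · rw [Subsingleton.elim X Y]
  rcases CStarAlgebra.norm_or_neg_norm_mem_spectrum hX with h5 | h5
  · exact (le_algebraMap_iff_spectrum_le (R := ℝ) hX).mp h3 _ h5
  · have := (algebraMap_le_iff_le_spectrum (R := ℝ) (r := -‖Y‖) hX).mp
      (by rw [map_neg]; exact neg_le.mp h4) _ h5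
    linarith

end Crest.Agent.R78
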