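import Crest.Agent.R78.Dist
import Crest.Agent.R78.Lett
import Crest.Agent.R78.Targ

/-! Row 78: from the cyclic key inequality to a completely close linear map. -/

set_option autoImplicit false
set_option linter.unusedSectionVars false
set_option linter.deprecated false

namespace Crest.Agent.R78

open Crest.Agent.R124 Crest.Agent.R121
open scoped InnerProductSpace ComplexConjugate

variable {H : Type*} [NormedAddCommGroup H] [InnerProductSpace ℂ H] [CompleteSpace H]
  {M N : VonNeumannAlgebra H} {κ : ℝ}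

lemma sq2_nonneg {I : Type*} [Fintype I] (θ : I → H) : 0 ≤ sq2 θ :=
  Finset.sum_nonneg fun _ _ => sq_nonneg _

lemma sq2_smul {I : Type*} [Fintype I] (c : ℝ) (θ : I → H) :
    sq2 (fun i => (c : ℂ) • θ i) = c ^ 2 * sq2 θ := by
  simp only [sq2, norm_smul, mul_pow, Complex.norm_real, Real.norm_eq_abs, sq_abs, Finset.mul_sum]

lemma ki_sa_one (h : ∀ (I : Type) [Fintype I] [DecidableEq I], KIc (dgA M I) (dgA N I) κ)
    (I : Type) [Fintype I] (b : I → H →L[ℂ] H) (θ θ' : I → H)
    (hb : ∀ i, b i ∈ M ∧ IsSelfAdjoint (b i) ∧ ‖b i‖ ≤ 1) (hrel : Rel N b θ θ')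
    (h1 : sq2 θ + sq2 θ' ≤ 1) : ‖∑ i, ⟪θ' i, b i (θ i)⟫_ℂ‖ ≤ κ := by
  classical
  let Ω : HH (I ⊕ I) H := WithLp.toLp 2 (Sum.elim θ θ')
  let E : I → HH (I ⊕ I) H →L[ℂ] HH (I ⊕ I) H := fun i =>
    mat fun p q => if p = Sum.inl i ∧ q = Sum.inl i then 1 else 0
  let R : HH (I ⊕ I) H →L[ℂ] HH (I ⊕ I) H :=
    mat fun p q => Sum.elim (fun i => if q = Sum.inr i then 1 else 0) (fun _ => 0) p
  have hE : ∀ i v, E i v = inj (Sum.inl i) (v (Sum.inl i)) := fun i v => by
    ext p
    simp only [E, mat_apply, inj_apply]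
    rw [Finset.sum_eq_single (Sum.inl i)]
    · by_cases hp : p = Sum.inl i <;> simp [hp]
    · intro j _ hj
      simp [hj]
    · simp
  have hR1 : ∀ v i, R v (Sum.inl i) = v (Sum.inr i) := fun v i => by
    simp only [R, mat_apply, Sum.elim_inl]
    rw [Finset.sum_eq_single (Sum.inr i)]
    · simp
    · intro j _ hj
      simp [hj]
    · simp
  have hR2 : ∀ v i, R v (Sum.inr i) = 0 := fun v i => by
    simp [R]
  have hcc : ∀ x : I ⊕ I → I ⊕ I → H →L[ℂ] H, (∀ p q, x p q = 1 ∨ x p q = 0) →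
      Cc (dgA M (I ⊕ I)) (dgA N (I ⊕ I)) (mat x) := fun x hx => by
    constructor <;> rw [commutant_dgA] <;> refine mat_mem_amp fun p q => ?_ <;>
      rcases hx p q with h' | h' <;> rw [h']
    exacts [one_mem _, zero_mem _, one_mem _, zero_mem _]
  have hin : ∀ (x : H →L[ℂ] H) i, ⟪R Ω, dg (I ⊕ I) x (E i ((1 : HH (I ⊕ I) H →L[ℂ] _) Ω))⟫_ℂ =
      ⟪θ' i, x (θ i)⟫_ℂ := fun x i => by
    rw [ContinuousLinearMap.one_apply, hE, dg_inj, inner_inj_right, hR1]
    rfl
  have key := h (I ⊕ I) I Ω (fun i => dg (I ⊕ I) (b i)) E 1 R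
    (by
      refine (sq_le_one_iff₀ (norm_nonneg _)).mp ?_
      rw [HH.norm_sq, Fintype.sum_sum_type]
      exact h1)
    (fun i => ⟨dg_mem_dgA (hb i).1, by rw [IsSelfAdjoint, ← dg_star, (hb i).2.1.star_eq],
      (norm_dg_le _).trans (hb i).2.2⟩)
    (fun i => ⟨hcc _ fun p q => by split_ifs <;> simp, by
      constructor
      · ext1 v
        rw [ContinuousLinearMap.mul_apply, hE, hE, inj_apply, if_pos rfl]
      · rw [IsSelfAdjoint, star_mat]
        congr 1
        funext p q
        by_cases h1 : p = Sum.inl i <;> by_cases h2 : q = Sum.inl i <;> simp [h1, h2]⟩)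
    (fun i j hij => by
      ext1 v
      rw [ContinuousLinearMap.mul_apply, hE, hE, inj_apply, if_neg (by simpa using hij), map_zero,
        ContinuousLinearMap.zero_apply])
    ⟨one_mem _, one_mem _⟩
    (hcc _ fun p q => by
      rcases p with i | i
      · simp only [Sum.elim_inl]; split_ifs <;> simp
      · simp)
    ContinuousLinearMap.norm_id_le
    (by
      refine ContinuousLinearMap.opNorm_le_bound _ zero_le_one fun v => ?_
      rw [one_mul]
      refine (sq_le_sq₀ (norm_nonneg _) (norm_nonneg _)).mp ?_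
      rw [HH.norm_sq, HH.norm_sq, Fintype.sum_sum_type, Fintype.sum_sum_type]
      simp only [hR1, hR2, norm_zero, ne_eq, OfNat.ofNat_ne_zero, not_false_eq_true, zero_pow,
        Finset.sum_const_zero, add_zero]
      exact le_add_of_nonneg_left (Finset.sum_nonneg fun _ _ => sq_nonneg _))
    (by
      intro f n hn
      obtain ⟨x, hx, rfl, -⟩ := mem_dgA.mp hn
      simp only [hin]
      exact hrel (f ∘ₗ (dgH (I ⊕ I) H).toAlgHom.toLinearMap) x hx)
  simpa only [hin] using key

lemma ki_sa (hκ : 0 ≤ κ) (h : ∀ (I : Type) [Fintype I] [DecidableEq I], KIc (dgA M I) (dgA N I) κ)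
    (I : Type) [Fintype I] (b : I → H →L[ℂ] H) (θ θ' : I → H)
    (hb : ∀ i, b i ∈ M ∧ IsSelfAdjoint (b i) ∧ ‖b i‖ ≤ 1) (hrel : Rel N b θ θ') :
    ‖∑ i, ⟪θ' i, b i (θ i)⟫_ℂ‖ ≤ κ * (sq2 θ + sq2 θ') := by
  have h0 := sq2_nonneg θ
  have h0' := sq2_nonneg θ'
  rcases (add_nonneg h0 h0').eq_or_lt with hS | hS
  · have h1 : sq2 θ = 0 := by linarith
    have h2 : ∀ i, θ i = 0 := fun i => by
      have := (Finset.sum_eq_zero_iff_of_nonneg fun i _ => sq_nonneg ‖θ i‖).mp h1 i
        (Finset.mem_univ i)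
      simpa using this
    simp only [h2, map_zero, inner_zero_right, Finset.sum_const_zero, norm_zero]
    positivity
  · set S := sq2 θ + sq2 θ' with hSd
    have hc : ((√S)⁻¹) ^ 2 = S⁻¹ := by rw [inv_pow, Real.sq_sqrt hS.le]
    have hsum : ∀ x : I → H →L[ℂ] H, ∀ i,
        ⟪(((√S)⁻¹ : ℝ) : ℂ) • θ' i, x i ((((√S)⁻¹ : ℝ) : ℂ) • θ i)⟫_ℂ =
          ((S⁻¹ : ℝ) : ℂ) * ⟪θ' i, x i (θ i)⟫_ℂ := fun x i => by
      rw [map_smul, inner_smul_left, inner_smul_right, Complex.conj_ofReal, ← mul_assoc,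
        ← Complex.ofReal_mul, ← sq, hc]
    have key := ki_sa_one h I b (fun i => (((√S)⁻¹ : ℝ) : ℂ) • θ i)
      (fun i => (((√S)⁻¹ : ℝ) : ℂ) • θ' i) hb (by
        intro f n hn
        have := hrel f n hn
        simp only [hsum fun _ => n]
        simp only [mul_left_comm _ ((S⁻¹ : ℝ) : ℂ), ← Finset.mul_sum, this, mul_zero]) (by
        rw [sq2_smul, sq2_smul, ← mul_add, hc, inv_mul_cancel₀ hS.ne'])
    simp only [hsum b, ← Finset.mul_sum, norm_mul, Complex.norm_real, Real.norm_eq_abs,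
      abs_of_pos (inv_pos.mpr hS)] at key
    rwa [inv_mul_le_iff₀ hS, mul_comm] at key

/-- PROOF.  First for self-adjoint `b i`, with constant `κ`: scale so that `sq2 θ + sq2 θ' = 1` (if it is
`0` all vectors vanish).  On `HH (I ⊕ I) H`, `Ω = (θ, θ')`, algebras `dgA M`, `dgA N`, `dg (b i)`.  All of
`E i` = projection onto the coordinate `inl i`, `R₀` = projection onto the `inl` coordinates,
`R₁` = `(R₁ v) (inl i) = v (inr i)`, `(R₁ v) (inr i) = 0` are `mat`s of scalars (`commutant_dgA`,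
`mat_mem_amp`); `⟪R₁ Ω, dg x (E i (R₀ Ω))⟫ = ⟪θ' i, x (θ i)⟫`; `f ∘ dg` is linear.  General `b i`: the
family over `I ⊕ I` (or `I × Bool`) `(Re b i, θ i, θ' i)`, `(Im b i, i θ i, θ' i)` satisfies `Rel` since
`f (Re b) + i f (Im b) = f b`, and has the same sum. -/
theorem ki_of_kic (hκ : 0 ≤ κ)
    (h : ∀ (I : Type) [Fintype I] [DecidableEq I], KIc (dgA M I) (dgA N I) κ) : KI M N (2 * κ) := by
  intro I _ b θ θ' hb hrel
  have hre : ∀ i, (realPart (b i) : H →L[ℂ] H) ∈ M := fun i => by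
    rw [realPart_apply_coe, ← Complex.coe_smul]
    exact smul_mem_vn (add_mem (hb i).1 (star_mem (hb i).1)) _
  have him : ∀ i, (imaginaryPart (b i) : H →L[ℂ] H) ∈ M := fun i => by
    rw [imaginaryPart_apply_coe, ← Complex.coe_smul]
    exact smul_mem_vn (smul_mem_vn (sub_mem (hb i).1 (star_mem (hb i).1)) _) _
  have key := ki_sa hκ h (I ⊕ I)
    (Sum.elim (fun i => (realPart (b i) : H →L[ℂ] H)) fun i => (imaginaryPart (b i) : H →L[ℂ] H))
    (Sum.elim θ fun i => Complex.I • θ i) (Sum.elim θ' θ') (by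
      rintro (i | i)
      · exact ⟨hre i, (realPart (b i)).2, (realPart.norm_le (b i)).trans (hb i).2⟩
      · exact ⟨him i, (imaginaryPart (b i)).2, (imaginaryPart.norm_le (b i)).trans (hb i).2⟩) (by
      intro f n hn
      rw [Fintype.sum_sum_type, ← Finset.sum_add_distrib, ← hrel f n hn]
      refine Finset.sum_congr rfl fun i _ => ?_
      simp only [Sum.elim_inl, Sum.elim_inr, map_smul, inner_smul_right]
      conv_rhs => rw [← realPart_add_I_smul_imaginaryPart (b i)]
      rw [map_add, map_smul, smul_eq_mul]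
      ring)
  have e1 : ∑ p : I ⊕ I, ⟪Sum.elim θ' θ' p, (Sum.elim (fun i => (realPart (b i) : H →L[ℂ] H))
      (fun i => (imaginaryPart (b i) : H →L[ℂ] H)) p)
        (Sum.elim θ (fun i => Complex.I • θ i) p)⟫_ℂ = ∑ i, ⟪θ' i, b i (θ i)⟫_ℂ := by
    rw [Fintype.sum_sum_type, ← Finset.sum_add_distrib]
    refine Finset.sum_congr rfl fun i _ => ?_
    simp only [Sum.elim_inl, Sum.elim_inr, map_smul]
    conv_rhs => rw [← realPart_add_I_smul_imaginaryPart (b i)]
    rw [ContinuousLinearMap.add_apply, inner_add_right, ContinuousLinearMap.smul_apply]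
  have e2 : sq2 (Sum.elim θ fun i => Complex.I • θ i) = 2 * sq2 θ := by
    simp only [sq2, Fintype.sum_sum_type, Sum.elim_inl, Sum.elim_inr, norm_smul, Complex.norm_I,
      one_mul]
    ring
  have e3 : sq2 (Sum.elim θ' θ') = 2 * sq2 θ' := by
    simp only [sq2, Fintype.sum_sum_type, Sum.elim_inl, Sum.elim_inr]
    ring
  rw [e1, e2, e3] at key
  linarith

lemma design_sum {G P : Type*} [Fintype G] [Fintype P] [DecidableEq P] {U : G → P → ℂ} {μ : ℂ}
    (h : ∀ p p', ∑ g, U g p * conj (U g p') = if p = p' then μ else 0) (x y : P → ℂ) :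
    ∑ g, (∑ p, U g p * x p) * ∑ p, conj (U g p) * y p = μ * ∑ p, x p * y p := by
  have : ∀ g, (∑ p, U g p * x p) * ∑ p, conj (U g p) * y p =
      ∑ p, ∑ p', U g p * conj (U g p') * (x p * y p') := fun g => by
    rw [Finset.sum_mul_sum]
    exact Finset.sum_congr rfl fun p _ => Finset.sum_congr rfl fun p' _ => by ring
  simp only [this]
  rw [Finset.sum_comm, Finset.mul_sum]
  refine Finset.sum_congr rfl fun p _ => ?_
  rw [Finset.sum_comm]
  simp only [← Finset.sum_mul, h, ite_mul, zero_mul, Finset.sum_ite_eq, Finset.mem_univ, if_true]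

/-- PROOF.  `I` nonempty w.l.o.g.; `exists_design`; `û g = mat fun a i => u g a i • 1` (unitary on
`HH I H`, in `amp M I`).  Apply `KI` for `amp M I`, `amp N I` to the family over `(g, g') ∈ G × G`:
`b = û g * mat B * (û g')*`, `θ = û g' Θ`, `θ' = û g Θ'`.  All terms are equal; `Rel`: expand, the design
identity leaves `μ² ∑_{a,b} ∑_{i,j} F (e_ab ⊗ B i j) ⟪Θ' i, n_ab Θ j⟫ = 0`. -/
theorem kim_of_ki (hκ : 0 ≤ κ)
    (h : ∀ (I : Type) [Fintype I] [DecidableEq I], KI (amp M I) (amp N I) κ) : KIm M N κ := by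
  intro I _ B Θ Θ' hB hc hrel
  classical
  rcases isEmpty_or_nonempty I with hI | hI
  · simp [sq2]
  obtain ⟨G, _, u, μ, hG, hμ, hu, hd⟩ := exists_design I
  let U : G → HH I H →L[ℂ] HH I H := fun g => mat fun a i => u g a i • (1 : H →L[ℂ] H)
  have hU1 : ∀ g, star (U g) * U g = 1 := fun g => by
    have h1 := Matrix.mem_unitaryGroup_iff'.mp (hu g)
    refine ext_ent fun i j => ?_
    have h2 := congrFun (congrFun h1 i) j
    simp only [Matrix.mul_apply, Matrix.star_apply, Matrix.one_apply] at h2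
    simp only [U, star_mat, mat_mul, ent_mat, ent_one, star_smul, star_one, smul_mul_smul_comm,
      mul_one, ← Finset.sum_smul, h2]
    split_ifs <;> simp
  have hUn : ∀ g v, ‖U g v‖ = ‖v‖ := fun g v => by
    refine (sq_eq_sq₀ (norm_nonneg _) (norm_nonneg _)).mp ?_
    rw [norm_sq_eq_inner, hU1, ContinuousLinearMap.one_apply, inner_self_eq_norm_sq_to_K]
    norm_cast
  have hUle : ∀ g, ‖U g‖ ≤ 1 := fun g =>
    ContinuousLinearMap.opNorm_le_bound _ zero_le_one fun v => by rw [hUn, one_mul]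
  have hUm : ∀ g, U g ∈ amp M I := fun g => mat_mem_amp fun _ _ => smul_mem_vn (one_mem _) _
  let V : HH I H := WithLp.toLp 2 Θ
  let V' : HH I H := WithLp.toLp 2 Θ'
  have key := h I (G × G) (fun g => U g.1 * mat B * star (U g.2)) (fun g => U g.2 V)
    (fun g => U g.1 V') (fun g => ⟨mul_mem (mul_mem (hUm _) (mat_mem_amp hB)) (star_mem (hUm _)), by
      have h1 := contr_iff.mp hc
      calc ‖U g.1 * mat B * star (U g.2)‖ ≤ ‖U g.1‖ * ‖mat B‖ * ‖star (U g.2)‖ :=
            (norm_mul_le _ _).trans (mul_le_mul_of_nonneg_right (norm_mul_le _ _) (norm_nonneg _))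
        _ ≤ 1 * 1 * 1 := by
            have hs : ‖star (U g.2)‖ ≤ 1 := (norm_star (U g.2)).le.trans (hUle _)
            gcongr
            exact hUle _
        _ = 1 := by norm_num⟩) (by
      intro F n hn
      let e : I → I → (H →L[ℂ] H) →ₗ[ℂ] (HH I H →L[ℂ] HH I H) := fun a b =>
        { toFun := fun y => mat fun p q => if p = a ∧ q = b then y else 0
          map_add' := fun y y' => ext_ent fun p q => by
            simp only [ent_add, ent_mat]; split_ifs <;> simp
          map_smul' := fun c y => ext_ent fun p q => by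
            simp only [ent_smul, ent_mat, RingHom.id_apply]; split_ifs <;> simp }
      have e1 : ∀ g g', U g * mat B * star (U g') = ∑ p : I × I, u g p.1 p.2 •
          ∑ q : I × I, conj (u g' q.1 q.2) • e p.1 q.1 (B p.2 q.2) := fun g g' => by
        refine ext_ent fun a b => ?_
        simp only [U, star_mat, mat_mul, ent_mat, ent_sum, ent_smul, e, LinearMap.coe_mk,
          AddHom.coe_mk, Fintype.sum_prod_type, star_smul, star_one, smul_mul_assoc, one_mul,
          mul_smul_comm, mul_one, RCLike.star_def, ite_and, smul_ite, smul_zero,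
          Finset.sum_ite_irrel, Finset.sum_const_zero, Finset.sum_ite_eq, Finset.mem_univ, if_true]
        simp only [Finset.smul_sum]
        rw [Finset.sum_comm]
        exact Finset.sum_congr rfl fun i _ => Finset.sum_congr rfl fun j _ => smul_comm _ _ _
      have e2 : ∀ g g', ⟪U g V', n (U g' V)⟫_ℂ = ∑ p : I × I, conj (u g p.1 p.2) *
          ∑ q : I × I, u g' q.1 q.2 * ⟪Θ' p.2, ent n p.1 q.1 (Θ q.2)⟫_ℂ := fun g g' => by
        rw [PiLp.inner_apply, Fintype.sum_prod_type]
        refine Finset.sum_congr rfl fun c _ => ?_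
        rw [apply_eq_sum_ent n]
        simp only [U, V, V', mat_apply, ContinuousLinearMap.smul_apply,
          ContinuousLinearMap.one_apply, map_sum, map_smul, sum_inner, inner_sum, inner_smul_left,
          inner_smul_right, Fintype.sum_prod_type, Finset.mul_sum]
        conv_rhs => rw [Finset.sum_comm]
        refine Finset.sum_congr rfl fun d _ => ?_
        rw [Finset.sum_comm]
        exact Finset.sum_congr rfl fun i _ => Finset.sum_congr rfl fun j _ => mul_left_comm _ _ _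
      have hd' : ∀ p p' : I × I, ∑ g, u g p.1 p.2 * conj (u g p'.1 p'.2) =
          if p = p' then (μ : ℂ) else 0 := fun p p' => by
        rw [hd]; simp only [Prod.ext_iff]
      simp only [e1, e2, map_sum, map_smul, smul_eq_mul]
      rw [Fintype.sum_prod_type, Finset.sum_comm]
      simp only [design_sum hd', ← Finset.mul_sum]
      rw [Finset.sum_comm]
      have e3 : ∀ p : I × I, ∑ g', (∑ q : I × I, conj (u g' q.1 q.2) * F (e p.1 q.1 (B p.2 q.2))) *
          ∑ q : I × I, u g' q.1 q.2 * ⟪Θ' p.2, ent n p.1 q.1 (Θ q.2)⟫_ℂ =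
          μ * ∑ q : I × I, ⟪Θ' p.2, ent n p.1 q.1 (Θ q.2)⟫_ℂ * F (e p.1 q.1 (B p.2 q.2)) :=
        fun p => by
          rw [← design_sum hd']
          exact Finset.sum_congr rfl fun g' _ => mul_comm _ _
      simp only [e3, ← Finset.mul_sum]
      have e4 : ∑ p : I × I, ∑ q : I × I,
          ⟪Θ' p.2, ent n p.1 q.1 (Θ q.2)⟫_ℂ * F (e p.1 q.1 (B p.2 q.2)) = 0 := by
        rw [Fintype.sum_prod_type]
        refine Finset.sum_eq_zero fun a _ => ?_
        simp only [Fintype.sum_prod_type]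
        rw [Finset.sum_comm]
        refine Finset.sum_eq_zero fun b _ => ?_
        have := hrel (F ∘ₗ e a b) _ (mem_amp.mp hn a b)
        simpa only [LinearMap.comp_apply, mul_comm] using this
      rw [e4, mul_zero, mul_zero])
  have e5 : ∀ g : G × G, ⟪U g.1 V', (U g.1 * mat B * star (U g.2)) (U g.2 V)⟫_ℂ =
      ∑ i, ∑ j, ⟪Θ' i, B i j (Θ j)⟫_ℂ := fun g => by
    rw [← ContinuousLinearMap.mul_apply, mul_assoc, hU1, mul_one, ContinuousLinearMap.mul_apply,
      ← inner_star_right, ← ContinuousLinearMap.mul_apply (star (U g.1)), hU1,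
      ContinuousLinearMap.one_apply, PiLp.inner_apply]
    simp only [mat_apply, inner_sum]
    rfl
  have e6 : ∀ W : I → H, ‖(WithLp.toLp 2 W : HH I H)‖ ^ 2 = sq2 W := fun W => HH.norm_sq _
  simp only [e5, sq2, hUn, Finset.sum_const, Finset.card_univ, nsmul_eq_mul, norm_mul,
    Complex.norm_natCast] at key
  rw [e6, e6] at key
  have hcard : (0 : ℝ) < Fintype.card (G × G) := by exact_mod_cast Fintype.card_pos
  refine le_of_mul_le_mul_left ?_ hcard
  linarith

/-- PROOF.  `hbl` with `E = Al M`, `Ball I B = Contr (coe ∘ B)`; `norm_le_of_inner` on `HH I H`,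
`contr_iff`, scaling; `I = Unit` gives boundedness (`LinearMap.mkContinuous`). -/
theorem exists_cbc (hκ : 0 ≤ κ) (h : KIm M N κ) : ∃ T : Al M →L[ℂ] Al N, CbC T (2 * κ) := by
  let ι : Al M →ₗ[ℂ] (H →L[ℂ] H) := M.toStarSubalgebra.subtype.toAlgHom.toLinearMap
  obtain ⟨T, hT, hb⟩ := hbl ι N (fun I _ B => Contr fun i j => (B i j : H →L[ℂ] H)) hκ
    (fun ζ => by simp)
    (fun I J _ _ B B' hB hB' ζ => by
      have h1 := hB fun i => ζ (Sum.inl i)
      have h2 := hB' fun i => ζ (Sum.inr i)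
      simp only [Fintype.sum_sum_type, Matrix.fromBlocks_apply₁₁, Matrix.fromBlocks_apply₁₂,
        Matrix.fromBlocks_apply₂₁, Matrix.fromBlocks_apply₂₂, Matrix.zero_apply,
        ZeroMemClass.coe_zero, ContinuousLinearMap.zero_apply, Finset.sum_const_zero, add_zero,
        zero_add]
      linarith)
    (fun b => by
      by_cases hb : b = 0
      · exact Or.inl hb
      · have hn : 0 < ‖(b : H →L[ℂ] H)‖ := norm_pos_iff.mpr fun h0 => hb (Subtype.ext h0)
        refine Or.inr ⟨((‖(b : H →L[ℂ] H)‖⁻¹ : ℝ) : ℂ), by simpa using hn.ne', fun ζ => ?_⟩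
        simp only [Finset.univ_unique, Finset.sum_singleton, SetLike.val_smul,
          ContinuousLinearMap.smul_apply, norm_smul, Complex.norm_real, norm_inv, norm_norm]
        refine pow_le_pow_left₀ (by positivity) ?_ 2
        rw [inv_mul_le_iff₀ hn]
        exact ContinuousLinearMap.le_opNorm _ _)
    (fun I _ B Θ Θ' hB hrel => h I (fun i j => (B i j : H →L[ℂ] H)) Θ Θ' (fun i j => (B i j).2) hB
      fun f n hn => hrel (f ∘ₗ ι) n hn)
  have h1 : ∀ (I : Type) [Fintype I] [DecidableEq I] (X : I → I → Al M), mn X ≤ 1 →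
      ‖mat fun i j => T (X i j) - (X i j : H →L[ℂ] H)‖ ≤ 2 * κ := fun I _ _ X hX => by
    refine norm_le_of_inner hκ fun ξ η => ?_
    have := hb I X (fun i => ξ i) (fun i => η i) (contr_iff.mpr hX)
    rw [HH.norm_sq, HH.norm_sq, PiLp.inner_apply]
    simp only [mat_apply, inner_sum]
    exact this
  have h2 : ∀ (I : Type) [Fintype I] [DecidableEq I] (X : I → I → Al M),
      ‖mat fun i j => T (X i j) - (X i j : H →L[ℂ] H)‖ ≤ 2 * κ * mn X := fun I _ _ X => by
    rcases (norm_nonneg _ : 0 ≤ mn X).eq_or_lt with h0 | h0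
    · have h3 : (mat fun i j => (X i j : H →L[ℂ] H)) = 0 := norm_eq_zero.mp h0.symm
      have h4 : ∀ i j, X i j = 0 := fun i j => Subtype.ext (by
        have := congrArg (fun Y => ent Y i j) h3
        simpa using this)
      have h5 : (mat fun i j => T (X i j) - (X i j : H →L[ℂ] H)) = 0 :=
        ext_ent fun i j => by simp [h4]
      rw [h5, norm_zero]
      exact mul_nonneg (by positivity) (norm_nonneg _)
    · have h0' : 0 < mn X := h0
      have h3 := h1 I (fun i j => (((mn X)⁻¹ : ℝ) : ℂ) • X i j) (by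
        have : (mat fun i j => (((((mn X)⁻¹ : ℝ) : ℂ) • X i j : Al M) : H →L[ℂ] H)) =
            (((mn X)⁻¹ : ℝ) : ℂ) • mat fun i j => (X i j : H →L[ℂ] H) :=
          ext_ent fun i j => by simp only [ent_mat, ent_smul, SetLike.val_smul]
        rw [mn, this, norm_smul, Complex.norm_real, Real.norm_eq_abs, abs_of_pos (inv_pos.mpr h0')]
        exact (inv_mul_cancel₀ h0'.ne').le)
      have : (mat fun i j => T ((((mn X)⁻¹ : ℝ) : ℂ) • X i j) -
          (((((mn X)⁻¹ : ℝ) : ℂ) • X i j : Al M) : H →L[ℂ] H)) =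
          (((mn X)⁻¹ : ℝ) : ℂ) • mat fun i j => T (X i j) - (X i j : H →L[ℂ] H) :=
        ext_ent fun i j => by simp only [ent_mat, ent_smul, SetLike.val_smul, map_smul, smul_sub]
      rw [this, norm_smul, Complex.norm_real, Real.norm_eq_abs, abs_of_pos (inv_pos.mpr h0'),
        inv_mul_le_iff₀ h0'] at h3
      linarith
  let T' : Al M →ₗ[ℂ] Al N :=
    { toFun := fun b => ⟨T b, hT b⟩
      map_add' := fun a b => Subtype.ext (map_add T a b)
      map_smul' := fun c a => Subtype.ext (map_smul T c a) }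
  have h3 : ∀ b, ‖T' b‖ ≤ (2 * κ + 1) * ‖b‖ := fun b => by
    have h4 := h2 Unit fun _ _ => b
    have h5 : ∀ y : H →L[ℂ] H, ‖mat fun _ _ : Unit => y‖ = ‖y‖ := fun y => by
      have e : (mat fun _ _ : Unit => y) = dg Unit y := by simp [dg]
      rw [e]
      refine le_antisymm (norm_dg_le _) (ContinuousLinearMap.opNorm_le_bound _ (norm_nonneg _)
        fun v => ?_)
      rw [← norm_inj () (y v), ← dg_inj, ← norm_inj () v]
      exact ContinuousLinearMap.le_opNorm _ _
    rw [mn, h5, h5] at h4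
    have h6 : ‖T b‖ ≤ ‖T b - (b : H →L[ℂ] H)‖ + ‖(b : H →L[ℂ] H)‖ := norm_le_norm_sub_add _ _
    change ‖T b‖ ≤ (2 * κ + 1) * ‖(b : H →L[ℂ] H)‖
    linarith
  exact ⟨T'.mkContinuous _ h3, h2⟩

end Crest.Agent.R78
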