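import Crest.Agent.R78.Avg

/-! Row 78: from a completely close linear map to a star homomorphism. -/

set_option autoImplicit false
set_option linter.unusedSectionVars false
set_option linter.deprecated false

namespace Crest.Agent.R78

open Crest.Agent.R124 Crest.Agent.R121
open scoped InnerProductSpace

variable {H : Type*} [NormedAddCommGroup H] [InnerProductSpace ℂ H] [CompleteSpace H]
  {M N : VonNeumannAlgebra H}

/-- Joint complete bound of the multiplicative defect. -/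
def JD (T : Al M →L[ℂ] Al N) (ε : ℝ) : Prop :=
  ∀ (I J : Type) [Fintype I] [DecidableEq I] [Fintype J] [DecidableEq J] (X : I → I → Al M)
    (Y : J → J → Al M),
    mn (fun a b : I × J => T (X a.1 b.1 * Y a.2 b.2) - T (X a.1 b.1) * T (Y a.2 b.2)) ≤
      ε * mn X * mn Y

/-- Complete bound of a map. -/
def CbN (E : Al M →L[ℂ] Al N) (C : ℝ) : Prop :=
  ∀ (I : Type) [Fintype I] [DecidableEq I] (X : I → I → Al M), mn (fun a b => E (X a b)) ≤ C * mn X

section Mat
variable {I J : Type*} [Fintype I] [DecidableEq I] [Fintype J] [DecidableEq J]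

lemma nm_add (x y : I → I → H →L[ℂ] H) :
    ‖mat fun i j => x i j + y i j‖ ≤ ‖mat x‖ + ‖mat y‖ := by
  have : (mat fun i j => x i j + y i j) = mat x + mat y := ext_ent fun i j => by simp [ent_add]
  rw [this]
  exact norm_add_le _ _

lemma nm_sub (x y : I → I → H →L[ℂ] H) :
    ‖mat fun i j => x i j - y i j‖ ≤ ‖mat x‖ + ‖mat y‖ := by
  have : (mat fun i j => x i j - y i j) = mat x - mat y := ext_ent fun i j => by simp [ent_sub]
  rw [this]
  exact norm_sub_le _ _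

lemma nm_sub_rev (x y : I → I → H →L[ℂ] H) :
    ‖mat fun i j => x i j - y i j‖ = ‖mat fun i j => y i j - x i j‖ := by
  have h : ∀ x y : I → I → H →L[ℂ] H, (mat fun i j => x i j - y i j) = mat x - mat y :=
    fun x y => ext_ent fun i j => by simp [ent_sub]
  rw [h, h, norm_sub_rev]

lemma nm_smul (c : ℂ) (x : I → I → H →L[ℂ] H) :
    ‖mat fun i j => c • x i j‖ = ‖c‖ * ‖mat x‖ := by
  have : (mat fun i j => c • x i j) = c • mat x := ext_ent fun i j => by simp [ent_smul]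
  rw [this, norm_smul]

lemma nm_star (x : I → I → H →L[ℂ] H) : ‖mat fun i j => star (x j i)‖ = ‖mat x‖ := by
  rw [← star_mat, ContinuousLinearMap.star_eq_adjoint, LinearIsometryEquiv.norm_map]

lemma nm_lmul (r : H →L[ℂ] H) (x : I → I → H →L[ℂ] H) :
    ‖mat fun i j => r * x i j‖ ≤ ‖r‖ * ‖mat x‖ := by
  have : (mat fun i j => r * x i j) = dg I r * mat x := ext_ent fun i j => by
    rw [ent_dg_mul, ent_mat, ent_mat]
  rw [this]
  exact (norm_mul_le _ _).trans (mul_le_mul_of_nonneg_right (norm_dg_le r) (norm_nonneg _))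

lemma nm_unit (x : H →L[ℂ] H) : ‖mat fun _ _ : Unit => x‖ = ‖x‖ := by
  have e : (mat fun _ _ : Unit => x) = dg Unit x := by
    unfold dg
    simp
  rw [e]
  refine le_antisymm (norm_dg_le x)
    (ContinuousLinearMap.opNorm_le_bound _ (norm_nonneg _) fun v => ?_)
  rw [← norm_inj () (x v), ← dg_inj, ← norm_inj () v]
  exact ContinuousLinearMap.le_opNorm _ _

lemma nm_left (x : I → I → H →L[ℂ] H) :
    ‖mat fun a b : I × J => if a.2 = b.2 then x a.1 b.1 else 0‖ ≤ ‖mat x‖ := by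
  refine ContinuousLinearMap.opNorm_le_bound _ (norm_nonneg _) fun v => ?_
  refine (sq_le_sq₀ (norm_nonneg _) (by positivity)).mp ?_
  rw [mul_pow, HH.norm_sq, HH.norm_sq, Fintype.sum_prod_type_right, Fintype.sum_prod_type_right,
    Finset.mul_sum]
  refine Finset.sum_le_sum fun j _ => ?_
  have h := pow_le_pow_left₀ (norm_nonneg _)
    ((mat x).le_opNorm (WithLp.toLp 2 fun i => v (i, j))) 2
  rw [mul_pow, HH.norm_sq, HH.norm_sq] at h
  refine le_of_eq_of_le (Finset.sum_congr rfl fun i _ => ?_) h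
  simp [Fintype.sum_prod_type, DFunLike.ite_apply]

lemma nm_right (y : J → J → H →L[ℂ] H) :
    ‖mat fun a b : I × J => if a.1 = b.1 then y a.2 b.2 else 0‖ ≤ ‖mat y‖ :=
  (norm_mat_equiv (Equiv.prodComm I J) fun a b : J × I =>
    if a.2 = b.2 then y a.1 b.1 else 0).trans_le (nm_left y)

end Mat

/-- `(x a a' * y b b') = (x ⊗ 1) (1 ⊗ y)`. -/
theorem norm_mat_tensor {I J : Type*} [Fintype I] [DecidableEq I] [Fintype J] [DecidableEq J]
    (x : I → I → H →L[ℂ] H) (y : J → J → H →L[ℂ] H) :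
    ‖mat fun a b : I × J => x a.1 b.1 * y a.2 b.2‖ ≤ ‖mat x‖ * ‖mat y‖ := by
  have e : (mat fun a b : I × J => x a.1 b.1 * y a.2 b.2) =
      (mat fun a b : I × J => if a.2 = b.2 then x a.1 b.1 else 0) *
        mat fun a b : I × J => if a.1 = b.1 then y a.2 b.2 else 0 := by
    rw [mat_mul]
    congr 1
    funext a b
    simp [Fintype.sum_prod_type]
  rw [e]
  exact (norm_mul_le _ _).trans
    (mul_le_mul (nm_left x) (nm_right y) (norm_nonneg _) (norm_nonneg _))

section Aux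
variable {P : VonNeumannAlgebra H} {I J : Type} [Fintype I] [DecidableEq I] [Fintype J]
  [DecidableEq J]

lemma mn_nonneg (X : I → I → Al P) : 0 ≤ mn X := norm_nonneg _

lemma mn_unit (x : Al P) : mn (fun _ _ : Unit => x) = ‖x‖ := nm_unit _

lemma mn_star (X : I → I → Al P) : mn (fun i j => star (X j i)) = mn X :=
  nm_star fun i j => (X i j : H →L[ℂ] H)

lemma mn_tensor (X : I → I → Al P) (Y : J → J → Al P) :
    mn (fun a b : I × J => X a.1 b.1 * Y a.2 b.2) ≤ mn X * mn Y :=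
  norm_mat_tensor (fun i j => (X i j : H →L[ℂ] H)) fun i j => (Y i j : H →L[ℂ] H)

lemma mn_add (X Y : I → I → Al P) : mn (fun i j => X i j + Y i j) ≤ mn X + mn Y :=
  nm_add (fun i j => (X i j : H →L[ℂ] H)) fun i j => (Y i j : H →L[ℂ] H)

lemma mn_sub (X Y : I → I → Al P) : mn (fun i j => X i j - Y i j) ≤ mn X + mn Y :=
  nm_sub (fun i j => (X i j : H →L[ℂ] H)) fun i j => (Y i j : H →L[ℂ] H)

lemma mn_smul (c : ℂ) (X : I → I → Al P) : mn (fun i j => c • X i j) = ‖c‖ * mn X :=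
  nm_smul c fun i j => (X i j : H →L[ℂ] H)

lemma mn_lmul (r : Al P) (X : I → I → Al P) : mn (fun i j => r * X i j) ≤ ‖r‖ * mn X :=
  nm_lmul (r : H →L[ℂ] H) fun i j => (X i j : H →L[ℂ] H)

lemma mn_equiv (e : I ≃ J) (X : J → J → Al P) : mn (fun i j => X (e i) (e j)) = mn X :=
  norm_mat_equiv e fun i j => (X i j : H →L[ℂ] H)

lemma CbC.mono {T : Al M →L[ℂ] Al N} {κ κ' : ℝ} (h : CbC T κ) (h' : κ ≤ κ') : CbC T κ' :=
  fun I _ _ X => (h I X).trans (mul_le_mul_of_nonneg_right h' (mn_nonneg X))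

lemma JD.mono {T : Al M →L[ℂ] Al N} {κ κ' : ℝ} (h : JD T κ) (h' : κ ≤ κ') : JD T κ' :=
  fun I J _ _ _ _ X Y => (h I J X Y).trans (mul_le_mul_of_nonneg_right
    (mul_le_mul_of_nonneg_right h' (mn_nonneg X)) (mn_nonneg Y))

lemma CbC.rev {T : Al M →L[ℂ] Al N} {κ : ℝ} (h : CbC T κ) (X : I → I → Al M) :
    ‖mat fun i j => (X i j : H →L[ℂ] H) - (T (X i j) : H →L[ℂ] H)‖ ≤ κ * mn X :=
  (nm_sub_rev _ _).trans_le (h I X)

lemma CbC.mn_le {T : Al M →L[ℂ] Al N} {κ : ℝ} (h : CbC T κ) (h1 : κ ≤ 1) (X : I → I → Al M) :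
    mn (fun i j => T (X i j)) ≤ 2 * mn X := by
  have h2 := nm_add (fun i j => (T (X i j) : H →L[ℂ] H) - (X i j : H →L[ℂ] H))
    fun i j => (X i j : H →L[ℂ] H)
  simp only [sub_add_cancel] at h2
  have h3 := mul_le_mul_of_nonneg_right h1 (mn_nonneg X)
  have h4 := h I X
  unfold mn at *
  linarith

lemma CbC.add {T T' : Al M →L[ℂ] Al N} {κ η : ℝ} (h : CbC T κ) (h' : CbN (T' - T) η) :
    CbC T' (κ + η) := fun I _ _ X => by
  have h2 := nm_add (fun i j => (T (X i j) : H →L[ℂ] H) - (X i j : H →L[ℂ] H))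
    fun i j => ((T' - T) (X i j) : H →L[ℂ] H)
  have e : (fun i j => (T (X i j) : H →L[ℂ] H) - (X i j : H →L[ℂ] H) +
      ((T' - T) (X i j) : H →L[ℂ] H)) =
      fun i j => (T' (X i j) : H →L[ℂ] H) - (X i j : H →L[ℂ] H) := by
    funext i j
    simp
  rw [e] at h2
  have h3 := h I X
  have h4 := h' I X
  unfold mn at *
  linarith

lemma CbC.norm_le {T : Al M →L[ℂ] Al N} {κ : ℝ} (h : CbC T κ) (x : Al M) :
    ‖(T x : H →L[ℂ] H) - (x : H →L[ℂ] H)‖ ≤ κ * ‖x‖ := by
  have := h Unit fun _ _ => x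
  rwa [nm_unit, mn_unit] at this

lemma CbN.norm_le {E : Al M →L[ℂ] Al N} {C : ℝ} (hC : 0 ≤ C) (h : CbN E C) : ‖E‖ ≤ C :=
  ContinuousLinearMap.opNorm_le_bound _ hC fun x => by
    have := h Unit fun _ _ => x
    rwa [mn_unit, mn_unit] at this

lemma JD.norm_le {T : Al M →L[ℂ] Al N} {ε : ℝ} (h : JD T ε) (x y : Al M) :
    ‖T (x * y) - T x * T y‖ ≤ ε * ‖x‖ * ‖y‖ := by
  have h1 := h Unit Unit (fun _ _ => x) fun _ _ => y
  have h2 := mn_equiv (Equiv.prodUnique Unit Unit) fun _ _ => T (x * y) - T x * T y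
  rwa [h2, mn_unit, mn_unit, mn_unit] at h1

/-- `T♯`. -/
noncomputable def sharp (T : Al M →L[ℂ] Al N) : Al M →L[ℂ] Al N where
  toFun x := star (T (star x))
  map_add' x y := by simp
  map_smul' c x := by simp
  cont := by fun_prop

@[simp] lemma sharp_apply (T : Al M →L[ℂ] Al N) (x : Al M) : sharp T x = star (T (star x)) := rfl

/-- The symmetrisation. -/
noncomputable def sym (T : Al M →L[ℂ] Al N) : Al M →L[ℂ] Al N := (2⁻¹ : ℂ) • (T + sharp T)

lemma sym_apply (T : Al M →L[ℂ] Al N) (x : Al M) :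
    sym T x = (2⁻¹ : ℂ) • (T x + sharp T x) := rfl

lemma sym_star (T : Al M →L[ℂ] Al N) (x : Al M) : sym T (star x) = star (sym T x) := by
  simp [sym_apply, add_comm]

lemma CbC.sharp {T : Al M →L[ℂ] Al N} {κ : ℝ} (h : CbC T κ) : CbC (sharp T) κ := fun I _ _ X => by
  have h1 := h I fun i j => star (X j i)
  rw [mn_star, ← nm_star] at h1
  simpa using h1

lemma CbN.sharp {E : Al M →L[ℂ] Al N} {C : ℝ} (h : CbN E C) : CbN (sharp E) C := fun I _ _ X => by
  have h1 := h I fun i j => star (X j i)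
  rw [mn_star, ← mn_star] at h1
  exact h1

lemma JD.sharp {T : Al M →L[ℂ] Al N} {ε : ℝ} (h : JD T ε) : JD (sharp T) ε :=
  fun I J _ _ _ _ X Y => by
  have h1 := h J I (fun i j => star (Y j i)) fun i j => star (X j i)
  rw [mn_star, mn_star, ← mn_star, ← mn_equiv (Equiv.prodComm I J), mul_right_comm] at h1
  simpa using h1

lemma JD.sym {T : Al M →L[ℂ] Al N} {ε η : ℝ} (h : JD T ε) (h0 : 0 ≤ η)
    (h' : CbN (T - R78.sharp T) η) : JD (sym T) (ε + η ^ 2 / 4) := fun I J _ _ _ _ X Y => by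
  have e : ∀ x y, R78.sym T (x * y) - R78.sym T x * R78.sym T y =
      (2⁻¹ : ℂ) • ((T (x * y) - T x * T y) +
        (R78.sharp T (x * y) - R78.sharp T x * R78.sharp T y)) +
      (4⁻¹ : ℂ) • ((T - R78.sharp T) x * (T - R78.sharp T) y) := fun x y => by
    simp only [sym_apply, ContinuousLinearMap.sub_apply, smul_mul_smul_comm, mul_add, add_mul,
      mul_sub, sub_mul]
    module
  simp only [e]
  refine (mn_add _ _).trans ?_
  rw [mn_smul, mn_smul]
  have h1 := (mn_add _ _).trans (add_le_add (h I J X Y) (h.sharp I J X Y))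
  have h2 := (mn_tensor _ _).trans (mul_le_mul (h' I X) (h' J Y) (mn_nonneg _)
    (mul_nonneg h0 (mn_nonneg _)))
  simp only [norm_inv, Complex.norm_ofNat]
  linarith

end Aux

/-- `D (x, y) = (T (x y) - x y) + (x - T x) y + T x (y - T y)`. -/
theorem CbC.jd {T : Al M →L[ℂ] Al N} {κ : ℝ} (h0 : 0 ≤ κ) (h1 : κ ≤ 1) (h : CbC T κ) :
    JD T (4 * κ) := by
  intro I J _ _ _ _ X Y
  have e : (fun a b : I × J => ((T (X a.1 b.1 * Y a.2 b.2) - T (X a.1 b.1) * T (Y a.2 b.2) : Al N) :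
      H →L[ℂ] H)) = fun a b : I × J =>
      ((T (X a.1 b.1 * Y a.2 b.2) : H →L[ℂ] H) - (X a.1 b.1 * Y a.2 b.2 : Al M)) +
      ((X a.1 b.1 : H →L[ℂ] H) - T (X a.1 b.1)) * (Y a.2 b.2 : H →L[ℂ] H) +
      (T (X a.1 b.1) : H →L[ℂ] H) * ((Y a.2 b.2 : H →L[ℂ] H) - T (Y a.2 b.2)) := by
    funext a b
    push_cast
    noncomm_ring
  unfold mn
  rw [e]
  have hX := mn_nonneg X
  have hY := mn_nonneg Y
  have h2 := (h _ fun a b : I × J => X a.1 b.1 * Y a.2 b.2).trans
    (mul_le_mul_of_nonneg_left (mn_tensor X Y) h0)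
  have h3 := (norm_mat_tensor _ fun i j => (Y i j : H →L[ℂ] H)).trans
    (mul_le_mul_of_nonneg_right (h.rev X) hY)
  have h4 := (norm_mat_tensor _ _).trans
    (mul_le_mul (h.mn_le h1 X) (h.rev Y) (norm_nonneg _) (by positivity))
  refine ((nm_add _ _).trans (add_le_add ((nm_add _ _).trans (add_le_add h2 h3)) h4)).trans_eq ?_
  unfold mn
  ring

/-- Symmetrisation `T♯ x = star (T (star x))`, `(T + T♯)/2` (`star_mat`). -/
theorem CbC.exists_star {T : Al M →L[ℂ] Al N} {κ : ℝ} (h : CbC T κ) :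
    ∃ T' : Al M →L[ℂ] Al N, CbC T' κ ∧ ∀ x, T' (star x) = star (T' x) := by
  refine ⟨sym T, fun I _ _ X => ?_, sym_star T⟩
  have e : (fun i j => (sym T (X i j) : H →L[ℂ] H) - (X i j : H →L[ℂ] H)) = fun i j =>
      (2⁻¹ : ℂ) • (((T (X i j) : H →L[ℂ] H) - (X i j : H →L[ℂ] H)) +
        ((R78.sharp T (X i j) : H →L[ℂ] H) - (X i j : H →L[ℂ] H))) := by
    funext i j
    rw [sym_apply]
    push_cast
    module
  rw [e, nm_smul]
  have h1 := (nm_add _ _).trans (add_le_add (h I X) (h.sharp I X))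
  simp only [norm_inv, Complex.norm_ofNat]
  linarith

/-- The defect as a function of the first variable. -/
noncomputable def dF (T : Al M →L[ℂ] Al N) : Al M →ₗ[ℂ] Al M →L[ℂ] Al N where
  toFun y := T.comp (rmul y) - (rmul (T y)).comp T
  map_add' x y := by
    ext1 a
    simp only [ContinuousLinearMap.sub_apply, ContinuousLinearMap.add_apply,
      ContinuousLinearMap.comp_apply, rmul_apply, mul_add, map_add]
    abel
  map_smul' c x := by
    ext1 a
    simp [smul_sub]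

lemma dF_apply (T : Al M →L[ℂ] Al N) (y a : Al M) : dF T y a = T (a * y) - T a * T y := rfl

lemma half_step {T : Al M →L[ℂ] Al N} {S : Al N →L[ℂ] Al M} {κ ε : ℝ} (hκ : 0 ≤ κ)
    (hκ1 : κ ≤ 1) (hε : 0 ≤ ε) (hT : CbC T κ) (hS : CbC S κ) (hD : JD T ε) :
    ∃ E : Al M →L[ℂ] Al N, CbN E (2 * ε) ∧ JD (T + E) (7 * κ * ε + 4 * ε ^ 2) := by
  obtain ⟨𝒜, hA, hA1, hAm⟩ := avg_mat N
  let DL : Al M →ₗ[ℂ] Al N →L[ℂ] Al N :=
    { toFun := fun y => (dF T y).comp S
      map_add' := fun x y => by rw [map_add, ContinuousLinearMap.add_comp]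
      map_smul' := fun c x => by rw [map_smul, ContinuousLinearMap.smul_comp, RingHom.id_apply] }
  have hDL : ∀ (I : Type) [Fintype I] [DecidableEq I] (X : I → I → Al M),
      MB (fun p q => DL (X p q)) (2 * ε * mn X) := fun I _ _ X L _ _ Z => by
    refine (hD L I (fun a b => S (Z a b)) X).trans ?_
    have := mul_le_mul_of_nonneg_left (hS.mn_le hκ1 Z) (mul_nonneg hε (mn_nonneg X))
    linarith
  have hE0 : ∀ (I : Type) [Fintype I] [DecidableEq I] (X : I → I → Al M),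
      mn (fun p q => 𝒜 (DL (X p q))) ≤ 2 * ε * mn X := fun I _ _ X =>
    hAm I _ _ (mul_nonneg (by positivity) (mn_nonneg X)) (hDL I X)
  have hDLc : ∀ x, DL x ∈ CBs N := fun x =>
    (hDL Unit fun _ _ => x).mem_cbs (mul_nonneg (by positivity) (mn_nonneg _)) () ()
  let E : Al M →L[ℂ] Al N := (𝒜.comp DL).mkContinuous (2 * ε) fun x => by
    have := hE0 Unit fun _ _ => x
    rwa [mn_unit, mn_unit] at this
  have hE : CbN E (2 * ε) := hE0
  refine ⟨E, hE, fun I J _ _ _ _ X Y => ?_⟩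
  let ρ : Al N →L[ℂ] Al N := T.comp S - ContinuousLinearMap.id ℂ _
  have hρ : MB (fun _ _ : Unit => ρ) (3 * κ) := fun L _ _ Z => by
    refine (mn_equiv (Equiv.prodUnique L Unit) fun a b => ρ (Z a b)).trans_le ?_
    have e : (fun a b => (ρ (Z a b) : H →L[ℂ] H)) = fun a b =>
        ((T (S (Z a b)) : H →L[ℂ] H) - S (Z a b)) + ((S (Z a b) : H →L[ℂ] H) - Z a b) := by
      funext a b
      simp [ρ]
    unfold mn
    rw [e]
    refine ((nm_add _ _).trans (add_le_add ((hT L fun a b => S (Z a b)).trans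
      (mul_le_mul_of_nonneg_left (hS.mn_le hκ1 Z) hκ)) (hS L Z))).trans_eq ?_
    unfold mn
    ring
  have hρc : ρ ∈ CBs N := hρ.mem_cbs (by positivity) () ()
  have hρn : ‖𝒜 ρ‖ ≤ 3 * κ := by
    have := hAm Unit _ _ (by positivity) hρ
    rwa [mn_unit] at this
  let σ : Al M → Al N →L[ℂ] Al M := fun x => (rmul x).comp S - S.comp (rmul (T x))
  have hσ : ∀ (L : Type) [Fintype L] [DecidableEq L] (Z : L → L → Al N),
      mn (fun a b : L × I => σ (X a.2 b.2) (Z a.1 b.1)) ≤ 4 * κ * mn Z * mn X := fun L _ _ Z => by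
    have e : (fun a b : L × I => (σ (X a.2 b.2) (Z a.1 b.1) : H →L[ℂ] H)) = fun a b : L × I =>
        ((S (Z a.1 b.1) : H →L[ℂ] H) - Z a.1 b.1) * (X a.2 b.2 : H →L[ℂ] H) +
        (Z a.1 b.1 : H →L[ℂ] H) * ((X a.2 b.2 : H →L[ℂ] H) - T (X a.2 b.2)) +
        (((Z a.1 b.1 * T (X a.2 b.2) : Al N) : H →L[ℂ] H) - S (Z a.1 b.1 * T (X a.2 b.2))) := by
      funext a b
      simp only [σ, ContinuousLinearMap.sub_apply, ContinuousLinearMap.comp_apply, rmul_apply]
      push_cast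
      noncomm_ring
    have hX := mn_nonneg X
    have hZ := mn_nonneg Z
    have h2 := (norm_mat_tensor _ fun i j => (X i j : H →L[ℂ] H)).trans
      (mul_le_mul_of_nonneg_right (hS L Z) hX)
    have h3 := (norm_mat_tensor (fun i j => (Z i j : H →L[ℂ] H)) _).trans
      (mul_le_mul_of_nonneg_left (hT.rev X) hZ)
    have h4 := (hS.rev fun a b : L × I => Z a.1 b.1 * T (X a.2 b.2)).trans
      (mul_le_mul_of_nonneg_left ((mn_tensor Z fun i j => T (X i j)).trans
        (mul_le_mul_of_nonneg_left (hT.mn_le hκ1 X) hZ)) hκ)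
    unfold mn
    rw [e]
    refine ((nm_add _ _).trans (add_le_add ((nm_add _ _).trans (add_le_add h2 h3)) h4)).trans_eq ?_
    unfold mn
    ring
  have hX := mn_nonneg X
  have hY := mn_nonneg Y
  have hG : mn (fun p q : I × J => 𝒜 ((dF T (Y p.2 q.2)).comp (σ (X p.1 q.1)))) ≤
      4 * κ * ε * mn X * mn Y := by
    refine hAm _ _ _ (by positivity) fun L _ _ Z => ?_
    refine (mn_equiv (Equiv.prodAssoc L I J) _).symm.trans_le ?_
    refine (hD (L × I) J (fun a b => σ (X a.2 b.2) (Z a.1 b.1)) Y).trans ?_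
    have := mul_le_mul_of_nonneg_left (hσ L Z) (mul_nonneg hε hY)
    linarith
  have hid : ContinuousLinearMap.id ℂ (Al N) ∈ CBs N := ⟨1, zero_le_one, isCb_id⟩
  have key : ∀ x y, (T + E) (x * y) - (T + E) x * (T + E) y =
      𝒜 ((dF T y).comp (σ x)) - 𝒜 ρ * (T (x * y) - T x * T y) - E x * E y := fun x y => by
    have h1 : (rmul (T (x * y) - T x * T y)).comp (ContinuousLinearMap.id ℂ (Al N)) +
        (rmul (T (x * y) - T x * T y)).comp ρ -
        ((DL y).comp (rmul (T x)) + (dF T y).comp (σ x)) + DL (x * y) -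
        (rmul (T y)).comp (DL x) = 0 := by
      ext1 n
      simp only [ρ, σ, DL, ContinuousLinearMap.sub_apply, ContinuousLinearMap.add_apply,
        ContinuousLinearMap.comp_apply, rmul_apply, LinearMap.coe_mk, AddHom.coe_mk, dF_apply,
        ContinuousLinearMap.id_apply, ContinuousLinearMap.zero_apply, map_sub, mul_sub, mul_assoc]
      abel
    have h2 := congrArg 𝒜 h1
    rw [map_sub, map_add, map_sub, map_add, map_add, map_zero, (hA _ hid).1, (hA _ hρc).1,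
      (hA _ (hDLc y)).2, (hA _ (hDLc x)).1, hA1, one_mul] at h2
    have h3 : ∀ x, E x = 𝒜 (DL x) := fun _ => rfl
    simp only [ContinuousLinearMap.add_apply, h3]
    rw [← sub_eq_zero, ← h2]
    noncomm_ring
  simp only [key]
  have h1 := (mn_lmul _ _).trans (mul_le_mul hρn (hD I J X Y) (mn_nonneg _) (by positivity))
  have h2 := (mn_tensor _ _).trans (mul_le_mul (hE I X) (hE J Y) (mn_nonneg _) (by positivity))
  refine ((mn_sub _ _).trans (add_le_add ((mn_sub _ _).trans (add_le_add hG h1)) h2)).trans_eq ?_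
  ring

/-- One step.  PROOF.  `𝒜` from `avg_mat N`, `D x y = T (x y) - T x T y`, `E x = 𝒜 (n ↦ D (S n) x)`
(linear in `x`, `CbN E (2 ε)` by the matrix bound; continuity from `I = Unit`), `T₁ = T + E`.  With
`ρ n = T (S n) - n` (complete bound `3 κ`) and `σ n x = S n * x - S (n * T x)` (joint bound `4 κ`:
`(S n - n) x + n (x - T x) + (n T x - S (n T x))` in `B(H)`), apply `𝒜` to
`T a D x y - D (a x) y + D a (x y) - D a x T y = 0` at `a = S n`:
`T₁ (x y) - T₁ x T₁ y = -𝒜 ρ * D x y + 𝒜 (n ↦ D (σ n x) y) - E x E y`, joint bound `7 κ ε + 4 ε²`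
(`norm_mat_equiv` with `Equiv.prodAssoc`).  Symmetrise: `T' = (T₁ + T₁♯)/2 = T + (E + E♯)/2`, its defect is
`(D₁ + D₁♯)/2 + (E - E♯) x (E - E♯) y / 4` where `D₁♯ x y = star (D₁ y* x*)` (`Equiv.prodComm`), joint
bound `7 κ ε + 8 ε² ≤ ε/2`. -/
theorem newton_step {T : Al M →L[ℂ] Al N} {S : Al N →L[ℂ] Al M} {κ ε : ℝ} (hκ : 0 ≤ κ)
    (hκ1 : κ ≤ 1 / 50) (hε : 0 ≤ ε) (hε1 : ε ≤ 1 / 50) (hT : CbC T κ) (hS : CbC S κ)
    (hs : ∀ x, T (star x) = star (T x)) (hD : JD T ε) :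
    ∃ T' : Al M →L[ℂ] Al N, (∀ x, T' (star x) = star (T' x)) ∧ CbN (T' - T) (2 * ε) ∧
      JD T' (ε / 2) := by
  obtain ⟨E, hE, hJ⟩ := half_step hκ (by linarith) hε hT hS hD
  have e : ∀ x, sharp (T + E) x = T x + sharp E x := fun x => by simp [hs]
  refine ⟨sym (T + E), sym_star _, fun I _ _ X => ?_, (hJ.sym (η := 4 * ε) (by positivity)
    fun I _ _ X => ?_).mono (by nlinarith)⟩
  · have e1 : ∀ x, (sym (T + E) - T) x = (2⁻¹ : ℂ) • (E x + sharp E x) := fun x => by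
      rw [ContinuousLinearMap.sub_apply, sym_apply, e, ContinuousLinearMap.add_apply]
      module
    simp only [e1]
    rw [mn_smul]
    have h1 := (mn_add _ _).trans (add_le_add (hE I X) (hE.sharp I X))
    simp only [norm_inv, Complex.norm_ofNat]
    linarith
  · have e1 : ∀ x, (T + E - sharp (T + E)) x = E x - sharp E x := fun x => by
      rw [ContinuousLinearMap.sub_apply, e, ContinuousLinearMap.add_apply]
      abel
    simp only [e1]
    have h1 := (mn_sub _ _).trans (add_le_add (hE I X) (hE.sharp I X))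
    linarith

/-- PROOF.  Iterate with `ε_k = 4 κ 2^(-k)`, invariant `CbC (T k) (κ + 16 κ (1 - 2^(-k)))`; the sequence is
Cauchy in `Al M →L Al N`; the limit is multiplicative and star preserving; `θ 1` is an idempotent at
distance `< 1` from `1`. -/
theorem newton {T : Al M →L[ℂ] Al N} {S : Al N →L[ℂ] Al M} {κ : ℝ} (hκ : 0 ≤ κ)
    (hκ1 : κ ≤ 1 / 1000) (hT : CbC T κ) (hS : CbC S κ) :
    ∃ θ : Al M →⋆ₐ[ℂ] Al N, ∀ x, ‖(θ x : H →L[ℂ] H) - (x : H →L[ℂ] H)‖ ≤ 17 * κ * ‖x‖ := by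
  obtain ⟨T₀, hT₀, hs₀⟩ := hT.exists_star
  let P : ℕ → (Al M →L[ℂ] Al N) → Prop := fun k U => (∀ x, U (star x) = star (U x)) ∧
    CbC U (17 * κ - 16 * κ / 2 ^ k) ∧ JD U (4 * κ / 2 ^ k)
  have hP : ∀ k U, P k U → CbC U (17 * κ) := fun k U h =>
    h.2.1.mono (sub_le_self _ (by positivity))
  have step : ∀ k U, P k U → ∃ U', P (k + 1) U' ∧ dist U U' ≤ 16 * κ / 2 / 2 ^ k := by
    intro k U h
    have h1 : 4 * κ / 2 ^ k ≤ 4 * κ := div_le_self (by positivity) (one_le_pow₀ one_le_two)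
    obtain ⟨U', h2, h3, h4⟩ := newton_step (κ := 17 * κ) (by positivity) (by linarith)
      (by positivity) (by linarith) (hP k U h) (hS.mono (by linarith)) h.1 h.2.2
    refine ⟨U', ⟨h2, (h.2.1.add h3).mono (le_of_eq ?_), h4.mono (le_of_eq ?_)⟩, ?_⟩
    · rw [pow_succ]
      field_simp
      ring
    · rw [pow_succ, div_div]
    · rw [dist_comm, dist_eq_norm]
      refine (h3.norm_le (by positivity)).trans_eq ?_
      ring
  choose! f hf1 hf2 using step
  let U : ℕ → Al M →L[ℂ] Al N := fun k => Nat.rec T₀ f k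
  have hU : ∀ k, P k (U k) := by
    intro k
    induction k with
    | zero =>
      refine ⟨hs₀, hT₀.mono (le_of_eq (by ring)), (hT₀.jd hκ (by linarith)).mono (by simp)⟩
    | succ k ih => exact hf1 k _ ih
  obtain ⟨θ, hθ⟩ := cauchySeq_tendsto_of_complete
    (cauchySeq_of_le_geometric_two (f := U) fun k => hf2 k _ (hU k))
  have hθx : ∀ x, Filter.Tendsto (fun k => U k x) Filter.atTop (nhds (θ x)) := fun x =>
    ((ContinuousLinearMap.apply ℂ (Al N) x).continuous.tendsto θ).comp hθ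
  have h1 : ∀ x, ‖(θ x : H →L[ℂ] H) - (x : H →L[ℂ] H)‖ ≤ 17 * κ * ‖x‖ := fun x =>
    le_of_tendsto' (((continuous_subtype_val.tendsto _).comp (hθx x)).sub_const _).norm
      fun k => (hP k _ (hU k)).norm_le x
  have h2 : ∀ x, θ (star x) = star (θ x) := fun x =>
    tendsto_nhds_unique (hθx _) ((hθx x).star.congr fun k => ((hU k).1 x).symm)
  have h3 : ∀ x y, θ (x * y) = θ x * θ y := fun x y => by
    have h4 : Filter.Tendsto (fun k : ℕ => 4 * κ / 2 ^ k * ‖x‖ * ‖y‖) Filter.atTop (nhds 0) := by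
      have := (((tendsto_pow_atTop_atTop_of_one_lt (one_lt_two (α := ℝ))).const_div_atTop
        (4 * κ)).mul_const ‖x‖).mul_const ‖y‖
      rwa [zero_mul, zero_mul] at this
    have h5 := le_of_tendsto_of_tendsto' ((hθx (x * y)).sub ((hθx x).mul (hθx y))).norm h4
      fun k => (hU k).2.2.norm_le x y
    exact sub_eq_zero.1 (norm_le_zero_iff.1 h5)
  have h4 : θ 1 = 1 := by
    have h5 : ‖θ 1 - 1‖ ≤ 17 * κ * ‖(1 : Al M)‖ := h1 1
    have h6 : ‖(1 : Al M)‖ ≤ 1 := ContinuousLinearMap.norm_id_le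
    have h7 : (θ 1 - 1) * (θ 1 - 1) = -(θ 1 - 1) := by
      rw [mul_sub, sub_mul, ← h3]
      simp
    have h8 := norm_mul_le (θ 1 - 1) (θ 1 - 1)
    rw [h7, norm_neg] at h8
    have h9 := mul_le_mul_of_nonneg_left h6 hκ
    refine sub_eq_zero.1 (norm_le_zero_iff.1 ?_)
    nlinarith [norm_nonneg (θ 1 - 1)]
  exact ⟨{ AlgHom.ofLinearMap θ.toLinearMap h4 h3 with map_star' := h2 }, h1⟩

end Crest.Agent.R78
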