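import Crest.Agent.R78.Dist

/-! Row 78: the implementing unitary. -/

set_option autoImplicit false
set_option linter.unusedSectionVars false

namespace Crest.Agent.R78

open Crest.Agent.R124 Crest.Agent.R121
open scoped InnerProductSpace

variable {H : Type*} [NormedAddCommGroup H] [InnerProductSpace ℂ H] [CompleteSpace H]
  {M N : VonNeumannAlgebra H}

namespace UnitAux

lemma norm_le_add_one {a : H →L[ℂ] H} (ha : 0 ≤ a) (ζ : H) : ‖ζ‖ ≤ ‖(a + 1) ζ‖ := by
  have h1 : 0 ≤ (⟪a ζ, ζ⟫_ℂ).re :=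
    ((ContinuousLinearMap.nonneg_iff_isPositive a).mp ha).re_inner_nonneg_left ζ
  have h2 : ‖a ζ + ζ‖ ^ 2 = ‖a ζ‖ ^ 2 + 2 * (⟪a ζ, ζ⟫_ℂ).re + ‖ζ‖ ^ 2 :=
    norm_add_sq (𝕜 := ℂ) (a ζ) ζ
  refine (sq_le_sq₀ (norm_nonneg _) (norm_nonneg _)).mp ?_
  have h3 : (a + 1) ζ = a ζ + ζ := rfl
  rw [h3, h2]
  nlinarith [sq_nonneg ‖a ζ‖]

lemma polar {v : H →L[ℂ] H} {ε : ℝ} (hε : ε ≤ 1 / 2) (hv : ‖v - 1‖ ≤ ε) :
    ∃ u ∈ unitary (H →L[ℂ] H), ‖u - 1‖ ≤ 4 * ε ∧
      ∀ x y : H →L[ℂ] H, v * x = y * v → v * star x = star y * v → y = u * x * star u := by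
  have hε0 : 0 ≤ ε := (norm_nonneg _).trans hv
  have hvu : IsUnit v := by
    have : ‖1 - v‖ < 1 := by rw [norm_sub_rev]; linarith
    simpa using (Units.oneSub (1 - v) this).isUnit
  obtain ⟨a, ha0, haa, -, hc⟩ := exists_sqrt (star_mul_self_nonneg v)
  have hau : IsUnit a := by
    have : IsUnit (a ^ 2) := by rw [sq, haa]; exact hvu.star.mul hvu
    exact (isUnit_pow_iff two_ne_zero).mp this
  obtain ⟨b, hab, hba⟩ : ∃ b, a * b = 1 ∧ b * a = 1 :=
    ⟨(hau.unit⁻¹ : (H →L[ℂ] H)ˣ), hau.mul_val_inv, hau.val_inv_mul⟩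
  have hsa : star a = a := (IsSelfAdjoint.of_nonneg ha0).star_eq
  have hsb : star b = b := by
    have h1 : star b * a = 1 := by rw [← hsa, ← star_mul, hab, star_one]
    calc star b = star b * (a * b) := by rw [hab, mul_one]
      _ = b := by rw [← mul_assoc, h1, one_mul]
  have h1 : star (v * b) * (v * b) = 1 := by
    rw [star_mul, hsb]
    calc b * star v * (v * b) = b * (star v * v) * b := by simp only [mul_assoc]
      _ = (b * a) * (a * b) := by rw [← haa]; simp only [mul_assoc]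
      _ = 1 := by rw [hab, hba, one_mul]
  have hbu : IsUnit b := ⟨⟨b, a, hba, hab⟩, rfl⟩
  have h2 : v * b * star (v * b) = 1 := by
    obtain ⟨w, hw⟩ := (hvu.mul hbu).exists_right_inv
    have : star (v * b) = w := by
      calc star (v * b) = star (v * b) * (v * b * w) := by rw [hw, mul_one]
        _ = w := by rw [← mul_assoc, h1, one_mul]
    rw [this, hw]
  have hu : v * b ∈ unitary (H →L[ℂ] H) := ⟨h1, h2⟩
  have hua : v * b * a = v := by rw [mul_assoc, hba, mul_one]
  refine ⟨v * b, hu, ?_, fun x y hx hy => ?_⟩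
  · have hQ : ‖star v * v - 1‖ ≤ 3 * ε := by
      have e : star v * v - 1 = star (v - 1) * (v - 1) + star (v - 1) + (v - 1) := by
        simp only [star_sub, star_one]; noncomm_ring
      rw [e]
      have n1 : ‖star (v - 1) * (v - 1)‖ ≤ ε * ε :=
        (norm_mul_le _ _).trans (by
          rw [norm_star]; exact mul_le_mul hv hv (norm_nonneg _) hε0)
      have n2 : ‖star (v - 1)‖ ≤ ε := by rwa [norm_star]
      have := norm_add₃_le (a := star (v - 1) * (v - 1)) (b := star (v - 1)) (c := v - 1)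
      nlinarith
    have ha1 : ‖1 - a‖ ≤ 3 * ε := by
      rw [norm_sub_rev]
      refine ContinuousLinearMap.opNorm_le_bound _ (by positivity) fun ζ => ?_
      have e : (a + 1) * (a - 1) = star v * v - 1 := by rw [← haa]; noncomm_ring
      calc ‖(a - 1) ζ‖ ≤ ‖(a + 1) ((a - 1) ζ)‖ := norm_le_add_one ha0 _
        _ = ‖(star v * v - 1) ζ‖ := by rw [← e]; rfl
        _ ≤ 3 * ε * ‖ζ‖ := (star v * v - 1).le_of_opNorm_le hQ ζ
    have e : v * b - 1 = v * b * (1 - a) + (v - 1) := by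
      rw [mul_sub, hua, mul_one]; abel
    rw [e]
    have n1 : ‖v * b * (1 - a)‖ = ‖1 - a‖ := CStarRing.norm_mem_unitary_mul _ hu
    have := norm_add_le (v * b * (1 - a)) (v - 1)
    linarith
  · have hy' : x * star v = star v * y := by
      have := congrArg star hy
      simpa only [star_mul, star_star] using this
    have hcom : Commute (star v * v) x := by
      show star v * v * x = x * (star v * v)
      rw [mul_assoc, hx, ← mul_assoc, ← hy', mul_assoc]
    have hax : a * x = x * a := hc x hcom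
    have hbx : b * x = x * b := by
      calc b * x = b * x * (a * b) := by rw [hab, mul_one]
        _ = b * (a * x) * b := by rw [hax]; simp only [mul_assoc]
        _ = x * b := by rw [← mul_assoc, hba, one_mul]
    have : v * b * x = y * (v * b) := by rw [mul_assoc, hbx, ← mul_assoc, hx, mul_assoc]
    rw [this, mul_assoc, h2, mul_one]

variable {I : Type*} [Fintype I] [DecidableEq I]

/-- Diagonal matrices. -/
noncomputable def diag (d : I → H →L[ℂ] H) : HH I H →L[ℂ] HH I H :=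
  mat fun i j => if i = j then d i else 0

@[simp] lemma diag_apply (d : I → H →L[ℂ] H) (v : HH I H) (i : I) : diag d v i = d i (v i) := by
  rw [diag, mat_apply, Finset.sum_eq_single i] <;> simp +contextual [eq_comm]

lemma diag_star (d : I → H →L[ℂ] H) : diag (fun i => star (d i)) = star (diag d) :=
  ext_ent fun i j => by
    simp only [diag, ent_mat, ent_star]
    by_cases h : i = j
    · simp [h]
    · simp [h, Ne.symm h]

/-- The direct sum of finitely many star representations. -/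
noncomputable def diagH {A : Type*} [CStarAlgebra A] (π : I → A →⋆ₐ[ℂ] (H →L[ℂ] H)) :
    A →⋆ₐ[ℂ] (HH I H →L[ℂ] HH I H) where
  toFun x := diag fun i => π i x
  map_one' := by ext v i; simp
  map_mul' x y := by ext v i; simp
  map_zero' := by ext v i; simp
  map_add' x y := by ext v i; simp
  commutes' c := by ext v i; simp [Algebra.algebraMap_eq_smul_one]
  map_star' x := by simp only [map_star]; exact diag_star _

lemma diagH_apply {A : Type*} [CStarAlgebra A] (π : I → A →⋆ₐ[ℂ] (H →L[ℂ] H)) (x : A)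
    (v : HH I H) (i : I) : diagH π x v i = π i x (v i) := diag_apply _ _ _

lemma norm_ent_le (X : HH I H →L[ℂ] HH I H) (i j : I) : ‖ent X i j‖ ≤ ‖X‖ := by
  refine ContinuousLinearMap.opNorm_le_bound _ (norm_nonneg _) fun v => ?_
  rw [ent_apply]
  calc ‖X (inj j v) i‖ ≤ ‖X (inj j v)‖ := PiLp.norm_apply_le _ _
    _ ≤ ‖X‖ * ‖inj j v‖ := X.le_opNorm _
    _ = ‖X‖ * ‖v‖ := by rw [norm_inj]

end UnitAux

open UnitAux

/-- PROOF.  `lam x = mat ![![x, 0], ![0, θ x]]` on `HH (Fin 2) H`, `Y = mat ![![0, 0], ![1, 0]]`,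
`‖[Y, lam x]‖ = ‖θ x - x‖`.  `dl_star` gives `n`; `v = ent n 1 0` has `v x = θ x v`, `‖v - 1‖ ≤ 4 cD g ≤ 1/2`,
so `v` is invertible; `v* v` commutes with `M`; `a = √(v* v)` (`exists_sqrt`) is invertible and commutes
with `M`, `‖a - 1‖ ≤ ‖v* v - 1‖ ≤ 3 ‖v - 1‖` (`(a + 1) (a - 1) = v* v - 1`, `‖(a + 1) ζ‖ ≥ ‖ζ‖`),
`u = v a⁻¹` is unitary, `u - 1 = u (1 - a) + (v - 1)`, `u x u* = θ x`. -/
theorem exists_unitary (θ : Al M →⋆ₐ[ℂ] Al N) {g : ℝ} (hg : 0 ≤ g) (hg1 : 8 * cD * g ≤ 1)
    (h : ∀ x, ‖(θ x : H →L[ℂ] H) - (x : H →L[ℂ] H)‖ ≤ g * ‖x‖) :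
    ∃ u ∈ unitary (H →L[ℂ] H), ‖u - 1‖ ≤ 16 * cD * g ∧
      ∀ x : Al M, (θ x : H →L[ℂ] H) = u * x * star u := by
  let π : Fin 2 → Al M →⋆ₐ[ℂ] (H →L[ℂ] H) :=
    ![M.toStarSubalgebra.subtype, N.toStarSubalgebra.subtype.comp θ]
  have π0 : ∀ x, π 0 x = (x : H →L[ℂ] H) := fun x => rfl
  have π1 : ∀ x, π 1 x = (θ x : H →L[ℂ] H) := fun x => rfl
  let Y : HH (Fin 2) H →L[ℂ] HH (Fin 2) H := (inj 1).comp (PiLp.proj 2 (fun _ : Fin 2 => H) 0)
  have hY : ∀ v, Y v = inj 1 (v 0) := fun v => rfl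
  have hcomm : ∀ x, ‖Y * diagH π x - diagH π x * Y‖ ≤ g * ‖x‖ := by
    intro x
    refine ContinuousLinearMap.opNorm_le_bound _ (by positivity) fun v => ?_
    have e : (Y * diagH π x - diagH π x * Y) v =
        inj 1 (((x : H →L[ℂ] H) - (θ x : H →L[ℂ] H)) (v 0)) := by
      ext i
      fin_cases i
      · simp [hY, diagH_apply]
      · simp [hY, diagH_apply, π0, π1]
    rw [e, norm_inj]
    have h1 : ‖(x : H →L[ℂ] H) - (θ x : H →L[ℂ] H)‖ ≤ g * ‖x‖ := by
      rw [norm_sub_rev]; exact h x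
    exact (ContinuousLinearMap.le_of_opNorm_le _ h1 _).trans
      (mul_le_mul_of_nonneg_left (PiLp.norm_apply_le v 0) (by positivity))
  obtain ⟨n, hn, hYn⟩ := dl_star (diagH π) hg hcomm
  have hv : ‖ent n 1 0 - 1‖ ≤ 4 * cD * g := by
    have e : ent n 1 0 - 1 = ent (n - Y) 1 0 := by
      have e1 : ent Y 1 0 = 1 := by ext v; simp [hY]
      rw [ent_sub, e1]
    rw [e]
    refine (norm_ent_le _ _ _).trans ?_
    rwa [norm_sub_rev]
  have hint : ∀ x : Al M, ent n 1 0 * (x : H →L[ℂ] H) = (θ x : H →L[ℂ] H) * ent n 1 0 := by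
    intro x
    ext v
    have h1 := congrArg (fun T : HH (Fin 2) H →L[ℂ] HH (Fin 2) H => T (inj 0 v) 1) (hn x)
    have h2 : diagH π x (inj 0 v) = inj 0 ((x : H →L[ℂ] H) v) := by
      ext i
      fin_cases i
      · simp [diagH_apply, π0]
      · simp [diagH_apply]
    simp only [mul_apply_eq_comp, h2, diagH_apply, π1] at h1
    exact h1
  obtain ⟨u, hu, hu1, hux⟩ := polar (by linarith) hv
  refine ⟨u, hu, by linarith, fun x => hux _ _ (hint x) ?_⟩
  have := hint (star x)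
  rw [map_star] at this
  exact this

/-- PROOF.  `{u x u*}` is a closed subspace of `N` and every `y ∈ N` is within `(γ + 2 δ (1 + γ)) ‖y‖ ≤
‖y‖/2` of it; iterate (geometric series) or use `riesz_lemma`. -/
theorem surj_of_near {u : H →L[ℂ] H} (hu : u ∈ unitary (H →L[ℂ] H)) (hu1 : ‖u - 1‖ ≤ 1 / 10)
    (hM : ∀ x ∈ M, u * x * star u ∈ N) {γ : ℝ} (hγ : γ ≤ 1 / 10) (h : Near N M γ) :
    ∀ y ∈ N, ∃ x ∈ M, y = u * x * star u := by
  have hsu : star u ∈ unitary (H →L[ℂ] H) := Unitary.star_mem hu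
  have step : ∀ y ∈ N, ∃ x ∈ M, ‖y - u * x * star u‖ ≤ 1 / 2 * ‖y‖ := by
    intro y hy
    obtain ⟨x, hx, hxy⟩ := h y hy
    refine ⟨x, hx, ?_⟩
    have h1 : ‖y - x‖ ≤ 1 / 10 * ‖y‖ :=
      hxy.trans (mul_le_mul_of_nonneg_right hγ (norm_nonneg _))
    have h2 : ‖x‖ ≤ ‖y‖ + ‖y - x‖ := by
      have := norm_sub_le y (y - x)
      rwa [sub_sub_cancel] at this
    have e : y - u * x * star u = (y - x) - x * star (u - 1) - (u - 1) * x * star u := by
      simp only [star_sub, star_one]; noncomm_ring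
    have n1 : ‖x * star (u - 1)‖ ≤ ‖x‖ * (1 / 10) :=
      (norm_mul_le _ _).trans (by
        rw [norm_star]; exact mul_le_mul_of_nonneg_left hu1 (norm_nonneg _))
    have n2 : ‖(u - 1) * x * star u‖ ≤ 1 / 10 * ‖x‖ := by
      rw [CStarRing.norm_mul_mem_unitary _ hsu]
      exact (norm_mul_le _ _).trans (mul_le_mul_of_nonneg_right hu1 (norm_nonneg _))
    rw [e]
    have n3 := norm_sub_le ((y - x) - x * star (u - 1)) ((u - 1) * x * star u)
    have n4 := norm_sub_le (y - x) (x * star (u - 1))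
    have := norm_nonneg y
    linarith
  intro y hy
  have iter : ∀ k : ℕ, ∃ x ∈ M, ‖y - u * x * star u‖ ≤ (1 / 2) ^ k * ‖y‖ := by
    intro k
    induction k with
    | zero => exact ⟨0, zero_mem _, by simp⟩
    | succ k ih =>
      obtain ⟨x, hx, hxy⟩ := ih
      obtain ⟨x', hx', hxy'⟩ := step _ (sub_mem hy (hM x hx))
      refine ⟨x + x', add_mem hx hx', ?_⟩
      have e : y - u * (x + x') * star u = y - u * x * star u - u * x' * star u := by
        noncomm_ring
      rw [e, pow_succ]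
      linarith
  have huu : star u * u = 1 := hu.1
  have huu' : u * star u = 1 := hu.2
  refine ⟨star u * y * u, ?_, ?_⟩
  · have hcl := isClosed_vn M
    rw [← SetLike.mem_coe, ← hcl.closure_eq, Metric.mem_closure_iff]
    intro ε hε
    have ht : Filter.Tendsto (fun k : ℕ => (1 / 2 : ℝ) ^ k * ‖y‖) Filter.atTop (nhds 0) := by
      simpa using (tendsto_pow_atTop_nhds_zero_of_lt_one (r := (1 / 2 : ℝ)) (by norm_num)
        (by norm_num)).mul_const ‖y‖
    obtain ⟨k, hk⟩ := (ht.eventually (gt_mem_nhds hε)).exists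
    obtain ⟨x, hx, hxy⟩ := iter k
    refine ⟨x, hx, ?_⟩
    rw [dist_eq_norm]
    have e : star u * y * u - x = star u * (y - u * x * star u) * u := by
      have : star u * (u * x * star u) * u = (star u * u) * x * (star u * u) := by
        simp only [mul_assoc]
      rw [mul_sub, sub_mul, this, huu, one_mul, mul_one]
    rw [e, CStarRing.norm_mul_mem_unitary _ hu, CStarRing.norm_mem_unitary_mul _ hsu]
    exact hxy.trans_lt hk
  · have : u * (star u * y * u) * star u = (u * star u) * y * (u * star u) := by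
      simp only [mul_assoc]
    rw [this, huu', one_mul, mul_one]

end Crest.Agent.R78
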