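import Crest.Agent.R78.KI
import Crest.Agent.R78.KI2
import Crest.Agent.R78.Newton
import Crest.Agent.R78.Unit

/-! Row 78: assembly of S0103. -/

set_option autoImplicit false
set_option linter.unusedSectionVars false

namespace Crest.Agent.R78

open Crest.Agent.R124 Crest.Agent.R121
open scoped InnerProductSpace

variable {H : Type*} [NormedAddCommGroup H] [InnerProductSpace ℂ H] [CompleteSpace H]
  {M N : VonNeumannAlgebra H}

lemma near_of_ball {δ : ℝ} (h : ∀ x ∈ M, ‖x‖ ≤ 1 → ∃ y ∈ N, ‖y‖ ≤ 1 ∧ ‖x - y‖ < δ) :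
    Near M N δ := fun x hx => by
  rcases eq_or_ne x 0 with rfl | h0
  · exact ⟨0, zero_mem _, by simp⟩
  have hn : 0 < ‖x‖ := norm_pos_iff.mpr h0
  obtain ⟨y, hy, -, hxy⟩ := h (((‖x‖⁻¹ : ℝ) : ℂ) • x) (smul_mem_vn hx _) (by
    rw [norm_smul, Complex.norm_real, norm_inv, norm_norm, inv_mul_cancel₀ hn.ne'])
  refine ⟨((‖x‖ : ℝ) : ℂ) • y, smul_mem_vn hy _, ?_⟩
  have : x - ((‖x‖ : ℝ) : ℂ) • y = ((‖x‖ : ℝ) : ℂ) • ((((‖x‖⁻¹ : ℝ) : ℂ) • x) - y) := by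
    rw [smul_sub, smul_smul, ← Complex.ofReal_mul, mul_inv_cancel₀ hn.ne']; simp
  rw [this, norm_smul, Complex.norm_real, norm_norm, mul_comm]
  exact mul_le_mul_of_nonneg_right hxy.le hn.le

lemma exists_cbc_of_close {γ : ℝ} (hγ : 0 ≤ γ) (hγ1 : 32 * cD ^ 5 * γ ≤ 1) (h : Close M N γ) :
    ∃ T : Al M →L[ℂ] Al N, CbC T (12800 * cD ^ 5 * γ) := by
  have hc : 0 < cD := zero_lt_one.trans_le one_le_cD
  have h1 : KIm M N (2 * (800 * cD ^ 3 * (4 * cD ^ 2 * γ))) :=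
    kim_of_ki (by positivity) fun I _ _ => ki_of_kic (by positivity) fun J _ _ =>
      kic (by positivity) (by nlinarith) ((h.amp hγ).dgA (by positivity))
  obtain ⟨T, hT⟩ := exists_cbc (by positivity) h1
  exact ⟨T, by convert hT using 1; ring⟩

theorem s0103 (ε : ℝ) (hε : 0 < ε) :
    ∃ δ : ℝ, 0 < δ ∧
      ∀ (H : Type*) [NormedAddCommGroup H] [InnerProductSpace ℂ H] [CompleteSpace H]
        (M N : VonNeumannAlgebra H),
        (∀ x ∈ M, ‖x‖ ≤ 1 → ∃ y ∈ N, ‖y‖ ≤ 1 ∧ ‖x - y‖ < δ) →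
        (∀ y ∈ N, ‖y‖ ≤ 1 → ∃ x ∈ M, ‖x‖ ≤ 1 ∧ ‖y - x‖ < δ) →
        ∃ u : H →L[ℂ] H, u ∈ unitary (H →L[ℂ] H) ∧ ‖u - 1‖ < ε ∧
          ∀ y : H →L[ℂ] H, y ∈ N ↔ ∃ x ∈ M, y = u * x * star u := by
  have hc1 := one_le_cD
  have hc : 0 < cD := zero_lt_one.trans_le hc1
  set t : ℝ := min ε 1 with ht
  have ht0 : 0 < t := lt_min hε one_pos
  have ht1 : t ≤ 1 := min_le_right _ _
  have htε : t ≤ ε := min_le_left _ _
  set δ : ℝ := t / (10 ^ 8 * cD ^ 6) with hδ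
  have hδ0 : 0 < δ := by positivity
  have h6 : cD ^ 6 * δ = t / 10 ^ 8 := by rw [hδ]; field_simp
  have h5 : cD ^ 5 * δ ≤ cD ^ 6 * δ :=
    mul_le_mul_of_nonneg_right (pow_le_pow_right₀ hc1 (by norm_num)) hδ0.le
  have h0 : δ ≤ cD ^ 6 * δ := le_mul_of_one_le_left hδ0.le (one_le_pow₀ hc1)
  refine ⟨δ, hδ0, fun H _ _ _ M N hMN hNM => ?_⟩
  have h : Close M N δ := ⟨near_of_ball hMN, near_of_ball hNM⟩
  obtain ⟨T, hT⟩ := exists_cbc_of_close hδ0.le (by nlinarith) h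
  obtain ⟨S, hS⟩ := exists_cbc_of_close hδ0.le (by nlinarith) h.symm
  obtain ⟨θ, hθ⟩ := newton (by positivity) (by nlinarith) hT hS
  have e1 : cD * (17 * (12800 * cD ^ 5 * δ)) = 217600 * (cD ^ 6 * δ) := by ring
  obtain ⟨u, hu, hu1, huθ⟩ := exists_unitary θ (by positivity) (by rw [mul_assoc, e1]; nlinarith) hθ
  rw [mul_assoc, e1, h6] at hu1
  have hM : ∀ x ∈ M, u * x * star u ∈ N := fun x hx => by
    have := (θ ⟨x, hx⟩).2
    rwa [huθ] at this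
  refine ⟨u, hu, by nlinarith, fun y => ⟨surj_of_near hu (by nlinarith) hM (by nlinarith) h.2 y, ?_⟩⟩
  rintro ⟨x, hx, rfl⟩
  exact hM x hx

end Crest.Agent.R78
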