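import Crest.Agent.R78.Defs
import Crest.Agent.R124.Paulsen

/-! Row 78: the Hahn–Banach lemma. -/

set_option autoImplicit false
set_option linter.unusedSectionVars false

namespace Crest.Agent.R78

open Crest.Agent.R124 Crest.Agent.R121
open scoped InnerProductSpace

variable {H : Type*} [NormedAddCommGroup H] [InnerProductSpace ℂ H] [CompleteSpace H]

/-- Scaling of a quadratic bound. -/
theorem hb_scale (β : H →ₛₗ[starRingEnd ℂ] H →ₗ[ℂ] ℂ) {C : ℝ}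
    (h : ∀ x y, ‖β x y‖ ≤ C * (‖y‖ ^ 2 + ‖x‖ ^ 2)) (x y : H) : ‖β x y‖ ≤ 2 * C * ‖x‖ * ‖y‖ := by
  rcases eq_or_ne x 0 with rfl | hx
  · simp
  rcases eq_or_ne y 0 with rfl | hy
  · simp
  have hx' : 0 < ‖x‖ := norm_pos_iff.2 hx
  have hy' : 0 < ‖y‖ := norm_pos_iff.2 hy
  have h1 := h (((‖x‖⁻¹ : ℝ) : ℂ) • x) (((‖y‖⁻¹ : ℝ) : ℂ) • y)
  simp only [LinearMap.map_smulₛₗ₂, map_smul, norm_smul, Complex.norm_real, RCLike.norm_conj, norm_inv,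
    norm_norm, inv_mul_cancel₀ hx'.ne', inv_mul_cancel₀ hy'.ne'] at h1
  rw [← mul_assoc, ← mul_inv, inv_mul_le_iff₀ (by positivity)] at h1
  exact h1.trans (le_of_eq (by ring))

/-- A bounded sesquilinear form is given by an operator. -/
theorem hb_op (β : H →ₛₗ[starRingEnd ℂ] H →ₗ[ℂ] ℂ) {C : ℝ}
    (h : ∀ x y, ‖β x y‖ ≤ C * (‖y‖ ^ 2 + ‖x‖ ^ 2)) : ∃ T : H →L[ℂ] H, ∀ x y, ⟪x, T y⟫_ℂ = β x y :=
  ⟨ContinuousLinearMap.adjoint (InnerProductSpace.continuousLinearMapOfBilin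
    (β.mkContinuous₂ (2 * C) (hb_scale β h))), fun x y => by
      rw [ContinuousLinearMap.adjoint_inner_right, InnerProductSpace.continuousLinearMapOfBilin_apply,
        LinearMap.mkContinuous₂_apply]⟩

theorem hb_sq2_smul {I : Type*} [Fintype I] (c : ℂ) (Θ : I → H) :
    sq2 (fun i => c • Θ i) = ‖c‖ ^ 2 * sq2 Θ := by
  simp only [sq2, norm_smul, mul_pow, Finset.mul_sum]

/-- (The proof below realises the quotient `F / W` as a space of functions of `(f, n)`.)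
PROOF.  `F = E ⊗[ℂ] ((H →L[ℂ] ℂ) ⊗[ℂ] H)` (or `(E × H × H) →₀ ℝ` with multilinearity relations),
`δ b θ' θ = b ⊗ (innerSL ℂ θ' ⊗ θ)`, `W` = complex span of `δ b θ' (q θ) - δ b (q* θ') θ`,
`q ∈ Q.commutant`; `ev : F →ₗ ℂ`, `ev (δ b θ' θ) = ⟪θ', ι b θ⟫`.  Apply `exists_linear_le_of_cone` to
`G t s := ∃ I B Θ Θ' w, Ball I B ∧ w ∈ W ∧ t = ∑ δ (B i j) (Θ' i) (Θ j) + w ∧
s = κ (sq2 Θ + sq2 Θ') - re (ev (∑ δ …))` (sums: `hsum`; scaling by `√c`; negation `Θ ↦ -Θ`;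
`hpos`: the functionals `δ b θ' θ ↦ f b * ⟪θ', n θ⟫`, `n ∈ Q`, vanish on `W`).  The real functional `φ`
vanishes on `W`; let `ψ` be the complex-linear functional with `re ψ = -φ`.  Then
`re (ev - ψ) (∑ δ …) ≤ κ (…)`, and after rotating `Θ` by a phase `‖(ev - ψ) (∑ δ …)‖ ≤ κ (…)`.  By
`habs` and scaling, `(θ', θ) ↦ ψ (δ b θ' θ)` is a bounded sesquilinear form, `= ⟪θ', T b θ⟫`; `T b`
commutes with `Q.commutant` (`mem_of_comm`). -/
theorem hbl {E : Type*} [AddCommGroup E] [Module ℂ E] (ι : E →ₗ[ℂ] (H →L[ℂ] H))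
    (Q : VonNeumannAlgebra H) (Ball : ∀ (I : Type) [Fintype I], (I → I → E) → Prop) {κ : ℝ}
    (hκ : 0 ≤ κ) (h0 : Ball Empty fun _ _ => 0)
    (hsum : ∀ (I J : Type) [Fintype I] [Fintype J] (B : I → I → E) (B' : J → J → E),
      Ball I B → Ball J B' → Ball (I ⊕ J) (Matrix.fromBlocks B 0 0 B'))
    (habs : ∀ b : E, b = 0 ∨ ∃ t : ℂ, t ≠ 0 ∧ Ball Unit fun _ _ => t • b)
    (h : ∀ (I : Type) [Fintype I] (B : I → I → E) (Θ Θ' : I → H), Ball I B →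
      (∀ f : E →ₗ[ℂ] ℂ, ∀ n ∈ Q, ∑ i, ∑ j, f (B i j) * ⟪Θ' i, n (Θ j)⟫_ℂ = 0) →
      ‖∑ i, ∑ j, ⟪Θ' i, ι (B i j) (Θ j)⟫_ℂ‖ ≤ κ * (sq2 Θ + sq2 Θ')) :
    ∃ T : E →ₗ[ℂ] (H →L[ℂ] H), (∀ b, T b ∈ Q) ∧
      ∀ (I : Type) [Fintype I] (B : I → I → E) (Θ Θ' : I → H), Ball I B →
        ‖∑ i, ∑ j, ⟪Θ' i, (T (B i j) - ι (B i j)) (Θ j)⟫_ℂ‖ ≤ κ * (sq2 Θ + sq2 Θ') := by
  let δ : E → H → H → ((E →ₗ[ℂ] ℂ) × {n : H →L[ℂ] H // n ∈ Q} → ℂ) :=
    fun b x y p => p.1 b * ⟪x, p.2.1 y⟫_ℂ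
  have hδ : ∀ (a c : ℂ) b x y, δ b (a • x) (c • y) = (starRingEnd ℂ a * c) • δ b x y := by
    intro a c b x y
    ext p
    simp only [δ, map_smul, inner_smul_left, inner_smul_right, Pi.smul_apply, smul_eq_mul]
    ring
  have hδ0 : ∀ x y, δ 0 x y = 0 := fun x y => by
    ext p
    simp [δ]
  obtain ⟨φ, hφ⟩ := exists_linear_le_of_cone
    (fun (t : (E →ₗ[ℂ] ℂ) × {n : H →L[ℂ] H // n ∈ Q} → ℂ) (s : ℝ) =>
      ∃ (I : Type) (_ : Fintype I) (B : I → I → E) (Θ Θ' : I → H), Ball I B ∧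
        t = ∑ i, ∑ j, δ (B i j) (Θ' i) (Θ j) ∧
        s = κ * (sq2 Θ + sq2 Θ') - (∑ i, ∑ j, ⟪Θ' i, ι (B i j) (Θ j)⟫_ℂ).re)
    ⟨Empty, inferInstance, _, Empty.elim, Empty.elim, h0, by simp, by simp [sq2]⟩
    (by
      rintro _ _ _ _ ⟨I, _, B, Θ, Θ', hB, rfl, rfl⟩ ⟨J, _, B', Ξ, Ξ', hB', rfl, rfl⟩
      refine ⟨I ⊕ J, inferInstance, _, Sum.elim Θ Ξ, Sum.elim Θ' Ξ', hsum I J B B' hB hB', ?_, ?_⟩
      · simp [Fintype.sum_sum_type, hδ0]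
      · simp only [sq2, Fintype.sum_sum_type, Sum.elim_inl, Sum.elim_inr, Matrix.fromBlocks_apply₁₁,
          Matrix.fromBlocks_apply₁₂, Matrix.fromBlocks_apply₂₁, Matrix.fromBlocks_apply₂₂,
          Matrix.zero_apply, map_zero, zero_apply, inner_zero_right,
          Finset.sum_const_zero, add_zero, zero_add, Complex.add_re]
        ring)
    (by
      rintro c _ _ hc ⟨I, _, B, Θ, Θ', hB, rfl, rfl⟩
      have e : starRingEnd ℂ ((√c : ℝ) : ℂ) * ((√c : ℝ) : ℂ) = (c : ℂ) := by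
        rw [Complex.conj_ofReal, ← Complex.ofReal_mul, Real.mul_self_sqrt hc]
      refine ⟨I, inferInstance, B, fun i => ((√c : ℝ) : ℂ) • Θ i, fun i => ((√c : ℝ) : ℂ) • Θ' i, hB,
        ?_, ?_⟩
      · simp only [hδ, e]
        simp only [Finset.smul_sum, Complex.coe_smul]
      · have e' : ∀ (x y : H) (X : H →L[ℂ] H),
            ⟪((√c : ℝ) : ℂ) • x, X (((√c : ℝ) : ℂ) • y)⟫_ℂ = c * ⟪x, X y⟫_ℂ := fun x y X => by
          rw [map_smul, inner_smul_left, inner_smul_right, ← mul_assoc, e]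
        simp only [hb_sq2_smul, e', ← Finset.mul_sum, Complex.re_ofReal_mul, Complex.norm_real,
          Real.norm_eq_abs, sq_abs, Real.sq_sqrt hc]
        ring)
    (by
      rintro _ _ ⟨I, _, B, Θ, Θ', hB, rfl, rfl⟩
      refine ⟨_, I, inferInstance, B, fun i => (-1 : ℂ) • Θ i, fun i => (1 : ℂ) • Θ' i, hB, ?_, rfl⟩
      simp only [hδ]
      simp)
    (by
      rintro _ ⟨I, _, B, Θ, Θ', hB, h1, rfl⟩
      have h2 := h I B Θ Θ' hB fun f n hn => by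
        simpa only [Finset.sum_apply, Pi.zero_apply] using (congrFun h1 (f, ⟨n, hn⟩)).symm
      exact sub_nonneg.2 ((Complex.re_le_norm _).trans h2))
  obtain ⟨ψ, hψ⟩ : ∃ ψ : ((E →ₗ[ℂ] ℂ) × {n : H →L[ℂ] H // n ∈ Q} → ℂ) →ₗ[ℂ] ℂ,
      ∀ t, (ψ t).re = -φ t :=
    ⟨Module.Dual.extendRCLike (-φ), fun t => Module.Dual.re_extendRCLike_apply (𝕜 := ℂ) (-φ) t⟩
  have key : ∀ (I : Type) [Fintype I] (B : I → I → E) (Θ Θ' : I → H), Ball I B →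
      ‖∑ i, ∑ j, (ψ (δ (B i j) (Θ' i) (Θ j)) - ⟪Θ' i, ι (B i j) (Θ j)⟫_ℂ)‖ ≤
        κ * (sq2 Θ + sq2 Θ') := by
    intro I _ B Θ Θ' hB
    obtain ⟨u, hu, hu'⟩ := Complex.exists_norm_eq_mul_self
      (∑ i, ∑ j, (ψ (δ (B i j) (Θ' i) (Θ j)) - ⟪Θ' i, ι (B i j) (Θ j)⟫_ℂ))
    have h1 := hφ _ _ ⟨I, inferInstance, B, fun i => (-u) • Θ i, fun i => (1 : ℂ) • Θ' i, hB, rfl, rfl⟩
    have h2 := hψ (∑ i, ∑ j, δ (B i j) ((1 : ℂ) • Θ' i) ((-u) • Θ j))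
    have h3 := congrArg Complex.re hu'
    simp only [hb_sq2_smul, norm_neg, hu, norm_one, one_pow, one_mul] at h1
    simp only [Finset.sum_sub_distrib, mul_sub, Complex.sub_re, Complex.ofReal_re] at h3
    have e1 : ψ (∑ i, ∑ j, δ (B i j) ((1 : ℂ) • Θ' i) ((-u) • Θ j)) =
        -(u * ∑ i, ∑ j, ψ (δ (B i j) (Θ' i) (Θ j))) := by
      simp only [hδ, map_sum, map_smul, map_one, one_mul, smul_eq_mul, ← Finset.mul_sum]
      rw [neg_mul]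
    have e2 : ∑ i, ∑ j, ⟪(1 : ℂ) • Θ' i, ι (B i j) ((-u) • Θ j)⟫_ℂ =
        -(u * ∑ i, ∑ j, ⟪Θ' i, ι (B i j) (Θ j)⟫_ℂ) := by
      simp only [one_smul, map_smul, inner_smul_right, ← Finset.mul_sum]
      rw [neg_mul]
    rw [e1] at h2
    rw [e2] at h1
    simp only [Finset.sum_sub_distrib]
    rw [Complex.neg_re] at h1 h2
    linarith
  let β : E → H →ₛₗ[starRingEnd ℂ] H →ₗ[ℂ] ℂ := fun b =>
    LinearMap.mk₂'ₛₗ (starRingEnd ℂ) (RingHom.id ℂ) (fun x y => ψ (δ b x y))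
      (fun x x' y => by
        rw [← map_add]
        congr 1
        ext p
        simp only [δ, inner_add_left, Pi.add_apply, mul_add])
      (fun c x y => by simpa using congrArg ψ (hδ c 1 b x y))
      (fun x y y' => by
        rw [← map_add]
        congr 1
        ext p
        simp only [δ, map_add, inner_add_right, Pi.add_apply, mul_add])
      (fun c x y => by simpa using congrArg ψ (hδ 1 c b x y))
  have hβ : ∀ b x y, β b x y = ψ (δ b x y) := fun _ _ _ => rfl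
  have hδs : ∀ (c : ℂ) b x y, δ (c • b) x y = c • δ b x y := fun c b x y => by
    ext p
    simp only [δ, map_smul, Pi.smul_apply, smul_eq_mul, mul_assoc]
  have hT : ∀ b, ∃ T : H →L[ℂ] H, ∀ x y, ⟪x, T y⟫_ℂ = ψ (δ b x y) := by
    intro b
    rcases habs b with rfl | ⟨t, ht, hb⟩
    · exact ⟨0, fun x y => by simp [hδ0]⟩
    refine hb_op (β b) (C := (κ + ‖ι (t • b)‖) / ‖t‖) fun x y => ?_
    have h1 := key Unit (fun _ _ => t • b) (fun _ => y) (fun _ => x) hb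
    simp only [sq2, Finset.univ_unique, Finset.sum_singleton] at h1
    have h2 : ‖⟪x, ι (t • b) y⟫_ℂ‖ ≤ ‖ι (t • b)‖ * (‖y‖ ^ 2 + ‖x‖ ^ 2) := by
      refine (norm_inner_le_norm _ _).trans
        ((mul_le_mul_of_nonneg_left ((ι (t • b)).le_opNorm y) (norm_nonneg _)).trans ?_)
      rw [mul_left_comm]
      refine mul_le_mul_of_nonneg_left ?_ (norm_nonneg _)
      nlinarith [sq_nonneg (‖x‖ - ‖y‖), norm_nonneg x, norm_nonneg y]
    have h3 := norm_add_le (ψ (δ (t • b) x y) - ⟪x, ι (t • b) y⟫_ℂ) ⟪x, ι (t • b) y⟫_ℂ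
    rw [sub_add_cancel] at h3
    have h4 : ‖ψ (δ (t • b) x y)‖ = ‖ψ (δ b x y)‖ * ‖t‖ := by
      rw [hδs, map_smul, norm_smul, mul_comm]
    rw [hβ, div_mul_eq_mul_div, le_div_iff₀ (norm_pos_iff.2 ht), ← h4, add_mul]
    linarith
  choose T hT using hT
  refine ⟨{ toFun := T, map_add' := fun b b' => ?_, map_smul' := fun c b => ?_ }, fun b => ?_, ?_⟩
  · ext y
    refine ext_inner_left ℂ fun x => ?_
    rw [add_apply, inner_add_right, hT, hT, hT, ← map_add]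
    congr 1
    ext p
    simp only [δ, map_add, Pi.add_apply, add_mul]
  · ext y
    refine ext_inner_left ℂ fun x => ?_
    rw [RingHom.id_apply, smul_apply, inner_smul_right, hT, hT, hδs, map_smul, smul_eq_mul]
  · refine mem_of_comm fun q hq => ?_
    ext y
    refine ext_inner_left ℂ fun x => ?_
    show ⟪x, q (T b y)⟫_ℂ = ⟪x, T b (q y)⟫_ℂ
    rw [← ContinuousLinearMap.adjoint_inner_left, hT, hT]
    congr 1
    ext p
    show p.1 b * _ = p.1 b * _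
    rw [ContinuousLinearMap.adjoint_inner_left]
    congr 2
    exact (congrArg (fun z : H →L[ℂ] H => z y) (comm_of_mem p.2.2 hq)).symm
  · intro I _ B Θ Θ' hB
    simpa only [LinearMap.coe_mk, AddHom.coe_mk, sub_apply, inner_sub_right, hT]
      using key I B Θ Θ' hB

/-- From the quadratic form of the bound to the operator norm (test with `η = X ξ`, scale). -/
theorem norm_le_of_inner {X : H →L[ℂ] H} {κ : ℝ} (hκ : 0 ≤ κ)
    (h : ∀ ξ η : H, ‖⟪η, X ξ⟫_ℂ‖ ≤ κ * (‖ξ‖ ^ 2 + ‖η‖ ^ 2)) : ‖X‖ ≤ 2 * κ := by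
  refine X.opNorm_le_bound (by positivity) fun ξ => ?_
  have h1 := hb_scale ((innerₛₗ ℂ).compl₂ (X : H →ₗ[ℂ] H)) (fun x y => h y x) (X ξ) ξ
  have h2 : ‖((innerₛₗ ℂ).compl₂ (X : H →ₗ[ℂ] H)) (X ξ) ξ‖ = ‖X ξ‖ * ‖X ξ‖ := by
    show ‖⟪X ξ, X ξ⟫_ℂ‖ = _
    rw [inner_self_eq_norm_sq_to_K]
    simp [sq]
  rw [h2] at h1
  rcases (norm_nonneg (X ξ)).eq_or_lt with h0 | h0
  · rw [← h0]
    positivity
  · refine le_of_mul_le_mul_left (h1.trans (le_of_eq ?_)) h0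
    ring

end Crest.Agent.R78
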