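import Crest.Agent.R78.Defs

/-! Row 78: scalar estimates for `tt` (`tt α β s = cosh (u/2)⁻²`, `e^u = β s / (α (1 - s))`). -/

set_option autoImplicit false
set_option linter.unusedSectionVars false

namespace Crest.Agent.R78

variable {α β s : ℝ}

lemma tt_den_pos (hα : 0 < α) (hβ : 0 < β) (hs : s ∈ Set.Icc (0 : ℝ) 1) :
    0 < β * s + α * (1 - s) := by
  obtain ⟨h0, h1⟩ := hs
  rcases h0.eq_or_lt with rfl | h0'
  · simpa using hα
  · have := mul_pos hβ h0'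
    have := mul_nonneg hα.le (sub_nonneg.2 h1)
    linarith

lemma tt_nonneg (hα : 0 < α) (hβ : 0 < β) (hs : s ∈ Set.Icc (0 : ℝ) 1) : 0 ≤ tt α β s := by
  have h0 := hs.1
  have h1 := sub_nonneg.2 hs.2
  unfold tt
  positivity

/-- `(β s + α (1 - s))² - 4 α β s (1 - s) = (β s - α (1 - s))²`. -/
lemma one_sub_tt (hα : 0 < α) (hβ : 0 < β) (hs : s ∈ Set.Icc (0 : ℝ) 1) :
    1 - tt α β s = ((β * s - α * (1 - s)) / (β * s + α * (1 - s))) ^ 2 := by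
  have h := (tt_den_pos hα hβ hs).ne'
  unfold tt
  field_simp
  ring

lemma tt_le_one (hα : 0 < α) (hβ : 0 < β) (hs : s ∈ Set.Icc (0 : ℝ) 1) : tt α β s ≤ 1 := by
  have h := one_sub_tt hα hβ hs
  have := sq_nonneg ((β * s - α * (1 - s)) / (β * s + α * (1 - s)))
  linarith

lemma tt_div {c : ℝ} (hc : c ≠ 0) : tt (α / c) (β / c) s = tt α β s := by
  unfold tt
  have e : β / c * s + α / c * (1 - s) = (β * s + α * (1 - s)) / c := by ring
  have e2 : 4 * (α / c) * (β / c) * s * (1 - s) = 4 * α * β * s * (1 - s) / c ^ 2 := by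
    field_simp
  rw [e, e2, div_pow, div_div_div_cancel_right₀ (pow_ne_zero 2 hc)]

lemma tt_half_symm : tt α β (1 / 2) = tt β α (1 / 2) := by
  unfold tt
  congr 1 <;> ring

lemma continuousOn_tt (hα : 0 < α) (hβ : 0 < β) : ContinuousOn (tt α β) (Set.Icc 0 1) := by
  unfold tt
  refine ContinuousOn.div (by fun_prop) (by fun_prop) fun s hs => ?_
  exact pow_ne_zero 2 (tt_den_pos hα hβ hs).ne'

/-- `t^p (1 - t) ≤ 1/p` on `[0, 1]` (`p t^p (1 - t) ≤ (1 + t + ⋯ + t^(p-1)) (1 - t) = 1 - t^p`). -/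
lemma pow_mul_one_sub_le {t : ℝ} (h0 : 0 ≤ t) (h1 : t ≤ 1) {p : ℕ} (hp : 0 < p) :
    t ^ p * (1 - t) ≤ 1 / p := by
  have hp' : (0 : ℝ) < p := by exact_mod_cast hp
  rw [le_div_iff₀ hp']
  have h2 : (p : ℝ) * t ^ p ≤ ∑ i ∈ Finset.range p, t ^ i := by
    have := Finset.card_nsmul_le_sum (Finset.range p) (fun i => t ^ i) (t ^ p) fun i hi =>
      pow_le_pow_of_le_one h0 h1 (Finset.mem_range.1 hi).le
    simpa using this
  have h3 := mul_le_mul_of_nonneg_right h2 (sub_nonneg.2 h1)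
  have h4 : (∑ i ∈ Finset.range p, t ^ i) * (1 - t) = 1 - t ^ p := by
    have := geom_sum_mul t p
    linarith
  have h5 := pow_nonneg h0 p
  linarith

section Aux
open Finset

lemma sc_up {g : ℝ → ℝ} (hg0 : ∀ u, 0 ≤ g u) (hg : ∀ u v, |v| ≤ |u| → g u ≤ g v) {δ : ℝ}
    (hδ : 0 < δ) (N : ℕ) (u : ℝ) :
    ∑ k ∈ range N, g (u + k * δ) ≤ 2 * ∑ j ∈ range N, g (j * δ) := by
  have mono : ∀ n ≤ N, ∑ j ∈ range n, g (j * δ) ≤ ∑ j ∈ range N, g (j * δ) := fun n hn =>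
    sum_le_sum_of_subset_of_nonneg (range_mono hn) fun _ _ _ => hg0 _
  obtain ⟨m, hmN, h1, h2⟩ : ∃ m ≤ N, (∀ k < m, u + k * δ ≤ 0) ∧ (m < N → 0 ≤ u + m * δ) := by
    refine ⟨min N ⌈-u / δ⌉₊, min_le_left _ _, fun k hk => ?_, fun h => ?_⟩
    · have : (k : ℝ) < -u / δ := Nat.lt_ceil.1 (hk.trans_le (min_le_right _ _))
      rw [lt_div_iff₀ hδ] at this
      linarith
    · have e : min N ⌈-u / δ⌉₊ = ⌈-u / δ⌉₊ := by omega
      rw [e]
      have := Nat.le_ceil (-u / δ)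
      rw [div_le_iff₀ hδ] at this
      linarith
  obtain ⟨n, rfl⟩ := Nat.exists_eq_add_of_le hmN
  rw [sum_range_add]
  have a1 : ∑ k ∈ range m, g (u + k * δ) ≤ ∑ j ∈ range m, g (j * δ) := by
    rw [← sum_range_reflect]
    refine sum_le_sum fun j hj => hg _ _ ?_
    have hj' := mem_range.1 hj
    have e : ((m - 1 - j : ℕ) : ℝ) = ((m - 1 : ℕ) : ℝ) - j := Nat.cast_sub (by omega)
    have h3 := h1 (m - 1) (by omega)
    have h4 : 0 ≤ (j : ℝ) * δ := by positivity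
    rw [e, abs_of_nonneg h4, abs_of_nonpos (by linarith)]
    linarith
  have a2 : ∑ k ∈ range n, g (u + (m + k : ℕ) * δ) ≤ ∑ j ∈ range n, g (j * δ) := by
    refine sum_le_sum fun j hj => hg _ _ ?_
    have hj' := mem_range.1 hj
    have h3 := h2 (by omega)
    have h4 : 0 ≤ (j : ℝ) * δ := by positivity
    push_cast
    rw [abs_of_nonneg h4, abs_of_nonneg (by linarith)]
    linarith
  have b1 := mono m (by omega)
  have b2 := mono n (by omega)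
  linarith

lemma sc_low {g : ℝ → ℝ} (hg0 : ∀ u, 0 ≤ g u) (hg : ∀ u v, |v| ≤ |u| → g u ≤ g v) {δ : ℝ}
    (hδ : 0 < δ) {J m N : ℕ} (hJ : J ≤ m) (hN : m + J ≤ N) {u : ℝ} (h0 : 0 ≤ u + m * δ)
    (h1 : u + m * δ ≤ δ) :
    2 * ∑ j ∈ range J, g ((j + 1 : ℕ) * δ) ≤ ∑ k ∈ range N, g (u + k * δ) := by
  obtain ⟨a, rfl⟩ := Nat.exists_eq_add_of_le' hJ
  obtain ⟨b, rfl⟩ := Nat.exists_eq_add_of_le hN
  rw [sum_range_add, sum_range_add, sum_range_add]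
  have n1 : 0 ≤ ∑ k ∈ range a, g (u + k * δ) := sum_nonneg fun _ _ => hg0 _
  have n2 : 0 ≤ ∑ k ∈ range b, g (u + (a + J + J + k : ℕ) * δ) := sum_nonneg fun _ _ => hg0 _
  push_cast at h0 h1
  have a1 : ∑ j ∈ range J, g ((j + 1 : ℕ) * δ) ≤ ∑ k ∈ range J, g (u + (a + k : ℕ) * δ) := by
    rw [← sum_range_reflect (fun k => g (u + (a + k : ℕ) * δ))]
    refine sum_le_sum fun j hj => hg _ _ ?_
    have hj' := mem_range.1 hj
    have e : ((J - 1 - j : ℕ) : ℝ) = J - 1 - j := by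
      rw [Nat.cast_sub (by omega), Nat.cast_sub (by omega), Nat.cast_one]
    have h4 : 0 ≤ (j : ℝ) * δ := by positivity
    push_cast
    rw [e, abs_of_nonneg (a := ((j : ℝ) + 1) * δ) (by positivity), abs_of_nonpos (by linarith)]
    linarith
  have a2 : ∑ j ∈ range J, g ((j + 1 : ℕ) * δ) ≤
      ∑ k ∈ range J, g (u + (a + J + k : ℕ) * δ) := by
    refine sum_le_sum fun j _ => hg _ _ ?_
    have h4 : 0 ≤ (j : ℝ) * δ := by positivity
    push_cast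
    rw [abs_of_nonneg (a := ((j : ℝ) + 1) * δ) (by positivity), abs_of_nonneg (by linarith)]
    linarith
  linarith

/-- the bump `cosh (u/2) ^ (-2 p)` -/
noncomputable def scg (p : ℕ) (u : ℝ) : ℝ := ((Real.cosh (u / 2))⁻¹ ^ 2) ^ p

lemma scg_nonneg (p : ℕ) (u : ℝ) : 0 ≤ scg p u := by
  unfold scg; positivity

lemma scg_mono (p : ℕ) (u v : ℝ) (h : |v| ≤ |u|) : scg p u ≤ scg p v := by
  unfold scg
  have h1 : Real.cosh (v / 2) ≤ Real.cosh (u / 2) := by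
    rw [Real.cosh_le_cosh, abs_div, abs_div]
    exact div_le_div_of_nonneg_right h (abs_nonneg _)
  have h2 := Real.cosh_pos (v / 2)
  have h3 := Real.cosh_pos (u / 2)
  gcongr

lemma scg_zero (p : ℕ) : scg p 0 = 1 := by simp [scg]

lemma scg_ge (p : ℕ) (u : ℝ) : 1 - p * u ^ 2 / 4 ≤ scg p u := by
  have h1 := Real.cosh_le_exp_half_sq (u / 2)
  have h2 := Real.cosh_pos (u / 2)
  have h3 : ((Real.exp ((u / 2) ^ 2 / 2))⁻¹ ^ 2) ^ p ≤ scg p u := by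
    unfold scg
    gcongr
  rw [← Real.exp_neg, ← Real.exp_nat_mul, ← Real.exp_nat_mul] at h3
  refine le_trans ?_ ((Real.add_one_le_exp _).trans h3)
  push_cast
  apply le_of_eq
  ring

lemma scg_le (p : ℕ) (u : ℝ) : scg p u * (p * u ^ 2 / 4) ≤ 1 := by
  have h1 : (u / 2) ^ 2 ≤ Real.sinh (u / 2) ^ 2 := by
    rw [sq_le_sq, Real.abs_sinh]
    exact (Real.self_le_sinh_iff.2 (abs_nonneg _))
  have h2 : 1 + (u / 2) ^ 2 ≤ Real.cosh (u / 2) ^ 2 := by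
    rw [Real.cosh_sq']; linarith
  have h3 : 1 + p * (u / 2) ^ 2 ≤ (Real.cosh (u / 2) ^ 2) ^ p :=
    (one_add_mul_le_pow (by nlinarith [sq_nonneg (u / 2)]) p).trans
      (pow_le_pow_left₀ (by positivity) h2 p)
  have h4 : scg p u * (Real.cosh (u / 2) ^ 2) ^ p = 1 := by
    unfold scg
    rw [← mul_pow, ← mul_pow, inv_mul_cancel₀ (Real.cosh_pos _).ne']
    simp
  have h5 := mul_le_mul_of_nonneg_left h3 (scg_nonneg p u)
  have h6 := scg_nonneg p u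
  nlinarith

lemma tt_eq_cosh {δ : ℝ} (h0 : 0 < s) (h1 : s < 1) (k l : ℕ) :
    tt (Real.exp δ ^ k)⁻¹ (Real.exp δ ^ l)⁻¹ s =
      (Real.cosh ((Real.log (s / (1 - s)) - l * δ + k * δ) / 2))⁻¹ ^ 2 := by
  have h2 : 0 < 1 - s := sub_pos.2 h1
  set u := Real.log (s / (1 - s)) - l * δ + k * δ with hu
  have hw : Real.exp (u / 2) ^ 2 = s / (1 - s) * (Real.exp δ ^ l)⁻¹ * Real.exp δ ^ k := by
    rw [← Real.exp_nat_mul, show ((2 : ℕ) : ℝ) * (u / 2) = u by push_cast; ring, hu,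
      Real.exp_add, Real.exp_sub, Real.exp_log (div_pos h0 h2), Real.exp_nat_mul,
      Real.exp_nat_mul, div_eq_mul_inv]
  rw [Real.cosh_eq, Real.exp_neg]
  have hw0 := Real.exp_pos (u / 2)
  generalize Real.exp (u / 2) = w at *
  have ha : 0 < Real.exp δ ^ k := by positivity
  have hb : 0 < (Real.exp δ ^ l)⁻¹ := by positivity
  generalize Real.exp δ ^ k = a at *
  generalize (Real.exp δ ^ l)⁻¹ = b at *
  have e : b * s = w ^ 2 * (a⁻¹ * (1 - s)) := by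
    rw [hw]; field_simp
  have e2 : tt a⁻¹ b s = 4 * (b * s) * (a⁻¹ * (1 - s)) / (b * s + a⁻¹ * (1 - s)) ^ 2 := by
    unfold tt
    congr 1
    ring
  rw [e2, e]
  have hc : 0 < a⁻¹ * (1 - s) := by positivity
  generalize a⁻¹ * (1 - s) = c at *
  field_simp
  ring

lemma tt_sum_eq {δ : ℝ} (h0 : 0 < s) (h1 : s < 1) (N p l : ℕ) :
    ∑ k : Fin N, tt (Real.exp δ ^ (k : ℕ))⁻¹ (Real.exp δ ^ l)⁻¹ s ^ p =
      ∑ k ∈ range N, scg p (Real.log (s / (1 - s)) - l * δ + k * δ) := by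
  rw [← Fin.sum_univ_eq_sum_range (fun k => scg p (Real.log (s / (1 - s)) - l * δ + k * δ))]
  refine sum_congr rfl fun k _ => ?_
  rw [tt_eq_cosh h0 h1, scg]

lemma tt_sum_le {δ : ℝ} (hδ : 0 < δ) (hs : s ∈ Set.Icc (0 : ℝ) 1) (N l : ℕ) {p : ℕ} (hp : 0 < p) :
    ∑ k : Fin N, tt (Real.exp δ ^ (k : ℕ))⁻¹ (Real.exp δ ^ l)⁻¹ s ^ p ≤
      2 * ∑ j ∈ range N, scg p (j * δ) := by
  have hA : 0 ≤ 2 * ∑ j ∈ range N, scg p (j * δ) :=
    mul_nonneg (by norm_num) (sum_nonneg fun _ _ => scg_nonneg _ _)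
  rcases hs.1.eq_or_lt with rfl | h0
  · simpa [tt, hp.ne'] using hA
  rcases hs.2.eq_or_lt with rfl | h1
  · simpa [tt, hp.ne'] using hA
  rw [tt_sum_eq h0 h1]
  exact sc_up (scg_nonneg p) (scg_mono p) hδ N _

lemma sc_tail {n r N : ℕ} (hn : 0 < n) (hr : 0 < r) (hN : 8 * n ^ 2 + 1 ≤ N) :
    ∑ j ∈ range N, scg (r ^ 2) (j * (1 / (n * r))) ≤
      ∑ j ∈ range (8 * n ^ 2), scg (r ^ 2) ((j + 1 : ℕ) * (1 / (n * r))) + 2 := by
  have hn' : (0 : ℝ) < n := by exact_mod_cast hn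
  have hr' : (0 : ℝ) < r := by exact_mod_cast hr
  rw [← sum_range_add_sum_Ico _ hN, sum_range_succ', Nat.cast_zero, zero_mul, scg_zero,
    Finset.Ico_add_one_left_eq_Ioo]
  have h1 : ∑ j ∈ Ioo (8 * n ^ 2) N, scg (r ^ 2) (j * (1 / (n * r))) ≤
      ∑ j ∈ Ioo (8 * n ^ 2) N, 4 * (n : ℝ) ^ 2 * ((j : ℝ) ^ 2)⁻¹ := by
    refine sum_le_sum fun j hj => ?_
    have hj' : (0 : ℝ) < j := by
      have := (mem_Ioo.1 hj).1
      exact_mod_cast (by omega : 0 < j)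
    have h := scg_le (r ^ 2) (j * (1 / (n * r)))
    have e : ((r ^ 2 : ℕ) : ℝ) * (j * (1 / (n * r))) ^ 2 / 4 = (j : ℝ) ^ 2 / (4 * n ^ 2) := by
      push_cast; field_simp
    rw [e, ← mul_div_assoc, div_le_one (by positivity)] at h
    rw [← div_eq_mul_inv, le_div_iff₀ (by positivity)]
    exact h
  have h2 := sum_Ioo_inv_sq_le (α := ℝ) (8 * n ^ 2) N
  rw [← mul_sum] at h1
  have h3 := mul_le_mul_of_nonneg_left h2 (show (0 : ℝ) ≤ 4 * (n : ℝ) ^ 2 by positivity)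
  have h4 : 4 * (n : ℝ) ^ 2 * (2 / (((8 * n ^ 2 : ℕ) : ℝ) + 1)) ≤ 1 := by
    rw [← mul_div_assoc, div_le_one (by positivity)]
    push_cast
    linarith
  linarith

lemma sc_big {n r N : ℕ} (hn : 0 < n) (hr : 0 < r) (hN : n ≤ N) :
    (n : ℝ) ≤ 2 * ∑ j ∈ range N, scg (r ^ 2) (j * (1 / (n * r))) := by
  have hn' : (0 : ℝ) < n := by exact_mod_cast hn
  have hr' : (0 : ℝ) < r := by exact_mod_cast hr
  have h1 : ∑ j ∈ range n, scg (r ^ 2) (j * (1 / (n * r))) ≤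
      ∑ j ∈ range N, scg (r ^ 2) (j * (1 / (n * r))) :=
    sum_le_sum_of_subset_of_nonneg (range_mono hN) fun _ _ _ => scg_nonneg _ _
  have h2 := card_nsmul_le_sum (range n) (fun j : ℕ => scg (r ^ 2) (j * (1 / (n * r)))) (1 / 2)
    fun j hj => by
      have hj' : (j : ℝ) ≤ n := by exact_mod_cast (mem_range.1 hj).le
      refine le_trans ?_ (scg_ge _ _)
      have e : ((r ^ 2 : ℕ) : ℝ) * (j * (1 / (n * r))) ^ 2 / 4 = (j : ℝ) ^ 2 / (4 * n ^ 2) := by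
        push_cast; field_simp
      have h3 : (j : ℝ) ^ 2 / (4 * n ^ 2) ≤ 1 / 4 := by
        rw [div_le_iff₀ (by positivity)]
        have : (j : ℝ) ^ 2 ≤ (n : ℝ) ^ 2 := by gcongr
        linarith
      rw [e]; linarith
  rw [card_range, nsmul_eq_mul] at h2
  linarith

lemma sc_mid {n r : ℕ} (hn : 2 ≤ n) (hr : 8 ≤ r) {ℓ : ℝ} (hℓ : |ℓ| ≤ n) {l : ℕ}
    (hl : l ∈ Ico (2 * n ^ 2 * r) (n * (2 * n ^ 2 * r) - 2 * n ^ 2 * r)) :
    2 * ∑ j ∈ range (n * (2 * n ^ 2 * r)), scg (r ^ 2) (j * (1 / (n * r))) - 4 ≤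
      ∑ k ∈ range (n * (2 * n ^ 2 * r)), scg (r ^ 2) (ℓ - l * (1 / (n * r)) + k * (1 / (n * r))) := by
  have hn' : (0 : ℝ) < n := by exact_mod_cast (by omega : 0 < n)
  have hr' : (0 : ℝ) < r := by exact_mod_cast (by omega : 0 < r)
  have hδ : (0 : ℝ) < 1 / (n * r) := by positivity
  obtain ⟨hl1, hl2⟩ := mem_Ico.1 hl
  have hJ : 8 * n ^ 2 ≤ n ^ 2 * r := by nlinarith
  have hW : 2 * n ^ 2 * r = 2 * (n ^ 2 * r) := by ring
  have hl3 : l + 1 + 2 * (n ^ 2 * r) ≤ n * (2 * n ^ 2 * r) := by omega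
  obtain ⟨hℓ1, hℓ2⟩ := abs_le.1 hℓ
  have hR1 : ℓ * (n * r) ≤ ((n ^ 2 * r : ℕ) : ℝ) := by
    push_cast
    have := mul_le_mul_of_nonneg_right hℓ2 (show (0 : ℝ) ≤ n * r by positivity)
    nlinarith
  have hR2 : -((n ^ 2 * r : ℕ) : ℝ) ≤ ℓ * (n * r) := by
    push_cast
    have := mul_le_mul_of_nonneg_right hℓ1 (show (0 : ℝ) ≤ n * r by positivity)
    nlinarith
  have hJ' : ((8 * n ^ 2 : ℕ) : ℝ) ≤ ((n ^ 2 * r : ℕ) : ℝ) := by exact_mod_cast hJ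
  have hl1' : 2 * ((n ^ 2 * r : ℕ) : ℝ) ≤ l := by
    rw [hW] at hl1; exact_mod_cast hl1
  have hl3' : (l : ℝ) + 1 + 2 * ((n ^ 2 * r : ℕ) : ℝ) ≤ ((n * (2 * n ^ 2 * r) : ℕ) : ℝ) := by
    exact_mod_cast hl3
  have hJ0 : (0 : ℝ) ≤ ((8 * n ^ 2 : ℕ) : ℝ) := Nat.cast_nonneg _
  set t : ℝ := l - ℓ * (n * r) with ht
  have ht0 : 0 ≤ t := by linarith
  have c1 := Nat.le_ceil t
  have c2 := Nat.ceil_lt_add_one ht0
  have e : ℓ - l * (1 / (n * r)) + (⌈t⌉₊ : ℝ) * (1 / (n * r)) =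
      ((⌈t⌉₊ : ℝ) - t) * (1 / (n * r)) := by
    rw [ht]; field_simp; ring
  have h1 := sc_low (scg_nonneg (r ^ 2)) (scg_mono (r ^ 2)) hδ (J := 8 * n ^ 2) (m := ⌈t⌉₊)
    (N := n * (2 * n ^ 2 * r)) (u := ℓ - l * (1 / (n * r)))
    (by exact_mod_cast (by linarith : ((8 * n ^ 2 : ℕ) : ℝ) ≤ (⌈t⌉₊ : ℝ)))
    (by
      have : ((⌈t⌉₊ : ℕ) : ℝ) + ((8 * n ^ 2 : ℕ) : ℝ) ≤ ((n * (2 * n ^ 2 * r) : ℕ) : ℝ) := by
        linarith
      exact_mod_cast this)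
    (by rw [e]; exact mul_nonneg (by linarith) hδ.le)
    (by rw [e]; exact mul_le_of_le_one_left hδ.le (by linarith))
  have h2 := sc_tail (n := n) (r := r) (N := n * (2 * n ^ 2 * r)) (by omega) (by omega) (by omega)
  linarith

end Aux

/-- PROOF.  `q = e^δ`, `g u = (cosh (u/2))⁻¹ ^ (2 p)`: even, antitone on `[0, ∞)`, `g 0 = 1`,
`1 - p u²/4 ≤ g u ≤ 1/(1 + p u²/4)` (`tanh² x ≤ x²`, `cosh² x = 1 + sinh² x ≥ 1 + x²`, Bernoulli).  For
`0 < s < 1` and `ℓ = log (s/(1 - s))`, `tt (q^k)⁻¹ (q^l)⁻¹ s ^ p = g (ℓ + (k - l) δ)`; for `s ∈ {0, 1}` it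
is `0`.  `c = ∑_{|j| < N} g (j δ) = 2 ∑_{j<N} g (j δ) - 1 ≥ 1`.  For every real `u`,
`∑_{k<N} g (u + k δ) ≤ 2 ∑_{j<N} g (j δ) = c + 1` (the points on each side of `0` are at distance
`≥ 0, δ, 2δ, …`), which gives the second claim and `G ≤ 1 + 1/c`; the first claim is exact
reindexing.  Choice of parameters: w.l.o.g. `η ≤ 1/4`; only `s (1 - s) > η` matters (`0 ≤ G ≤ 2`), then
`|ℓ| ≤ L = log (1/η)`.  Take `ε₁` small with `δ √p = ε₁`: `g (j δ) ≥ 3/4` for `j ≤ 1/ε₁`, so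
`c ≥ 3/(4 ε₁)`; `J` with `∑_{j ≥ J} 4/(ε₁² j²) ≤ 1`; `N ≈ S/δ` with `S ≥ (L + 1)/η`-ish; `p` large so that
`(J + 2) δ ≤ 1` and `N (e^(N δ) + 1) ≤ ε p c` (left side `~ √p`).  Lower bound: for the
`≥ N - 2 (L/δ + J + 2)` indices `l` in the middle, `∑_k g (ℓ + (k - l) δ) ≥ 2 ∑_{1 ≤ j ≤ J} g (j δ) ≥ c - 3`.
(It may be convenient to prove first a lemma about an abstract even antitone `g`.) -/
theorem exists_scal {η ε : ℝ} (hη : 0 < η) (hε : 0 < ε) :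
    ∃ (N p : ℕ) (q c : ℝ), 0 < N ∧ 0 < p ∧ 1 ≤ q ∧ 0 < c ∧
      (∀ l : Fin N, ∑ k : Fin N, tt (q ^ (k : ℕ))⁻¹ (q ^ (l : ℕ))⁻¹ (1 / 2) ^ p ≤ c) ∧
      (∀ s ∈ Set.Icc (0 : ℝ) 1, ∀ l : Fin N,
        ∑ k : Fin N, tt (q ^ (k : ℕ))⁻¹ (q ^ (l : ℕ))⁻¹ s ^ p ≤ 2 * c) ∧
      (∀ s ∈ Set.Icc (0 : ℝ) 1, s * (1 - s) *
        |1 - (N * c)⁻¹ * ∑ k : Fin N, ∑ l : Fin N, tt (q ^ (k : ℕ))⁻¹ (q ^ (l : ℕ))⁻¹ s ^ p| ≤ η) ∧
      N * (q ^ N + 1) ≤ ε * p * c := by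
  obtain ⟨n, hn2, hnη⟩ : ∃ n : ℕ, 2 ≤ n ∧ 8 / η ≤ n :=
    ⟨⌈8 / η⌉₊ + 2, by omega, (Nat.le_ceil _).trans (by push_cast; linarith)⟩
  obtain ⟨r, hr8, hrε⟩ : ∃ r : ℕ, 8 ≤ r ∧ 2 * (n : ℝ) ^ 3 * (Real.exp (2 * n ^ 2) + 1) / ε ≤ r :=
    ⟨⌈2 * (n : ℝ) ^ 3 * (Real.exp (2 * n ^ 2) + 1) / ε⌉₊ + 8, by omega,
      (Nat.le_ceil _).trans (by push_cast; linarith)⟩
  have hn' : (0 : ℝ) < n := by exact_mod_cast (by omega : 0 < n)
  have hn2' : (2 : ℝ) ≤ n := by exact_mod_cast hn2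
  have hr' : (0 : ℝ) < r := by exact_mod_cast (by omega : 0 < r)
  have hδ : (0 : ℝ) < 1 / (n * r) := by positivity
  have hp : 0 < r ^ 2 := by positivity
  have hWpos : 0 < 2 * n ^ 2 * r := by positivity
  have hNn : n ≤ n * (2 * n ^ 2 * r) := Nat.le_mul_of_pos_right _ hWpos
  have hN2 : 2 * (2 * n ^ 2 * r) ≤ n * (2 * n ^ 2 * r) := Nat.mul_le_mul_right _ hn2
  set c : ℝ := 2 * ∑ j ∈ Finset.range (n * (2 * n ^ 2 * r)), scg (r ^ 2) (j * (1 / (n * r)))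
    with hc
  have hcn : (n : ℝ) ≤ c := sc_big (by omega) (by omega) hNn
  have hc0 : 0 < c := by linarith
  have up : ∀ s ∈ Set.Icc (0 : ℝ) 1, ∀ l : ℕ, ∑ k : Fin (n * (2 * n ^ 2 * r)),
      tt (Real.exp (1 / (n * r)) ^ (k : ℕ))⁻¹ (Real.exp (1 / (n * r)) ^ l)⁻¹ s ^ (r ^ 2) ≤ c :=
    fun s hs l => tt_sum_le hδ hs _ l hp
  refine ⟨n * (2 * n ^ 2 * r), r ^ 2, Real.exp (1 / (n * r)), c, by omega, hp,
    Real.one_le_exp hδ.le, hc0, fun l => up _ ⟨by norm_num, by norm_num⟩ l,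
    fun s hs l => (up s hs l).trans (by linarith), fun s hs => ?_, ?_⟩
  · rw [Finset.sum_comm]
    set N : ℕ := n * (2 * n ^ 2 * r) with hN
    have hN0 : (0 : ℝ) < N := by exact_mod_cast (by omega : 0 < N)
    set G : ℝ := ∑ l : Fin N, ∑ k : Fin N,
      tt (Real.exp (1 / (n * r)) ^ (k : ℕ))⁻¹ (Real.exp (1 / (n * r)) ^ (l : ℕ))⁻¹ s ^ (r ^ 2)
      with hG
    have hG0 : 0 ≤ G := Finset.sum_nonneg fun l _ => Finset.sum_nonneg fun k _ =>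
      pow_nonneg (tt_nonneg (by positivity) (by positivity) hs) _
    have hG1 : G ≤ N * c := by
      have := Finset.sum_le_sum fun (l : Fin N) (_ : l ∈ Finset.univ) => up s hs l
      rwa [Finset.sum_const, Finset.card_univ, Fintype.card_fin, nsmul_eq_mul] at this
    have hNc : 0 < N * c := by positivity
    have g0 : 0 ≤ (N * c)⁻¹ * G := by positivity
    have g1 : (N * c)⁻¹ * G ≤ 1 := by
      rw [inv_mul_le_iff₀ hNc]; linarith
    rw [abs_of_nonneg (by linarith)]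
    have s0 := hs.1
    have s1 := sub_nonneg.2 hs.2
    by_cases hsm : s * (1 - s) ≤ η
    · have := mul_nonneg (mul_nonneg s0 s1) g0
      nlinarith
    push Not at hsm
    have hs0 : η < s := by nlinarith
    have hs1 : η < 1 - s := by nlinarith
    have h0 : 0 < s := by linarith
    have h1 : s < 1 := by linarith
    have hηn : 8 ≤ η * n := by
      rw [div_le_iff₀ hη] at hnη; linarith
    have hℓ : |Real.log (s / (1 - s))| ≤ n := by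
      rw [abs_le]
      constructor
      · have h2 := Real.log_le_sub_one_of_pos (show 0 < (s / (1 - s))⁻¹ by positivity)
        rw [Real.log_inv, inv_div] at h2
        have h3 : (1 - s) / s ≤ n := by
          rw [div_le_iff₀ h0]; nlinarith
        linarith
      · have h2 := Real.log_le_sub_one_of_pos (show 0 < s / (1 - s) by positivity)
        have h3 : s / (1 - s) ≤ n := by
          rw [div_le_iff₀ (by linarith)]; nlinarith
        linarith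
    have hGl : ((N : ℝ) - 2 * (2 * n ^ 2 * r : ℕ)) * (c - 4) ≤ G := by
      have e : G = ∑ l ∈ Finset.range N, ∑ k ∈ Finset.range N,
          scg (r ^ 2) (Real.log (s / (1 - s)) - l * (1 / (n * r)) + k * (1 / (n * r))) := by
        rw [hG, ← Fin.sum_univ_eq_sum_range (fun l : ℕ => ∑ k ∈ Finset.range N,
          scg (r ^ 2) (Real.log (s / (1 - s)) - l * (1 / (n * r)) + k * (1 / (n * r))))]
        exact Finset.sum_congr rfl fun l _ => tt_sum_eq h0 h1 _ _ _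
      have h2 := Finset.card_nsmul_le_sum (Finset.Ico (2 * n ^ 2 * r) (N - 2 * n ^ 2 * r))
        (fun l : ℕ => ∑ k ∈ Finset.range N,
          scg (r ^ 2) (Real.log (s / (1 - s)) - l * (1 / (n * r)) + k * (1 / (n * r)))) (c - 4)
        fun l hl => sc_mid hn2 hr8 hℓ hl
      rw [Nat.card_Ico, nsmul_eq_mul, Nat.cast_sub (by omega), Nat.cast_sub (by omega)] at h2
      rw [e]
      refine le_trans (le_of_eq (by ring)) (h2.trans ?_)
      refine Finset.sum_le_sum_of_subset_of_nonneg (fun l hl => ?_) fun _ _ _ =>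
        Finset.sum_nonneg fun _ _ => scg_nonneg _ _
      have := (Finset.mem_Ico.1 hl).2
      exact Finset.mem_range.2 (by omega)
    have hNW : (N : ℝ) = n * (2 * n ^ 2 * r : ℕ) := by rw [hN]; push_cast; ring
    have hW0 : (0 : ℝ) < (2 * n ^ 2 * r : ℕ) := by exact_mod_cast hWpos
    generalize ((2 * n ^ 2 * r : ℕ) : ℝ) = W at *
    have g2 : 1 - η ≤ (N * c)⁻¹ * G := by
      rw [le_inv_mul_iff₀ hNc]
      refine le_trans ?_ hGl
      rw [hNW]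
      have k1 : 8 * c ≤ η * n * c := mul_le_mul_of_nonneg_right hηn hc0.le
      have k2 : (n : ℝ) * c * (1 - η) ≤ (n - 2) * (c - 4) := by nlinarith
      have k3 := mul_le_mul_of_nonneg_left k2 hW0.le
      linarith
    have k4 : s * (1 - s) ≤ 1 := by nlinarith
    have k5 := mul_le_mul k4 (show 1 - (N * c)⁻¹ * G ≤ η by linarith) (by linarith) zero_le_one
    linarith
  · rw [← Real.exp_nat_mul]
    have e : ((n * (2 * n ^ 2 * r) : ℕ) : ℝ) * (1 / (n * r)) = 2 * n ^ 2 := by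
      push_cast; field_simp
    rw [e]
    rw [div_le_iff₀ hε] at hrε
    push_cast
    have k1 := mul_le_mul_of_nonneg_left hrε hr'.le
    have k2 : ε * (r : ℝ) ^ 2 * 1 ≤ ε * (r : ℝ) ^ 2 * c :=
      mul_le_mul_of_nonneg_left (by linarith) (by positivity)
    nlinarith

end Crest.Agent.R78
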