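import Crest.Agent.R78.Dist
import Crest.Agent.R78.Scal

/-! Row 78: the Radon–Nikodym maps of `hat M` in terms of the operator `A` of `M`. -/

set_option autoImplicit false
set_option linter.unusedSectionVars false
set_option linter.deprecated false

namespace Crest.Agent.R78

open Crest.Agent.R124 Crest.Agent.R121
open scoped InnerProductSpace

variable {H : Type*} [NormedAddCommGroup H] [InnerProductSpace ℂ H] [CompleteSpace H]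
  {𝔸 : Type*} [Fintype 𝔸] [DecidableEq 𝔸] {M : VonNeumannAlgebra H}

theorem mem_hat {X : HH 𝔸 (HH 𝔸 H) →L[ℂ] HH 𝔸 (HH 𝔸 H)} :
    X ∈ hat M 𝔸 ↔ ∃ x : 𝔸 → 𝔸 → H →L[ℂ] H, (∀ a b, x a b ∈ M) ∧ X = mL x := by
  rw [hat, mem_dgA]
  constructor
  · rintro ⟨x, hx, rfl, -⟩
    exact ⟨ent x, mem_amp.mp hx, by rw [mL, mat_ent]⟩
  · rintro ⟨x, hx, rfl⟩
    exact mem_dgA.mp (dg_mem_dgA (mat_mem_amp hx))

theorem mem_hat_commutant {Z : HH 𝔸 (HH 𝔸 H) →L[ℂ] HH 𝔸 (HH 𝔸 H)} :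
    Z ∈ (hat M 𝔸).commutant ↔
      ∃ z : 𝔸 → 𝔸 → H →L[ℂ] H, (∀ a b, z a b ∈ M.commutant) ∧ Z = mR z := by
  rw [hat, commutant_dgA, mem_amp]
  constructor
  · intro h
    choose z hz hz' using fun i j => mem_commutant_amp.mp (h i j)
    refine ⟨z, hz, ext_ent fun i j => ?_⟩
    rw [mR, ent_mat]
    exact (hz' i j).1
  · rintro ⟨z, hz, rfl⟩ i j
    rw [mR, ent_mat]
    exact dg_mem_commutant (hz i j)

theorem dd_mem_commutant {z : H →L[ℂ] H} (hz : z ∈ M.commutant) :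
    dd 𝔸 z ∈ (hat M 𝔸).commutant := by
  rw [hat, commutant_dgA]
  exact dg_mem_amp (dg_mem_commutant hz)

lemma Xi_apply (ϱ : 𝔸 → ℝ) (Ω : H) (c d : 𝔸) :
    Xi ϱ Ω c d = if d = c then ((√(ϱ c) : ℝ) : ℂ) • Ω else 0 := by
  simp [Xi]

lemma mL_apply (x : 𝔸 → 𝔸 → H →L[ℂ] H) (V : HH 𝔸 (HH 𝔸 H)) (c d : 𝔸) :
    mL x V c d = ∑ j, x d j (V c j) := by
  simp [mL]

lemma mR_apply (z : 𝔸 → 𝔸 → H →L[ℂ] H) (V : HH 𝔸 (HH 𝔸 H)) (c d : 𝔸) :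
    mR z V c d = ∑ j, z c j (V j d) := by
  simp [mR]

lemma inner_Xi (ϱ : 𝔸 → ℝ) (Ω : H) (V : HH 𝔸 (HH 𝔸 H)) :
    ⟪Xi ϱ Ω, V⟫_ℂ = ∑ c, ((√(ϱ c) : ℝ) : ℂ) * ⟪Ω, V c c⟫_ℂ := by
  rw [PiLp.inner_apply]
  refine Finset.sum_congr rfl fun c _ => ?_
  have : Xi ϱ Ω c = inj c (((√(ϱ c) : ℝ) : ℂ) • Ω) := rfl
  rw [this, inner_inj_left, inner_smul_left, Complex.conj_ofReal]

theorem mL_Xi (x : 𝔸 → 𝔸 → H →L[ℂ] H) (ϱ : 𝔸 → ℝ) (Ω : H) (a b : 𝔸) :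
    mL x (Xi ϱ Ω) b a = ((√(ϱ b) : ℝ) : ℂ) • x a b Ω := by
  rw [mL_apply, Finset.sum_eq_single b]
  · simp [Xi_apply]
  · intro j _ hj
    simp [Xi_apply, hj]
  · simp

theorem mR_Xi (z : 𝔸 → 𝔸 → H →L[ℂ] H) (ϱ : 𝔸 → ℝ) (Ω : H) (a b : 𝔸) :
    mR z (Xi ϱ Ω) b a = ((√(ϱ a) : ℝ) : ℂ) • z b a Ω := by
  rw [mR_apply, Finset.sum_eq_single a]
  · simp [Xi_apply]
  · intro j _ hj
    simp [Xi_apply, Ne.symm hj]
  · simp

theorem norm_Xi_sq {ϱ : 𝔸 → ℝ} (hϱ : ∀ a, 0 ≤ ϱ a) (Ω : H) :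
    ‖Xi ϱ Ω‖ ^ 2 = (∑ a, ϱ a) * ‖Ω‖ ^ 2 := by
  rw [HH.norm_sq, Finset.sum_mul]
  refine Finset.sum_congr rfl fun c _ => ?_
  have : Xi ϱ Ω c = inj c (((√(ϱ c) : ℝ) : ℂ) • Ω) := rfl
  rw [this, norm_inj, norm_smul, mul_pow, Complex.norm_real, Real.norm_eq_abs, sq_abs,
    Real.sq_sqrt (hϱ c)]

theorem Close.hat {N : VonNeumannAlgebra H} {γ : ℝ} (hγ : 0 ≤ γ) (h : Close M N γ) :
    Close (hat M 𝔸) (hat N 𝔸) (4 * cD ^ 2 * γ) :=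
  (h.amp hγ).dgA (by positivity)

variable {Ω : H} {A : H →L[ℂ] H} {ϱ : 𝔸 → ℝ}

lemma spec_sub (h0 : 0 ≤ A) (h1 : A ≤ 1) : spectrum ℝ A ⊆ Set.Icc 0 1 := fun _ hx =>
  ⟨spectrum_nonneg_of_nonneg h0 hx, (CFC.le_one_iff (R := ℝ) A h0.isSelfAdjoint).mp h1 _ hx⟩

lemma cfc_one_sub (h0 : 0 ≤ A) : cfc (fun s : ℝ => 1 - s) A = 1 - A := by
  have hsa : IsSelfAdjoint A := h0.isSelfAdjoint
  rw [cfc_sub _ _ A (by fun_prop) (by fun_prop), cfc_const_one ℝ A, cfc_id' ℝ A]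

lemma cfc_solve (h0 : 0 ≤ A) (h1 : A ≤ 1) {α β : ℝ} (hα : 0 < α) (hβ : 0 < β) {g : ℝ → ℝ}
    (hg : ContinuousOn g (Set.Icc 0 1)) {u v : H}
    (h : (α : ℂ) • A u + (β : ℂ) • (u - A u) = cfc g A v) :
    u = cfc (fun s : ℝ => g s / (α * s + β * (1 - s))) A v := by
  have hsa : IsSelfAdjoint A := h0.isSelfAdjoint
  have hs := spec_sub h0 h1
  have hne : ∀ s ∈ spectrum ℝ A, α * s + β * (1 - s) ≠ 0 := fun s hs' =>
    (tt_den_pos hβ hα (hs hs')).ne'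
  have hi : ContinuousOn (fun s : ℝ => (α * s + β * (1 - s))⁻¹) (spectrum ℝ A) :=
    ContinuousOn.inv₀ (by fun_prop) hne
  have hD : cfc (fun s : ℝ => α * s + β * (1 - s)) A = α • A + β • (1 - A) := by
    rw [cfc_add A _ _ (by fun_prop) (by fun_prop), cfc_const_mul _ _ _ (by fun_prop),
      cfc_const_mul _ _ _ (by fun_prop), cfc_id' ℝ A, cfc_one_sub h0]
  have e1 : cfc (fun s : ℝ => (α * s + β * (1 - s))⁻¹) A * (α • A + β • (1 - A)) = 1 := by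
    rw [← hD, ← cfc_mul _ _ A hi (by fun_prop), ← cfc_const_one ℝ A]
    exact cfc_congr fun s hs' => inv_mul_cancel₀ (hne s hs')
  have e2 : cfc (fun s : ℝ => g s / (α * s + β * (1 - s))) A =
      cfc (fun s : ℝ => (α * s + β * (1 - s))⁻¹) A * cfc g A := by
    rw [← cfc_mul _ _ A hi (hg.mono hs)]
    exact cfc_congr fun s _ => by simp only [div_eq_inv_mul]
  have e3 : (α • A + β • (1 - A)) u = (α : ℂ) • A u + (β : ℂ) • (u - A u) := by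
    simp
  rw [e2, ContinuousLinearMap.mul_apply, ← h, ← e3, ← ContinuousLinearMap.mul_apply, e1,
    ContinuousLinearMap.one_apply]

lemma sqrt_mul_self_c {r : ℝ} (hr : 0 ≤ r) : ((√r : ℝ) : ℂ) * ((√r : ℝ) : ℂ) = (r : ℂ) := by
  rw [← Complex.ofReal_mul, Real.mul_self_sqrt hr]

/-- The matrix with a single entry. -/
def sgl (a b : 𝔸) (w : H →L[ℂ] H) : 𝔸 → 𝔸 → H →L[ℂ] H :=
  fun i j => if i = a ∧ j = b then w else 0

lemma sgl_mem {P : VonNeumannAlgebra H} {a b : 𝔸} {w : H →L[ℂ] H} (hw : w ∈ P) (i j : 𝔸) :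
    sgl a b w i j ∈ P := by
  unfold sgl; split_ifs; exacts [hw, zero_mem _]

lemma mR_sgl (a b : 𝔸) (w : H →L[ℂ] H) (V : HH 𝔸 (HH 𝔸 H)) (c d : 𝔸) :
    mR (sgl a b w) V c d = if c = a then w (V b d) else 0 := by
  rw [mR_apply, Finset.sum_eq_single b]
  · by_cases h : c = a <;> simp [sgl, h]
  · intro j _ hj
    simp [sgl, hj]
  · simp

lemma mL_sgl (a b : 𝔸) (w : H →L[ℂ] H) (V : HH 𝔸 (HH 𝔸 H)) (c d : 𝔸) :
    mL (sgl a b w) V c d = if d = a then w (V c b) else 0 := by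
  rw [mL_apply, Finset.sum_eq_single b]
  · by_cases h : d = a <;> simp [sgl, h]
  · intro j _ hj
    simp [sgl, hj]
  · simp

lemma inner_Xi_mR_sgl (a b : 𝔸) (w : H →L[ℂ] H) (V : HH 𝔸 (HH 𝔸 H)) :
    ⟪Xi ϱ Ω, mR (sgl a b w) V⟫_ℂ = ((√(ϱ a) : ℝ) : ℂ) * ⟪Ω, w (V b a)⟫_ℂ := by
  rw [inner_Xi, Finset.sum_eq_single a]
  · rw [mR_sgl, if_pos rfl]
  · intro j _ hj
    rw [mR_sgl, if_neg hj, inner_zero_right, mul_zero]
  · simp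

lemma inner_Xi_mL_sgl (a b : 𝔸) (w : H →L[ℂ] H) (V : HH 𝔸 (HH 𝔸 H)) :
    ⟪Xi ϱ Ω, mL (sgl a b w) V⟫_ℂ = ((√(ϱ a) : ℝ) : ℂ) * ⟪Ω, w (V a b)⟫_ℂ := by
  rw [inner_Xi, Finset.sum_eq_single a]
  · rw [mL_sgl, if_pos rfl]
  · intro j _ hj
    rw [mL_sgl, if_neg hj, inner_zero_right, mul_zero]
  · simp

lemma inner_Xi_mR_mR_sgl (z : 𝔸 → 𝔸 → H →L[ℂ] H) (a b : 𝔸) (w : H →L[ℂ] H) :
    ⟪Xi ϱ Ω, mR z (mR (sgl a b w) (Xi ϱ Ω))⟫_ℂ =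
      ((√(ϱ b) : ℝ) : ℂ) * ((√(ϱ b) : ℝ) : ℂ) * ⟪Ω, z b a (w Ω)⟫_ℂ := by
  have : ∀ c, mR z (mR (sgl a b w) (Xi ϱ Ω)) c c = z c a (w (Xi ϱ Ω b c)) := fun c => by
    rw [mR_apply, Finset.sum_eq_single a]
    · rw [mR_sgl, if_pos rfl]
    · intro j _ hj
      rw [mR_sgl, if_neg hj, map_zero]
    · simp
  rw [inner_Xi, Finset.sum_eq_single b]
  · rw [this, Xi_apply, if_pos rfl, map_smul, map_smul, inner_smul_right, mul_assoc]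
  · intro j _ hj
    rw [this, Xi_apply, if_neg hj, map_zero, map_zero, inner_zero_right, mul_zero]
  · simp

lemma inner_Xi_mL_mL_sgl (y : 𝔸 → 𝔸 → H →L[ℂ] H) (a b : 𝔸) (w : H →L[ℂ] H) :
    ⟪Xi ϱ Ω, mL y (mL (sgl a b w) (Xi ϱ Ω))⟫_ℂ =
      ((√(ϱ b) : ℝ) : ℂ) * ((√(ϱ b) : ℝ) : ℂ) * ⟪Ω, y b a (w Ω)⟫_ℂ := by
  have : ∀ c, mL y (mL (sgl a b w) (Xi ϱ Ω)) c c = y c a (w (Xi ϱ Ω c b)) := fun c => by
    rw [mL_apply, Finset.sum_eq_single a]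
    · rw [mL_sgl, if_pos rfl]
    · intro j _ hj
      rw [mL_sgl, if_neg hj, map_zero]
    · simp
  rw [inner_Xi, Finset.sum_eq_single b]
  · rw [this, Xi_apply, if_pos rfl, map_smul, map_smul, inner_smul_right, mul_assoc]
  · intro j _ hj
    rw [this, Xi_apply, if_neg (Ne.symm hj), map_zero, map_zero, inner_zero_right, mul_zero]
  · simp

/-- PROOF.  `X = mL x`, `Λ' X = mR z`.  Test `eq` with `mR (single entry w at (a, b))`, `w ∈ M'`: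
`ϱ b ⟪Ω, z b a w Ω⟫ + ϱ a ⟪Ω, w z b a Ω⟫ = 2 √(ϱ a ϱ b) ⟪Ω, w x a b Ω⟫`; `IsMod.w2` gives
`(ϱ a (1 - A) + ϱ b A) z b a Ω = 2 √(ϱ a ϱ b) (1 - A) x a b Ω`.  The operator
`D = ϱ b A + ϱ a (1 - A) = cfc (ϱ b s + ϱ a (1 - s)) A` is invertible by `cfc`. -/
theorem rn_right (hA : IsMod M Ω A) (hϱ : ∀ a, 0 < ϱ a)
    {Λ' : (HH 𝔸 (HH 𝔸 H) →L[ℂ] HH 𝔸 (HH 𝔸 H)) →ₗ[ℂ] (HH 𝔸 (HH 𝔸 H) →L[ℂ] HH 𝔸 (HH 𝔸 H))}
    (h : IsRN (hat M 𝔸).commutant (hat M 𝔸) (Xi ϱ Ω) Λ') {X : HH 𝔸 (HH 𝔸 H) →L[ℂ] HH 𝔸 (HH 𝔸 H)}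
    (hX : X ∈ hat M 𝔸) (a b : 𝔸) :
    Λ' X (Xi ϱ Ω) b a =
      cfc (fun s : ℝ => 2 * ϱ a * (1 - s) / (ϱ b * s + ϱ a * (1 - s))) A (X (Xi ϱ Ω) b a) := by
  obtain ⟨z, hz, hZ⟩ := mem_hat_commutant.mp (h.mem X hX)
  obtain ⟨x, hx, rfl⟩ := mem_hat.mp hX
  have ha := sqrt_mul_self_c (hϱ a).le
  have hb := sqrt_mul_self_c (hϱ b).le
  have key := hA.w2 (ϱ b) (ϱ a) (z b a) (hz b a)
    ((2 * ((√(ϱ a) : ℝ) : ℂ) * ((√(ϱ b) : ℝ) : ℂ)) • x a b) (smul_mem_vn (hx a b) _) (by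
      intro w hw
      have h1 := h.eq _ hX (mR (sgl a b w)) (mem_hat_commutant.mpr ⟨_, sgl_mem hw, rfl⟩)
      simp only [hZ, ContinuousLinearMap.mul_apply, inner_Xi_mR_sgl, inner_Xi_mR_mR_sgl, mR_Xi,
        mL_Xi, map_smul, inner_smul_right] at h1
      simp only [ContinuousLinearMap.mul_apply, ContinuousLinearMap.smul_apply, map_smul,
        inner_smul_right]
      rw [← ha, ← hb]
      linear_combination h1)
  rw [hZ, mR_Xi, mL_Xi]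
  refine cfc_solve hA.nonneg hA.le_one (hϱ b) (hϱ a) (g := fun s => 2 * ϱ a * (1 - s))
    (by fun_prop) ?_
  rw [cfc_const_mul _ _ _ (by fun_prop), cfc_one_sub hA.nonneg]
  simp only [ContinuousLinearMap.smul_apply, map_smul, ContinuousLinearMap.sub_apply,
    ContinuousLinearMap.one_apply, ← Complex.coe_smul] at key ⊢
  push_cast
  rw [← ha] at key ⊢
  linear_combination (norm := module) ((√(ϱ a) : ℝ) : ℂ) • key

/-- PROOF.  `Z = mR z`, `Λ Z = mL y`.  Test `eq` with `mL (single entry w at (b, a))`, `w ∈ M`: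
`ϱ a ⟪Ω, y a b w Ω⟫ + ϱ b ⟪Ω, w y a b Ω⟫ = 2 √(ϱ a ϱ b) ⟪Ω, w z b a Ω⟫`; `IsMod.w1`. -/
theorem rn_left (hA : IsMod M Ω A) (hϱ : ∀ a, 0 < ϱ a)
    {Λ : (HH 𝔸 (HH 𝔸 H) →L[ℂ] HH 𝔸 (HH 𝔸 H)) →ₗ[ℂ] (HH 𝔸 (HH 𝔸 H) →L[ℂ] HH 𝔸 (HH 𝔸 H))}
    (h : IsRN (hat M 𝔸) (hat M 𝔸).commutant (Xi ϱ Ω) Λ) {Z : HH 𝔸 (HH 𝔸 H) →L[ℂ] HH 𝔸 (HH 𝔸 H)}
    (hZ : Z ∈ (hat M 𝔸).commutant) (a b : 𝔸) :
    Λ Z (Xi ϱ Ω) b a =
      cfc (fun s : ℝ => 2 * ϱ b * s / (ϱ b * s + ϱ a * (1 - s))) A (Z (Xi ϱ Ω) b a) := by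
  obtain ⟨y, hy, hY⟩ := mem_hat.mp (h.mem Z hZ)
  obtain ⟨z, hz, rfl⟩ := mem_hat_commutant.mp hZ
  have ha := sqrt_mul_self_c (hϱ a).le
  have hb := sqrt_mul_self_c (hϱ b).le
  have key := hA.w1 (ϱ a) (ϱ b) (y a b) (hy a b)
    ((2 * ((√(ϱ a) : ℝ) : ℂ) * ((√(ϱ b) : ℝ) : ℂ)) • z b a Ω) (by
      intro w hw
      have h1 := h.eq _ hZ (mL (sgl b a w)) (mem_hat.mpr ⟨_, sgl_mem hw, rfl⟩)
      simp only [hY, ContinuousLinearMap.mul_apply, inner_Xi_mL_sgl, inner_Xi_mL_mL_sgl, mR_Xi,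
        mL_Xi, map_smul, inner_smul_right] at h1
      simp only [ContinuousLinearMap.mul_apply, map_smul, inner_smul_right]
      rw [← ha, ← hb]
      linear_combination h1)
  rw [hY, mR_Xi, mL_Xi]
  refine cfc_solve hA.nonneg hA.le_one (hϱ b) (hϱ a) (g := fun s => 2 * ϱ b * s)
    (by fun_prop) ?_
  have hsa : IsSelfAdjoint A := hA.nonneg.isSelfAdjoint
  rw [cfc_const_mul _ _ _ (by fun_prop), cfc_id' ℝ A]
  simp only [ContinuousLinearMap.smul_apply, map_smul, ← Complex.coe_smul] at key ⊢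
  push_cast
  rw [← hb] at key ⊢
  linear_combination (norm := module) ((√(ϱ b) : ℝ) : ℂ) • key

/-- Iteration: `cfc_mul`. -/
theorem rn_iter (hA : IsMod M Ω A) (hϱ : ∀ a, 0 < ϱ a)
    {Λ Λ' : (HH 𝔸 (HH 𝔸 H) →L[ℂ] HH 𝔸 (HH 𝔸 H)) →ₗ[ℂ] (HH 𝔸 (HH 𝔸 H) →L[ℂ] HH 𝔸 (HH 𝔸 H))}
    (h : IsRN (hat M 𝔸) (hat M 𝔸).commutant (Xi ϱ Ω) Λ)
    (h' : IsRN (hat M 𝔸).commutant (hat M 𝔸) (Xi ϱ Ω) Λ') (p : ℕ)
    {X : HH 𝔸 (HH 𝔸 H) →L[ℂ] HH 𝔸 (HH 𝔸 H)} (hX : X ∈ hat M 𝔸) :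
    ((Λ ∘ₗ Λ') ^ p) X ∈ hat M 𝔸 ∧ (0 ≤ X → 0 ≤ ((Λ ∘ₗ Λ') ^ p) X) ∧
      ((Λ ∘ₗ Λ') ^ p) (star X) = star (((Λ ∘ₗ Λ') ^ p) X) ∧
      ∀ a b, ((Λ ∘ₗ Λ') ^ p) X (Xi ϱ Ω) b a =
        cfc (fun s : ℝ => tt (ϱ a) (ϱ b) s ^ p) A (X (Xi ϱ Ω) b a) := by
  have hsa : IsSelfAdjoint A := hA.nonneg.isSelfAdjoint
  have hs := spec_sub hA.nonneg hA.le_one
  induction p with
  | zero =>
    refine ⟨hX, id, rfl, fun a b => ?_⟩
    simp only [pow_zero, Module.End.one_apply]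
    rw [cfc_const_one ℝ A, ContinuousLinearMap.one_apply]
  | succ p ih =>
    obtain ⟨i1, i2, i3, i4⟩ := ih
    have e : ∀ Y, ((Λ ∘ₗ Λ') ^ (p + 1)) Y = Λ (Λ' (((Λ ∘ₗ Λ') ^ p) Y)) := fun Y => by
      rw [pow_succ', Module.End.mul_apply, LinearMap.comp_apply]
    have j1 := h'.mem _ i1
    refine ⟨by rw [e]; exact h.mem _ j1, fun h0 => ?_, ?_, fun a b => ?_⟩
    · rw [e]; exact h.pos _ j1 (h'.pos _ i1 (i2 h0))
    · rw [e, e, i3, h'.star _ i1, h.star _ j1]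
    · have hne : ∀ s ∈ spectrum ℝ A, ϱ b * s + ϱ a * (1 - s) ≠ 0 := fun s hs' =>
        (tt_den_pos (hϱ a) (hϱ b) (hs hs')).ne'
      have c1 : ContinuousOn (fun s : ℝ => 2 * ϱ b * s / (ϱ b * s + ϱ a * (1 - s)))
          (spectrum ℝ A) := ContinuousOn.div (by fun_prop) (by fun_prop) hne
      have c2 : ContinuousOn (fun s : ℝ => 2 * ϱ a * (1 - s) / (ϱ b * s + ϱ a * (1 - s)))
          (spectrum ℝ A) := ContinuousOn.div (by fun_prop) (by fun_prop) hne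
      have c3 : ContinuousOn (fun s : ℝ => tt (ϱ a) (ϱ b) s ^ p) (spectrum ℝ A) :=
        ((continuousOn_tt (hϱ a) (hϱ b)).mono hs).pow p
      rw [e, rn_left hA hϱ h j1, rn_right hA hϱ h' i1, i4, ← ContinuousLinearMap.mul_apply,
        ← ContinuousLinearMap.mul_apply, ← cfc_mul _ _ A c1 c2, ← cfc_mul _ _ A (c1.fun_mul c2) c3]
      congr 2
      funext s
      rw [pow_succ', tt]
      congr 1
      rw [div_mul_div_comm, ← sq]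
      ring

/-- `A Ω = Ω/2`, so `tt(A)^p Ω = tt(1/2)^p Ω` (`D² tt(A) = 4 α β A (1 - A)`, `D Ω = (α + β)/2 Ω`,
`D` injective; or a general eigenvector lemma for `cfc`). -/
theorem cfc_tt_self (hA : IsMod M Ω A) (hΩ : A Ω = (2⁻¹ : ℂ) • Ω) {α β : ℝ} (hα : 0 < α)
    (hβ : 0 < β) (p : ℕ) :
    cfc (fun s : ℝ => tt α β s ^ p) A Ω = ((tt α β (1 / 2) ^ p : ℝ) : ℂ) • Ω := by
  have hsa : IsSelfAdjoint A := hA.nonneg.isSelfAdjoint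
  have hs := spec_sub hA.nonneg hA.le_one
  have hd : ∀ s ∈ Set.Icc (0 : ℝ) 1, β * s + α * (1 - s) ≠ 0 := fun s hs' =>
    (tt_den_pos hα hβ hs').ne'
  have hd2 : β * (1 / 2) + α * (1 - 1 / 2) ≠ 0 := hd _ ⟨by norm_num, by norm_num⟩
  have step : ∀ g : ℝ → ℝ, ContinuousOn g (Set.Icc 0 1) → ∀ r : ℝ, cfc g A Ω = (r : ℂ) • Ω →
      cfc (fun s : ℝ => g s / (β * s + α * (1 - s))) A Ω =
        ((r / (β * (1 / 2) + α * (1 - 1 / 2)) : ℝ) : ℂ) • Ω := by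
    intro g hg r hr
    symm
    refine cfc_solve hA.nonneg hA.le_one hβ hα hg ?_
    rw [hr, map_smul, hΩ]
    have : (r : ℂ) = ((r / (β * (1 / 2) + α * (1 - 1 / 2)) : ℝ) : ℂ) *
        ((β * (1 / 2) + α * (1 - 1 / 2) : ℝ) : ℂ) := by
      rw [← Complex.ofReal_mul, div_mul_cancel₀ _ hd2]
    generalize ((r / (β * (1 / 2) + α * (1 - 1 / 2)) : ℝ) : ℂ) = q at this ⊢
    rw [this]
    push_cast
    module
  have h0 : cfc (fun s : ℝ => 4 * α * β * (s * (1 - s))) A Ω = ((α * β : ℝ) : ℂ) • Ω := by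
    rw [cfc_const_mul _ _ _ (by fun_prop), cfc_mul _ _ A (by fun_prop) (by fun_prop), cfc_id' ℝ A,
      cfc_one_sub hA.nonneg]
    simp only [ContinuousLinearMap.smul_apply, ContinuousLinearMap.mul_apply,
      ContinuousLinearMap.sub_apply, ContinuousLinearMap.one_apply, map_sub, map_smul, hΩ,
      ← Complex.coe_smul]
    push_cast
    module
  have h1 := step _ (ContinuousOn.div (by fun_prop) (by fun_prop) hd) _ (step _ (by fun_prop) _ h0)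
  have h2 : cfc (tt α β) A Ω = ((tt α β (1 / 2) : ℝ) : ℂ) • Ω := by
    have e1 : tt α β = fun s : ℝ =>
        4 * α * β * (s * (1 - s)) / (β * s + α * (1 - s)) / (β * s + α * (1 - s)) := by
      funext s
      rw [tt, div_div, ← sq]
      ring
    have e2 : tt α β (1 / 2) = α * β / (β * (1 / 2) + α * (1 - 1 / 2)) /
        (β * (1 / 2) + α * (1 - 1 / 2)) := by
      rw [tt, div_div, ← sq]
      ring
    rw [e2, e1]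
    exact h1
  rw [cfc_pow (tt α β) p A ((continuousOn_tt hα hβ).mono hs)]
  induction p with
  | zero => simp
  | succ p ih =>
    rw [pow_succ, ContinuousLinearMap.mul_apply, h2, map_smul, ih, smul_smul, pow_succ,
      Complex.ofReal_mul, mul_comm]

/-- `∑ μ i ‖f i (A) v‖² ≤ C ‖v‖²` if `∑ μ i (f i)² ≤ C` on `[0, 1]`. -/
theorem sum_norm_cfc_sq_le (h0 : 0 ≤ A) (h1 : A ≤ 1) {ι : Type*} [Fintype ι] (μ : ι → ℝ)
    (f : ι → ℝ → ℝ) (hf : ∀ i, ContinuousOn (f i) (Set.Icc 0 1)) {C : ℝ}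
    (hC : ∀ s ∈ Set.Icc (0 : ℝ) 1, ∑ i, μ i * f i s ^ 2 ≤ C) (v : H) :
    ∑ i, μ i * ‖cfc (f i) A v‖ ^ 2 ≤ C * ‖v‖ ^ 2 := by
  have hsa : IsSelfAdjoint A := h0.isSelfAdjoint
  have hs := spec_sub h0 h1
  have hc : ∀ i, ContinuousOn (fun s => μ i * (f i s * f i s)) (spectrum ℝ A) := fun i =>
    continuousOn_const.mul (((hf i).mono hs).mul ((hf i).mono hs))
  have e1 : ∀ i, μ i * ‖cfc (f i) A v‖ ^ 2 =
      (⟪v, cfc (fun s => μ i * (f i s * f i s)) A v⟫_ℂ).re := fun i => by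
    have hsi : IsSelfAdjoint (cfc (f i) A) := cfc_predicate _ _
    rw [norm_sq_eq_inner, hsi.star_eq,
      cfc_const_mul _ _ _ (((hf i).mono hs).fun_mul ((hf i).mono hs)),
      cfc_mul _ _ A ((hf i).mono hs) ((hf i).mono hs), ContinuousLinearMap.smul_apply,
      ← Complex.coe_smul, inner_smul_right, Complex.re_ofReal_mul]
  have e2 : cfc (∑ i, fun s => μ i * (f i s * f i s)) A ≤ algebraMap ℝ _ C := by
    refine cfc_le_algebraMap _ _ _ (fun s hs' => ?_) ?_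
    · have := hC s (hs hs')
      simpa only [Finset.sum_apply, sq] using this
    · have := continuousOn_finsetSum (Finset.univ : Finset ι) fun i _ => hc i
      refine this.congr fun s _ => ?_
      simp only [Finset.sum_apply]
  have e3 := re_inner_nonneg (sub_nonneg.mpr e2) v
  rw [cfc_sum_univ _ A hc, ContinuousLinearMap.sub_apply, inner_sub_right, Complex.sub_re,
    ContinuousLinearMap.sum_apply, inner_sum, Complex.re_sum, Algebra.algebraMap_eq_smul_one,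
    ContinuousLinearMap.smul_apply, ContinuousLinearMap.one_apply, ← Complex.coe_smul,
    inner_smul_right, Complex.re_ofReal_mul, inner_self_eq_norm_sq_to_K] at e3
  have e4 : (((‖v‖ : ℝ) : ℂ) ^ 2).re = ‖v‖ ^ 2 := by norm_cast
  simp only [e1]
  have e5 : ((RCLike.ofReal ‖v‖ : ℂ) ^ 2).re = ‖v‖ ^ 2 := e4
  rw [e5] at e3
  linarith

end Crest.Agent.R78
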