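import Crest.Agent.R78.RWAux

/-! Row 78: the random word lemma. -/

set_option autoImplicit false
set_option linter.unusedSectionVars false
set_option maxHeartbeats 400000

namespace Crest.Agent.R78

open Crest.Agent.R124 Crest.Agent.R121
open scoped InnerProductSpace

variable {H : Type*} [NormedAddCommGroup H] [InnerProductSpace ℂ H] [CompleteSpace H]

/-- `re ⟪Ξ, (1 - P^k) Ξ⟫ ≤ k re ⟪Ξ, (1 - P) Ξ⟫` for a self-adjoint contraction: with `R = √(1 - P)`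
(`exists_sqrt`, commutes with `P`), `⟪Ξ, P^l (1 - P) Ξ⟫ = ⟪R Ξ, P^l R Ξ⟫`. -/
theorem diffuse {P : H →L[ℂ] H} (hP : IsSelfAdjoint P) (h1 : ‖P‖ ≤ 1) (Ξ : H) (k : ℕ) :
    (⟪Ξ, Ξ - (P ^ k) Ξ⟫_ℂ).re ≤ k * (⟪Ξ, Ξ - P Ξ⟫_ℂ).re := by
  have hpos : ∀ l : ℕ, 0 ≤ 1 - P ^ l := by
    intro l
    have e1 : ‖P ^ l‖ ≤ 1 := by
      induction l with
      | zero => exact ContinuousLinearMap.norm_id_le
      | succ l ih =>
        rw [pow_succ]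
        exact (norm_mul_le _ _).trans (mul_le_one₀ ih (norm_nonneg _) h1)
    rw [sub_nonneg]
    refine (hP.pow l).le_algebraMap_norm_self.trans ?_
    rw [← map_one (algebraMap ℝ (H →L[ℂ] H)), ← sub_nonneg, ← map_sub,
      Algebra.algebraMap_eq_smul_one]
    exact smul_nonneg (by linarith) zero_le_one
  induction k with
  | zero => simp
  | succ k ih =>
    have e1 : 0 ≤ (1 - P ^ k) * (1 - P) :=
      Commute.mul_nonneg (hpos k) (by simpa using hpos 1)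
        ((Commute.one_left _).sub_left
          ((Commute.one_right _).sub_right (Commute.pow_self P k)))
    have e2 := ((ContinuousLinearMap.nonneg_iff_isPositive _).1 e1).re_inner_nonneg_right Ξ
    have e3 : ((1 - P ^ k) * (1 - P)) Ξ = (Ξ - P Ξ) + (Ξ - (P ^ k) Ξ) - (Ξ - (P ^ (k + 1)) Ξ) := by
      have : (1 - P ^ k) * (1 - P) = (1 - P) + (1 - P ^ k) - (1 - P ^ (k + 1)) := by
        rw [pow_succ]; noncomm_ring
      rw [this]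
      rfl
    rw [e3, inner_sub_right, inner_add_right] at e2
    simp only [RCLike.re_to_complex, Complex.sub_re, Complex.add_re] at e2
    rw [Nat.cast_succ]
    linarith

namespace RW

variable {J : Type*} [Fintype J]

/-- The product along a word. -/
noncomputable def Up (u : J → H →L[ℂ] H) (w : List J) : H →L[ℂ] H := (w.map u).prod

@[simp] lemma Up_nil (u : J → H →L[ℂ] H) : Up u [] = 1 := rfl

@[simp] lemma Up_cons (u : J → H →L[ℂ] H) (j : J) (w : List J) : Up u (j :: w) = u j * Up u w :=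
  rfl

lemma Up_mem {S : Type*} [SetLike S (H →L[ℂ] H)] [SubmonoidClass S (H →L[ℂ] H)] {M : S}
    {u : J → H →L[ℂ] H} (hu : ∀ j, u j ∈ M) (w : List J) : Up u w ∈ M := by
  induction w with
  | nil => exact one_mem _
  | cons j w ih => exact mul_mem (hu j) ih

/-- The martingale. -/
noncomputable def Sm (ψ : (H →L[ℂ] H) → H →L[ℂ] H) (u u' a b : J → H →L[ℂ] H) (ζ : J → H) :
    (H →L[ℂ] H) → List J → H
  | _, [] => 0
  | m₁, j :: w => (Fintype.card J : ℂ) • star (ψ (star m₁)) (star (a j) (b j (star (Up u w) (ζ j)))) +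
      Sm ψ u u' a b ζ (m₁ * u' j) w

lemma avg_card_mul [Nonempty J] (x : J → ℂ) :
    (Fintype.card J : ℝ)⁻¹ • ∑ j, (Fintype.card J : ℂ) * x j = ∑ j, x j := by
  have : (Fintype.card J : ℂ) ≠ 0 := by exact_mod_cast Fintype.card_ne_zero
  rw [← Finset.mul_sum, Complex.real_smul]
  push_cast
  field_simp

lemma orth (ψ : (H →L[ℂ] H) → H →L[ℂ] H) (u u' a b : J → H →L[ℂ] H) (ζ : J → H)
    (hrel : ∀ (α m : H →L[ℂ] H) (ζ₁ : H),
      ∑ j, ⟪α (star (u j) ζ₁), star (a j) (b j (m (ζ j)))⟫_ℂ = 0) (n : ℕ) (α m₁ : H →L[ℂ] H)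
    (ζ₁ : H) : Ex n (fun w => ⟪α (star (Up u w) ζ₁), Sm ψ u u' a b ζ m₁ w⟫_ℂ) = 0 := by
  induction n generalizing m₁ ζ₁ with
  | zero => simp [Ex, Sm]
  | succ n ih =>
    simp only [Ex, Sm, Up_cons, star_mul, mul_apply_eq_comp, inner_add_right, Ex_add, ih, add_zero,
      inner_smul_right]
    rw [← Ex_sum]
    simp only [← Finset.mul_sum, inner_star_right (ψ _)]
    have : ∀ w, ∑ j, ⟪ψ (star m₁) (α (star (Up u w) (star (u j) ζ₁))),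
        star (a j) (b j (star (Up u w) (ζ j)))⟫_ℂ = 0 := fun w =>
      hrel (ψ (star m₁) * α * star (Up u w)) _ _
    simp [this, Ex_zero]

lemma sq_bound [Nonempty J] {L : ℝ} (hL : 0 ≤ L) (ψ : (H →L[ℂ] H) → H →L[ℂ] H)
    (u u' a b : J → H →L[ℂ] H) (ζ : J → H) (Q : Submonoid (H →L[ℂ] H))
    (hψ : ∀ m ∈ Q, ‖ψ (star m)‖ ≤ 2) (hu : ∀ j, u j ∈ unitary (H →L[ℂ] H)) (hu' : ∀ j, u' j ∈ Q)
    (ha : ∀ η, ∑ j, ‖a j η‖ ^ 2 ≤ L ^ 2 * ‖η‖ ^ 2)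
    (hb : ∀ m : H →L[ℂ] H, ‖m‖ ≤ 1 → ∑ j, ‖b j (m (ζ j))‖ ^ 2 ≤ L ^ 2)
    (hrel : ∀ (α m : H →L[ℂ] H) (ζ₁ : H),
      ∑ j, ⟪α (star (u j) ζ₁), star (a j) (b j (m (ζ j)))⟫_ℂ = 0) (n : ℕ) (m₁ : H →L[ℂ] H)
    (hm₁ : m₁ ∈ Q) :
    Ex n (fun w => ‖Sm ψ u u' a b ζ m₁ w‖ ^ 2) ≤ n * (4 * Fintype.card J * L ^ 4) := by
  have hc : (0 : ℝ) < Fintype.card J := by exact_mod_cast Fintype.card_pos
  have ha1 : ∀ j, ‖a j‖ ≤ L := fun j => ContinuousLinearMap.opNorm_le_bound _ hL fun η => by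
    refine (sq_le_sq₀ (by positivity) (by positivity)).1 ?_
    rw [mul_pow]
    exact (Finset.single_le_sum (f := fun j => ‖a j η‖ ^ 2) (fun _ _ => by positivity)
      (Finset.mem_univ j)).trans (ha η)
  induction n generalizing m₁ with
  | zero => simp [Ex, Sm]
  | succ n ih =>
    have e0 : ∀ j, Ex n (fun w => (⟪(Fintype.card J : ℂ) • star (ψ (star m₁))
        (star (a j) (b j (star (Up u w) (ζ j)))), Sm ψ u u' a b ζ (m₁ * u' j) w⟫_ℂ).re) = 0 := by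
      intro j
      rw [Ex_re]
      exact congrArg Complex.re (orth ψ u u' a b ζ hrel n
        ((Fintype.card J : ℂ) • (star (ψ (star m₁)) * star (a j) * b j)) (m₁ * u' j) (ζ j))
    simp only [Ex, Sm, norm_add_sq (𝕜 := ℂ), Ex_add, Ex_mul, RCLike.re_to_complex, e0, mul_zero,
      add_zero, Finset.sum_add_distrib, smul_add]
    rw [← Ex_sum]
    have e1 : Ex n (fun w => ∑ j, ‖(Fintype.card J : ℂ) • star (ψ (star m₁))
        (star (a j) (b j (star (Up u w) (ζ j))))‖ ^ 2) ≤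
        Fintype.card J * (4 * Fintype.card J * L ^ 4) := by
      refine (Ex_mono n fun w => ?_).trans_eq (Ex_const n _)
      refine (Finset.sum_le_sum (g := fun j => (Fintype.card J * (2 * L)) ^ 2 *
        ‖b j (star (Up u w) (ζ j))‖ ^ 2) fun j _ => ?_).trans ?_
      · rw [← mul_pow, norm_smul, Complex.norm_natCast, mul_assoc, mul_assoc]
        gcongr
        refine ((star (ψ (star m₁))).le_opNorm _).trans ?_
        have c1 : ‖star (ψ (star m₁))‖ ≤ 2 := (norm_star _).trans_le (hψ m₁ hm₁)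
        have c2 : ‖star (a j)‖ ≤ L := (norm_star _).trans_le (ha1 j)
        gcongr
        exact ((star (a j)).le_opNorm _).trans (by gcongr)
      · rw [← Finset.mul_sum]
        have := hb _ (norm_unit_le (Unitary.star_mem (Up_mem hu w)))
        calc _ ≤ (Fintype.card J * (2 * L)) ^ 2 * L ^ 2 := by gcongr
          _ = _ := by ring
    have e2 : (Fintype.card J : ℝ)⁻¹ • ∑ j, Ex n (fun w => ‖Sm ψ u u' a b ζ (m₁ * u' j) w‖ ^ 2) ≤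
        n * (4 * Fintype.card J * L ^ 4) := by
      refine le_trans ?_ (avg_const (J := J) _).le
      simp only [smul_eq_mul]
      gcongr with j
      exact ih _ (mul_mem hm₁ (hu' j))
    have e3 := mul_le_mul_of_nonneg_left e1 (inv_nonneg.2 hc.le)
    rw [← mul_assoc, inv_mul_cancel₀ hc.ne', one_mul] at e3
    simp only [smul_eq_mul] at e2 ⊢
    push_cast
    linarith

lemma Ex_Up (π : J → H →L[ℂ] H) (Ξ : H) (k : ℕ) (θ : H) :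
    Ex k (fun w => ⟪θ, Up π w Ξ⟫_ℂ) =
      ⟪θ, ((((Fintype.card J : ℂ)⁻¹ • ∑ j, π j) ^ k) Ξ)⟫_ℂ := by
  induction k generalizing θ with
  | zero => rfl
  | succ k ih =>
    simp only [Ex, Up_cons, mul_apply_eq_comp, ← inner_star_left (π _), ih]
    simp only [inner_star_left, pow_succ', mul_apply_eq_comp, smul_apply, sum_apply,
      inner_smul_right, inner_sum, Complex.real_smul]
    push_cast
    rfl

lemma walk_bound [Nonempty J] (σ : J ≃ J) (π : J → H →L[ℂ] H)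
    (hπ : ∀ j, π j ∈ unitary (H →L[ℂ] H)) (hσ : ∀ j, π (σ j) = star (π j)) (Ξ : H) {β : ℝ}
    (hβ : 0 ≤ β) (hdef : ∑ j, ‖π j Ξ - Ξ‖ ^ 2 ≤ Fintype.card J * β ^ 2) (k : ℕ) :
    Ex k (fun w => ‖Up π w Ξ - Ξ‖) ≤ √k * β := by
  have hc : (0 : ℝ) < Fintype.card J := by exact_mod_cast Fintype.card_pos
  set P : H →L[ℂ] H := (Fintype.card J : ℂ)⁻¹ • ∑ j, π j with hP
  have e1 : ∀ k, Ex k (fun w => ‖Up π w Ξ - Ξ‖ ^ 2) = 2 * (⟪Ξ, Ξ - (P ^ k) Ξ⟫_ℂ).re := by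
    intro k
    have : ∀ w, ‖Up π w Ξ - Ξ‖ ^ 2 = 2 * ‖Ξ‖ ^ 2 + (-2) * (⟪Ξ, Up π w Ξ⟫_ℂ).re := fun w => by
      rw [norm_sub_rev, norm_sub_sq (𝕜 := ℂ), nu (Up_mem hπ w), RCLike.re_to_complex]
      ring
    simp only [this, Ex_add, Ex_const, Ex_mul, Ex_re, Ex_Up]
    rw [inner_sub_right, Complex.sub_re, ← inner_self_eq_norm_sq (𝕜 := ℂ), RCLike.re_to_complex]
    ring
  have hPs : IsSelfAdjoint P := by
    rw [IsSelfAdjoint, hP, star_smul, star_sum]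
    simp only [← hσ]
    rw [σ.sum_comp π]
    simp
  have hP1 : ‖P‖ ≤ 1 := by
    rw [hP, norm_smul, norm_inv, Complex.norm_natCast, inv_mul_le_iff₀ hc]
    refine (norm_sum_le _ _).trans ((Finset.sum_le_sum fun j _ => norm_unit_le (hπ j)).trans ?_)
    simp
  have e2 : 2 * (⟪Ξ, Ξ - P Ξ⟫_ℂ).re ≤ β ^ 2 := by
    have := e1 1
    simp only [Ex, Up_cons, Up_nil, mul_one, pow_one, smul_eq_mul] at this
    rw [← this, inv_mul_le_iff₀ hc]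
    exact hdef
  refine Ex_le_of_sq k _ (by positivity) ?_
  rw [e1, mul_pow, Real.sq_sqrt (by positivity)]
  have := diffuse hPs hP1 Ξ k
  have h0 : (0 : ℝ) ≤ k := by positivity
  nlinarith

lemma main_ind [Nonempty J] {M N : VonNeumannAlgebra H} {γ L : ℝ} (hγ : 0 ≤ γ) (hγ1 : γ ≤ 1)
    (hL : 0 ≤ L) (φ ψ : (H →L[ℂ] H) → H →L[ℂ] H)
    (hφ : ∀ x ∈ M, x ∈ unitary (H →L[ℂ] H) → φ x ∈ N ∧ ‖x - φ x‖ ≤ γ)
    (hψ : ∀ x ∈ M.commutant, x ∈ unitary (H →L[ℂ] H) → ψ x ∈ N.commutant ∧ ‖x - ψ x‖ ≤ γ)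
    (u u' a b aM bM : J → H →L[ℂ] H) (ζ : J → H) (Ξ : H)
    (hu : ∀ j, u j ∈ M ∧ u j ∈ unitary (H →L[ℂ] H))
    (hu' : ∀ j, u' j ∈ M.commutant ∧ u' j ∈ unitary (H →L[ℂ] H))
    (hab : ∀ j, a j ∈ N.commutant ∧ b j ∈ N.commutant ∧ aM j ∈ M.commutant ∧ bM j ∈ M.commutant)
    (ha : ∀ η, ∑ j, ‖a j η‖ ^ 2 ≤ L ^ 2 * ‖η‖ ^ 2)
    (haM : ∀ η, ∑ j, ‖a j η - aM j η‖ ^ 2 ≤ (L * γ) ^ 2 * ‖η‖ ^ 2)
    (hb : ∀ m : H →L[ℂ] H, ‖m‖ ≤ 1 → ∑ j, ‖b j (m (ζ j))‖ ^ 2 ≤ L ^ 2)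
    (hbM : ∀ m : H →L[ℂ] H, ‖m‖ ≤ 1 → ∑ j, ‖b j (m (ζ j)) - bM j (m (ζ j))‖ ^ 2 ≤ (L * γ) ^ 2)
    (hΞ : ‖Ξ‖ ≤ 1) (n : ℕ) (m m₁ : H →L[ℂ] H) (hm : m ∈ M ∧ m ∈ unitary (H →L[ℂ] H))
    (hm₁ : m₁ ∈ M.commutant ∧ m₁ ∈ unitary (H →L[ℂ] H)) :
    ‖Ex n (fun w => ⟪Ξ, φ (m * Up u w) (Sm ψ u u' a b ζ m₁ w)⟫_ℂ) -
        (n : ℝ) • ∑ j, ⟪a j Ξ, u j (b j (ζ j))⟫_ℂ‖ ≤
      ∑ k ∈ Finset.range n, Ex k fun w =>
        L ^ 2 * (11 * γ + 2 * ‖(m * m₁) (Up (fun j => u j * u' j) w Ξ) - Ξ‖) := by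
  induction n generalizing m m₁ with
  | zero => simp [Ex, Sm]
  | succ n ih =>
    set t := ∑ j, ⟪a j Ξ, u j (b j (ζ j))⟫_ℂ with ht
    obtain ⟨p1, p2⟩ := hψ _ (star_mem hm₁.1) (Unitary.star_mem hm₁.2)
    have e1 : ∀ w, ‖∑ j, ⟪Ξ, φ (m * u j * Up u w)
        (star (ψ (star m₁)) (star (a j) (b j (star (Up u w) (ζ j)))))⟫_ℂ - t‖ ≤
        L ^ 2 * (11 * γ + 2 * ‖(m * m₁) Ξ - Ξ‖) := by
      intro w
      have hw : Up u w ∈ M ∧ Up u w ∈ unitary (H →L[ℂ] H) :=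
        ⟨Up_mem (fun j => (hu j).1) w, Up_mem (fun j => (hu j).2) w⟩
      have hφ' := fun j => hφ (m * u j * Up u w) (mul_mem (mul_mem hm.1 (hu j).1) hw.1)
        (mul_mem (mul_mem hm.2 (hu j).2) hw.2)
      have d1 : ‖star m₁ Ξ - ψ (star m₁) Ξ‖ ≤ γ := by
        refine ((star m₁ - ψ (star m₁)).le_opNorm Ξ).trans ?_
        nlinarith [norm_nonneg (star m₁ - ψ (star m₁))]
      have d2 : ‖ψ (star m₁) Ξ‖ ≤ 2 := by
        have c1 := norm_sub_le (star m₁ Ξ) (star m₁ Ξ - ψ (star m₁) Ξ)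
        rw [sub_sub_cancel, nu (Unitary.star_mem hm₁.2)] at c1
        linarith
      have d3 : ‖star m (ψ (star m₁) Ξ) - Ξ‖ ≤ γ + ‖(m * m₁) Ξ - Ξ‖ := by
        have c1 : star m (ψ (star m₁) Ξ) - Ξ =
            -star m (star m₁ Ξ - ψ (star m₁) Ξ) + -star m (star m₁ ((m * m₁) Ξ - Ξ)) := by
          have c2 : star m (star m₁ ((m * m₁) Ξ)) = Ξ := by
            rw [mul_apply_eq_comp, comm_apply hm.1 hm₁.1, ← mul_apply_eq_comp (star m₁), hm₁.2.1,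
              ← mul_apply_eq_comp, mul_one, ← mul_apply_eq_comp, hm.2.1]
            rfl
          simp only [map_sub, c2]
          abel
        rw [c1]
        refine (norm_add_le _ _).trans ?_
        simp only [norm_neg, nu (Unitary.star_mem hm.2), nu (Unitary.star_mem hm₁.2)]
        linarith
      have := step_bound hγ hγ1 hL u a b aM bM (fun j => φ (m * u j * Up u w)) ζ Ξ
        (ψ (star m₁) Ξ) m (Up u w) (fun j => (hu j).2) hm hw (fun j => (hab j).2.2) ha haM hb hbM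
        (fun j => (hφ' j).2) hΞ d2
      refine le_trans (le_of_eq ?_) (this.trans ?_)
      · congr 2
        refine Finset.sum_congr rfl fun j _ => ?_
        rw [comm_apply (hφ' j).1 (star_mem p1), comm_apply (hφ' j).1 (star_mem (hab j).1),
          inner_star_right, inner_star_right]
      · exact mul_le_mul_of_nonneg_left (by linarith) (by positivity)
    have e2 : ∀ j w, (m * u j * (m₁ * u' j)) (Up (fun j => u j * u' j) w Ξ) =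
        (m * m₁) (Up (fun j => u j * u' j) (j :: w) Ξ) := fun j w => by
      simp only [Up_cons, mul_apply_eq_comp, comm_apply (hu j).1 hm₁.1]
    have e3 := fun j => ih (m * u j) (m₁ * u' j) ⟨mul_mem hm.1 (hu j).1, mul_mem hm.2 (hu j).2⟩
      ⟨mul_mem hm₁.1 (hu' j).1, mul_mem hm₁.2 (hu' j).2⟩
    simp only [e2] at e3
    have e4 : Ex (n + 1) (fun w => ⟪Ξ, φ (m * Up u w) (Sm ψ u u' a b ζ m₁ w)⟫_ℂ) -
        ((n + 1 : ℕ) : ℝ) • t = Ex n (fun w => ∑ j, ⟪Ξ, φ (m * u j * Up u w)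
          (star (ψ (star m₁)) (star (a j) (b j (star (Up u w) (ζ j)))))⟫_ℂ - t) +
        (Fintype.card J : ℝ)⁻¹ • ∑ j, (Ex n (fun w => ⟪Ξ, φ (m * u j * Up u w)
          (Sm ψ u u' a b ζ (m₁ * u' j) w)⟫_ℂ) - (n : ℝ) • t) := by
      simp only [Ex, Sm, Up_cons, ← mul_assoc, map_add, map_smul, inner_add_right,
        inner_smul_right, Ex_add, Ex_cmul, Finset.sum_add_distrib, smul_add, avg_card_mul,
        sub_eq_add_neg, Ex_const, Ex_sum, avg_const]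
      push_cast
      rw [add_smul, one_smul]
      ring
    rw [e4, Finset.sum_range_succ', add_comm]
    refine (norm_add_le _ _).trans (add_le_add ?_ ?_)
    · simp only [Ex]
      rw [← Finset.smul_sum, Finset.sum_comm, norm_smul, norm_inv, Real.norm_natCast, smul_eq_mul]
      gcongr
      exact (norm_sum_le _ _).trans (Finset.sum_le_sum fun j _ => e3 j)
    · exact (norm_Ex_le n _).trans ((Ex_mono n e1).trans_eq (Ex_const n _))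

end RW

open RW in
/-- PROOF.  W.l.o.g. `J` is nonempty.  For a list `w` let `U w = (w.map u).prod`, `U' w = (w.map u').prod`,
`nn w ∈ N` with `‖U w - nn w‖ ≤ γ`, `ν w ∈ N'` with `‖star (U' w) - ν w‖ ≤ γ` (norms `≤ 2`).  `𝔼_n F` =
uniform average over lists of length `n` (recursion `𝔼_(n+1) F = |J|⁻¹ ∑_j 𝔼_n (F ∘ cons j)`).  For
`ν : List J → B(H)` put `S ν [] = 0`,
`S ν (j :: w) = |J| • (ν [])* (a j)* (b j) (U w)* (ζ j) + S (ν ∘ cons j) w`.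
(a) `𝔼_n ⟪α (U w)* ζ₁, S ν w⟫ = 0` for all `α, ζ₁, ν` (induction; the first term by `hrel` with
`α := ν [] * α * (U w)*`, `m := (U w)*`), hence `𝔼_n ‖S ν w‖² ≤ n |J| 4 L⁴` (`‖a j‖ ≤ L`).
(b) For a prefix `v`, a suffix `w` and `m = U v`, `m' = U w`, `ν₀ = ν v`:
`∑_j ⟪Ξ, nn (v ++ j :: w) ν₀* (a j)* (b j) m'* ζ j⟫ = ∑_j ⟪a j ν₀ Ξ, nn (…) (b j) m'* ζ j⟫` is within
`L² (11 γ + 2 ‖m* (U' v)* Ξ - Ξ‖)` of the target: replace `nn` by `m u_j m'` (`2 L² γ`), then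
`m' b j m'* ζ j` by `b j ζ j` through `bM` (`4 L² γ`), then `m* a j ν₀ Ξ` by `a j Ξ` through `aM`
(`L² (3 γ + 2 ‖m* ν₀ Ξ - Ξ‖)`); Cauchy–Schwarz over `j` each time.
(c) `m* (U' v)*` is the reversed product of the `π (σ j)`, `π j = u j * u' j`; `P = |J|⁻¹ ∑ π j` is a
self-adjoint contraction, `𝔼_k (U v)* (U' v)* = P^k`, so `𝔼_k ‖m* (U' v)* Ξ - Ξ‖² =
2 re ⟪Ξ, (1 - P^k) Ξ⟫ ≤ k β²` (`diffuse`).
So `n ‖target‖ ≤ ‖𝔼_n ⟪Ξ, nn w (S ν w)⟫‖ + n L² (11 γ + 2 √n β)` and the first term is at most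
`2 √(4 n |J| L⁴)`. -/
theorem rw_lemma {M N : VonNeumannAlgebra H} {γ L β : ℝ} (hγ : 0 ≤ γ) (hγ1 : γ ≤ 1) (hL : 0 ≤ L)
    (hβ : 0 ≤ β) (h1 : Near M N γ) (h2 : Near M.commutant N.commutant γ) {J : Type*} [Fintype J]
    (σ : J ≃ J) (u u' a b aM bM : J → H →L[ℂ] H) (ζ : J → H) (Ξ : H)
    (hu : ∀ j, u j ∈ M ∧ u j ∈ unitary (H →L[ℂ] H) ∧ u (σ j) = star (u j))
    (hu' : ∀ j, u' j ∈ M.commutant ∧ u' j ∈ unitary (H →L[ℂ] H) ∧ u' (σ j) = star (u' j))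
    (hab : ∀ j, a j ∈ N.commutant ∧ b j ∈ N.commutant ∧ aM j ∈ M.commutant ∧ bM j ∈ M.commutant)
    (ha : ∀ η, ∑ j, ‖a j η‖ ^ 2 ≤ L ^ 2 * ‖η‖ ^ 2)
    (haM : ∀ η, ∑ j, ‖a j η - aM j η‖ ^ 2 ≤ (L * γ) ^ 2 * ‖η‖ ^ 2)
    (hb : ∀ m : H →L[ℂ] H, ‖m‖ ≤ 1 → ∑ j, ‖b j (m (ζ j))‖ ^ 2 ≤ L ^ 2)
    (hbM : ∀ m : H →L[ℂ] H, ‖m‖ ≤ 1 → ∑ j, ‖b j (m (ζ j)) - bM j (m (ζ j))‖ ^ 2 ≤ (L * γ) ^ 2)
    (hrel : ∀ (α m : H →L[ℂ] H) (ζ₁ : H),
      ∑ j, ⟪α (star (u j) ζ₁), star (a j) (b j (m (ζ j)))⟫_ℂ = 0)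
    (hΞ : ‖Ξ‖ ≤ 1) (hdef : ∑ j, ‖u j (u' j Ξ) - Ξ‖ ^ 2 ≤ Fintype.card J * β ^ 2) {n : ℕ}
    (hn : 0 < n) :
    ‖∑ j, ⟪a j Ξ, u j (b j (ζ j))⟫_ℂ‖ ≤
      L ^ 2 * (11 * γ + 2 * √n * β + 4 * √(Fintype.card J / n)) := by
  rcases isEmpty_or_nonempty J with hJ | hJ
  · simp only [Finset.univ_eq_empty, Finset.sum_empty, norm_zero]
    positivity
  choose! φ hφ using h1
  choose! ψ hψ using h2
  have hφ' : ∀ x ∈ M, x ∈ unitary (H →L[ℂ] H) → φ x ∈ N ∧ ‖x - φ x‖ ≤ γ := fun x hx hx' =>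
    ⟨(hφ x hx).1, (hφ x hx).2.trans (mul_le_of_le_one_right hγ (norm_unit_le hx'))⟩
  have hψ' : ∀ x ∈ M.commutant, x ∈ unitary (H →L[ℂ] H) → ψ x ∈ N.commutant ∧ ‖x - ψ x‖ ≤ γ :=
    fun x hx hx' =>
      ⟨(hψ x hx).1, (hψ x hx).2.trans (mul_le_of_le_one_right hγ (norm_unit_le hx'))⟩
  have two : ∀ x y : H →L[ℂ] H, x ∈ unitary (H →L[ℂ] H) → ‖x - y‖ ≤ γ → ‖y‖ ≤ 2 := by
    intro x y hx h
    have c1 := norm_sub_le x (x - y)
    rw [sub_sub_cancel] at c1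
    linarith [norm_unit_le hx]
  have e1 := main_ind hγ hγ1 hL φ ψ hφ' hψ' u u' a b aM bM ζ Ξ (fun j => ⟨(hu j).1, (hu j).2.1⟩)
    (fun j => ⟨(hu' j).1, (hu' j).2.1⟩) hab ha haM hb hbM hΞ n 1 1 ⟨one_mem _, one_mem _⟩
    ⟨one_mem _, one_mem _⟩
  have e2 := sq_bound hL ψ u u' a b ζ
    (M.commutant.toStarSubalgebra.toSubalgebra.toSubsemiring.toSubmonoid ⊓ unitary (H →L[ℂ] H))
    (fun m hm => two _ _ (Unitary.star_mem hm.2)
      (hψ' _ (star_mem (show m ∈ M.commutant from hm.1)) (Unitary.star_mem hm.2)).2)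
    (fun j => (hu j).2.1) (fun j => ⟨(hu' j).1, (hu' j).2.1⟩) ha hb hrel n 1 (one_mem _)
  have e3 := walk_bound σ (fun j => u j * u' j) (fun j => mul_mem (hu j).2.1 (hu' j).2.1)
    (fun j => by
      rw [(hu j).2.2, (hu' j).2.2, star_mul]
      exact VonNeumannAlgebra.mem_commutant_iff.1 (star_mem (hu' j).1) _ (star_mem (hu j).1))
    Ξ hβ hdef
  have hn' : (0 : ℝ) < n := by exact_mod_cast hn
  have e4 : Ex n (fun w => ‖Sm ψ u u' a b ζ 1 w‖) ≤ n * (2 * L ^ 2 * √(Fintype.card J / n)) := by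
    refine Ex_le_of_sq n _ (by positivity) (e2.trans_eq ?_)
    rw [mul_pow, mul_pow, Real.sq_sqrt (by positivity)]
    field_simp
    ring
  have e5 : ‖Ex n (fun w => ⟪Ξ, φ (1 * Up u w) (Sm ψ u u' a b ζ 1 w)⟫_ℂ)‖ ≤
      2 * (n * (2 * L ^ 2 * √(Fintype.card J / n))) := by
    refine (norm_Ex_le n _).trans ((Ex_mono n (G := fun w => 2 * ‖Sm ψ u u' a b ζ 1 w‖)
      fun w => ?_).trans (by rw [Ex_mul]; linarith))
    refine (norm_inner_le_norm _ _).trans ((mul_le_of_le_one_left (norm_nonneg _) hΞ).trans ?_)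
    refine ((φ (1 * Up u w)).le_opNorm _).trans ?_
    gcongr
    rw [one_mul]
    have hw := Up_mem (fun j => (hu j).2.1) w
    exact two _ _ hw (hφ' _ (Up_mem (fun j => (hu j).1) w) hw).2
  have e6 : (∑ k ∈ Finset.range n, Ex k fun w => L ^ 2 * (11 * γ +
      2 * ‖((1 : H →L[ℂ] H) * 1) (Up (fun j => u j * u' j) w Ξ) - Ξ‖)) ≤
      n * (L ^ 2 * (11 * γ + 2 * (√n * β))) := by
    refine (Finset.sum_le_sum (g := fun _ => L ^ 2 * (11 * γ + 2 * (√n * β)))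
      fun k hk => ?_).trans (by simp)
    rw [Ex_mul, Ex_add, Ex_const, Ex_mul, mul_one]
    gcongr
    refine (e3 k).trans ?_
    gcongr
    exact_mod_cast (Finset.mem_range.1 hk).le
  have e7 := norm_sub_le (Ex n (fun w => ⟪Ξ, φ (1 * Up u w) (Sm ψ u u' a b ζ 1 w)⟫_ℂ))
    (Ex n (fun w => ⟪Ξ, φ (1 * Up u w) (Sm ψ u u' a b ζ 1 w)⟫_ℂ) -
      (n : ℝ) • ∑ j, ⟪a j Ξ, u j (b j (ζ j))⟫_ℂ)
  rw [sub_sub_cancel, norm_smul, Real.norm_natCast] at e7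
  refine le_of_mul_le_mul_left ?_ hn'
  linarith

end Crest.Agent.R78
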