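import Crest.Agent.R78.MS
import Crest.Agent.R78.RW
import Crest.Agent.R78.Lett

/-! Row 78: the key inequality in cyclic form. -/

set_option autoImplicit false
set_option linter.unusedSectionVars false
set_option linter.deprecated false

namespace Crest.Agent.R78

open Crest.Agent.R124 Crest.Agent.R121
open scoped InnerProductSpace ComplexConjugate

variable {H : Type*} [NormedAddCommGroup H] [InnerProductSpace ℂ H] [CompleteSpace H]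

lemma ki_proj_sum {I : Type*} [Fintype I] {F : I → H →L[ℂ] H} (hF : ∀ i, IsStarProjection (F i))
    (ho : Pairwise fun i j => F i * F j = 0) (w : H) : ∑ i, ‖F i w‖ ^ 2 ≤ ‖w‖ ^ 2 := by
  have h1 : Pairwise fun i j => star (F i) * F j = 0 ∧ F i * star (F j) = 0 := fun i j hij => by
    beta_reduce
    rw [(hF i).isSelfAdjoint.star_eq, (hF j).isSelfAdjoint.star_eq]
    exact ⟨ho hij, ho hij⟩
  rw [← norm_sq_sum_of_orth F (fun i j hij => (h1 hij).1), ← ContinuousLinearMap.sum_apply]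
  have h2 := (PI.finset_sum F (fun i => PI.of_proj (hF i)) h1 Finset.univ).norm_le
  have h3 := ((∑ i, F i).le_opNorm w).trans (mul_le_of_le_one_left (norm_nonneg _) h2)
  exact pow_le_pow_left₀ (norm_nonneg _) h3 2

lemma ki_sum_le {I T : Type*} [Fintype I] [Fintype T] {F : I → H →L[ℂ] H}
    (hF : ∀ i, IsStarProjection (F i)) (ho : Pairwise fun i j => F i * F j = 0)
    (g : T → H →L[ℂ] H) {c B : ℝ} (hg : ∀ τ, ‖g τ‖ ≤ c) (v : T → H)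
    (hv : ∑ τ, ‖v τ‖ ^ 2 ≤ 4 * B ^ 2) :
    ∑ j : I × T × Bool, ‖F j.1 (g j.2.1 (v j.2.1))‖ ^ 2 ≤ (3 * c) ^ 2 * B ^ 2 := by
  have h1 : ∀ τ, ∑ i, ‖F i (g τ (v τ))‖ ^ 2 ≤ c ^ 2 * ‖v τ‖ ^ 2 := fun τ => by
    refine (ki_proj_sum hF ho _).trans ?_
    rw [← mul_pow]
    exact pow_le_pow_left₀ (norm_nonneg _)
      (((g τ).le_opNorm _).trans (mul_le_mul_of_nonneg_right (hg τ) (norm_nonneg _))) 2
  have h2 : ∑ j : I × T × Bool, ‖F j.1 (g j.2.1 (v j.2.1))‖ ^ 2 =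
      2 * ∑ τ, ∑ i, ‖F i (g τ (v τ))‖ ^ 2 := by
    rw [Fintype.sum_prod_type, Finset.sum_comm, Fintype.sum_prod_type, Finset.mul_sum]
    refine Finset.sum_congr rfl fun τ _ => ?_
    rw [Fintype.sum_bool, two_mul]
  rw [h2]
  have h3 := Finset.sum_le_sum fun τ (_ : τ ∈ Finset.univ) => h1 τ
  rw [← Finset.mul_sum] at h3
  have h4 := mul_le_mul_of_nonneg_left hv (sq_nonneg c)
  nlinarith [mul_nonneg (sq_nonneg c) (sq_nonneg B)]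

lemma ki_sp_mem (N : VonNeumannAlgebra H) (ζ : H) : sp {v | ∃ n ∈ N, v = n ζ} ∈ N.commutant :=
  sp_mem (by
    rintro y hy _ ⟨n, hn, rfl⟩
    rw [VonNeumannAlgebra.commutant_commutant] at hy
    exact ⟨y * n, mul_mem hy hn, rfl⟩)

lemma ki_sp_apply (N : VonNeumannAlgebra H) (ζ : H) : sp {v | ∃ n ∈ N, v = n ζ} ζ = ζ :=
  sp_apply ⟨1, one_mem _, rfl⟩

/-- The flip of the sign. -/
def kiFlip (I T : Type*) : I × T × Bool ≃ I × T × Bool where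
  toFun j := (j.1, j.2.1, !j.2.2)
  invFun j := (j.1, j.2.1, !j.2.2)
  left_inv j := by simp
  right_inv j := by simp

theorem kic_core {M N : VonNeumannAlgebra H} {γ β : ℝ} (hγ : 0 ≤ γ) (hγ1 : γ ≤ 1) (hβ : 0 ≤ β)
    (h1 : Near M N γ) (h2 : Close M.commutant N.commutant γ) {I T E : Type*} [Fintype I]
    [Fintype T] [AddCommGroup E] [Module ℂ E] (b : I → E) (Ξ : H) (ρ : T → H →L[ℂ] H)
    (F : I → H →L[ℂ] H) (S₀ S₁ : H →L[ℂ] H) (Φ : T → E →ₗ[ℂ] (H →L[ℂ] H))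
    (Z : I → T → H →L[ℂ] H) (hΞ : ‖Ξ‖ ≤ 1) (hρ : ∀ τ, Cc M N (ρ τ))
    (hρ4 : ∀ η, ∑ τ, ‖ρ τ η‖ ^ 2 ≤ 4 * ‖η‖ ^ 2) (hF : ∀ i, Cc M N (F i) ∧ IsStarProjection (F i))
    (ho : Pairwise fun i j => F i * F j = 0) (hS₁ : Cc M N S₁) (n₀ : ‖S₀‖ ≤ 1) (n₁ : ‖S₁‖ ≤ 1)
    (hΦ : ∀ i τ, Φ τ (b i) ∈ M ∧ IsSelfAdjoint (Φ τ (b i)) ∧ ‖Φ τ (b i)‖ ≤ 1)
    (hZ : ∀ i τ, Z i τ ∈ M.commutant ∧ IsSelfAdjoint (Z i τ) ∧ ‖Z i τ‖ ≤ 1)
    (hd : ∀ i τ, ‖Φ τ (b i) Ξ - Z i τ Ξ‖ ≤ β)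
    (hrel : ∀ τ, ∀ n ∈ N, ∀ f : E →ₗ[ℂ] ℂ,
      ∑ i, f (b i) * ⟪ρ τ (S₁ Ξ), n (F i (ρ τ (S₀ Ξ)))⟫_ℂ = 0) {n : ℕ} (hn : 0 < n) :
    ‖∑ i, ∑ τ, ⟪F i (ρ τ (S₁ Ξ)), Φ τ (b i) (F i (ρ τ (S₀ Ξ)))⟫_ℂ‖ ≤
      3 ^ 2 * (11 * γ + 2 * √n * β + 4 * √(Fintype.card (I × T × Bool) / n)) := by
  choose u u' hu huU hu' hu'U hsum hd1 hd2 using fun i τ =>
    exists_letters (hΦ i τ).1 (hΦ i τ).2.1 (hΦ i τ).2.2 (hZ i τ).1 (hZ i τ).2.1 (hZ i τ).2.2 Ξ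
  obtain ⟨e, he⟩ : ∃ e : T → H →L[ℂ] H, ∀ τ, e τ = sp {v | ∃ n ∈ N, v = n (ρ τ (S₀ Ξ))} :=
    ⟨_, fun _ => rfl⟩
  obtain ⟨e', he'⟩ : ∃ e' : T → H →L[ℂ] H, ∀ τ, e' τ = sp {v | ∃ n ∈ N, v = n (ρ τ (S₁ Ξ))} :=
    ⟨_, fun _ => rfl⟩
  have heN : ∀ τ, e τ ∈ N.commutant := fun τ => he τ ▸ ki_sp_mem N _
  have heN' : ∀ τ, e' τ ∈ N.commutant := fun τ => he' τ ▸ ki_sp_mem N _
  have hep : ∀ τ, IsStarProjection (e τ) := fun τ => he τ ▸ sp_proj _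
  have hep' : ∀ τ, IsStarProjection (e' τ) := fun τ => he' τ ▸ sp_proj _
  have hea : ∀ τ, e τ (ρ τ (S₀ Ξ)) = ρ τ (S₀ Ξ) := fun τ => by rw [he τ, ki_sp_apply]
  have hea' : ∀ τ, e' τ (ρ τ (S₁ Ξ)) = ρ τ (S₁ Ξ) := fun τ => by rw [he' τ, ki_sp_apply]
  choose eM heM hdM using fun τ => h2.2 (e τ) (heN τ)
  choose eM' heM' hdM' using fun τ => h2.2 (e' τ) (heN' τ)
  have hdM1 : ∀ τ, ‖e τ - eM τ‖ ≤ γ := fun τ =>
    (hdM τ).trans (mul_le_of_le_one_right hγ (hep τ).norm_le)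
  have hdM1' : ∀ τ, ‖e' τ - eM' τ‖ ≤ γ := fun τ =>
    (hdM' τ).trans (mul_le_of_le_one_right hγ (hep' τ).norm_le)
  have hv1 : ∀ η, ∑ τ, ‖ρ τ (S₁ η)‖ ^ 2 ≤ 4 * ‖η‖ ^ 2 := fun η => by
    refine (hρ4 _).trans (mul_le_mul_of_nonneg_left (pow_le_pow_left₀ (norm_nonneg _) ?_ 2)
      (by norm_num))
    exact (S₁.le_opNorm η).trans (mul_le_of_le_one_left (norm_nonneg _) n₁)
  have hv0 : ∀ m : H →L[ℂ] H, ‖m‖ ≤ 1 → ∑ τ, ‖m (ρ τ (S₀ Ξ))‖ ^ 2 ≤ 4 * 1 ^ 2 := fun m hm => by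
    refine le_trans (Finset.sum_le_sum fun τ _ => pow_le_pow_left₀ (norm_nonneg _)
      ((m.le_opNorm _).trans (mul_le_of_le_one_left (norm_nonneg _) hm)) 2) ?_
    refine (hρ4 _).trans (mul_le_mul_of_nonneg_left (pow_le_pow_left₀ (norm_nonneg _) ?_ 2)
      (by norm_num))
    exact (S₀.le_opNorm Ξ).trans (mul_le_one₀ n₀ (norm_nonneg _) hΞ)
  have hFp : ∀ i, IsStarProjection (F i) := fun i => (hF i).2
  have hz : ∀ τ (f : E →ₗ[ℂ] ℂ), ∑ i, f (b i) • (e' τ * F i * e τ) = 0 := fun τ f => by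
    have h3 : e' τ * (∑ i, f (b i) • F i) * e τ = 0 := by
      rw [he τ, he' τ]
      refine sp_mul_sp_eq_zero fun n₁ hn₁ n₂ hn₂ => ?_
      rw [← hrel τ (star n₁ * n₂) (mul_mem (star_mem hn₁) hn₂) f, ContinuousLinearMap.sum_apply,
        inner_sum]
      refine Finset.sum_congr rfl fun i _ => ?_
      rw [ContinuousLinearMap.smul_apply, inner_smul_right, ContinuousLinearMap.mul_apply,
        inner_star_right, ← ContinuousLinearMap.mul_apply (F i), ← comm_of_mem hn₂ (hF i).1.2,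
        ContinuousLinearMap.mul_apply]
    rw [← h3, Finset.mul_sum, Finset.sum_mul]
    exact Finset.sum_congr rfl fun i _ => by rw [mul_smul_comm, smul_mul_assoc]
  have key := rw_lemma (L := 3) hγ hγ1 (by norm_num) hβ h1 h2.1 (kiFlip I T)
    (fun j => if j.2.2 then u j.1 j.2.1 else star (u j.1 j.2.1))
    (fun j => if j.2.2 then u' j.1 j.2.1 else star (u' j.1 j.2.1))
    (fun j => F j.1 * e' j.2.1 * ρ j.2.1 * S₁) (fun j => F j.1 * e j.2.1)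
    (fun j => F j.1 * eM' j.2.1 * ρ j.2.1 * S₁) (fun j => F j.1 * eM j.2.1)
    (fun j => ρ j.2.1 (S₀ Ξ)) Ξ
    (by
      rintro ⟨i, τ, _ | _⟩
      · exact ⟨star_mem (hu i τ), Unitary.star_mem (huU i τ), (star_star _).symm⟩
      · exact ⟨hu i τ, huU i τ, rfl⟩)
    (by
      rintro ⟨i, τ, _ | _⟩
      · exact ⟨star_mem (hu' i τ), Unitary.star_mem (hu'U i τ), (star_star _).symm⟩
      · exact ⟨hu' i τ, hu'U i τ, rfl⟩)
    (fun j => ⟨mul_mem (mul_mem (mul_mem (hF _).1.2 (heN' _)) (hρ _).2) hS₁.2,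
      mul_mem (hF _).1.2 (heN _), mul_mem (mul_mem (mul_mem (hF _).1.1 (heM' _)) (hρ _).1) hS₁.1,
      mul_mem (hF _).1.1 (heM _)⟩)
    (fun η => by
      have := ki_sum_le hFp ho e' (fun τ => (hep' τ).norm_le) _ (hv1 η)
      rwa [mul_one] at this)
    (fun η => by
      have := ki_sum_le hFp ho (fun τ => e' τ - eM' τ) hdM1' _ (hv1 η)
      simpa only [ContinuousLinearMap.mul_apply, ContinuousLinearMap.sub_apply, map_sub] using this)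
    (fun m hm => by
      have := ki_sum_le hFp ho e (fun τ => (hep τ).norm_le) _ (hv0 m hm)
      rwa [mul_one, one_pow, mul_one] at this)
    (fun m hm => by
      have := ki_sum_le hFp ho (fun τ => e τ - eM τ) hdM1 _ (hv0 m hm)
      rw [one_pow, mul_one] at this
      simpa only [ContinuousLinearMap.mul_apply, ContinuousLinearMap.sub_apply, map_sub] using this)
    (fun α m ζ₁ => by
      rw [Fintype.sum_prod_type, Finset.sum_comm, Fintype.sum_prod_type]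
      refine Finset.sum_eq_zero fun τ _ => ?_
      rw [Finset.sum_comm]
      let G : E →ₗ[ℂ] (H →L[ℂ] H) →ₗ[ℂ] ℂ := LinearMap.mk₂ ℂ
        (fun x c => ⟪ζ₁, Φ τ x (star α (star (ρ τ * S₁) (c (m (ρ τ (S₀ Ξ))))))⟫_ℂ)
        (fun x y c => by simp) (fun a x c => by simp)
        (fun x c d => by simp) (fun a x c => by simp)
      rw [← sum_bilin_eq_zero b (fun i => e' τ * F i * e τ) (hz τ) G]
      refine Finset.sum_congr rfl fun i _ => ?_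
      rw [Fintype.sum_bool]
      simp only [if_true, Bool.false_eq_true, if_false, star_star]
      rw [← inner_add_left, ← map_add, ← ContinuousLinearMap.add_apply, add_comm, hsum]
      have e1 : star (F i * e' τ * ρ τ * S₁) * (F i * e τ) = star (ρ τ * S₁) * (e' τ * F i * e τ) := by
        rw [mul_assoc (F i * e' τ), star_mul (F i * e' τ), star_mul (F i),
          (hFp i).isSelfAdjoint.star_eq, (hep' τ).isSelfAdjoint.star_eq, mul_assoc, mul_assoc,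
          ← mul_assoc (F i), (hFp i).isIdempotentElem, mul_assoc]
      rw [← ContinuousLinearMap.mul_apply (star _), e1, ContinuousLinearMap.mul_apply]
      simp only [G, LinearMap.mk₂_apply]
      rw [← inner_star_left (Φ τ (b i)), (hΦ i τ).2.1.star_eq, inner_star_right α])
    hΞ
    (by
      rw [← Finset.card_univ, ← nsmul_eq_mul]
      refine Finset.sum_le_card_nsmul _ _ _ ?_
      rintro ⟨i, τ, _ | _⟩ -
      · exact pow_le_pow_left₀ (norm_nonneg _) ((hd2 i τ).trans (hd i τ)) 2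
      · exact pow_le_pow_left₀ (norm_nonneg _) ((hd1 i τ).trans (hd i τ)) 2)
    hn
  refine le_trans (le_of_eq ?_) key
  congr 1
  rw [Fintype.sum_prod_type]
  refine Finset.sum_congr rfl fun i _ => ?_
  rw [Fintype.sum_prod_type]
  refine Finset.sum_congr rfl fun τ _ => ?_
  rw [Fintype.sum_bool]
  simp only [if_true, Bool.false_eq_true, if_false, ContinuousLinearMap.mul_apply, hea, hea']
  rw [← inner_add_right, ← ContinuousLinearMap.add_apply, hsum]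

lemma ki_numeric {t g : ℝ} {k : ℕ}
    (h : ∀ ε > 0, ∃ (c : ℕ) (β : ℝ), 0 ≤ β ∧ β ≤ √ε ∧ c * β ^ 2 ≤ k * ε ∧ ∀ n : ℕ, 0 < n →
      t ≤ k * ε + 3 ^ 2 * (g + 2 * √n * β + 4 * √(c / n))) : t ≤ 9 * g := by
  refine le_of_forall_pos_le_add fun δ hδ => ?_
  obtain ⟨η, hη, hηδ⟩ : ∃ η : ℝ, 0 < η ∧ 55 * η ≤ δ := ⟨δ / 55, by positivity, by linarith⟩
  have hk : (0 : ℝ) ≤ k := Nat.cast_nonneg _
  obtain ⟨ε, hε, hε1, hε2⟩ : ∃ ε : ℝ, 0 < ε ∧ k * ε ≤ η ∧ (k / η ^ 2 + 2) * ε ≤ η ^ 2 := by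
    refine ⟨min (η / (k + 1)) (η ^ 2 / (k / η ^ 2 + 2)), by positivity, ?_, ?_⟩
    · refine (mul_le_mul_of_nonneg_left (min_le_left _ _) hk).trans ?_
      rw [← mul_div_assoc, div_le_iff₀ (by positivity)]
      nlinarith
    · refine (mul_le_mul_of_nonneg_left (min_le_right _ _) (by positivity)).trans ?_
      rw [mul_div_cancel₀ _ (by positivity)]
  obtain ⟨c, β, hβ, hβε, hc, ht⟩ := h ε hε
  have hc0 : (0 : ℝ) ≤ c := Nat.cast_nonneg _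
  have hn := ht (⌈c / η ^ 2⌉₊ + 1) (Nat.succ_pos _)
  have l1 : (c : ℝ) / η ^ 2 ≤ ((⌈c / η ^ 2⌉₊ + 1 : ℕ) : ℝ) := by
    push_cast
    linarith [Nat.le_ceil ((c : ℝ) / η ^ 2)]
  have l2 : ((⌈c / η ^ 2⌉₊ + 1 : ℕ) : ℝ) ≤ c / η ^ 2 + 2 := by
    push_cast
    linarith [Nat.ceil_lt_add_one (show (0 : ℝ) ≤ c / η ^ 2 by positivity)]
  have l0 : (0 : ℝ) < ((⌈c / η ^ 2⌉₊ + 1 : ℕ) : ℝ) := by positivity
  generalize ((⌈c / η ^ 2⌉₊ + 1 : ℕ) : ℝ) = n at hn l1 l2 l0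
  have a1 : √(c / n) ≤ η := by
    rw [Real.sqrt_le_left hη.le, div_le_iff₀ l0]
    rw [div_le_iff₀ (by positivity)] at l1
    linarith
  have a2 : √n * β ≤ η := by
    have b1 : β ^ 2 ≤ ε := by
      have := pow_le_pow_left₀ hβ hβε 2
      rwa [Real.sq_sqrt hε.le] at this
    have b2 : n * β ^ 2 ≤ η ^ 2 := by
      calc n * β ^ 2 ≤ (c / η ^ 2 + 2) * β ^ 2 := mul_le_mul_of_nonneg_right l2 (sq_nonneg _)
        _ = (c * β ^ 2) / η ^ 2 + 2 * β ^ 2 := by ring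
        _ ≤ (k * ε) / η ^ 2 + 2 * ε := by gcongr
        _ = (k / η ^ 2 + 2) * ε := by ring
        _ ≤ η ^ 2 := hε2
    refine abs_le_of_sq_le_sq' ?_ hη.le |>.2
    rwa [mul_pow, Real.sq_sqrt l0.le]
  nlinarith

section DD
variable {𝔸 : Type*} [Fintype 𝔸] [DecidableEq 𝔸]

lemma ki_dd_mul (x y : H →L[ℂ] H) : dd 𝔸 (x * y) = dd 𝔸 x * dd 𝔸 y := by
  rw [dd, dd, dd, dg_mul, dg_mul]

lemma ki_dd_star (x : H →L[ℂ] H) : dd 𝔸 (star x) = star (dd 𝔸 x) := by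
  rw [dd, dd, dg_star, dg_star]

lemma ki_dd_zero : dd 𝔸 (0 : H →L[ℂ] H) = 0 := by
  rw [dd, dg_zero, dg_zero]

lemma ki_dd_norm (x : H →L[ℂ] H) : ‖dd 𝔸 x‖ ≤ ‖x‖ := (norm_dg_le _).trans (norm_dg_le _)

lemma ki_dd_cc {M N : VonNeumannAlgebra H} {x : H →L[ℂ] H} (hx : Cc M N x) :
    Cc (hat M 𝔸) (hat N 𝔸) (dd 𝔸 x) := ⟨dd_mem_commutant hx.1, dd_mem_commutant hx.2⟩

lemma ki_dd_proj {x : H →L[ℂ] H} (hx : IsStarProjection x) : IsStarProjection (dd 𝔸 x) :=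
  ⟨by rw [IsIdempotentElem, ← ki_dd_mul, hx.isIdempotentElem],
    by rw [IsSelfAdjoint, ← ki_dd_star, hx.isSelfAdjoint.star_eq]⟩

end DD

lemma ki_target {M : VonNeumannAlgebra H} {F S₀ S₁ ρ Y : H →L[ℂ] H} (hF : F ∈ M.commutant)
    (hFp : IsStarProjection F) (hS₀ : S₀ ∈ M.commutant) (hY : Y ∈ M) (c0 : ρ * S₀ = S₀ * ρ)
    (c1 : ρ * (star S₀ * F) = star S₀ * F * ρ) (Ξ : H) :
    ⟪F (ρ (S₁ Ξ)), Y (F (ρ (S₀ Ξ)))⟫_ℂ = ⟪ρ ((star S₀ * F * S₁) Ξ), Y (ρ Ξ)⟫_ℂ := by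
  have e1 : Y (F (ρ (S₀ Ξ))) = F (S₀ (Y (ρ Ξ))) := by
    have : Y * (F * (ρ * S₀)) = F * (S₀ * (Y * ρ)) := by
      rw [c0, ← mul_assoc Y, comm_of_mem hY hF, mul_assoc F, ← mul_assoc Y, comm_of_mem hY hS₀,
        mul_assoc]
    exact congr($this Ξ)
  have e2 : ρ ((star S₀ * F * S₁) Ξ) = star S₀ (F (ρ (S₁ Ξ))) := by
    have : ρ * (star S₀ * F * S₁) = star S₀ * (F * (ρ * S₁)) := by
      rw [← mul_assoc, c1, mul_assoc, mul_assoc]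
    exact congr($this Ξ)
  rw [e1, e2, inner_star_left, ← inner_star_left F, hFp.isSelfAdjoint.star_eq,
    ← ContinuousLinearMap.mul_apply F F, hFp.isIdempotentElem]

/-- PROOF.  Fix `ε > 0`; `ms` with `z i = R₀* E i R₁`.  `γ' = 8 cD³ γ ≤ 1` works for `hat M, hat N` and their
commutants (`Close.hat`, `Close.commutant`).  `ξ τ = ρ τ (dd R₁ Ξ)`, `ζ τ = ρ τ (dd R₀ Ξ)`,
`e τ = sp (hat N · ζ τ)`, `e' τ = sp (hat N · ξ τ)` in `(hat N)'`, `eM τ, eM' τ ∈ (hat M)'` within `γ'`.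
`J = I × 𝕋 × Bool`, letters from `exists_letters` for `Φ τ (b i)`, `Z i τ` (`u` or `star u`), `σ` flips the
sign, `a j = dd (E i) * e' τ * ρ τ * dd R₁`, `b j = dd (E i) * e τ`, `L = √8` (or `3`),
`β = √(ε/|𝕋|)`.  `hrel`: the two signs add up to `Φ τ (b i)`; `∑_i f (b i) • e' τ dd (E i) e τ = 0`
(`sp_mul_sp_eq_zero`, the compression property of `ms`, `Rel`); `sum_bilin_eq_zero` with
`F x c = ⟪α (star (Φ τ x) ζ₁), (ρ τ dd R₁)* c m ζ τ⟫`.  The target of `rw_lemma` is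
`∑_i ∑_τ ⟪ρ τ (dd (z i) Ξ), Φ τ (b i) (ρ τ Ξ)⟫`.  With `n = ⌈|J|/η²⌉ + 1`:
`√(|J|/n) ≤ η`, `n β² ≤ |J| β² (η⁻² + 2) ≤ 2 |I| ε (η⁻² + 2)`.  Let `ε → 0`, then `η → 0`. -/
theorem kic {M N : VonNeumannAlgebra H} {γ : ℝ} (hγ : 0 ≤ γ) (hγ1 : 8 * cD ^ 3 * γ ≤ 1)
    (h : Close M N γ) : KIc M N (800 * cD ^ 3 * γ) := by
  intro I _ Ω b E R₀ R₁ hΩ hb hE ho hR₀ hR₁ n₀ n₁ hrel
  have hc := one_le_cD
  have hc3 : 0 ≤ cD ^ 3 * γ := by positivity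
  suffices hs : ‖∑ i, ⟪R₁ Ω, b i (E i (R₀ Ω))⟫_ℂ‖ ≤ 9 * (11 * (8 * cD ^ 3 * γ)) by nlinarith
  refine ki_numeric (k := 2 * Fintype.card I) fun ε hε => ?_
  obtain ⟨𝔸, 𝕋, _, _, _, Ξ, ρ, Φ, Z, hΞ, hρ, hρc, hρ4, hcomp, hΦ, hZ, hdef, hrec⟩ :=
    ms M Ω hΩ b (fun i => star R₀ * E i * R₁) hb
      (fun i => mul_mem (mul_mem (star_mem hR₀.1) (hE i).1.1) hR₁.1) hε
  have hh : Close (hat M 𝔸) (hat N 𝔸) (4 * cD ^ 2 * γ) := h.hat hγ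
  have hh' := hh.commutant (by positivity)
  rw [show 2 * cD * (4 * cD ^ 2 * γ) = 8 * cD ^ 3 * γ by ring] at hh'
  have hle : 4 * cD ^ 2 * γ ≤ 8 * cD ^ 3 * γ := by
    have : 0 ≤ cD ^ 2 * γ := by positivity
    nlinarith
  refine ⟨Fintype.card (I × 𝕋 × Bool), √(ε / Fintype.card 𝕋), Real.sqrt_nonneg _, ?_, ?_,
    fun n hn => ?_⟩
  · refine Real.sqrt_le_sqrt ?_
    rcases Nat.eq_zero_or_pos (Fintype.card 𝕋) with h0 | h0
    · rw [h0, Nat.cast_zero, div_zero]; exact hε.le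
    · exact div_le_self hε.le (by exact_mod_cast h0)
  · rw [Real.sq_sqrt (by positivity)]
    simp only [Fintype.card_prod, Fintype.card_bool]
    push_cast
    rcases Nat.eq_zero_or_pos (Fintype.card 𝕋) with h0 | h0
    · rw [h0, Nat.cast_zero, div_zero, mul_zero]; positivity
    · have : (Fintype.card 𝕋 : ℝ) ≠ 0 := by exact_mod_cast h0.ne'
      refine le_of_eq ?_
      field_simp
  have key := kic_core (β := √(ε / Fintype.card 𝕋)) (by positivity) hγ1 (Real.sqrt_nonneg _)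
    (hh.1.mono hle) hh' b Ξ ρ (fun i => dd 𝔸 (E i)) (dd 𝔸 R₀) (dd 𝔸 R₁) Φ Z hΞ
    (fun τ => ⟨hρ M τ, hρ N τ⟩) hρ4 (fun i => ⟨ki_dd_cc (hE i).1, ki_dd_proj (hE i).2⟩)
    (fun i j hij => by beta_reduce; rw [← ki_dd_mul, ho hij, ki_dd_zero]) (ki_dd_cc hR₁)
    ((ki_dd_norm _).trans n₀) ((ki_dd_norm _).trans n₁) hΦ hZ
    (fun i τ => by
      have h0 : (0 : ℝ) < Fintype.card 𝕋 := by
        exact_mod_cast Fintype.card_pos_iff.mpr ⟨τ⟩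
      refine Real.le_sqrt_of_sq_le ?_
      rw [le_div_iff₀ h0, mul_comm]
      exact hdef i τ)
    (fun τ n' hn' f => by
      obtain ⟨m, hm, hm'⟩ := hcomp N τ n' hn'
      rw [← hrel f m hm]
      refine Finset.sum_congr rfl fun i _ => ?_
      have e := hm' R₁ (E i * R₀)
      rw [ContinuousLinearMap.mul_apply] at e
      rw [← e, ki_dd_mul, ContinuousLinearMap.mul_apply,
        ← ContinuousLinearMap.mul_apply (ρ τ) (dd 𝔸 (E i)), hρc, ContinuousLinearMap.mul_apply])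
    hn
  have e1 : ∀ i τ, ⟪dd 𝔸 (E i) (ρ τ (dd 𝔸 R₁ Ξ)), Φ τ (b i) (dd 𝔸 (E i) (ρ τ (dd 𝔸 R₀ Ξ)))⟫_ℂ =
      ⟪ρ τ (dd 𝔸 (star R₀ * E i * R₁) Ξ), Φ τ (b i) (ρ τ Ξ)⟫_ℂ := fun i τ => by
    rw [ki_target (dd_mem_commutant (hE i).1.1) (ki_dd_proj (hE i).2) (dd_mem_commutant hR₀.1)
      (hΦ i τ).1 (hρc τ R₀) (by rw [← ki_dd_star, ← ki_dd_mul, hρc]), ki_dd_mul, ki_dd_mul,
      ki_dd_star]
  simp only [e1] at key
  have e2 : ∀ i, ⟪R₁ Ω, b i (E i (R₀ Ω))⟫_ℂ = ⟪(star R₀ * E i * R₁) Ω, b i Ω⟫_ℂ := fun i => by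
    have : b i * (E i * R₀) = E i * R₀ * b i :=
      comm_of_mem (hb i).1 (mul_mem (hE i).1.1 hR₀.1)
    have h3 : b i (E i (R₀ Ω)) = E i (R₀ (b i Ω)) := congr($this Ω)
    rw [h3, ContinuousLinearMap.mul_apply, ContinuousLinearMap.mul_apply, inner_star_left,
      ← inner_star_left (E i), (hE i).2.isSelfAdjoint.star_eq]
  simp only [e2]
  have h4 : ‖∑ i, (∑ τ, ⟪ρ τ (dd 𝔸 (star R₀ * E i * R₁) Ξ), Φ τ (b i) (ρ τ Ξ)⟫_ℂ -
      ⟪(star R₀ * E i * R₁) Ω, b i Ω⟫_ℂ)‖ ≤ Fintype.card I * ε := by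
    refine (norm_sum_le _ _).trans ?_
    rw [← Finset.card_univ, ← nsmul_eq_mul]
    exact Finset.sum_le_card_nsmul _ _ _ fun i _ => hrec i
  rw [Finset.sum_sub_distrib, norm_sub_rev] at h4
  have h5 := norm_le_norm_add_norm_sub' (∑ i, ⟪(star R₀ * E i * R₁) Ω, b i Ω⟫_ℂ)
    (∑ i, ∑ τ, ⟪ρ τ (dd 𝔸 (star R₀ * E i * R₁) Ξ), Φ τ (b i) (ρ τ Ξ)⟫_ℂ)
  have h6 : (0 : ℝ) ≤ Fintype.card I * ε := by positivity
  rw [Nat.cast_mul, Nat.cast_ofNat]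
  linarith

end Crest.Agent.R78
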