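import Crest.Agent.R78.Hat
import Crest.Agent.R78.Targ
import Crest.Agent.R78.RN
import Crest.Agent.R78.Dual

/-! Row 78: the one-algebra theorem (elements with almost invariant companions). -/

set_option autoImplicit false
set_option linter.unusedSectionVars false
set_option linter.deprecated false

namespace Crest.Agent.R78

open Crest.Agent.R124 Crest.Agent.R121
open scoped InnerProductSpace ComplexConjugate

variable {H : Type*} [NormedAddCommGroup H] [InnerProductSpace ℂ H] [CompleteSpace H]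

section Rho
variable {𝔸 : Type*} [Fintype 𝔸] [DecidableEq 𝔸]

/-- The scalar row operator. -/
noncomputable def rho (H : Type*) [NormedAddCommGroup H] [InnerProductSpace ℂ H] [CompleteSpace H]
    (a₀ : 𝔸) (v : 𝔸 → ℂ) : HH 𝔸 (HH 𝔸 H) →L[ℂ] HH 𝔸 (HH 𝔸 H) :=
  mR fun b b' => if b = a₀ then v b' • (1 : H →L[ℂ] H) else 0

theorem rho_mem (P : VonNeumannAlgebra H) (a₀ : 𝔸) (v : 𝔸 → ℂ) :
    rho H a₀ v ∈ (hat P 𝔸).commutant :=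
  mem_hat_commutant.mpr ⟨_, fun a b => by
    split_ifs
    exacts [smul_mem_vn (one_mem _) _, zero_mem _], rfl⟩

lemma rho_apply (a₀ : 𝔸) (v : 𝔸 → ℂ) (η : HH 𝔸 (HH 𝔸 H)) :
    rho H a₀ v η = inj a₀ (∑ a, v a • η a) := by
  ext b a
  simp only [rho, mR, mat_apply, inj_apply]
  split_ifs with h
  · simp [dg_smul, dg_one]
  · simp [dg_zero]

theorem rho_comm (a₀ : 𝔸) (v : 𝔸 → ℂ) (z : H →L[ℂ] H) :
    rho H a₀ v * dd 𝔸 z = dd 𝔸 z * rho H a₀ v := by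
  refine ContinuousLinearMap.ext fun η => ?_
  simp only [ContinuousLinearMap.mul_apply, rho_apply, dd, dg_inj, dg_apply, map_sum, map_smul]

theorem norm_rho_apply (a₀ : 𝔸) (v : 𝔸 → ℂ) (η : HH 𝔸 (HH 𝔸 H)) :
    ‖rho H a₀ v η‖ = ‖∑ a, v a • η a‖ := by
  rw [rho_apply, norm_inj]

lemma rho_dd_Xi (a₀ : 𝔸) (v : 𝔸 → ℂ) (ϱ : 𝔸 → ℝ) (Ω : H) (z : H →L[ℂ] H) :
    rho H a₀ v (dd 𝔸 z (Xi ϱ Ω)) =
      inj a₀ (WithLp.toLp 2 fun a => (v a * (√(ϱ a) : ℝ)) • z Ω) := by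
  rw [rho_apply]
  congr 1
  ext a
  simp only [dd, Xi, dg_apply, dg_inj, map_smul]
  rw [WithLp.ofLp_sum, Finset.sum_apply, Finset.sum_eq_single a]
  · simp [mul_smul]
  · intro b _ hb
    simp [Ne.symm hb]
  · simp

theorem inner_rho (a₀ : 𝔸) (v : 𝔸 → ℂ) (ϱ : 𝔸 → ℝ) (Ω : H) (y : 𝔸 → 𝔸 → H →L[ℂ] H)
    (z₁ z₂ : H →L[ℂ] H) :
    ⟪rho H a₀ v (dd 𝔸 z₁ (Xi ϱ Ω)), mL y (rho H a₀ v (dd 𝔸 z₂ (Xi ϱ Ω)))⟫_ℂ =
      ∑ a, ∑ b, conj (v a * (√(ϱ a) : ℝ)) * (v b * (√(ϱ b) : ℝ)) * ⟪z₁ Ω, y a b (z₂ Ω)⟫_ℂ := by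
  rw [rho_dd_Xi, rho_dd_Xi, mL, dg_inj, inner_inj_left, inj_apply, if_pos rfl, PiLp.inner_apply]
  refine Finset.sum_congr rfl fun a _ => ?_
  rw [mat_apply, inner_sum]
  refine Finset.sum_congr rfl fun b _ => ?_
  rw [map_smul, inner_smul_left, inner_smul_right, ← mul_assoc]

/-- `x ↦ x ⊗ |w⟩⟨w|`. -/
noncomputable def XL (w : 𝔸 → ℂ) : (H →L[ℂ] H) →ₗ[ℂ] (HH 𝔸 (HH 𝔸 H) →L[ℂ] HH 𝔸 (HH 𝔸 H)) where
  toFun x := mL fun a b => (w a * conj (w b)) • x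
  map_add' x y := by
    rw [mL, mL, mL, ← dg_add]
    congr 1
    exact ext_ent fun a b => by simp [ent_add]
  map_smul' c x := by
    rw [mL, mL, RingHom.id_apply, ← dg_smul]
    congr 1
    exact ext_ent fun a b => by rw [ent_smul, ent_mat, ent_mat, smul_comm]

lemma XL_def (w : 𝔸 → ℂ) (x : H →L[ℂ] H) : XL w x = mL fun a b => (w a * conj (w b)) • x := rfl

lemma XL_mem {M : VonNeumannAlgebra H} (w : 𝔸 → ℂ) {x : H →L[ℂ] H} (hx : x ∈ M) :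
    XL w x ∈ hat M 𝔸 := mem_hat.mpr ⟨_, fun _ _ => smul_mem_vn hx _, rfl⟩

lemma XL_nonneg (w : 𝔸 → ℂ) {x : H →L[ℂ] H} (hx : 0 ≤ x) : 0 ≤ XL w x :=
  dg_nonneg (mat_rank_one_nonneg w hx)

lemma XL_star (w : 𝔸 → ℂ) (x : H →L[ℂ] H) : XL w (star x) = star (XL w x) := by
  rw [XL_def, XL_def, mL, mL, ← dg_star, star_mat]
  congr 2
  funext a b
  simp [mul_comm]

lemma spec_subM {A : H →L[ℂ] H} (h0 : 0 ≤ A) (h1 : A ≤ 1) : spectrum ℝ A ⊆ Set.Icc 0 1 :=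
  fun x hx => ⟨spectrum_nonneg_of_nonneg h0 hx, (CFC.le_one_iff (R := ℝ) A).mp h1 x hx⟩

variable {M : VonNeumannAlgebra H} {Ω : H} {A : H →L[ℂ] H} {ϱ : 𝔸 → ℝ}
  {Λ Λ' : (HH 𝔸 (HH 𝔸 H) →L[ℂ] HH 𝔸 (HH 𝔸 H)) →ₗ[ℂ] (HH 𝔸 (HH 𝔸 H) →L[ℂ] HH 𝔸 (HH 𝔸 H))}

lemma iter_XL (hA : IsMod M Ω A) (hϱ : ∀ a, 0 < ϱ a)
    (h : IsRN (hat M 𝔸) (hat M 𝔸).commutant (Xi ϱ Ω) Λ)
    (h' : IsRN (hat M 𝔸).commutant (hat M 𝔸) (Xi ϱ Ω) Λ') (p : ℕ) (w : 𝔸 → ℂ) {x : H →L[ℂ] H}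
    (hx : x ∈ M) (a b : 𝔸) :
    ((Λ ∘ₗ Λ') ^ p) (XL w x) (Xi ϱ Ω) b a = (((√(ϱ b) : ℝ) : ℂ) * (w a * conj (w b))) •
      cfc (fun s : ℝ => tt (ϱ a) (ϱ b) s ^ p) A (x Ω) := by
  rw [(rn_iter hA hϱ h h' p (XL_mem w hx)).2.2.2, XL_def, mL_Xi, ContinuousLinearMap.smul_apply,
    smul_smul, map_smul]

lemma norm_iter_le (hA : IsMod M Ω A) (hϱ : ∀ a, 0 < ϱ a)
    (h : IsRN (hat M 𝔸) (hat M 𝔸).commutant (Xi ϱ Ω) Λ)
    (h' : IsRN (hat M 𝔸).commutant (hat M 𝔸) (Xi ϱ Ω) Λ') {p : ℕ} (hp : 0 < p) (w : 𝔸 → ℂ)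
    {c : ℝ} (hc : 0 ≤ c) (hr : ∀ b, ∑ a, tt (ϱ a) (ϱ b) (1 / 2) ^ p * (‖w a‖ * ‖w b‖) ≤ c)
    {x : H →L[ℂ] H} (hx : x ∈ M) (hs : IsSelfAdjoint x) (h1 : ‖x‖ ≤ 1) :
    ‖((Λ ∘ₗ Λ') ^ p) (XL w x)‖ ≤ c := by
  have h2 : 0 ≤ 1 - x := sub_nonneg.mpr ((hs.le_algebraMap_norm_self).trans (by
    rw [← map_one (algebraMap ℝ (H →L[ℂ] H))]
    exact algebraMap_mono _ h1))
  have h3 : 0 ≤ 1 + x := by
    have := sub_nonneg.mpr ((hs.neg.le_algebraMap_norm_self).trans (show _ ≤ 1 by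
      rw [← map_one (algebraMap ℝ (H →L[ℂ] H))]
      exact algebraMap_mono _ (by rwa [norm_neg])))
    rwa [sub_neg_eq_add] at this
  have h4 := (rn_iter hA hϱ h h' p (XL_mem w (sub_mem (one_mem M) hx))).2.1 (XL_nonneg w h2)
  have h5 := (rn_iter hA hϱ h h' p (XL_mem w (add_mem (one_mem M) hx))).2.1 (XL_nonneg w h3)
  rw [map_sub, map_sub] at h4
  rw [map_add, map_add] at h5
  refine (norm_le_of_neg_le h4 h5).trans ?_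
  obtain ⟨p, rfl⟩ := Nat.exists_eq_succ_of_ne_zero hp.ne'
  let m : 𝔸 → 𝔸 → ℂ := fun a b => ((tt (ϱ a) (ϱ b) (1 / 2) ^ (p + 1) : ℝ) : ℂ) * (w a * conj (w b))
  have hm : ∀ a b, ‖m a b‖ = tt (ϱ a) (ϱ b) (1 / 2) ^ (p + 1) * (‖w a‖ * ‖w b‖) := fun a b => by
    simp only [m, norm_mul, Complex.norm_real, RCLike.norm_conj]
    rw [Real.norm_of_nonneg (pow_nonneg (tt_nonneg (hϱ a) (hϱ b) (by norm_num)) _)]
  have e : ((Λ ∘ₗ Λ') ^ (p + 1)) (XL w 1) = Λ (Λ' (((Λ ∘ₗ Λ') ^ p) (XL w 1))) := by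
    rw [pow_succ']; rfl
  have h6 : ‖((Λ ∘ₗ Λ') ^ (p + 1)) (XL w 1)‖ ≤ ‖mL fun a b => m a b • (1 : H →L[ℂ] H)‖ := by
    rw [e]
    refine h.nle _ (h'.mem _ (rn_iter hA hϱ h h' p (XL_mem w (one_mem M))).1) _
      (mem_hat.mpr ⟨_, fun _ _ => smul_mem_vn (one_mem M) _, rfl⟩) ?_
    rw [← e]
    ext b a
    rw [iter_XL hA hϱ h h' _ w (one_mem M), mL_Xi, ContinuousLinearMap.one_apply,
      cfc_tt_self hA hA.apply_self (hϱ a) (hϱ b), ContinuousLinearMap.smul_apply,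
      ContinuousLinearMap.one_apply, smul_smul, smul_smul]
    congr 1
    simp only [m]
    ring
  refine h6.trans ((norm_dg_le _).trans (schur m hc (fun a => ?_) fun b => ?_))
  · simp only [hm]
    refine le_trans (le_of_eq (Finset.sum_congr rfl fun b _ => ?_)) (hr a)
    rw [tt_half_symm, mul_comm ‖w a‖]
  · simp only [hm]
    exact hr b

lemma defect_le (hA : IsMod M Ω A) (hϱ : ∀ a, 0 < ϱ a)
    (h : IsRN (hat M 𝔸) (hat M 𝔸).commutant (Xi ϱ Ω) Λ)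
    (h' : IsRN (hat M 𝔸).commutant (hat M 𝔸) (Xi ϱ Ω) Λ') (p : ℕ) (w : 𝔸 → ℂ) {C : ℝ}
    (hC : ∀ s ∈ Set.Icc (0 : ℝ) 1, ∑ b, ∑ a, ϱ b * (‖w a‖ ^ 2 * ‖w b‖ ^ 2) *
      ((1 - tt (ϱ a) (ϱ b) s) * (tt (ϱ a) (ϱ b) s ^ p) ^ 2) ≤ C)
    {x : H →L[ℂ] H} (hx : x ∈ M) :
    ‖((Λ ∘ₗ Λ') ^ p) (XL w x) (Xi ϱ Ω) - Λ' (((Λ ∘ₗ Λ') ^ p) (XL w x)) (Xi ϱ Ω)‖ ^ 2 ≤
      C * ‖x Ω‖ ^ 2 := by
  have hsp := spec_subM hA.nonneg hA.le_one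
  let f : 𝔸 × 𝔸 → ℝ → ℝ := fun i s => tt (ϱ i.2) (ϱ i.1) s ^ p -
    2 * ϱ i.2 * (1 - s) / (ϱ i.1 * s + ϱ i.2 * (1 - s)) * tt (ϱ i.2) (ϱ i.1) s ^ p
  have c1 : ∀ a b, ContinuousOn (fun s => tt (ϱ a) (ϱ b) s ^ p) (Set.Icc 0 1) := fun a b =>
    (continuousOn_tt (hϱ a) (hϱ b)).pow p
  have c2 : ∀ a b, ContinuousOn (fun s : ℝ => 2 * ϱ a * (1 - s) / (ϱ b * s + ϱ a * (1 - s)))
      (Set.Icc 0 1) := fun a b =>
    ContinuousOn.div (by fun_prop) (by fun_prop) fun s hs => (tt_den_pos (hϱ a) (hϱ b) hs).ne'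
  have key := sum_norm_cfc_sq_le hA.nonneg hA.le_one
    (fun i : 𝔸 × 𝔸 => ϱ i.1 * (‖w i.2‖ ^ 2 * ‖w i.1‖ ^ 2)) f
    (fun i => (c1 _ _).sub ((c2 _ _).mul (c1 _ _))) (C := C) (fun s hs => by
      rw [Fintype.sum_prod_type]
      refine le_trans (le_of_eq ?_) (hC s hs)
      refine Finset.sum_congr rfl fun b _ => Finset.sum_congr rfl fun a _ => ?_
      have := (tt_den_pos (hϱ a) (hϱ b) hs).ne'
      simp only [f]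
      rw [one_sub_tt (hϱ a) (hϱ b) hs]
      field_simp
      ring) (x Ω)
  refine le_trans (le_of_eq ?_) key
  rw [HH.norm_sq, Fintype.sum_prod_type]
  refine Finset.sum_congr rfl fun b _ => ?_
  rw [HH.norm_sq]
  refine Finset.sum_congr rfl fun a _ => ?_
  rw [PiLp.sub_apply, PiLp.sub_apply,
    rn_right hA hϱ h' (rn_iter hA hϱ h h' p (XL_mem w hx)).1, iter_XL hA hϱ h h' p w hx, map_smul,
    ← smul_sub, norm_smul, mul_pow]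
  congr 1
  · simp only [norm_mul, Complex.norm_real, RCLike.norm_conj, mul_pow, Real.norm_eq_abs, sq_abs,
      Real.sq_sqrt (hϱ b).le]
  · simp only [f]
    rw [cfc_sub _ _ _ ((c1 a b).mono hsp) (((c2 a b).fun_mul (c1 a b)).mono hsp),
      cfc_mul _ _ _ ((c2 a b).mono hsp) ((c1 a b).mono hsp)]
    rfl

lemma inner_iter (hA : IsMod M Ω A) (hϱ : ∀ a, 0 < ϱ a)
    (h : IsRN (hat M 𝔸) (hat M 𝔸).commutant (Xi ϱ Ω) Λ)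
    (h' : IsRN (hat M 𝔸).commutant (hat M 𝔸) (Xi ϱ Ω) Λ') (p : ℕ) (w : 𝔸 → ℂ) (a₀ : 𝔸) (r : ℝ)
    {x : H →L[ℂ] H} (hx : x ∈ M) (z : H →L[ℂ] H) :
    ⟪rho H a₀ (fun a => w a * (r / √(ϱ a) : ℝ)) (dd 𝔸 z (Xi ϱ Ω)), ((Λ ∘ₗ Λ') ^ p) (XL w x)
      (rho H a₀ (fun a => w a * (r / √(ϱ a) : ℝ)) (Xi ϱ Ω))⟫_ℂ =
      ⟪z Ω, cfc (fun s => r ^ 2 * ∑ a, ∑ b, ‖w a‖ ^ 2 * ‖w b‖ ^ 2 * tt (ϱ a) (ϱ b) s ^ p) A
        (x Ω)⟫_ℂ := by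
  have hsp := spec_subM hA.nonneg hA.le_one
  have c1 : ∀ a b, ContinuousOn (fun s => tt (ϱ a) (ϱ b) s ^ p) (spectrum ℝ A) := fun a b =>
    ((continuousOn_tt (hϱ a) (hϱ b)).pow p).mono hsp
  obtain ⟨y, -, hy⟩ := mem_hat.mp (rn_iter hA hϱ h h' p (XL_mem w hx)).1
  have hy' : ∀ a b, y a b Ω = (w a * conj (w b)) •
      cfc (fun s : ℝ => tt (ϱ a) (ϱ b) s ^ p) A (x Ω) := fun a b => by
    have h1 := iter_XL hA hϱ h h' p w hx a b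
    rw [hy, mL_Xi, mul_smul] at h1
    exact smul_right_injective _ (by exact_mod_cast (Real.sqrt_pos.mpr (hϱ b)).ne') h1
  have e1 : Xi ϱ Ω = dd 𝔸 1 (Xi ϱ Ω) := by simp [dd, dg_one]
  have e2 : cfc (fun s => r ^ 2 * ∑ a, ∑ b, ‖w a‖ ^ 2 * ‖w b‖ ^ 2 * tt (ϱ a) (ϱ b) s ^ p) A =
      ∑ a, ∑ b, (r ^ 2 * (‖w a‖ ^ 2 * ‖w b‖ ^ 2)) •
        cfc (fun s : ℝ => tt (ϱ a) (ϱ b) s ^ p) A := by
    have : (fun s => r ^ 2 * ∑ a, ∑ b, ‖w a‖ ^ 2 * ‖w b‖ ^ 2 * tt (ϱ a) (ϱ b) s ^ p) =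
        ∑ i : 𝔸 × 𝔸, fun s => (r ^ 2 * (‖w i.1‖ ^ 2 * ‖w i.2‖ ^ 2)) * tt (ϱ i.1) (ϱ i.2) s ^ p := by
      funext s
      simp only [Finset.sum_apply, Fintype.sum_prod_type, Finset.mul_sum, mul_assoc]
    rw [this, cfc_sum_univ _ _ fun i => continuousOn_const.fun_mul (c1 _ _), Fintype.sum_prod_type]
    exact Finset.sum_congr rfl fun a _ => Finset.sum_congr rfl fun b _ =>
      cfc_const_mul _ _ _ (c1 a b)
  conv_lhs => rw [hy]; enter [3, 2, 2]; rw [e1]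
  rw [inner_rho, e2, ContinuousLinearMap.sum_apply, inner_sum]
  refine Finset.sum_congr rfl fun a _ => ?_
  rw [ContinuousLinearMap.sum_apply, inner_sum]
  refine Finset.sum_congr rfl fun b _ => ?_
  rw [ContinuousLinearMap.one_apply, hy', inner_smul_right, ContinuousLinearMap.smul_apply,
    ← Complex.coe_smul, inner_smul_right, ← mul_assoc]
  congr 1
  have ha : ((√(ϱ a) : ℝ) : ℂ) ≠ 0 := by exact_mod_cast (Real.sqrt_pos.mpr (hϱ a)).ne'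
  have hb : ((√(ϱ b) : ℝ) : ℂ) ≠ 0 := by exact_mod_cast (Real.sqrt_pos.mpr (hϱ b)).ne'
  simp only [map_mul, Complex.conj_ofReal]
  push_cast
  rw [← Complex.mul_conj', ← Complex.mul_conj']
  field_simp

end Rho

/-- PROOF.  `A` from `exists_mod`, `η` = minimum over `i` of the `η` of `IsMod.recover`,
`N p q c` from `exists_scal η (ε/2)`, targets from `exists_targets`, `ϱ a = (q^lev a)⁻¹/Z`, `Ξ = Xi ϱ Ω`,
`Λ, Λ'` from `exists_rn` for `hat M 𝔸` and its commutant, `ρ τ = rho a₀ (w τ a / √(N ϱ a |𝕋|))`,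
`X τ x = mL fun a b => (w τ a * conj (w τ b)) • x` (linear in `x`), `Φ τ x = c⁻¹ • (Λ ∘ Λ')^p (X τ x)`,
`Z i τ = Λ' (Φ τ (b i))`.
Norm: `Y = (Λ Λ')^p (X τ 1)` satisfies `Y ± (Λ Λ')^p (X τ x) ≥ 0` (`mat_rank_one_nonneg`), and
`Y Ξ = mL (tt(1/2)^p w a conj (w b) • 1) Ξ` (`rn_iter`, `cfc_tt_self`), so `‖Y‖ ≤ c` by `IsRN.nle`
(`p > 0`, `Y = Λ (…)`) and `schur`.
Defect: `(Φ Ξ - Z Ξ) b a = c⁻¹ √(ϱ b) w a conj (w b) • cfc (h · tt^p) A (x Ω)`, `h² = 1 - tt`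
(`rn_right`, `one_sub_tt`); `sum_norm_cfc_sq_le` with
`∑_{k,l} ϱ(l) (1 - t) t^(2p) ≤ p⁻¹ ∑_l ϱ(l) 2 c ≤ 2 c / p` (`∑_l (q^l)⁻¹/Z ≤ N/Z ≤ 1`).
Recovery: each `τ` contributes `|𝕋|⁻¹ ⟪z Ω, G(A) x Ω⟫`, `G = (N c)⁻¹ ∑_{k,l} tt^p ∈ [0, 2]`. -/
theorem ms (M : VonNeumannAlgebra H) (Ω : H) (hΩ : ‖Ω‖ ≤ 1) {I : Type} [Fintype I]
    (b z : I → H →L[ℂ] H) (hb : ∀ i, b i ∈ M ∧ IsSelfAdjoint (b i) ∧ ‖b i‖ ≤ 1)
    (hz : ∀ i, z i ∈ M.commutant) {ε : ℝ} (hε : 0 < ε) :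
    ∃ (𝔸 𝕋 : Type) (_ : Fintype 𝔸) (_ : DecidableEq 𝔸) (_ : Fintype 𝕋) (Ξ : HH 𝔸 (HH 𝔸 H))
      (ρ : 𝕋 → HH 𝔸 (HH 𝔸 H) →L[ℂ] HH 𝔸 (HH 𝔸 H))
      (Φ : 𝕋 → (H →L[ℂ] H) →ₗ[ℂ] (HH 𝔸 (HH 𝔸 H) →L[ℂ] HH 𝔸 (HH 𝔸 H)))
      (Z : I → 𝕋 → HH 𝔸 (HH 𝔸 H) →L[ℂ] HH 𝔸 (HH 𝔸 H)),
      ‖Ξ‖ ≤ 1 ∧ (∀ (P : VonNeumannAlgebra H) τ, ρ τ ∈ (hat P 𝔸).commutant) ∧
      (∀ τ x, ρ τ * dd 𝔸 x = dd 𝔸 x * ρ τ) ∧ (∀ η, ∑ τ, ‖ρ τ η‖ ^ 2 ≤ 4 * ‖η‖ ^ 2) ∧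
      (∀ (P : VonNeumannAlgebra H) τ, ∀ n' ∈ hat P 𝔸, ∃ n ∈ P, ∀ z₁ z₂ : H →L[ℂ] H,
        ⟪ρ τ (dd 𝔸 z₁ Ξ), n' (ρ τ (dd 𝔸 z₂ Ξ))⟫_ℂ = ⟪z₁ Ω, n (z₂ Ω)⟫_ℂ) ∧
      (∀ i τ, Φ τ (b i) ∈ hat M 𝔸 ∧ IsSelfAdjoint (Φ τ (b i)) ∧ ‖Φ τ (b i)‖ ≤ 1) ∧
      (∀ i τ, Z i τ ∈ (hat M 𝔸).commutant ∧ IsSelfAdjoint (Z i τ) ∧ ‖Z i τ‖ ≤ 1) ∧
      (∀ i τ, Fintype.card 𝕋 * ‖Φ τ (b i) Ξ - Z i τ Ξ‖ ^ 2 ≤ ε) ∧
      ∀ i, ‖∑ τ, ⟪ρ τ (dd 𝔸 (z i) Ξ), Φ τ (b i) (ρ τ Ξ)⟫_ℂ - ⟪z i Ω, b i Ω⟫_ℂ‖ ≤ ε := by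
  obtain ⟨A, hA⟩ := exists_mod M Ω
  choose η hη hrec using fun i => hA.recover (hb i).1 (hz i) hε
  obtain ⟨η₀, hη₀, hη₀le⟩ : ∃ η₀ : ℝ, 0 < η₀ ∧ ∀ i, η₀ ≤ η i := by
    rcases isEmpty_or_nonempty I with h | h
    · exact ⟨1, one_pos, fun i => isEmptyElim i⟩
    · obtain ⟨i, hi⟩ := Finite.exists_min η
      exact ⟨η i, hη i, hi⟩
  obtain ⟨N, p, q, c, hN, hp, hq, hc, s1, s2, s3, s4⟩ := exists_scal hη₀ (half_pos hε)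
  obtain ⟨𝔸, 𝕋, _, _, _, lev, Zc, w, m, ⟨a₀⟩, h𝕋, hZ, hcard, hsum, hw, hF, horth, hm⟩ :=
    exists_targets hN hq
  have hN' : (0 : ℝ) < N := by exact_mod_cast hN
  have hp' : (0 : ℝ) < p := by exact_mod_cast hp
  have hZ0 : 0 < Zc := hN'.trans_le hZ
  have hq0 : 0 < q := one_pos.trans_le hq
  have hT : (0 : ℝ) < Fintype.card 𝕋 := by exact_mod_cast Fintype.card_pos
  let ϱ : 𝔸 → ℝ := fun a => (q ^ (lev a : ℕ))⁻¹ / Zc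
  have hϱ : ∀ a, 0 < ϱ a := fun a => by positivity
  let t : Fin N → Fin N → ℝ → ℝ := fun k l s => tt (q ^ (k : ℕ))⁻¹ (q ^ (l : ℕ))⁻¹ s
  have ht : ∀ a a' s, tt (ϱ a) (ϱ a') s = t (lev a) (lev a') s := fun a a' s => tt_div hZ0.ne'
  have ht0 : ∀ k l, ∀ s ∈ Set.Icc (0 : ℝ) 1, 0 ≤ t k l s := fun k l s hs =>
    tt_nonneg (by positivity) (by positivity) hs
  have ht1 : ∀ k l, ∀ s ∈ Set.Icc (0 : ℝ) 1, t k l s ≤ 1 := fun k l s hs =>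
    tt_le_one (by positivity) (by positivity) hs
  have hw1 : ∀ τ a, ‖w τ a‖ ≤ 1 := fun τ a => by rcases hw τ a with h | h <;> simp [h]
  have hw2 : ∀ τ a, ‖w τ a‖ ^ 2 = ‖w τ a‖ := fun τ a => by rcases hw τ a with h | h <;> simp [h]
  obtain ⟨Λ, h⟩ := exists_rn (hat M 𝔸) (hat M 𝔸).commutant rfl (Xi ϱ Ω)
  obtain ⟨Λ', h'⟩ := exists_rn (hat M 𝔸).commutant (hat M 𝔸)
    (VonNeumannAlgebra.commutant_commutant _).symm (Xi ϱ Ω)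
  set r : ℝ := (√(N * Fintype.card 𝕋))⁻¹ with hr
  have hr2 : r ^ 2 = (N * Fintype.card 𝕋 : ℝ)⁻¹ := by
    rw [hr, inv_pow, Real.sq_sqrt (by positivity)]
  let Φ : 𝕋 → (H →L[ℂ] H) →ₗ[ℂ] (HH 𝔸 (HH 𝔸 H) →L[ℂ] HH 𝔸 (HH 𝔸 H)) := fun τ =>
    ((c⁻¹ : ℝ) : ℂ) • (((Λ ∘ₗ Λ') ^ p) ∘ₗ XL (w τ))
  have hΦ : ∀ τ x, Φ τ x = ((c⁻¹ : ℝ) : ℂ) • ((Λ ∘ₗ Λ') ^ p) (XL (w τ) x) := fun _ _ => rfl
  have hΦ' : ∀ i τ, Φ τ (b i) ∈ hat M 𝔸 ∧ IsSelfAdjoint (Φ τ (b i)) ∧ ‖Φ τ (b i)‖ ≤ 1 := by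
    intro i τ
    obtain ⟨h1, -, h2, -⟩ := rn_iter hA hϱ h h' p (XL_mem (w τ) (hb i).1)
    rw [hΦ]
    refine ⟨smul_mem_vn h1 _, ?_, ?_⟩
    · rw [IsSelfAdjoint, star_smul, ← h2, ← XL_star, (hb i).2.1.star_eq]
      simp
    · rw [norm_smul, Complex.norm_real, Real.norm_of_nonneg (by positivity), inv_mul_le_iff₀ hc,
        mul_one]
      refine norm_iter_le hA hϱ h h' hp (w τ) hc.le (fun a' => ?_) (hb i).1 (hb i).2.1 (hb i).2.2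
      refine le_trans ?_ (s1 (lev a'))
      rw [← hF τ fun k => t k (lev a') (1 / 2) ^ p]
      refine Finset.sum_le_sum fun a _ => ?_
      rw [ht, hw2, mul_comm]
      exact mul_le_mul_of_nonneg_right (mul_le_of_le_one_right (norm_nonneg _) (hw1 _ _))
        (pow_nonneg (ht0 _ _ _ (by norm_num)) _)
  refine ⟨𝔸, 𝕋, inferInstance, inferInstance, inferInstance, Xi ϱ Ω,
    fun τ => rho H a₀ fun a => w τ a * (r / √(ϱ a) : ℝ), Φ, fun i τ => Λ' (Φ τ (b i)), ?_,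
    fun P τ => rho_mem P _ _, fun τ x => rho_comm _ _ _, fun ζ => ?_, fun P τ n' hn' => ?_, hΦ',
    fun i τ => ?_, fun i τ => ?_, fun i => ?_⟩
  · refine (sq_le_one_iff₀ (norm_nonneg _)).mp ?_
    rw [norm_Xi_sq fun a => (hϱ a).le, hsum, one_mul]
    exact (sq_le_one_iff₀ (norm_nonneg _)).mpr hΩ
  · simp only [norm_rho_apply]
    rw [sum_norm_sq_orth _ (fun a => m a * (r / √(ϱ a)) ^ 2) fun a a' => ?_, HH.norm_sq,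
      Finset.mul_sum]
    · refine Finset.sum_le_sum fun a _ => mul_le_mul_of_nonneg_right ?_ (by positivity)
      rw [div_pow, hr2, Real.sq_sqrt (hϱ a).le]
      have e : m a * ((N * Fintype.card 𝕋 : ℝ)⁻¹ / ϱ a) =
          m a * (Zc * q ^ (lev a : ℕ)) / (N * Fintype.card 𝕋) := by
        simp only [ϱ]; field_simp
      rw [e, div_le_iff₀ (by positivity), ← mul_assoc 4]
      exact hm a
    · have e : ∀ τ, conj (w τ a * (r / √(ϱ a) : ℝ)) * (w τ a' * (r / √(ϱ a') : ℝ)) =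
          conj (w τ a) * w τ a' * (((r / √(ϱ a) : ℝ) : ℂ) * (r / √(ϱ a') : ℝ)) := fun τ => by
        rw [map_mul, Complex.conj_ofReal]; ring
      simp only [e]
      rw [← Finset.sum_mul, horth]
      split_ifs with haa
      · subst haa; push_cast; ring
      · simp
  · obtain ⟨y, hy, rfl⟩ := mem_hat.mp hn'
    refine ⟨∑ a, ∑ a', (conj (w τ a * (r / √(ϱ a) : ℝ) * (√(ϱ a) : ℝ)) *
      (w τ a' * (r / √(ϱ a') : ℝ) * (√(ϱ a') : ℝ))) • y a a',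
      sum_mem fun a _ => sum_mem fun a' _ => smul_mem_vn (hy a a') _, fun z₁ z₂ => ?_⟩
    rw [inner_rho]
    simp only [ContinuousLinearMap.sum_apply, inner_sum, ContinuousLinearMap.smul_apply,
      inner_smul_right]
  · obtain ⟨h1, h2, h3⟩ := hΦ' i τ
    exact ⟨h'.mem _ h1, by rw [IsSelfAdjoint, ← h'.star _ h1, h2.star_eq],
      (h'.contr _ h1 h2).trans h3⟩
  · have key := defect_le hA hϱ h h' p (w τ) (C := 2 * c / p) (fun s hs => ?_) (hb i).1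
    · beta_reduce
      rw [hΦ, map_smul, ContinuousLinearMap.smul_apply, ContinuousLinearMap.smul_apply, ← smul_sub,
        norm_smul, mul_pow, Complex.norm_real, Real.norm_of_nonneg (by positivity)]
      have h1 : ‖b i Ω‖ ^ 2 ≤ 1 := (sq_le_one_iff₀ (norm_nonneg _)).mpr
        (((b i).le_opNorm Ω).trans (mul_le_one₀ (hb i).2.2 (norm_nonneg _) hΩ))
      have h2 := key.trans (mul_le_of_le_one_right (by positivity) h1)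
      calc _ ≤ (ε / 2 * p * c) * (c⁻¹ ^ 2 * (2 * c / p)) := by
            gcongr
            exact hcard.trans s4
        _ = ε := by field_simp
    · have e : ∀ a', ∑ a, ϱ a' * (‖w τ a‖ ^ 2 * ‖w τ a'‖ ^ 2) *
          ((1 - tt (ϱ a) (ϱ a') s) * (tt (ϱ a) (ϱ a') s ^ p) ^ 2) ≤
          ‖w τ a'‖ ^ 2 * (Zc⁻¹ * (2 * c / p)) := fun a' => by
        have e1 := hF τ fun k => (1 - t k (lev a') s) * (t k (lev a') s ^ p) ^ 2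
        have e2 : ∑ k, (1 - t k (lev a') s) * (t k (lev a') s ^ p) ^ 2 ≤ 2 * c / p := by
          calc _ ≤ ∑ k, 1 / p * t k (lev a') s ^ p := Finset.sum_le_sum fun k _ => by
                rw [sq, ← mul_assoc, mul_comm (1 - _)]
                exact mul_le_mul_of_nonneg_right
                  (pow_mul_one_sub_le (ht0 _ _ s hs) (ht1 _ _ s hs) hp)
                  (pow_nonneg (ht0 _ _ s hs) _)
            _ ≤ 1 / p * (2 * c) := by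
                rw [← Finset.mul_sum]
                exact mul_le_mul_of_nonneg_left (s2 s hs _) (by positivity)
            _ = _ := by ring
        have e3 : ϱ a' ≤ Zc⁻¹ := by
          rw [← one_div]
          exact div_le_div_of_nonneg_right (inv_le_one_of_one_le₀ (one_le_pow₀ hq)) hZ0.le
        calc _ = ‖w τ a'‖ ^ 2 * (ϱ a' *
              ∑ k, (1 - t k (lev a') s) * (t k (lev a') s ^ p) ^ 2) := by
              rw [← e1, Finset.mul_sum, Finset.mul_sum]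
              exact Finset.sum_congr rfl fun a _ => by rw [ht]; ring
          _ ≤ _ := by
              refine mul_le_mul_of_nonneg_left (mul_le_mul e3 e2 ?_ (by positivity))
                (by positivity)
              exact Finset.sum_nonneg fun k _ =>
                mul_nonneg (sub_nonneg.mpr (ht1 _ _ s hs)) (by positivity)
      refine (Finset.sum_le_sum fun a' _ => e a').trans ?_
      rw [hF τ fun _ => Zc⁻¹ * (2 * c / p), Finset.sum_const, Finset.card_univ, Fintype.card_fin,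
        nsmul_eq_mul, ← mul_assoc]
      exact mul_le_of_le_one_left (by positivity) (by
        rw [← div_eq_mul_inv, div_le_one hZ0]; exact hZ)
  · let G : ℝ → ℝ := fun s => (N * c)⁻¹ * ∑ k, ∑ l, t k l s ^ p
    have hG : ContinuousOn G (Set.Icc 0 1) := continuousOn_const.fun_mul
      (continuousOn_finset_sum _ fun k _ => continuousOn_finset_sum _ fun l _ =>
        (continuousOn_tt (by positivity) (by positivity)).pow p)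
    have e : ∀ τ, ⟪rho H a₀ (fun a => w τ a * (r / √(ϱ a) : ℝ)) (dd 𝔸 (z i) (Xi ϱ Ω)),
        Φ τ (b i) (rho H a₀ (fun a => w τ a * (r / √(ϱ a) : ℝ)) (Xi ϱ Ω))⟫_ℂ =
        ((Fintype.card 𝕋 : ℝ)⁻¹ : ℝ) * ⟪z i Ω, cfc G A (b i Ω)⟫_ℂ := fun τ => by
      have e1 : (fun s => r ^ 2 * ∑ a, ∑ a', ‖w τ a‖ ^ 2 * ‖w τ a'‖ ^ 2 * tt (ϱ a) (ϱ a') s ^ p) =
          fun s => (c * (Fintype.card 𝕋 : ℝ)⁻¹) * G s := by
        funext s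
        have e2 : ∑ a, ∑ a', ‖w τ a‖ ^ 2 * ‖w τ a'‖ ^ 2 * tt (ϱ a) (ϱ a') s ^ p =
            ∑ k, ∑ l, t k l s ^ p := by
          rw [← hF τ fun k => ∑ l, t k l s ^ p]
          refine Finset.sum_congr rfl fun a _ => ?_
          rw [← hF τ fun l => t (lev a) l s ^ p, Finset.mul_sum]
          exact Finset.sum_congr rfl fun a' _ => by rw [ht, mul_assoc]
        rw [e2, hr2]
        simp only [G]
        field_simp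
      rw [hΦ, ContinuousLinearMap.smul_apply, inner_smul_right, inner_iter hA hϱ h h' p _ _ _ (hb i).1,
        e1, cfc_const_mul _ _ _ (hG.mono (spec_subM hA.nonneg hA.le_one)),
        ContinuousLinearMap.smul_apply, ← Complex.coe_smul, inner_smul_right, ← mul_assoc,
        ← Complex.ofReal_mul, ← mul_assoc, inv_mul_cancel₀ hc.ne', one_mul]
    simp only [e]
    rw [Finset.sum_const, Finset.card_univ, nsmul_eq_mul, ← mul_assoc, ← Complex.ofReal_natCast,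
      ← Complex.ofReal_mul, mul_inv_cancel₀ hT.ne', Complex.ofReal_one, one_mul]
    refine hrec i G hG fun s hs => ⟨?_, (s3 s hs).trans (hη₀le i)⟩
    have g0 : 0 ≤ G s := mul_nonneg (by positivity) (Finset.sum_nonneg fun k _ =>
      Finset.sum_nonneg fun l _ => pow_nonneg (ht0 _ _ s hs) _)
    have g2 : G s ≤ 2 := by
      have : ∑ k, ∑ l, t k l s ^ p ≤ N * (2 * c) := by
        rw [Finset.sum_comm]
        refine (Finset.sum_le_sum fun l _ => s2 s hs l).trans ?_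
        simp
      calc G s ≤ (N * c)⁻¹ * (N * (2 * c)) := mul_le_mul_of_nonneg_left this (by positivity)
        _ = 2 := by field_simp
    rw [abs_le]
    constructor <;> linarith

end Crest.Agent.R78
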