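import Crest.Agent.R78.PS

/-! Row 78, part S0104: the finite-dimensional data (clock and shift, matrix units). -/

set_option autoImplicit false
set_option linter.unusedSectionVars false

namespace Crest.Agent.R78

open Finset

section
variable {A : Type*} [CStarAlgebra A]

theorem norm_le_one_of_star_mul {x p : A} (h : star x * x = p) (hp : IsStarProjection p) :
    ‖x‖ ≤ 1 := by
  have h1 := hp.norm_le
  rw [← h, CStarRing.norm_star_mul_self] at h1
  nlinarith [norm_nonneg x]

theorem norm_mul_le_left {x y : A} (h : ‖y‖ ≤ 1) : ‖x * y‖ ≤ ‖x‖ :=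
  (norm_mul_le _ _).trans (mul_le_of_le_one_right (norm_nonneg _) h)

theorem norm_mul_le_right {x y : A} (h : ‖x‖ ≤ 1) : ‖x * y‖ ≤ ‖y‖ :=
  (norm_mul_le _ _).trans (mul_le_of_le_one_left (norm_nonneg _) h)

/-- The finite-dimensional data. -/
structure FinP {κ : Type} [Fintype κ] [DecidableEq κ] (η : ℝ) (ω : ℂ) (U V S J p : A) (v : κ → A) :
    Prop where
  hU : U ∈ unitary A
  hV : V ∈ unitary A
  hS : S ∈ unitary A
  VU : V * U = ω • (U * V)
  SV : S * V = V * S
  vU : ∀ i, v i * U = U * v i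
  vV : ∀ i, v i * V = V * v i
  pU : p * U = U * p
  vv : ∀ i j, star (v i) * v j = if i = j then p else 0
  vp : ∀ i, v i * p = v i
  sum : ∑ i, v i * star (v i) = 1
  JJ : star J * J = p
  pp : IsStarProjection p
  SJ : ‖S * J - J * U‖ ≤ η
  VJ : ‖V * J - J * V‖ ≤ η

theorem FinP.map {B : Type*} [CStarAlgebra B] {κ : Type} [Fintype κ] [DecidableEq κ] {η : ℝ}
    {ω : ℂ} {U V S J p : A} {v : κ → A} (h : FinP η ω U V S J p v) (Θ : A →⋆ₐ[ℂ] B) :
    FinP η ω (Θ U) (Θ V) (Θ S) (Θ J) (Θ p) fun i => Θ (v i) where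
  hU := Unitary.map_mem Θ h.hU
  hV := Unitary.map_mem Θ h.hV
  hS := Unitary.map_mem Θ h.hS
  VU := by rw [← map_mul, h.VU, map_smul, map_mul]
  SV := by rw [← map_mul, h.SV, map_mul]
  vU i := by rw [← map_mul, h.vU, map_mul]
  vV i := by rw [← map_mul, h.vV, map_mul]
  pU := by rw [← map_mul, h.pU, map_mul]
  vv i j := by rw [← map_star, ← map_mul, h.vv, apply_ite Θ, map_zero]
  vp i := by rw [← map_mul, h.vp]
  sum := by simp only [← map_star, ← map_mul, ← map_sum, h.sum, map_one]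
  JJ := by rw [← map_star, ← map_mul, h.JJ]
  pp := h.pp.map Θ
  SJ := by
    rw [← map_mul, ← map_mul, ← map_sub]
    exact (NonUnitalStarAlgHom.norm_apply_le Θ _).trans h.SJ
  VJ := by
    rw [← map_mul, ← map_mul, ← map_sub]
    exact (NonUnitalStarAlgHom.norm_apply_le Θ _).trans h.VJ

theorem norm_comm_of_weyl {U V : A} (hU : U ∈ unitary A) (hV : V ∈ unitary A) {ω : ℂ}
    (h : V * U = ω • (U * V)) : ‖V * U - U * V‖ ≤ ‖ω - 1‖ := by
  have : V * U - U * V = (ω - 1) • (U * V) := by rw [h, sub_smul, one_smul]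
  rw [this, norm_smul]
  exact mul_le_of_le_one_right (norm_nonneg _) (norm_unitary_le (mul_mem hU hV))

theorem norm_comm_pow {U V : A} (hU : U ∈ unitary A) (j : ℕ) :
    ‖V * U ^ j - U ^ j * V‖ ≤ j * ‖V * U - U * V‖ := by
  induction j with
  | zero => simp
  | succ j ih =>
    have : V * U ^ (j + 1) - U ^ (j + 1) * V =
        (V * U ^ j - U ^ j * V) * U + U ^ j * (V * U - U * V) := by
      rw [pow_succ]
      noncomm_ring
    rw [this]
    refine (norm_add_le _ _).trans ?_
    have h1 := norm_mul_le_left (x := V * U ^ j - U ^ j * V) (norm_unitary_le hU)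
    have h2 := norm_mul_le_right (y := V * U - U * V) (norm_unitary_le (pow_mem hU j))
    push_cast
    linarith

theorem finP_of_units {m : ℕ} {f : Fin (m + 1) → Fin (m + 1) → A}
    (hm : ∀ i j k l, f i j * f k l = if j = k then f i l else 0) (hs : ∀ i j, star (f i j) = f j i)
    (h1 : ∑ j, f j j = 1) {U V : A} (hU : U ∈ unitary A) (hV : V ∈ unitary A)
    (fU : ∀ i j, f i j * U = U * f i j) (fV : ∀ i j, f i j * V = V * f i j) {ω : ℂ}
    (h : V * U = ω • (U * V)) {η : ℝ} (hη : 2 / √(m + 1) ≤ η) (hη' : (m + 1) ^ 2 * ‖ω - 1‖ ≤ η) :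
    ∃ S J, FinP η ω U V S J (f 0 0) fun i => f i 0 := by
  have hsq : (0 : ℝ) < √(m + 1) := Real.sqrt_pos.2 (by positivity)
  have hsq1 : (1 : ℝ) ≤ √(m + 1) := Real.one_le_sqrt.2 (by linarith [Nat.cast_nonneg (α := ℝ) m])
  have pr : ∀ j, IsStarProjection (f j j) := fun j => ⟨by rw [IsIdempotentElem, hm, if_pos rfl], hs j j⟩
  have nf : ∀ i j, ‖f i j‖ ≤ 1 := fun i j =>
    norm_le_one_of_star_mul (by rw [hs, hm, if_pos rfl]) (pr j)
  have fUp : ∀ i j (k : ℕ), f i j * U ^ k = U ^ k * f i j := fun i j k =>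
    (Commute.pow_right (fU i j) k).eq
  obtain ⟨c, hc⟩ : ∃ c : ℂ, c = (((√(m + 1))⁻¹ : ℝ) : ℂ) := ⟨_, rfl⟩
  have hcn : ‖c‖ = (√(m + 1))⁻¹ := by rw [hc, Complex.norm_real, Real.norm_of_nonneg (by positivity)]
  refine ⟨∑ j, f j (j + 1), c • ∑ j : Fin (m + 1), U ^ (j : ℕ) * f j 0,
    ⟨hU, hV, ⟨?_, ?_⟩, h, ?_, fun i => fU i 0, fun i => fV i 0, fU 0 0, fun i j => ?_, fun i => ?_,
      ?_, ?_, pr 0, ?_, ?_⟩⟩
  · simp only [star_sum, hs, sum_mul, mul_sum, hm, sum_ite_eq', mem_univ, if_true]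
    rw [← h1]
    exact Equiv.sum_comp (Equiv.addRight (1 : Fin (m + 1))) fun j => f j j
  · simp only [star_sum, hs, sum_mul, mul_sum, hm, add_left_inj, sum_ite_eq', mem_univ, if_true]
    exact h1
  · simp only [sum_mul, mul_sum, fV]
  · rw [hs, hm]
  · rw [hm, if_pos rfl]
  · simp only [hs, hm, if_true]
    exact h1
  · have e : ∀ j k : Fin (m + 1), f 0 j * star (U ^ (j : ℕ)) * (U ^ (k : ℕ) * f k 0) =
        if j = k then f 0 0 else 0 := fun j k => by
      have e1 : f 0 j * star (U ^ (j : ℕ)) = star (U ^ (j : ℕ)) * f 0 j := by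
        have := congrArg star (fUp j 0 j)
        rw [star_mul, star_mul, hs] at this
        exact this.symm
      rw [e1, mul_assoc, ← mul_assoc (f 0 j), fUp, mul_assoc, hm]
      split_ifs with hjk
      · rw [← mul_assoc, hjk, (pow_mem hU _).1, one_mul]
      · simp
    rw [star_smul, smul_mul_smul_comm]
    simp only [star_sum, star_mul, hs, sum_mul, mul_sum, e, sum_ite_eq', mem_univ, if_true,
      sum_const, card_univ, Fintype.card_fin]
    rw [← Nat.cast_smul_eq_nsmul ℂ, smul_smul]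
    convert one_smul ℂ (f 0 0)
    rw [hc, Complex.star_def, Complex.conj_ofReal]
    have : (√(m + 1))⁻¹ * (√(m + 1))⁻¹ * ((m + 1 : ℕ) : ℝ) = (1 : ℝ) := by
      rw [← mul_inv, Real.mul_self_sqrt (by positivity)]
      push_cast
      field_simp
    exact_mod_cast this
  · have e : ∀ j k : Fin (m + 1), f j (j + 1) * (U ^ (k : ℕ) * f k 0) =
        if j + 1 = k then U ^ (k : ℕ) * f j 0 else 0 := fun j k => by
      rw [← mul_assoc, fUp, mul_assoc, hm]
      split_ifs <;> simp
    have e2 : ∀ j : Fin (m + 1), U ^ (j : ℕ) * f j 0 * U = U ^ ((j : ℕ) + 1) * f j 0 := fun j => by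
      rw [mul_assoc, fU, pow_succ, mul_assoc]
    rw [mul_smul_comm, smul_mul_assoc, ← smul_sub, norm_smul, hcn]
    rw [sum_mul_sum]
    simp only [e, sum_ite_eq, mem_univ, if_true, sum_mul, e2, ← sum_sub_distrib]
    rw [Fin.sum_univ_castSucc, sum_eq_zero fun i _ => by simp, zero_add, ← sub_mul]
    refine le_trans ?_ hη
    rw [div_eq_inv_mul]
    refine mul_le_mul_of_nonneg_left ((norm_mul_le_left (nf _ _)).trans
      ((norm_sub_le _ _).trans ?_)) (by positivity)
    linarith [norm_unitary_le (pow_mem hU ((Fin.last m + 1 : Fin (m + 1)) : ℕ)),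
      norm_unitary_le (pow_mem hU ((Fin.last m : ℕ) + 1))]
  · rw [mul_smul_comm, smul_mul_assoc, ← smul_sub, norm_smul, hcn, mul_sum, sum_mul,
      ← sum_sub_distrib]
    refine (mul_le_of_le_one_left (norm_nonneg _) (inv_le_one_of_one_le₀ hsq1)).trans
      ((norm_sum_le_of_le _ (n := fun _ => (m + 1) * ‖ω - 1‖) fun j _ => ?_).trans ?_)
    · rw [mul_assoc, fV, ← mul_assoc, ← mul_assoc, ← sub_mul]
      refine (norm_mul_le_left (nf _ _)).trans ((norm_comm_pow hU _).trans ?_)
      refine mul_le_mul ?_ (norm_comm_of_weyl hU hV h) (norm_nonneg _) (by positivity)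
      exact_mod_cast j.2.le
    · simp only [sum_const, card_univ, Fintype.card_fin, nsmul_eq_mul]
      push_cast
      linarith

end

open Matrix Kronecker in
theorem exists_fin {η : ℝ} (hη : 0 < η) : ∃ (ι : Type) (_ : Fintype ι) (_ : Nonempty ι) (m : ℕ)
    (ω : ℂ) (U V S J p : EuclideanSpace ℂ ι →L[ℂ] EuclideanSpace ℂ ι)
    (v : Fin (m + 1) → EuclideanSpace ℂ ι →L[ℂ] EuclideanSpace ℂ ι),
    ω ≠ 1 ∧ ‖ω - 1‖ ≤ η ∧ FinP η ω U V S J p v := by
  obtain ⟨m, hm⟩ := exists_nat_ge ((2 / η) ^ 2)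
  obtain ⟨n, hn⟩ := exists_nat_ge ((m + 1) ^ 2 * (2 * Real.pi) / η)
  set χ : AddChar (ZMod (n + 2)) ℂ := ZMod.stdAddChar with hχ
  have hω1 : χ 1 ≠ 1 := fun h => by
    rw [← χ.map_zero_eq_one, ZMod.injective_stdAddChar.eq_iff] at h
    have : Fact (1 < n + 2) := ⟨by omega⟩
    exact one_ne_zero h
  have hω : ((m : ℝ) + 1) ^ 2 * ‖χ 1 - 1‖ ≤ η := by
    have e : χ 1 = Complex.exp (Complex.I * ((2 * Real.pi / (n + 2) : ℝ) : ℂ)) := by
      have := ZMod.stdAddChar_coe (N := n + 2) 1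
      rw [Int.cast_one] at this
      rw [this]
      congr 1
      push_cast
      ring
    have h1 := Real.norm_exp_I_mul_ofReal_sub_one_le (x := 2 * Real.pi / (n + 2))
    rw [← e, Real.norm_of_nonneg (by positivity)] at h1
    refine (mul_le_mul_of_nonneg_left h1 (by positivity)).trans ?_
    rw [div_le_iff₀ hη] at hn
    rw [← mul_div_assoc, div_le_iff₀ (by positivity)]
    nlinarith
  have hm' : 2 / √(m + 1) ≤ η := by
    have : 2 / η ≤ √(m + 1) := Real.le_sqrt_of_sq_le (by linarith)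
    rw [div_le_iff₀ hη] at this
    rw [div_le_iff₀ (Real.sqrt_pos.2 (by positivity))]
    linarith
  let Φ := Matrix.toEuclideanCLM (n := ZMod (n + 2) × Fin (m + 1)) (𝕜 := ℂ)
  let C : Matrix (ZMod (n + 2)) (ZMod (n + 2)) ℂ := diagonal fun a => χ a
  let P : Matrix (ZMod (n + 2)) (ZMod (n + 2)) ℂ := Equiv.Perm.permMatrix ℂ (Equiv.addRight 1)
  have hC : C ∈ unitary _ := by
    rw [Matrix.mem_unitaryGroup_iff, star_eq_conjTranspose, diagonal_conjTranspose,
      diagonal_mul_diagonal, ← diagonal_one]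
    congr 1
    funext a
    rw [Pi.star_apply, Complex.star_def, Complex.mul_conj, Complex.normSq_eq_norm_sq,
      AddChar.norm_apply]
    simp
  have hP : P ∈ unitary _ := by
    rw [Matrix.mem_unitaryGroup_iff, star_eq_conjTranspose, conjTranspose_permMatrix,
      ← permMatrix_mul, inv_mul_cancel, permMatrix_one]
  have hPC : P * C = χ 1 • (C * P) := by
    ext a b
    simp only [P, C, mul_diagonal, Matrix.smul_apply, diagonal_mul, Equiv.Perm.permMatrix,
      PEquiv.toMatrix_apply, Equiv.toPEquiv_apply, Equiv.coe_addRight, Option.mem_def,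
      Option.some.injEq, smul_eq_mul]
    split_ifs with h
    · rw [← h, AddChar.map_add_eq_mul]
      ring
    · simp
  obtain ⟨S, J, h⟩ := finP_of_units (m := m) (f := fun i j => Φ (1 ⊗ₖ single i j 1))
    (U := Φ (C ⊗ₖ 1)) (V := Φ (P ⊗ₖ 1)) (ω := χ 1) (η := η)
    (fun i j k l => by
      rw [← map_mul, ← mul_kronecker_mul, mul_one]
      split_ifs with h
      · rw [h, single_mul_single_same, mul_one]
      · rw [single_mul_single_of_ne _ _ _ _ h, kronecker_zero, map_zero])
    (fun i j => by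
      rw [← map_star, star_eq_conjTranspose, conjTranspose_kronecker, conjTranspose_one,
        conjTranspose_single, star_one])
    (by
      rw [← map_sum, ← map_one Φ, ← one_kronecker_one]
      congr 1
      ext a b
      simp [Matrix.sum_apply, single_apply, one_apply, ite_and])
    (Unitary.map_mem Φ (kronecker_mem_unitary hC (one_mem _)))
    (Unitary.map_mem Φ (kronecker_mem_unitary hP (one_mem _)))
    (fun i j => by simp only [← map_mul, ← mul_kronecker_mul, mul_one, one_mul])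
    (fun i j => by simp only [← map_mul, ← mul_kronecker_mul, mul_one, one_mul])
    (by rw [← map_mul, ← map_mul, ← map_smul, ← mul_kronecker_mul, ← mul_kronecker_mul, hPC,
      smul_kronecker]) hm' hω
  refine ⟨ZMod (n + 2) × Fin (m + 1), inferInstance, inferInstance, m, χ 1, _, _, S, J, _, _, hω1,
    le_trans ?_ hω, h⟩
  exact le_mul_of_one_le_left (norm_nonneg _) (one_le_pow₀ (by linarith [Nat.cast_nonneg (α := ℝ) m]))

end Crest.Agent.R78
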