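import Mathlib

/-! Row 78 (Kadison–Kastler), parts S0104/S0105: the Pytlik–Szwarc deformation of the regular
representation of a free group, with an operator parameter `Z`, in an abstract C*-algebra. -/

set_option autoImplicit false
set_option linter.unusedSectionVars false
set_option linter.unusedVariables false
set_option linter.unusedSimpArgs false

namespace Crest.Agent.R78

variable {A : Type*} [CStarAlgebra A] {α : Type*} [DecidableEq α]

/-- Matrix units indexed by the free group and a covariant unitary representation. -/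
structure PSD (e : FreeGroup α → FreeGroup α → A) (l : FreeGroup α →* A) : Prop where
  mul : ∀ x y z w, e x y * e z w = if y = z then e x w else 0
  star_e : ∀ x y, star (e x y) = e y x
  star_l : ∀ g, star (l g) = l g⁻¹
  cov : ∀ g x y, l g * e x y = e (g * x) (g * y) * l g

/-- `T` commutes with the data. -/
def Cm (e : FreeGroup α → FreeGroup α → A) (l : FreeGroup α →* A) (T : A) : Prop :=
  (∀ x y, T * e x y = e x y * T) ∧ ∀ g, T * l g = l g * T

/-- The rotation in the plane of `x, y`. -/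
noncomputable def rot (e : FreeGroup α → FreeGroup α → A) (c r : ℝ) (Z : A) (x y : FreeGroup α) :
    A := 1 + ((c : ℂ) - 1) • (e x x + e y y) + (r : ℂ) • (e x y * Z) - (r : ℂ) • (e y x * star Z)

/-- `π` is the deformed representation with parameters `c, r, Z`. -/
structure IsPS (e : FreeGroup α → FreeGroup α → A) (l : FreeGroup α →* A) (c r : ℝ) (Z : A)
    (π : FreeGroup α →* A) : Prop where
  c0 : 0 ≤ c
  r0 : 0 ≤ r
  sq : c ^ 2 + r ^ 2 = 1
  unit : Z ∈ unitary A
  cm : Cm e l Z
  star_pi : ∀ g, star (π g) = π g⁻¹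
  gen : ∀ s, π (FreeGroup.of s) = rot e c r Z 1 (FreeGroup.of s) * l (FreeGroup.of s)

variable {e : FreeGroup α → FreeGroup α → A} {l : FreeGroup α →* A}

theorem PSD.mul_self (h : PSD e l) (x y z : FreeGroup α) : e x y * e y z = e x z := by
  rw [h.mul, if_pos rfl]

theorem PSD.mul_ne (h : PSD e l) {y z : FreeGroup α} (hyz : y ≠ z) (x w : FreeGroup α) :
    e x y * e z w = 0 := by
  rw [h.mul, if_neg hyz]

theorem PSD.proj (h : PSD e l) (x : FreeGroup α) : IsStarProjection (e x x) :=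
  ⟨h.mul_self x x x, h.star_e x x⟩

theorem PSD.norm_le (h : PSD e l) (x y : FreeGroup α) : ‖e x y‖ ≤ 1 := by
  have h1 : ‖e x y‖ * ‖e x y‖ ≤ 1 := by
    rw [← CStarRing.norm_star_mul_self, h.star_e, h.mul_self]
    exact (h.proj y).norm_le
  nlinarith [norm_nonneg (e x y)]

theorem Cm.star' (h : PSD e l) {T : A} (hT : Cm e l T) : Cm e l (star T) := by
  refine ⟨fun x y => ?_, fun g => ?_⟩
  · have := congrArg star (hT.1 y x)
    rw [star_mul, star_mul, h.star_e] at this
    exact this.symm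
  · have := congrArg star (hT.2 g⁻¹)
    rw [star_mul, star_mul, h.star_l, inv_inv] at this
    exact this.symm

theorem star_rot (h : PSD e l) (c r : ℝ) {Z : A} (hZ : Cm e l Z) (x y : FreeGroup α) :
    star (rot e c r Z x y) = rot e c r (star Z) y x := by
  have h1 := (hZ.star' h).1
  simp only [rot, star_sub, star_add, star_smul, star_mul, star_star, h.star_e, star_one,
    Complex.star_def, Complex.conj_ofReal, h1, hZ.1]
  module

theorem l_mul_rot (h : PSD e l) (c r : ℝ) {Z : A} (hZ : Cm e l Z) (g x y : FreeGroup α) :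
    l g * rot e c r Z x y = rot e c r Z (g * x) (g * y) * l g := by
  have h1 := (hZ.star' h).2
  simp only [rot, mul_sub, mul_add, sub_mul, add_mul, mul_smul_comm, smul_mul_assoc, mul_one,
    one_mul, ← mul_assoc, h.cov]
  simp only [mul_assoc, hZ.2, h1]

/-- The rotation in terms of `u = e x y * Z`. -/
theorem rot_aux {p u v : A} {q : A} (c r : ℝ) (hcr : c ^ 2 + r ^ 2 = 1)
    (pp : p * p = p) (qq : q * q = q) (pq : p * q = 0) (qp : q * p = 0)
    (pu : p * u = u) (qu : q * u = 0) (up : u * p = 0) (uq : u * q = u)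
    (pv : p * v = 0) (qv : q * v = v) (vp : v * p = v) (vq : v * q = 0)
    (uu : u * u = 0) (vv : v * v = 0) (uv : u * v = p) (vu : v * u = q) :
    (1 + ((c : ℂ) - 1) • (p + q) + (r : ℂ) • u - (r : ℂ) • v) *
      (1 + ((c : ℂ) - 1) • (q + p) + (r : ℂ) • v - (r : ℂ) • u) = 1 := by
  have hcr' : (c : ℂ) ^ 2 + (r : ℂ) ^ 2 = 1 := by exact_mod_cast hcr
  simp only [mul_sub, mul_add, sub_mul, add_mul, mul_smul_comm, smul_mul_assoc, mul_one,
    one_mul, pp, qq, pq, qp, pu, qu, up, uq, pv, qv, vp, vq, uu, vv, uv, vu]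
  have : (1 : A) = 1 + ((c : ℂ) ^ 2 + (r : ℂ) ^ 2 - 1) • (p + q) := by rw [hcr']; simp
  conv_rhs => rw [this]
  module

theorem key_aux {p u v : A} {q : A} (c r : ℝ) (hcr : c ^ 2 + r ^ 2 = 1)
    (pp : p * p = p) (pq : p * q = 0) 
    (pu : p * u = u) (up : u * p = 0) (uq : u * q = u)
    (pv : p * v = 0) 
    (uu : u * u = 0) (uv : u * v = p) :
    (1 - (r : ℂ) • u) * (1 + ((c : ℂ) - 1) • p) *
      (1 + ((c : ℂ) - 1) • (p + q) + (r : ℂ) • u - (r : ℂ) • v) =
      1 + ((c : ℂ) - 1) • q - (r : ℂ) • v := by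
  have hcr' : (c : ℂ) ^ 2 + (r : ℂ) ^ 2 = 1 := by exact_mod_cast hcr
  simp only [mul_sub, mul_add, sub_mul, add_mul, mul_smul_comm, smul_mul_assoc, mul_one,
    one_mul, pp, pq, pu, up, uq, pv, uu, uv, smul_zero, zero_mul]
  have : (1 : A) = 1 + ((c : ℂ) ^ 2 + (r : ℂ) ^ 2 - 1) • p := by rw [hcr']; simp
  conv_rhs => rw [this]
  module

section rel
variable (h : PSD e l) {Z : A} (hZ : Z ∈ unitary A) (hc : Cm e l Z) {x y : FreeGroup α}
include h hc

theorem eZ_mul_e (a b a' b' : FreeGroup α) : e a b * Z * e a' b' = e a b * e a' b' * Z := by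
  rw [mul_assoc, hc.1, mul_assoc]

theorem eZ_mul_eZ (a b a' b' : FreeGroup α) (W : A) :
    e a b * Z * (e a' b' * W) = e a b * e a' b' * (Z * W) := by
  rw [← mul_assoc, eZ_mul_e h hc, mul_assoc]

include hZ

theorem rot_mul_star {c r : ℝ} (hcr : c ^ 2 + r ^ 2 = 1) (hxy : x ≠ y) :
    rot e c r Z x y * rot e c r (star Z) y x = 1 := by
  have hc' := hc.star' h
  have z1 : Z * star Z = 1 := Unitary.mul_star_self_of_mem hZ
  have z2 : star Z * Z = 1 := Unitary.star_mul_self_of_mem hZ
  simp only [rot, star_star]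
  apply rot_aux c r hcr
  all_goals
    simp only [eZ_mul_e h hc, eZ_mul_e h hc', eZ_mul_eZ h hc, eZ_mul_eZ h hc', ← mul_assoc (e _ _) (e _ _),
      h.mul_self, h.mul_ne hxy, h.mul_ne hxy.symm, zero_mul, z1, z2, mul_one]

theorem key_step {c r : ℝ} (hcr : c ^ 2 + r ^ 2 = 1) (hxy : x ≠ y) :
    (1 - (r : ℂ) • (e x y * Z)) * (1 + ((c : ℂ) - 1) • e x x) * rot e c r Z x y =
      1 + ((c : ℂ) - 1) • e y y - (r : ℂ) • (e y x * star Z) := by
  have hc' := hc.star' h
  have z1 : Z * star Z = 1 := Unitary.mul_star_self_of_mem hZ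
  have z2 : star Z * Z = 1 := Unitary.star_mul_self_of_mem hZ
  simp only [rot]
  apply key_aux c r hcr
  all_goals
    simp only [eZ_mul_e h hc, eZ_mul_e h hc', eZ_mul_eZ h hc, eZ_mul_eZ h hc', ← mul_assoc (e _ _) (e _ _),
      h.mul_self, h.mul_ne hxy, h.mul_ne hxy.symm, zero_mul, z1, z2, mul_one]

theorem rot_unitary {c r : ℝ} (hcr : c ^ 2 + r ^ 2 = 1) (hxy : x ≠ y) :
    rot e c r Z x y ∈ unitary A := by
  rw [Unitary.mem_iff, star_rot h c r hc]
  refine ⟨?_, rot_mul_star h hZ hc hcr hxy⟩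
  have := rot_mul_star h (Unitary.star_mem hZ) (hc.star' h) hcr hxy.symm
  rwa [star_star] at this

end rel

theorem PSD.l_unitary (h : PSD e l) (g : FreeGroup α) : l g ∈ unitary A := by
  rw [Unitary.mem_iff, h.star_l, ← map_mul, ← map_mul]
  simp

theorem exists_ps (h : PSD e l) {c r : ℝ} (hc : 0 ≤ c) (hr : 0 ≤ r) (hcr : c ^ 2 + r ^ 2 = 1)
    {Z : A} (hZ : Z ∈ unitary A) (hZc : Cm e l Z) : ∃ π, IsPS e l c r Z π := by
  let u : α → unitary A := fun s => ⟨rot e c r Z 1 (FreeGroup.of s) * l (FreeGroup.of s),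
    mul_mem (rot_unitary h hZ hZc hcr (FreeGroup.one_ne_of s)) (h.l_unitary _)⟩
  refine ⟨(unitary A).subtype.comp (FreeGroup.lift u), hc, hr, hcr, hZ, hZc, fun g => ?_,
    fun s => ?_⟩
  · simp only [MonoidHom.comp_apply, map_inv, Submonoid.subtype_apply]
    rw [← Unitary.star_eq_inv]
    rfl
  · simp [u]

theorem IsPS.unitary {c r : ℝ} {Z : A} {π : FreeGroup α →* A} (hπ : IsPS e l c r Z π)
    (g : FreeGroup α) : π g ∈ unitary A := by
  rw [Unitary.mem_iff, hπ.star_pi, ← map_mul, ← map_mul]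
  simp

theorem comm_hom {π : FreeGroup α →* A} {T : A}
    (hs : ∀ s, T * π (FreeGroup.of s) = π (FreeGroup.of s) * T) (g : FreeGroup α) :
    T * π g = π g * T := by
  induction g using FreeGroup.induction_on with
  | C1 => simp
  | of s => exact hs s
  | inv_of s ih =>
    calc T * π (FreeGroup.of s)⁻¹
        = π (FreeGroup.of s)⁻¹ * (π (FreeGroup.of s) * T) * π (FreeGroup.of s)⁻¹ := by
          rw [← mul_assoc, ← map_mul]; simp
      _ = π (FreeGroup.of s)⁻¹ * T := by
          rw [← ih, mul_assoc, mul_assoc, ← map_mul]; simp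
  | mul x y hx hy => rw [map_mul, ← mul_assoc, hx, mul_assoc, hy, mul_assoc]

theorem IsPS.comm (h : PSD e l) {c r : ℝ} {Z : A} {π : FreeGroup α →* A} (hπ : IsPS e l c r Z π)
    {T : A} (hT : Cm e l T) (hTZ : T * Z = Z * T) (g : FreeGroup α) : T * π g = π g * T := by
  have z1 : Z * star Z = 1 := Unitary.mul_star_self_of_mem hπ.unit
  have z2 : star Z * Z = 1 := Unitary.star_mul_self_of_mem hπ.unit
  have hTZ' : T * star Z = star Z * T := by
    calc T * star Z = star Z * (Z * T) * star Z := by rw [← mul_assoc, z2, one_mul]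
      _ = star Z * T := by rw [← hTZ, mul_assoc, mul_assoc, z1, mul_one]
  refine comm_hom (fun s => ?_) g
  have : T * rot e c r Z 1 (FreeGroup.of s) = rot e c r Z 1 (FreeGroup.of s) * T := by
    simp only [rot, mul_sub, mul_add, sub_mul, add_mul, mul_smul_comm, smul_mul_assoc, mul_one,
      one_mul, ← mul_assoc, hT.1]
    simp only [mul_assoc, hTZ, hTZ']
  rw [hπ.gen, ← mul_assoc, this, mul_assoc, hT.2, mul_assoc]

theorem IsPS.eq_of_zero (h : PSD e l) {Z : A} {π : FreeGroup α →* A} (hπ : IsPS e l 1 0 Z π)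
    (g : FreeGroup α) : π g = l g := by
  have : π = l := FreeGroup.ext_hom _ _ fun s => by simp [hπ.gen, rot]
  rw [this]


/-- The vertices after `x` on the path spelled by `w`. -/
def verts : FreeGroup α → List (α × Bool) → List (FreeGroup α)
  | _, [] => []
  | x, s :: w => (x * FreeGroup.mk [s]) :: verts (x * FreeGroup.mk [s]) w

/-- The product of the rotations along the path. -/
noncomputable def pC (e : FreeGroup α → FreeGroup α → A) (c r : ℝ) (ζ : Bool → A) :
    FreeGroup α → List (α × Bool) → A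
  | _, [] => 1
  | x, s :: w => rot e c r (ζ s.2) x (x * FreeGroup.mk [s]) * pC e c r ζ (x * FreeGroup.mk [s]) w

/-- The weighted shift along the path. -/
noncomputable def pF (e : FreeGroup α → FreeGroup α → A) (ζ : Bool → A) :
    FreeGroup α → List (α × Bool) → A
  | _, [] => 0
  | x, s :: w => e x (x * FreeGroup.mk [s]) * ζ s.2 + pF e ζ (x * FreeGroup.mk [s]) w

theorem mem_verts {y : FreeGroup α} {w : List (α × Bool)} :
    ∀ {x : FreeGroup α}, y ∈ verts x w → ∃ v, v ≠ [] ∧ v <+: w ∧ y = x * FreeGroup.mk v := by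
  induction w with
  | nil => intro x hx; simp [verts] at hx
  | cons s w ih =>
    intro x hx
    simp only [verts, List.mem_cons] at hx
    rcases hx with rfl | hx
    · exact ⟨[s], by simp, by simp, rfl⟩
    · obtain ⟨v, _, hv, rfl⟩ := ih hx
      refine ⟨s :: v, by simp, by simpa using hv, ?_⟩
      rw [mul_assoc, FreeGroup.mul_mk]; rfl

theorem not_mem_verts {w : List (α × Bool)} (hw : FreeGroup.IsReduced w) (x : FreeGroup α) :
    x ∉ verts x w := by
  intro hx
  obtain ⟨v, hv, hvw, hx⟩ := mem_verts hx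
  have h1 : FreeGroup.mk v = 1 := by simpa using hx
  have h2 := congrArg FreeGroup.toWord h1
  rw [FreeGroup.toWord_mk, (hw.infix hvw.isInfix).reduce_eq, FreeGroup.toWord_one] at h2
  exact hv h2

theorem last_mem_verts {w : List (α × Bool)} :
    ∀ x : FreeGroup α, x * FreeGroup.mk w ∈ x :: verts x w := by
  induction w with
  | nil => intro x; simp [← FreeGroup.one_eq_mk]
  | cons s w ih =>
    intro x
    refine List.mem_cons_of_mem _ ?_
    have := ih (x * FreeGroup.mk [s])
    rw [mul_assoc, FreeGroup.mul_mk] at this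
    exact this

theorem red_tail {s : α × Bool} {w : List (α × Bool)} (hw : FreeGroup.IsReduced (s :: w)) :
    FreeGroup.IsReduced w := hw.infix (List.suffix_cons s w).isInfix

section path
variable (h : PSD e l) {ζ : Bool → A} (hζ : ∀ b x y, ζ b * e x y = e x y * ζ b)
include h

theorem e_mul_pF {y : FreeGroup α} (z : FreeGroup α) {w : List (α × Bool)} :
    ∀ {x : FreeGroup α}, y ∉ x :: verts x w → e z y * pF e ζ x w = 0 := by
  induction w with
  | nil => intro x _; simp [pF]
  | cons s w ih =>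
    intro x hx
    simp only [verts, List.mem_cons, not_or] at hx
    rw [pF, mul_add, ih (by simp [hx.2.1, hx.2.2]), ← mul_assoc, h.mul_ne hx.1]
    simp

theorem e_mul_pC (c r : ℝ) {y : FreeGroup α} (z : FreeGroup α) {w : List (α × Bool)} :
    ∀ {x : FreeGroup α}, y ∉ x :: verts x w → e z y * pC e c r ζ x w = e z y := by
  induction w with
  | nil => intro x _; simp [pC]
  | cons s w ih =>
    intro x hx
    simp only [verts, List.mem_cons, not_or] at hx
    have : e z y * rot e c r (ζ s.2) x (x * FreeGroup.mk [s]) = e z y := by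
      simp only [rot, mul_sub, mul_add, mul_smul_comm, mul_one, ← mul_assoc, h.mul_ne hx.1,
        h.mul_ne hx.2.1, zero_mul, smul_zero, add_zero, sub_zero]
    rw [pC, ← mul_assoc, this, ih (by simp [hx.2.1, hx.2.2])]

include hζ

theorem pF_mul_e {y : FreeGroup α} (z : FreeGroup α) {w : List (α × Bool)} :
    ∀ {x : FreeGroup α}, y ∉ verts x w → pF e ζ x w * e y z = 0 := by
  induction w with
  | nil => intro x _; simp [pF]
  | cons s w ih =>
    intro x hx
    simp only [verts, List.mem_cons, not_or] at hx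
    rw [pF, add_mul, ih hx.2, mul_assoc, hζ, ← mul_assoc, h.mul_ne (Ne.symm hx.1)]
    simp

theorem norm_pF_le {M : ℝ} (hM : ∀ b, ‖ζ b‖ ≤ M) {w : List (α × Bool)}
    (hw : FreeGroup.IsReduced w) : ∀ x : FreeGroup α, ‖pF e ζ x w‖ ≤ M := by
  have hM0 : 0 ≤ M := (norm_nonneg _).trans (hM true)
  induction w with
  | nil => intro x; simpa [pF] using hM0
  | cons s w ih =>
    intro x
    have hw' := red_tail hw
    have h1 := not_mem_verts hw x
    have h2 := not_mem_verts hw' (x * FreeGroup.mk [s])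
    rw [verts] at h1
    rw [pF]
    set y := x * FreeGroup.mk [s]
    have ih' := ih hw' y
    set P := pF e ζ y w
    set u := e x y * ζ s.2 with hu
    have hun : ‖u‖ ≤ M :=
      (norm_mul_le _ _).trans ((mul_le_of_le_one_left (norm_nonneg _) (h.norm_le _ _)).trans (hM _))
    have a1 : star u * P = 0 := by
      rw [hu, star_mul, h.star_e, mul_assoc, e_mul_pF h _ h1, mul_zero]
    have a2 : star P * u = 0 := by
      have := congrArg star a1
      simpa using this
    have a3 : u * star P = 0 := by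
      have : P * star u = 0 := by
        rw [hu, ← hζ, star_mul, h.star_e, ← mul_assoc, pF_mul_e h hζ _ h2, zero_mul]
      have := congrArg star this
      simpa using this
    have a4 : ‖u + P‖ * ‖u + P‖ ≤ M * M := by
      rw [← CStarRing.norm_star_mul_self, star_add, add_mul, mul_add, mul_add, a1, a2, add_zero,
        zero_add, (IsSelfAdjoint.star_mul_self u).norm_add_eq_max (IsSelfAdjoint.star_mul_self P)
          (by rw [mul_assoc, ← mul_assoc u, a3]; simp),
        CStarRing.norm_star_mul_self, CStarRing.norm_star_mul_self]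
      exact max_le (by gcongr) (by gcongr)
    exact (mul_self_le_mul_self_iff (norm_nonneg _) hM0).2 a4

end path

theorem pF_comm {ζ ζ' : Bool → A} {T : A} (hT : ∀ x y, T * e x y = e x y * T)
    {w : List (α × Bool)} : ∀ x : FreeGroup α,
    pF e ζ' x w * T - T * pF e ζ x w = pF e (fun b => ζ' b * T - T * ζ b) x w := by
  induction w with
  | nil => intro x; simp [pF]
  | cons s w ih =>
    intro x
    simp only [pF, ← ih, add_mul, mul_add, mul_sub, ← mul_assoc, hT]
    abel

theorem pF_comm' {ζ ζ' : Bool → A} {T : A} (hT : ∀ x y, T * e x y = e x y * T)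
    {w : List (α × Bool)} : ∀ x : FreeGroup α,
    T * pF e ζ' x w - pF e ζ x w * T = pF e (fun b => T * ζ' b - ζ b * T) x w := by
  induction w with
  | nil => intro x; simp [pF]
  | cons s w ih =>
    intro x
    simp only [pF, ← ih, add_mul, mul_add, mul_sub, ← mul_assoc, hT]
    abel

theorem key_path (h : PSD e l) {c r : ℝ} (hcr : c ^ 2 + r ^ 2 = 1) {ζ : Bool → A}
    (hu : ∀ b, ζ b ∈ unitary A) (hc : ∀ b, Cm e l (ζ b)) {w : List (α × Bool)}
    (hw : FreeGroup.IsReduced w) : ∀ x : FreeGroup α,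
    (1 - (r : ℂ) • pF e ζ x w) * (1 + ((c : ℂ) - 1) • e x x) * pC e c r ζ x w =
      (1 - (r : ℂ) • star (pF e ζ x w)) *
        (1 + ((c : ℂ) - 1) • e (x * FreeGroup.mk w) (x * FreeGroup.mk w)) := by
  have hζ : ∀ b x y, ζ b * e x y = e x y * ζ b := fun b => (hc b).1
  induction w with
  | nil => intro x; simp [pF, pC, ← FreeGroup.one_eq_mk]
  | cons s w ih =>
    intro x
    have hw' := red_tail hw
    have h1 := not_mem_verts hw x
    have h2 := not_mem_verts hw' (x * FreeGroup.mk [s])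
    have h3 := last_mem_verts (w := w) (x * FreeGroup.mk [s])
    have hend : x * FreeGroup.mk (s :: w) = x * FreeGroup.mk [s] * FreeGroup.mk w := by
      rw [mul_assoc, FreeGroup.mul_mk]; rfl
    rw [verts] at h1
    rw [pF, pC, hend]
    set y := x * FreeGroup.mk [s]
    have ih' := ih hw' y
    have hxy : x ≠ y := fun hh => h1 (by simp [← hh])
    have hxz : x ≠ y * FreeGroup.mk w := fun hh => h1 (by rw [hh]; exact h3)
    have hx' : x ∉ verts y w := fun hh => h1 (List.mem_cons_of_mem _ hh)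
    have k1 := key_step h (hu s.2) (hc s.2) hcr hxy
    have p1 := fun z => pF_mul_e h hζ (y := x) z hx'
    have p2 := fun z => pF_mul_e h hζ (y := y) z h2
    have c1 := e_mul_pC h (ζ := ζ) c r y h1
    set z := y * FreeGroup.mk w
    set P := pF e ζ y w
    set C := pC e c r ζ y w
    have hs : star (e x y * ζ s.2) = star (ζ s.2) * e y x := by rw [star_mul, h.star_e]
    have hs' : e y x * star (ζ s.2) = star (ζ s.2) * e y x := (((hc s.2).star' h).1 _ _).symm
    have q1 : P * (1 + ((c : ℂ) - 1) • e x x) * rot e c r (ζ s.2) x y = P := by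
      simp only [rot, mul_sub, mul_add, mul_smul_comm, mul_one, ← mul_assoc, p1, p2,
        zero_mul, smul_zero, add_zero, sub_zero]
    have q2 : P * (1 + ((c : ℂ) - 1) • e y y) = P := by
      simp only [mul_add, mul_smul_comm, mul_one, p2, smul_zero, add_zero]
    have q3 : star (ζ s.2) * e y x * C = star (ζ s.2) * e y x := by rw [mul_assoc, c1]
    have q4 : star (ζ s.2) * e y x * (1 + ((c : ℂ) - 1) • e z z) = star (ζ s.2) * e y x := by
      simp only [mul_add, mul_smul_comm, mul_one, mul_assoc, h.mul_ne hxz, smul_zero, add_zero,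
        mul_zero]
    rw [hs'] at k1
    rw [star_add, hs]
    set v := star (ζ s.2) * e y x
    set u := e x y * ζ s.2
    set R := rot e c r (ζ s.2) x y
    set Dx := 1 + ((c : ℂ) - 1) • e x x
    set Dy := 1 + ((c : ℂ) - 1) • e y y
    set Dz := 1 + ((c : ℂ) - 1) • e z z
    calc (1 - (r : ℂ) • (u + P)) * Dx * (R * C)
        = ((1 - (r : ℂ) • u) * Dx * R - (r : ℂ) • (P * Dx * R)) * C := by
          simp only [smul_add, sub_mul, add_mul, smul_mul_assoc, mul_assoc]
          abel
      _ = (1 - (r : ℂ) • P) * Dy * C - (r : ℂ) • (v * C) := by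
          rw [k1, q1]
          simp only [sub_mul, smul_mul_assoc, one_mul, q2]
          abel
      _ = (1 - (r : ℂ) • (v + star P)) * Dz := by
          rw [ih', q3]
          simp only [smul_add, sub_mul, add_mul, smul_mul_assoc, q4]
          abel

/-- The parameter attached to a sign. -/
def zs (Z : A) (b : Bool) : A := if b then Z else star Z

theorem IsPS.letter (h : PSD e l) {c r : ℝ} {Z : A} {π : FreeGroup α →* A}
    (hπ : IsPS e l c r Z π) (x : FreeGroup α) (s : α × Bool) :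
    l x * π (FreeGroup.mk [s]) =
      rot e c r (zs Z s.2) x (x * FreeGroup.mk [s]) * l (x * FreeGroup.mk [s]) := by
  obtain ⟨a, b⟩ := s
  cases b with
  | true =>
    have : FreeGroup.mk [(a, true)] = FreeGroup.of a := rfl
    rw [this, hπ.gen, ← mul_assoc, l_mul_rot h c r hπ.cm, mul_one, mul_assoc, ← map_mul]
    rfl
  | false =>
    have : FreeGroup.mk [(a, false)] = (FreeGroup.of a)⁻¹ := rfl
    rw [this, ← hπ.star_pi, hπ.gen, star_mul, h.star_l, star_rot h c r hπ.cm, ← mul_assoc,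
      ← map_mul, l_mul_rot h c r (hπ.cm.star' h)]
    simp [zs]

theorem IsPS.path (h : PSD e l) {c r : ℝ} {Z : A} {π : FreeGroup α →* A}
    (hπ : IsPS e l c r Z π) (w : List (α × Bool)) : ∀ x : FreeGroup α,
    l x * π (FreeGroup.mk w) = pC e c r (zs Z) x w * l (x * FreeGroup.mk w) := by
  induction w with
  | nil => intro x; simp [pC, ← FreeGroup.one_eq_mk]
  | cons s w ih =>
    intro x
    have : FreeGroup.mk (s :: w) = FreeGroup.mk [s] * FreeGroup.mk w := by
      rw [FreeGroup.mul_mk]; rfl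
    rw [this, map_mul, ← mul_assoc, hπ.letter h, mul_assoc, ih, pC, mul_assoc, mul_assoc]

theorem norm_unitary_le {U : A} (hU : U ∈ unitary A) : ‖U‖ ≤ 1 := by
  rcases subsingleton_or_nontrivial A with hA | hA
  · simp [Subsingleton.elim U 0]
  · exact (CStarRing.norm_of_mem_unitary hU).le

theorem norm_one_le' : ‖(1 : A)‖ ≤ 1 := norm_unitary_le (one_mem _)

theorem norm_D_le {p : A} (hp : IsStarProjection p) {c : ℝ} (h0 : 0 ≤ c) (h1 : c ≤ 1) :
    ‖1 + ((c : ℂ) - 1) • p‖ ≤ 1 := by
  have : 1 + ((c : ℂ) - 1) • p = (c : ℂ) • (1 : A) + ((1 - c : ℝ) : ℂ) • (1 - p) := by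
    push_cast; module
  rw [this]
  refine (norm_add_le _ _).trans ?_
  rw [norm_smul, norm_smul, Complex.norm_real, Complex.norm_real, Real.norm_of_nonneg h0,
    Real.norm_of_nonneg (by linarith)]
  have h2 := hp.one_sub.norm_le
  have h3 := norm_one_le' (A := A)
  nlinarith

theorem le_norm_D_mul {p : A} (hp : IsStarProjection p) {c : ℝ} (h0 : 0 ≤ c) (h1 : c ≤ 1)
    (X : A) : c * ‖X‖ ≤ ‖(1 + ((c : ℂ) - 1) • p) * X‖ := by
  have h2 := norm_D_le hp.one_sub h0 h1
  have h3 : (1 + ((c : ℂ) - 1) • (1 - p)) * (1 + ((c : ℂ) - 1) • p) = (c : ℂ) • (1 : A) := by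
    simp only [mul_add, add_mul, sub_mul, smul_mul_assoc, mul_smul_comm, mul_one, one_mul,
      hp.isIdempotentElem.eq]
    module
  calc c * ‖X‖ = ‖(1 + ((c : ℂ) - 1) • (1 - p)) * ((1 + ((c : ℂ) - 1) • p) * X)‖ := by
        rw [← mul_assoc, h3, smul_mul_assoc, one_mul, norm_smul, Complex.norm_real,
          Real.norm_of_nonneg h0]
    _ ≤ 1 * ‖(1 + ((c : ℂ) - 1) • p) * X‖ := (norm_mul_le _ _).trans (by gcongr)
    _ = _ := one_mul _

theorem le_norm_one_sub_mul {P : A} (hP : ‖P‖ ≤ 1) {r : ℝ} (h0 : 0 ≤ r) (X : A) :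
    (1 - r) * ‖X‖ ≤ ‖(1 - (r : ℂ) • P) * X‖ := by
  have h1 : ‖(r : ℂ) • (P * X)‖ ≤ r * ‖X‖ := by
    rw [norm_smul, Complex.norm_real, Real.norm_of_nonneg h0]
    gcongr
    exact (norm_mul_le _ _).trans (mul_le_of_le_one_left (norm_nonneg _) hP)
  have h2 := norm_sub_norm_le X ((r : ℂ) • (P * X))
  rw [sub_mul (1 : A), one_mul, smul_mul_assoc]
  linarith

theorem norm_comm_le {P P' p T : A} {c c' r r' ε : ℝ} (hP : ‖P‖ ≤ 1) (hP' : ‖P'‖ ≤ 1)
    (hp : IsStarProjection p) (hT : T * p = p * T) (c0 : 0 ≤ c) (c1 : c ≤ 1) (r0 : 0 ≤ r')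
    (r1 : r' ≤ 1) (hε : ‖P' * T - T * P‖ ≤ ε) :
    ‖(1 - (r' : ℂ) • P') * (1 + ((c' : ℂ) - 1) • p) * T -
      T * ((1 - (r : ℂ) • P) * (1 + ((c : ℂ) - 1) • p))‖ ≤
      2 * |c - c'| * ‖T‖ + ε + |r - r'| * ‖T‖ := by
  have hD := norm_D_le hp c0 c1
  have e1 : (1 - (r' : ℂ) • P') * (1 + ((c' : ℂ) - 1) • p) * T -
      T * ((1 - (r : ℂ) • P) * (1 + ((c : ℂ) - 1) • p)) =
      (1 - (r' : ℂ) • P') * (((c' - c : ℝ) : ℂ) • (p * T)) +
      (-(r' : ℂ) • (P' * T - T * P) + ((r - r' : ℝ) : ℂ) • (T * P)) *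
        (1 + ((c : ℂ) - 1) • p) := by
    simp only [mul_add, add_mul, sub_mul, mul_sub, smul_mul_assoc, mul_smul_comm, mul_one, one_mul,
      mul_assoc, hT]
    push_cast
    module
  have n1 : ‖1 - (r' : ℂ) • P'‖ ≤ 2 := by
    refine (norm_sub_le _ _).trans ?_
    rw [norm_smul, Complex.norm_real, Real.norm_of_nonneg r0]
    have := norm_one_le' (A := A)
    nlinarith [norm_nonneg P']
  have n2 : ‖((c' - c : ℝ) : ℂ) • (p * T)‖ ≤ |c - c'| * ‖T‖ := by
    rw [norm_smul, Complex.norm_real, Real.norm_eq_abs, abs_sub_comm]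
    gcongr
    exact (norm_mul_le _ _).trans (mul_le_of_le_one_left (norm_nonneg _) hp.norm_le)
  have n3 : ‖-(r' : ℂ) • (P' * T - T * P) + ((r - r' : ℝ) : ℂ) • (T * P)‖ ≤
      ε + |r - r'| * ‖T‖ := by
    refine (norm_add_le _ _).trans (add_le_add ?_ ?_)
    · rw [norm_smul, norm_neg, Complex.norm_real, Real.norm_of_nonneg r0]
      exact (mul_le_of_le_one_left (norm_nonneg _) r1).trans hε
    · rw [norm_smul, Complex.norm_real, Real.norm_eq_abs]
      gcongr
      exact (norm_mul_le _ _).trans (mul_le_of_le_one_right (norm_nonneg _) hP)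
  rw [e1]
  refine (norm_add_le _ _).trans ?_
  have m1 := (norm_mul_le _ _).trans (mul_le_mul n1 n2 (norm_nonneg _) (by norm_num))
  have m2 := (norm_mul_le _ _).trans ((mul_le_of_le_one_right (norm_nonneg _) hD).trans n3)
  linarith

theorem IsPS.c1 {c r : ℝ} {Z : A} {π : FreeGroup α →* A} (hπ : IsPS e l c r Z π) : c ≤ 1 := by
  nlinarith [hπ.c0, hπ.r0, hπ.sq]

theorem IsPS.r1 {c r : ℝ} {Z : A} {π : FreeGroup α →* A} (hπ : IsPS e l c r Z π) : r ≤ 1 := by
  nlinarith [hπ.c0, hπ.r0, hπ.sq]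

theorem zs_unitary {Z : A} (hZ : Z ∈ unitary A) (b : Bool) : zs Z b ∈ unitary A := by
  cases b
  · exact Unitary.star_mem hZ
  · exact hZ

theorem zs_cm (h : PSD e l) {Z : A} (hZ : Cm e l Z) (b : Bool) : Cm e l (zs Z b) := by
  cases b
  · exact hZ.star' h
  · exact hZ

theorem norm_star_comm_le {Z Z' T : A} (hZ : Z ∈ unitary A) (hZ' : Z' ∈ unitary A) :
    ‖star Z' * T - T * star Z‖ ≤ ‖Z' * T - T * Z‖ := by
  have z1 : Z * star Z = 1 := Unitary.mul_star_self_of_mem hZ
  have z2 : star Z' * Z' = 1 := Unitary.star_mul_self_of_mem hZ'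
  have : star Z' * T - T * star Z = -(star Z' * (Z' * T - T * Z) * star Z) := by
    simp only [mul_sub, sub_mul, ← mul_assoc, z2, one_mul]
    simp only [mul_assoc, z1, mul_one]
    abel
  rw [this, norm_neg, CStarRing.norm_mul_mem_unitary _ (Unitary.star_mem hZ),
    CStarRing.norm_mem_unitary_mul _ (Unitary.star_mem hZ')]

theorem ps_lip (h : PSD e l) {c r c' r' : ℝ} {Z Z' : A} {π π' : FreeGroup α →* A}
    (hπ : IsPS e l c r Z π) (hπ' : IsPS e l c' r' Z' π') {T : A} (hT : Cm e l T)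
    (g : FreeGroup α) :
    (1 - r') * c' * ‖π' g * T - T * π g‖ ≤
      4 * (‖Z' * T - T * Z‖ + (|r - r'| + |c - c'|) * ‖T‖) := by
  have hw : FreeGroup.IsReduced g.toWord := FreeGroup.isReduced_toWord
  have p1 := hπ.path h g.toWord 1
  have p2 := hπ'.path h g.toWord 1
  have k1 := key_path h hπ.sq (zs_unitary hπ.unit) (zs_cm h hπ.cm) hw 1
  have k2 := key_path h hπ'.sq (zs_unitary hπ'.unit) (zs_cm h hπ'.cm) hw 1
  simp only [FreeGroup.mk_toWord, map_one, one_mul] at p1 p2 k1 k2
  have n1 := norm_pF_le h (fun b => (zs_cm h hπ.cm b).1)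
    (fun b => norm_unitary_le (zs_unitary hπ.unit b)) hw 1
  have n2 := norm_pF_le h (fun b => (zs_cm h hπ'.cm b).1)
    (fun b => norm_unitary_le (zs_unitary hπ'.unit b)) hw 1
  have hε : ∀ b, ‖zs Z' b * T - T * zs Z b‖ ≤ ‖Z' * T - T * Z‖ := by
    intro b; cases b
    · exact norm_star_comm_le hπ.unit hπ'.unit
    · exact le_rfl
  have hε' : ∀ b, ‖star T * zs Z' b - zs Z b * star T‖ ≤ ‖Z' * T - T * Z‖ := by
    intro b
    rw [← norm_star]
    have := hε (!b)
    cases b <;> simpa [zs] using this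
  have cm : ∀ {U V : A}, Cm e l U → Cm e l V → ∀ x y, U * V * e x y = e x y * (U * V) := by
    intro U V hU hV x y
    rw [mul_assoc, hV.1, ← mul_assoc, hU.1, mul_assoc]
  have n3 : ‖pF e (zs Z') 1 g.toWord * T - T * pF e (zs Z) 1 g.toWord‖ ≤ ‖Z' * T - T * Z‖ := by
    rw [pF_comm hT.1]
    refine norm_pF_le h (fun b x y => ?_) hε hw 1
    rw [sub_mul, mul_sub, cm (zs_cm h hπ'.cm b) hT, cm hT (zs_cm h hπ.cm b)]
  have n4 : ‖star (pF e (zs Z') 1 g.toWord) * T - T * star (pF e (zs Z) 1 g.toWord)‖ ≤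
      ‖Z' * T - T * Z‖ := by
    rw [← norm_star, star_sub, star_mul, star_mul, star_star, star_star,
      pF_comm' (hT.star' h).1]
    refine norm_pF_le h (fun b x y => ?_) hε' hw 1
    rw [sub_mul, mul_sub, cm (hT.star' h) (zs_cm h hπ'.cm b), cm (zs_cm h hπ.cm b) (hT.star' h)]
  have a1 := norm_comm_le (c' := c') (r := r) n1 n2 (h.proj 1) (hT.1 1 1) hπ.c0 hπ.c1 hπ'.r0
    hπ'.r1 n3
  have a2 := norm_comm_le (c' := c') (r := r) ((norm_star _).trans_le n1)
    ((norm_star _).trans_le n2) (h.proj g) (hT.1 g g) hπ.c0 hπ.c1 hπ'.r0 hπ'.r1 n4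
  have hC : ‖pC e c r (zs Z) 1 g.toWord‖ ≤ 1 := by
    rw [← CStarRing.norm_mul_mem_unitary _ (h.l_unitary g), ← p1]
    exact norm_unitary_le (hπ.unitary g)
  rw [← k1, ← k2] at a2
  set P := pF e (zs Z) 1 g.toWord
  set P' := pF e (zs Z') 1 g.toWord
  set C := pC e c r (zs Z) 1 g.toWord
  set C' := pC e c' r' (zs Z') 1 g.toWord
  have e1 : π' g * T - T * π g = (C' * T - T * C) * l g := by
    rw [p1, p2, sub_mul, mul_assoc, ← hT.2, mul_assoc, mul_assoc]
  rw [e1, CStarRing.norm_mul_mem_unitary _ (h.l_unitary g)]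
  have b1 := le_norm_D_mul (h.proj 1) hπ'.c0 hπ'.c1 (C' * T - T * C)
  have b2 := le_norm_one_sub_mul n2 hπ'.r0 ((1 + ((c' : ℂ) - 1) • e 1 1) * (C' * T - T * C))
  rw [← mul_assoc] at b2
  set a := (1 - (r : ℂ) • P) * (1 + ((c : ℂ) - 1) • e 1 1)
  set a' := (1 - (r' : ℂ) • P') * (1 + ((c' : ℂ) - 1) • e 1 1)
  have e2 : a' * (C' * T - T * C) = (a' * C' * T - T * (a * C)) - (a' * T - T * a) * C := by
    noncomm_ring
  have b3 : ‖a' * (C' * T - T * C)‖ ≤ ‖a' * C' * T - T * (a * C)‖ + ‖a' * T - T * a‖ := by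
    rw [e2]
    refine (norm_sub_le _ _).trans ?_
    gcongr
    exact (norm_mul_le _ _).trans (mul_le_of_le_one_right (norm_nonneg _) hC)
  have b4 : (1 - r') * (c' * ‖C' * T - T * C‖) ≤
      (1 - r') * ‖(1 + ((c' : ℂ) - 1) • e 1 1) * (C' * T - T * C)‖ :=
    mul_le_mul_of_nonneg_left b1 (by linarith [hπ'.r1])
  have f1 : 0 ≤ |r - r'| * ‖T‖ := by positivity
  have f2 := norm_nonneg (Z' * T - T * Z)
  nlinarith

/-- The first letter of the reduced word. -/
def hd (x : FreeGroup α) : Option (α × Bool) := x.toWord.head?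

theorem hd_mul {s : α} {x : FreeGroup α} (h : hd x ≠ some (s, false)) :
    hd (FreeGroup.of s * x) = some (s, true) := by
  have := FreeGroup.startsWith_mk_mul (w := (s, true)) x (by
    simpa [FreeGroup.startsWith, hd, List.head?_eq_getElem?] using h)
  rw [hd, List.head?_eq_getElem?]
  exact this

theorem hd_mul_letter {y : FreeGroup α} (hy : 2 ≤ y.toWord.length) (t : α × Bool) :
    hd (y * FreeGroup.mk [t]) = hd y := by
  have hr : FreeGroup.IsReduced y.toWord := FreeGroup.isReduced_toWord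
  obtain ⟨L, a, hL⟩ : ∃ L a, y.toWord = L ++ [a] := by
    rcases List.eq_nil_or_concat y.toWord with h | ⟨L, a, h⟩
    · simp [h] at hy
    · exact ⟨L, a, by simpa using h⟩
  have hLne : L ≠ [] := by
    rintro rfl
    simp [hL] at hy
  have hy' : y = FreeGroup.mk (L ++ [a]) := by rw [← hL, FreeGroup.mk_toWord]
  have hLr : FreeGroup.IsReduced L := hr.infix (by rw [hL]; exact (List.prefix_append _ _).isInfix)
  have hhd : hd y = L.head? := by
    rw [hd, hL]; cases L with
    | nil => exact absurd rfl hLne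
    | cons b L => rfl
  by_cases hc : a.1 = t.1 → a.2 = t.2
  · have h2 : FreeGroup.IsReduced ([a] ++ [t]) := by
      simpa using hc
    have h3 : FreeGroup.IsReduced (L ++ [a] ++ [t]) :=
      FreeGroup.IsReduced.append_overlap (hL ▸ hr) h2 (by simp)
    rw [hhd, hd, hy', FreeGroup.mul_mk, FreeGroup.toWord_mk, h3.reduce_eq]
    cases L with
    | nil => exact absurd rfl hLne
    | cons b L => rfl
  · push Not at hc
    obtain ⟨a1, a2⟩ := a
    obtain ⟨t1, t2⟩ := t
    simp only at hc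
    obtain ⟨rfl, h2⟩ := hc
    have ht : t2 = !a2 := by cases a2 <;> cases t2 <;> simp_all
    subst ht
    have : y * FreeGroup.mk [(a1, !a2)] = FreeGroup.mk L := by
      rw [hy', FreeGroup.mul_mk]
      have : FreeGroup.mk (L ++ [(a1, a2)] ++ [(a1, !a2)]) =
          FreeGroup.mk (L ++ (a1, a2) :: (a1, !a2) :: []) := by simp
      rw [this]
      conv_rhs => rw [← List.append_nil L]
      exact FreeGroup.Red.Step.not |> fun h => Quot.sound h
    rw [this, hhd, hd, FreeGroup.toWord_mk, hLr.reduce_eq]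

theorem hd_conj {s : α} {x : FreeGroup α} (h1 : x ≠ 1) (h : hd x ≠ some (s, false)) :
    hd (FreeGroup.of s * x * (FreeGroup.of s)⁻¹) = some (s, true) := by
  have hx : x.toWord ≠ [] := by simpa using h1
  have hw : (FreeGroup.of s * x).toWord = (s, true) :: x.toWord := by
    rw [FreeGroup.toWord_mul, FreeGroup.toWord_of]
    apply FreeGroup.IsReduced.reduce_eq
    have hr : FreeGroup.IsReduced x.toWord := FreeGroup.isReduced_toWord
    unfold hd at h
    cases hxw : x.toWord with
    | nil => exact absurd hxw hx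
    | cons b L =>
      rw [hxw] at hr h
      obtain ⟨b1, b2⟩ := b
      simp only [List.singleton_append]
      refine FreeGroup.isReduced_cons_cons.2 ⟨?_, hr⟩
      rintro rfl
      cases b2 <;> simp_all
  have : (FreeGroup.of s)⁻¹ = FreeGroup.mk [(s, false)] := rfl
  rw [this, hd_mul_letter, hd_mul h]
  rw [hw]
  cases hxw : x.toWord with
  | nil => exact absurd hxw hx
  | cons b L => simp

theorem norm_sum_mul_proj_le {ι : Type*} [Fintype ι] (b p : ι → A) {β : ℝ} (hb : ∀ s, ‖b s‖ ≤ β)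
    (hp : ∀ s, IsStarProjection (p s)) (ho : Pairwise fun s t => p s * p t = 0) :
    ‖∑ s, b s * p s‖ ≤ β * √(Fintype.card ι) := by
  classical
  rcases isEmpty_or_nonempty ι with hι | ⟨⟨s0⟩⟩
  · simp
  have hβ : 0 ≤ β := (norm_nonneg _).trans (hb s0)
  have key : (∑ s, b s * p s) * star (∑ s, b s * p s) = ∑ s, b s * p s * star (b s) := by
    rw [star_sum, Finset.sum_mul_sum]
    refine Finset.sum_congr rfl fun s _ => ?_
    rw [Finset.sum_eq_single s]
    · rw [star_mul, (hp s).isSelfAdjoint.star_eq, mul_assoc, ← mul_assoc (p s),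
        (hp s).isIdempotentElem.eq, mul_assoc]
    · intro t _ hts
      rw [star_mul, (hp t).isSelfAdjoint.star_eq, mul_assoc, ← mul_assoc (p s), ho hts.symm]
      simp
    · simp
  have h1 : ‖∑ s, b s * p s‖ ^ 2 ≤ (β * √(Fintype.card ι)) ^ 2 := by
    rw [sq, ← CStarRing.norm_self_mul_star, key, mul_pow, Real.sq_sqrt (by positivity)]
    refine (norm_sum_le _ _).trans ?_
    calc ∑ s, ‖b s * p s * star (b s)‖ ≤ ∑ _s : ι, β ^ 2 := by
          refine Finset.sum_le_sum fun s _ => ?_
          calc ‖b s * p s * star (b s)‖ ≤ ‖b s‖ * ‖p s‖ * ‖star (b s)‖ :=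
                (norm_mul_le _ _).trans (by gcongr; exact norm_mul_le _ _)
            _ ≤ β * 1 * β := by
                rw [norm_star]
                gcongr
                · exact hb s
                · exact (hp s).norm_le
                · exact hb s
            _ = β ^ 2 := by ring
      _ = β ^ 2 * (Fintype.card ι) := by simp [mul_comm]
  exact (pow_le_pow_iff_left₀ (norm_nonneg _) (by positivity) two_ne_zero).1 h1

theorem norm_sum_pingpong {ι : Type*} [Fintype ι] (t p q : ι → A) (ht : ∀ s, ‖t s‖ ≤ 1)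
    (hp : ∀ s, IsStarProjection (p s)) (ho : Pairwise fun s s' => p s * p s' = 0)
    (hq : ∀ s, IsStarProjection (q s)) (ho' : Pairwise fun s s' => q s * q s' = 0)
    (h : ∀ s, q s * (t s * (1 - p s)) = t s * (1 - p s)) :
    ‖∑ s, t s‖ ≤ 2 * √(Fintype.card ι) := by
  have h1 := norm_sum_mul_proj_le t p ht hp ho
  have h2 := norm_sum_mul_proj_le (fun s => star (t s * (1 - p s))) q (β := 1) (fun s => by
    rw [norm_star]
    calc ‖t s * (1 - p s)‖ ≤ ‖t s‖ * ‖1 - p s‖ := norm_mul_le _ _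
      _ ≤ 1 * 1 := by gcongr; exacts [ht s, (hp s).one_sub.norm_le]
      _ = 1 := one_mul _) hq ho'
  have h3 : ∑ s, t s = ∑ s, t s * p s + star (∑ s, star (t s * (1 - p s)) * q s) := by
    rw [star_sum, ← Finset.sum_add_distrib]
    refine Finset.sum_congr rfl fun s _ => ?_
    rw [star_mul, star_star, (hq s).isSelfAdjoint.star_eq, h s, mul_sub, mul_one]
    abel
  rw [h3]
  refine (norm_add_le _ _).trans ?_
  rw [norm_star]
  linarith

end Crest.Agent.R78
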