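import Crest.Agent.R78.Defs

/-! Row 78: averages over words and the one-step estimate for the random word lemma. -/

set_option autoImplicit false
set_option linter.unusedSectionVars false
set_option maxHeartbeats 400000

namespace Crest.Agent.R78.RW

open scoped InnerProductSpace

section Ex
variable {J : Type*} [Fintype J] {V W : Type*} [NormedAddCommGroup V] [NormedSpace ℝ V]
  [NormedAddCommGroup W] [NormedSpace ℝ W]

/-- The uniform average over words of length `n`. -/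
noncomputable def Ex : ℕ → (List J → V) → V
  | 0, F => F []
  | n + 1, F => (Fintype.card J : ℝ)⁻¹ • ∑ j, Ex n fun w => F (j :: w)

lemma Ex_add (n : ℕ) (F G : List J → V) : Ex n (fun w => F w + G w) = Ex n F + Ex n G := by
  induction n generalizing F G with
  | zero => rfl
  | succ n ih => simp only [Ex, ih, Finset.sum_add_distrib, smul_add]

lemma Ex_map (φ : V →ₗ[ℝ] W) (n : ℕ) (F : List J → V) :
    Ex n (fun w => φ (F w)) = φ (Ex n F) := by
  induction n generalizing F with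
  | zero => rfl
  | succ n ih => simp only [Ex, ih (fun w => F (_ :: w)), map_smul, map_sum]

lemma Ex_zero (n : ℕ) : Ex n (fun _ : List J => (0 : V)) = 0 := by
  induction n with
  | zero => rfl
  | succ n ih => simp [Ex, ih]

lemma Ex_sum {ι : Type*} (s : Finset ι) (n : ℕ) (F : ι → List J → V) :
    Ex n (fun w => ∑ i ∈ s, F i w) = ∑ i ∈ s, Ex n (F i) := by
  classical
  induction s using Finset.induction_on with
  | empty => simpa using Ex_zero n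
  | insert a s ha ih => simp only [Finset.sum_insert ha, Ex_add, ih]

lemma avg_const [Nonempty J] (c : V) : (Fintype.card J : ℝ)⁻¹ • ∑ _j : J, c = c := by
  have : (Fintype.card J : ℝ) ≠ 0 := by exact_mod_cast Fintype.card_ne_zero
  rw [Finset.sum_const, Finset.card_univ, ← Nat.cast_smul_eq_nsmul ℝ, smul_smul,
    inv_mul_cancel₀ this, one_smul]

lemma Ex_const [Nonempty J] (n : ℕ) (c : V) : Ex n (fun _ : List J => c) = c := by
  induction n with
  | zero => rfl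
  | succ n ih => simp only [Ex, ih, avg_const]

lemma Ex_mul (c : ℝ) (n : ℕ) (F : List J → ℝ) : Ex n (fun w => c * F w) = c * Ex n F :=
  Ex_map (LinearMap.mulLeft ℝ c) n F

lemma Ex_cmul (c : ℂ) (n : ℕ) (F : List J → ℂ) : Ex n (fun w => c * F w) = c * Ex n F :=
  Ex_map (LinearMap.mulLeft ℝ c) n F

lemma Ex_re (n : ℕ) (F : List J → ℂ) : Ex n (fun w => (F w).re) = (Ex n F).re :=
  Ex_map Complex.reLm n F

lemma Ex_mono (n : ℕ) {F G : List J → ℝ} (h : ∀ w, F w ≤ G w) : Ex n F ≤ Ex n G := by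
  induction n generalizing F G with
  | zero => exact h _
  | succ n ih =>
    simp only [Ex, smul_eq_mul]
    gcongr with j
    exact ih fun w => h _

lemma norm_Ex_le (n : ℕ) (F : List J → V) : ‖Ex n F‖ ≤ Ex n fun w => ‖F w‖ := by
  induction n generalizing F with
  | zero => exact le_rfl
  | succ n ih =>
    simp only [Ex, smul_eq_mul, norm_smul, norm_inv, Real.norm_natCast]
    gcongr
    exact (norm_sum_le _ _).trans (Finset.sum_le_sum fun j _ => ih _)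

lemma Ex_le_of_sq [Nonempty J] (n : ℕ) (F : List J → ℝ) {A : ℝ} (hA : 0 ≤ A)
    (h : Ex n (fun w => F w ^ 2) ≤ A ^ 2) : Ex n F ≤ A := by
  have h1 := Ex_mono n (F := fun w => 2 * Ex n F * F w) (G := fun w => F w ^ 2 + Ex n F ^ 2)
    fun w => by nlinarith [sq_nonneg (F w - Ex n F)]
  rw [Ex_mul, Ex_add, Ex_const] at h1
  exact (le_abs_self _).trans (abs_le_of_sq_le_sq (by nlinarith) hA)

end Ex

variable {H : Type*} [NormedAddCommGroup H] [InnerProductSpace ℂ H] [CompleteSpace H]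

lemma cs {J : Type*} [Fintype J] (x y : J → H) {A B : ℝ} (hA : 0 ≤ A) (hB : 0 ≤ B)
    (hx : ∑ j, ‖x j‖ ^ 2 ≤ A ^ 2) (hy : ∑ j, ‖y j‖ ^ 2 ≤ B ^ 2) :
    ‖∑ j, ⟪x j, y j⟫_ℂ‖ ≤ A * B := by
  refine (norm_sum_le _ _).trans ((Finset.sum_le_sum fun j _ => norm_inner_le_norm _ _).trans ?_)
  refine (le_abs_self _).trans (abs_le_of_sq_le_sq ?_ (by positivity))
  refine (Finset.sum_mul_sq_le_sq_mul_sq _ _ _).trans ?_
  rw [mul_pow]
  gcongr

lemma nu {u : H →L[ℂ] H} (hu : u ∈ unitary (H →L[ℂ] H)) (x : H) : ‖u x‖ = ‖x‖ :=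
  ContinuousLinearMap.norm_map_of_mem_unitary hu x

lemma norm_unit_le {u : H →L[ℂ] H} (hu : u ∈ unitary (H →L[ℂ] H)) : ‖u‖ ≤ 1 :=
  ContinuousLinearMap.opNorm_le_bound _ zero_le_one fun x => by rw [nu hu, one_mul]

lemma inner_star_left (T : H →L[ℂ] H) (x y : H) : ⟪star T x, y⟫_ℂ = ⟪x, T y⟫_ℂ :=
  ContinuousLinearMap.adjoint_inner_left T y x

lemma inner_star_right (T : H →L[ℂ] H) (x y : H) : ⟪x, star T y⟫_ℂ = ⟪T x, y⟫_ℂ :=
  ContinuousLinearMap.adjoint_inner_right T x y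

lemma comm_apply {M : VonNeumannAlgebra H} {x z : H →L[ℂ] H} (hx : x ∈ M) (hz : z ∈ M.commutant)
    (v : H) : x (z v) = z (x v) :=
  congrArg (fun T : H →L[ℂ] H => T v) (VonNeumannAlgebra.mem_commutant_iff.1 hz x hx)

lemma step_bound {M : VonNeumannAlgebra H} {γ L : ℝ} (hγ : 0 ≤ γ) (hγ1 : γ ≤ 1) (hL : 0 ≤ L)
    {J : Type*} [Fintype J] (u a b aM bM nn : J → H →L[ℂ] H) (ζ : J → H) (Ξ η : H)
    (m m' : H →L[ℂ] H) (hu : ∀ j, u j ∈ unitary (H →L[ℂ] H))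
    (hm : m ∈ M ∧ m ∈ unitary (H →L[ℂ] H)) (hm' : m' ∈ M ∧ m' ∈ unitary (H →L[ℂ] H))
    (hab : ∀ j, aM j ∈ M.commutant ∧ bM j ∈ M.commutant)
    (ha : ∀ η, ∑ j, ‖a j η‖ ^ 2 ≤ L ^ 2 * ‖η‖ ^ 2)
    (haM : ∀ η, ∑ j, ‖a j η - aM j η‖ ^ 2 ≤ (L * γ) ^ 2 * ‖η‖ ^ 2)
    (hb : ∀ m : H →L[ℂ] H, ‖m‖ ≤ 1 → ∑ j, ‖b j (m (ζ j))‖ ^ 2 ≤ L ^ 2)
    (hbM : ∀ m : H →L[ℂ] H, ‖m‖ ≤ 1 → ∑ j, ‖b j (m (ζ j)) - bM j (m (ζ j))‖ ^ 2 ≤ (L * γ) ^ 2)
    (hnn : ∀ j, ‖m * u j * m' - nn j‖ ≤ γ) (hΞ : ‖Ξ‖ ≤ 1) (hη : ‖η‖ ≤ 2) :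
    ‖∑ j, ⟪a j η, nn j (b j (star m' (ζ j)))⟫_ℂ - ∑ j, ⟪a j Ξ, u j (b j (ζ j))⟫_ℂ‖ ≤
      L ^ 2 * (9 * γ + 2 * ‖star m η - Ξ‖) := by
  set θ := star m η - Ξ with hθ
  have hs' : ‖star m'‖ ≤ 1 := norm_unit_le (Unitary.star_mem hm'.2)
  have h1 : ‖(1 : H →L[ℂ] H)‖ ≤ 1 := ContinuousLinearMap.norm_id_le
  have aη : ∑ j, ‖a j η‖ ^ 2 ≤ (2 * L) ^ 2 := by
    refine (ha η).trans ?_
    have : ‖η‖ ^ 2 ≤ 2 ^ 2 := by gcongr
    nlinarith [sq_nonneg L]
  have uz : ∑ j, ‖u j (b j (ζ j))‖ ^ 2 ≤ L ^ 2 := by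
    simp only [nu (hu _)]
    exact hb 1 h1
  have T1 := cs (fun j => a j η) (fun j => -((m * u j * m' - nn j) (b j (star m' (ζ j)))))
    (by positivity) (mul_nonneg hγ hL) aη (by
      refine (Finset.sum_le_sum (g := fun j => γ ^ 2 * ‖b j (star m' (ζ j))‖ ^ 2)
        fun j _ => ?_).trans ?_
      · rw [norm_neg, ← mul_pow]
        gcongr
        exact ((m * u j * m' - nn j).le_opNorm _).trans (by gcongr; exact hnn j)
      · rw [← Finset.mul_sum, mul_pow]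
        gcongr
        exact hb _ hs')
  have T2 := cs (fun j => a j η)
    (fun j => m (u j (m' (b j (star m' (ζ j)) - bM j (star m' (ζ j))))))
    (by positivity) (mul_nonneg hL hγ) aη (by
      simpa only [nu hm.2, nu (hu _), nu hm'.2] using hbM _ hs')
  have T3 := cs (fun j => a j η) (fun j => -(m (u j (b j (ζ j) - bM j (ζ j)))))
    (by positivity) (mul_nonneg hL hγ) aη (by
      simp only [norm_neg, nu hm.2, nu (hu _)]
      exact hbM 1 h1)
  have T4 := cs (fun j => star m (a j η - aM j η)) (fun j => u j (b j (ζ j)))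
    (by positivity : 0 ≤ 2 * (L * γ)) hL (by
      simp only [nu (Unitary.star_mem hm.2)]
      refine (haM η).trans ?_
      have : ‖η‖ ^ 2 ≤ 2 ^ 2 := by gcongr
      nlinarith [sq_nonneg (L * γ)]) uz
  have T5 := cs (fun j => a j θ) (fun j => u j (b j (ζ j)))
    (by positivity : 0 ≤ L * ‖θ‖) hL (by rw [mul_pow]; exact ha θ) uz
  have T6 := cs (fun j => -(a j θ - aM j θ)) (fun j => u j (b j (ζ j)))
    (by positivity : 0 ≤ L * γ * ‖θ‖) hL (by simp only [norm_neg]; rw [mul_pow]; exact haM θ) uz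
  have T7 := cs (fun j => -(a j Ξ - aM j Ξ)) (fun j => u j (b j (ζ j)))
    (mul_nonneg hL hγ) hL (by
      simp only [norm_neg]
      refine (haM Ξ).trans ?_
      have : ‖Ξ‖ ^ 2 ≤ 1 := pow_le_one₀ (norm_nonneg _) hΞ
      nlinarith [sq_nonneg (L * γ)]) uz
  have key : ∀ j, ⟪a j η, nn j (b j (star m' (ζ j)))⟫_ℂ - ⟪a j Ξ, u j (b j (ζ j))⟫_ℂ =
      ⟪a j η, -((m * u j * m' - nn j) (b j (star m' (ζ j))))⟫_ℂ +
      ⟪a j η, m (u j (m' (b j (star m' (ζ j)) - bM j (star m' (ζ j)))))⟫_ℂ +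
      ⟪a j η, -(m (u j (b j (ζ j) - bM j (ζ j))))⟫_ℂ +
      ⟪star m (a j η - aM j η), u j (b j (ζ j))⟫_ℂ + ⟪a j θ, u j (b j (ζ j))⟫_ℂ +
      ⟪-(a j θ - aM j θ), u j (b j (ζ j))⟫_ℂ + ⟪-(a j Ξ - aM j Ξ), u j (b j (ζ j))⟫_ℂ := by
    intro j
    have e1 : m' (bM j (star m' (ζ j))) = bM j (ζ j) := by
      rw [comm_apply hm'.1 (hab j).2, ← mul_apply_eq_comp m', hm'.2.2]
      rfl
    have e2 : star m (aM j η) = aM j θ + aM j Ξ := by
      rw [comm_apply (star_mem hm.1) (hab j).1, hθ, ← map_add, sub_add_cancel]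
    have e3 : ⟪star m (a j η), u j (b j (ζ j))⟫_ℂ = ⟪a j η, m (u j (b j (ζ j)))⟫_ℂ :=
      inner_star_left _ _ _
    simp only [map_sub, e1, e2, sub_apply, mul_apply_eq_comp, inner_neg_left, inner_neg_right,
      inner_sub_left, inner_sub_right, inner_add_left, e3]
    ring
  rw [← Finset.sum_sub_distrib]
  simp only [key, Finset.sum_add_distrib]
  have T6' : L * γ * ‖θ‖ * L ≤ L * 1 * ‖θ‖ * L := by gcongr
  refine (norm_add_le_of_le (norm_add_le_of_le (norm_add_le_of_le (norm_add_le_of_le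
    (norm_add_le_of_le (norm_add_le_of_le T1 T2) T3) T4) T5) T6) T7).trans ?_
  nlinarith

end Crest.Agent.R78.RW
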