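import Mathlib

/-! Row 78, part S0104: the Exel–Loring obstruction and the commuting corner. -/

set_option autoImplicit false
set_option linter.unusedSectionVars false

namespace Crest.Agent.R78

theorem wind_const {k : ℝ → ℂ} (hk : Continuous k) {c : ℂ} (h : ∀ t, Complex.exp (k t) = c)
    (s t : ℝ) : k s = k t :=
  Complex.isCoveringMap_exp.const_of_comp hk
    (fun a a' => Subtype.ext ((h a).trans (h a').symm)) s t

/-- the topological part of the winding number argument -/
theorem wind_aux {h : ℝ × ℝ → ℂ} (hc : Continuous h) (h0 : ∀ x, h x ≠ 0)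
    (hper : ∀ t, h (1, t) = h (0, t)) (hconst : ∀ s, h (s, 1) = h (0, 1)) {g : ℝ → ℂ}
    (hg : Continuous g) (hexp : ∀ s, h (s, 0) = Complex.exp (g s)) : g 1 = g 0 := by
  obtain ⟨L, ⟨-, hL⟩, -⟩ := Complex.isCoveringMapOn_exp.existsUnique_continuousMap_lifts
    (⟨h, hc⟩ : C(ℝ × ℝ, ℂ)) (a₀ := (0, 0)) (Complex.exp_log (h0 (0, 0))) h0
  have hL' : ∀ x, Complex.exp (L x) = h x := fun x => congrFun hL x
  have hLc := L.continuous
  have k1 := wind_const (k := fun t => L (1, t) - L (0, t)) (by fun_prop) (c := 1)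
    (fun t => by rw [Complex.exp_sub, hL', hL', hper, div_self (h0 _)]) 0 1
  have k2 := wind_const (k := fun s => L (s, 1)) (by fun_prop) (c := h (0, 1))
    (fun s => by rw [hL', hconst]) 1 0
  have k3 := wind_const (k := fun s => L (s, 0) - g s) (by fun_prop) (c := 1)
    (fun s => by rw [Complex.exp_sub, hL', hexp, div_self (Complex.exp_ne_zero _)]) 1 0
  linear_combination k1 + k2 - k3

theorem unit_norm_le {R : Type*} [CStarAlgebra R] {U : R} (hU : U ∈ unitary R) : ‖U‖ ≤ 1 := by
  have := CStarRing.norm_mem_unitary_mul 1 hU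
  rw [mul_one] at this
  rw [this]
  exact IsStarProjection.norm_le _ (IsStarProjection.one R)

theorem norm_mul_sub_mul_le {R : Type*} [NormedRing R] {a b c d : R} {x y z : ℝ} (h1 : ‖a - c‖ ≤ x)
    (h2 : ‖b - d‖ ≤ y) (h3 : ‖b‖ ≤ z) (h4 : ‖c‖ ≤ 1) : ‖a * b - c * d‖ ≤ x * z + y := by
  have e : a * b - c * d = (a - c) * b + c * (b - d) := by noncomm_ring
  rw [e]
  refine (norm_add_le _ _).trans (add_le_add ((norm_mul_le _ _).trans ?_)
    ((norm_mul_le _ _).trans ?_))
  · exact mul_le_mul h1 h3 (norm_nonneg _) ((norm_nonneg _).trans h1)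
  · exact (mul_le_mul h4 h2 (norm_nonneg _) zero_le_one).trans_eq (one_mul y)

theorem norm_le_of_sub {R : Type*} [NormedRing R] {a c : R} {x : ℝ} (h1 : ‖a - c‖ ≤ x)
    (h4 : ‖c‖ ≤ 1) : ‖a‖ ≤ 1 + x := by
  have := norm_add_le c (a - c)
  rw [add_sub_cancel] at this
  linarith

theorem isUnit_of_near_unitary {R : Type*} [CStarAlgebra R] {W M : R} (hW : W ∈ unitary R)
    (h : ‖M - W‖ < 1) : IsUnit M := by
  have h1 : ‖star W * (W - M)‖ < 1 := by
    rw [CStarRing.norm_mem_unitary_mul _ (Unitary.star_mem hW), norm_sub_rev]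
    exact h
  have h2 := isUnit_one_sub_of_norm_lt_one h1
  have h3 : M = W * (1 - star W * (W - M)) := by
    rw [mul_sub, ← mul_assoc, (Unitary.mem_iff.1 hW).2]
    simp
  rw [h3]
  exact (Unitary.isUnit_coe (U := ⟨W, hW⟩)).mul h2

/-- Voiculescu's unitaries are not close to commuting matrices.  PROOF (Exel–Loring).
`A t = U + t (A - U)`, `B t = V + t (B - V)`, `h (s, t) = det (s A t B t + (1 - s) B t A t)`
(`ContinuousLinearMap.det`, continuous) on `[0,1]²` (or on `ℝ²` after clamping with `projIcc`).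
The operator is within `0.21 + 0.5 < 1` of the unitary `U V`, so invertible, `h ≠ 0`.  Take a continuous
logarithm `L` of `h` (simply connected domain: `Complex.isCoveringMap_exp` + lifting, or
`Complex.exists_continuousOn_eqOn_exp_comp`).  `h (1, t) = h (0, t)` (`det_mul`), so
`L (1, t) - L (0, t) ∈ 2πi ℤ` is continuous, hence constant.  For `t = 1`, `h (·, 1)` is constant, so
the difference is `0`.  For `t = 0`, `h (s, 0) = (s + (1 - s) ω)^n det (U V)`, `n = finrank > 0`, so
`L (s, 0) - n log (s + (1 - s) ω)` is constant (`re (s + (1 - s) ω) > 0`), the difference is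
`-n log ω ≠ 0`. -/
theorem winding {F : Type*} [NormedAddCommGroup F] [InnerProductSpace ℂ F] [CompleteSpace F]
    [FiniteDimensional ℂ F] [Nontrivial F] {U V A B : F →L[ℂ] F} (hU : U ∈ unitary (F →L[ℂ] F))
    (hV : V ∈ unitary (F →L[ℂ] F)) {ω : ℂ} (hω : ω ≠ 1) (hω' : ‖ω - 1‖ ≤ 1 / 2)
    (hUV : V * U = ω • (U * V)) (hA : ‖A - U‖ ≤ 1 / 10) (hB : ‖B - V‖ ≤ 1 / 10)
    (hAB : A * B = B * A) : False := by
  set c : ℝ → ℝ := fun s => max 0 (min 1 s) with hc
  have hcc : Continuous c := by rw [hc]; fun_prop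
  have hc0 : c 0 = 0 := by simp [hc]
  have hc1 : c 1 = 1 := by simp [hc]
  have hlo : ∀ s, 0 ≤ c s := fun s => le_max_left _ _
  have hhi : ∀ s, c s ≤ 1 := fun s => max_le zero_le_one (min_le_left _ _)
  have hn1 : ∀ s, ‖((c s : ℝ) : ℂ)‖ = c s := fun s => by
    rw [Complex.norm_real, Real.norm_of_nonneg (hlo s)]
  have hn2 : ∀ s, ‖(1 - (c s : ℝ) : ℂ)‖ = 1 - c s := fun s => by
    rw [← Complex.ofReal_one, ← Complex.ofReal_sub, Complex.norm_real,
      Real.norm_of_nonneg (sub_nonneg.2 (hhi s))]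
  set a : ℝ → F →L[ℂ] F := fun t => U + ((c t : ℝ) : ℂ) • (A - U) with ha
  set b : ℝ → F →L[ℂ] F := fun t => V + ((c t : ℝ) : ℂ) • (B - V) with hb
  have hac : Continuous a := by rw [ha]; fun_prop
  have hbc : Continuous b := by rw [hb]; fun_prop
  have haU : ∀ t, ‖a t - U‖ ≤ 1 / 10 := fun t => by
    simp only [ha, add_sub_cancel_left, norm_smul, hn1]
    exact (mul_le_of_le_one_left (norm_nonneg _) (hhi t)).trans hA
  have hbV : ∀ t, ‖b t - V‖ ≤ 1 / 10 := fun t => by
    simp only [hb, add_sub_cancel_left, norm_smul, hn1]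
    exact (mul_le_of_le_one_left (norm_nonneg _) (hhi t)).trans hB
  have hU1 := unit_norm_le hU
  have hV1 := unit_norm_le hV
  have hW : U * V ∈ unitary (F →L[ℂ] F) := mul_mem hU hV
  set M : ℝ × ℝ → F →L[ℂ] F := fun x =>
    ((c x.1 : ℝ) : ℂ) • (a x.2 * b x.2) + (1 - (c x.1 : ℝ) : ℂ) • (b x.2 * a x.2) with hM
  have hMc : Continuous M := by rw [hM]; fun_prop
  have hdet : ∀ T : F →L[ℂ] F, IsUnit T → T.det ≠ 0 := fun T hT =>
    (LinearMap.isUnit_det _ (hT.map ContinuousLinearMap.toLinearMapRingHom)).ne_zero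
  have hdm : ∀ S T : F →L[ℂ] F, (S * T).det = (T * S).det := fun S T => by
    change LinearMap.det ((S : F →ₗ[ℂ] F) * (T : F →ₗ[ℂ] F)) =
      LinearMap.det ((T : F →ₗ[ℂ] F) * (S : F →ₗ[ℂ] F))
    rw [map_mul, map_mul, mul_comm]
  have hMu : ∀ x, IsUnit (M x) := by
    intro x
    refine isUnit_of_near_unitary hW ?_
    have h1 := norm_mul_sub_mul_le (haU x.2) (hbV x.2) (norm_le_of_sub (hbV x.2) hV1) hU1
    have h2 := norm_mul_sub_mul_le (hbV x.2) (haU x.2) (norm_le_of_sub (haU x.2) hU1) hV1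
    have h3 : ‖V * U - U * V‖ ≤ 1 / 2 := by
      rw [hUV, show ω • (U * V) - U * V = (ω - 1) • (U * V) by rw [sub_smul, one_smul], norm_smul]
      exact (mul_le_of_le_one_right (norm_nonneg _) (unit_norm_le hW)).trans hω'
    have h4 : ‖b x.2 * a x.2 - U * V‖ ≤ 71 / 100 := by
      have := norm_add_le (b x.2 * a x.2 - V * U) (V * U - U * V)
      rw [sub_add_sub_cancel] at this
      linarith
    have e : M x - U * V = ((c x.1 : ℝ) : ℂ) • (a x.2 * b x.2 - U * V) +
        (1 - (c x.1 : ℝ) : ℂ) • (b x.2 * a x.2 - U * V) := by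
      simp only [hM]
      module
    rw [e]
    refine (norm_add_le _ _).trans_lt ?_
    rw [norm_smul, norm_smul, hn1, hn2]
    have h5 := mul_le_mul_of_nonneg_left h1 (hlo x.1)
    have h6 := mul_le_mul_of_nonneg_left h4 (sub_nonneg.2 (hhi x.1))
    have := hlo x.1
    linarith
  set z : ℝ → ℂ := fun s => 1 + (1 - (c s : ℝ) : ℂ) * (ω - 1) with hz
  have hzs : ∀ s, z s ∈ Complex.slitPlane := fun s => by
    refine Complex.mem_slitPlane_of_norm_lt_one ?_
    rw [norm_mul, hn2]
    have := mul_le_of_le_one_left (norm_nonneg (ω - 1)) (show 1 - c s ≤ 1 by linarith [hlo s])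
    linarith
  have hzc : Continuous z := by rw [hz]; fun_prop
  have hdW := hdet _ (Unitary.isUnit_coe (U := ⟨U * V, hW⟩))
  have key := wind_aux (h := fun x => (M x).det) (ContinuousLinearMap.continuous_det.comp hMc)
    (fun x => hdet _ (hMu x)) (fun t => by simp [hM, hc0, hc1, hdm (a t)])
    (fun s => by
      have e : ∀ s, M (s, 1) = A * B := fun s => by
        simp only [hM, ha, hb, hc1, Complex.ofReal_one, one_smul, add_sub_cancel, ← hAB]
        module
      simp only [e])
    (g := fun s => (Module.finrank ℂ F : ℂ) * Complex.log (z s) + Complex.log (U * V).det)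
    ((continuous_const.mul (hzc.clog hzs)).add continuous_const)
    (fun s => by
      have e : M (s, 0) = z s • (U * V) := by
        simp only [hM, ha, hb, hz, hc0, Complex.ofReal_zero, zero_smul, add_zero, hUV]
        module
      rw [Complex.exp_add, Complex.exp_nat_mul, Complex.exp_log (Complex.slitPlane_ne_zero (hzs s)),
        Complex.exp_log hdW, e]
      exact LinearMap.det_smul (z s) ((U * V : F →L[ℂ] F) : F →ₗ[ℂ] F))
  have hz1 : z 1 = 1 := by simp [hz, hc1]
  have hz0 : z 0 = ω := by simp [hz, hc0]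
  have hn : (Module.finrank ℂ F : ℂ) ≠ 0 := by exact_mod_cast Module.finrank_pos.ne'
  simp only [hz1, hz0, Complex.log_one, mul_zero, add_left_inj] at key
  have h7 : Complex.log ω = 0 := (mul_eq_zero.1 key.symm).resolve_left hn
  have h8 := Complex.exp_log (hz0 ▸ Complex.slitPlane_ne_zero (hzs 0))
  rw [h7, Complex.exp_zero] at h8
  exact hω h8.symm

/-- A self-adjoint element close to a projection has a spectral projection close to it.  PROOF.
`‖h² - h‖ ≤ 3 η + η²  < 5η (1 - 5η)`, so the spectrum lies in `[-5η, 5η] ∪ [1 - 5η, 1 + 5η]`; `p' = cfc f h` with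
`f t = max 0 (min 1 (3 t - 1))`; `f² = f` and `|f t - t| ≤ 5 η` on the spectrum; `Commute.cfc_real`. -/
theorem exists_proj_near {R : Type*} [CStarAlgebra R] {h p : R} (hh : IsSelfAdjoint h)
    (hp : IsStarProjection p) {η : ℝ} (hη : η ≤ 1 / 20) (hhp : ‖h - p‖ ≤ η) :
    ∃ p' : R, IsStarProjection p' ∧ ‖p' - p‖ ≤ 6 * η ∧ ∀ y, Commute h y → Commute p' y := by
  have hη0 : 0 ≤ η := (norm_nonneg _).trans hhp
  have hp1 := hp.norm_le
  have h1 : ‖h * h - h‖ ≤ η * η + 3 * η := by
    have e : h * h - h = (h - p) * (h - p) + ((h - p) * p + (p * (h - p) - (h - p))) := by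
      have := hp.isIdempotentElem.eq
      calc h * h - h = (h - p) * (h - p) + ((h - p) * p + (p * (h - p) - (h - p))) + (p * p - p) := by
            noncomm_ring
        _ = _ := by rw [this, sub_self, add_zero]
    rw [e]
    have a1 := (norm_mul_le (h - p) (h - p)).trans (mul_le_mul hhp hhp (norm_nonneg _) hη0)
    have a2 := (norm_mul_le (h - p) p).trans (mul_le_mul hhp hp1 (norm_nonneg _) hη0)
    have a3 := (norm_mul_le p (h - p)).trans (mul_le_mul hp1 hhp (norm_nonneg _) zero_le_one)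
    have a4 := norm_add_le ((h - p) * (h - p)) ((h - p) * p + (p * (h - p) - (h - p)))
    have a5 := norm_add_le ((h - p) * p) (p * (h - p) - (h - p))
    have a6 := norm_sub_le (p * (h - p)) (h - p)
    linarith
  have h2 : ∀ x ∈ spectrum ℝ h, |x| ≤ 5 * η ∨ |x - 1| ≤ 5 * η := by
    intro x hx
    have h3 := norm_apply_le_norm_cfc (fun t : ℝ => t * t - t) h hx
    rw [cfc_sub (fun t : ℝ => t * t) (fun t : ℝ => t) h, cfc_mul (fun t : ℝ => t) (fun t : ℝ => t) h,
      cfc_id' ℝ h, Real.norm_eq_abs] at h3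
    have h4 := abs_le.1 (h3.trans h1)
    by_contra hn
    simp only [not_or, not_le, lt_abs] at hn
    obtain ⟨h5 | h5, h6 | h6⟩ := hn <;> nlinarith [h4.1, h4.2]
  set f : ℝ → ℝ := fun t => max 0 (min 1 (3 * t - 1)) with hf
  have hfc : Continuous f := by rw [hf]; fun_prop
  have h3 : ∀ x ∈ spectrum ℝ h, f x * f x = f x ∧ |f x - x| ≤ 5 * η := by
    intro x hx
    rcases h2 x hx with h4 | h4
    · have : f x = 0 := by
        simp only [hf]
        exact max_eq_left (min_le_of_right_le (by linarith [(abs_le.1 h4).2]))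
      rw [this, zero_sub, abs_neg]
      exact ⟨mul_zero _, h4⟩
    · have : f x = 1 := by
        simp only [hf]
        rw [min_eq_left (by linarith [(abs_le.1 h4).1]), max_eq_right zero_le_one]
      rw [this, abs_sub_comm]
      exact ⟨mul_one _, h4⟩
  refine ⟨cfc f h, ⟨?_, cfc_predicate f h⟩, ?_, fun y hy => hy.cfc_real f⟩
  · unfold IsIdempotentElem
    rw [← cfc_mul f f h]
    exact cfc_congr fun x hx => (h3 x hx).1
  · have h4 : ‖cfc f h - h‖ ≤ 5 * η := by
      have := norm_cfc_le (f := fun t : ℝ => f t - t) (a := h) (by positivity)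
        fun x hx => (h3 x hx).2
      rwa [cfc_sub f (fun t : ℝ => t) h, cfc_id' ℝ h] at this
    have := norm_add_le (cfc f h - h) (h - p)
    rw [sub_add_sub_cancel] at this
    linarith

theorem corner_sq {R : Type*} [CStarAlgebra R] {X p U : R} (hp : IsStarProjection p)
    (hU : U ∈ unitary R) (hUp : Commute U p) (hX : ‖X - p * U‖ ≤ 1 / 4000) :
    ‖star X * X - p‖ ≤ 3 / 4000 := by
  have h1 : ‖p * U‖ ≤ 1 := by
    rw [CStarRing.norm_mul_mem_unitary _ hU]
    exact hp.norm_le
  have h2 : star (p * U) * (p * U) = p := by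
    rw [star_mul, hp.isSelfAdjoint.star_eq, mul_assoc, ← mul_assoc p, hp.isIdempotentElem.eq,
      ← hUp.eq, ← mul_assoc, (Unitary.mem_iff.1 hU).1, one_mul]
  have h3 := norm_mul_sub_mul_le (a := star X) (c := star (p * U)) (x := 1 / 4000)
    (by rw [← star_sub, norm_star]; exact hX) hX (norm_le_of_sub hX h1) (by rwa [norm_star])
  rw [h2] at h3
  linarith

theorem corner_compress {R : Type*} [CStarAlgebra R] {X p p' U e e' : R} (hp : IsStarProjection p)
    (hp' : IsStarProjection p') (hU : U ∈ unitary R) (hUp : Commute U p)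
    (hX : ‖X - p * U‖ ≤ 1 / 4000) (hpp : ‖p' - p‖ ≤ 6 * (3 / 4000)) (he : ‖e‖ ≤ 1)
    (hee : ‖e' - e‖ ≤ 36 / 4000) (hep : e * p = e) :
    ‖e' * (p' * X * p') - e * U‖ ≤ 76 / 4000 := by
  have h1 : ‖p * U‖ ≤ 1 := by
    rw [CStarRing.norm_mul_mem_unitary _ hU]
    exact hp.norm_le
  have h2 : p * (p * U) = p * U := by rw [← mul_assoc, hp.isIdempotentElem.eq]
  have h3 : p * U * p = p * U := by rw [mul_assoc, hUp.eq, h2]
  have h4 := norm_mul_sub_mul_le hpp hX (norm_le_of_sub hX h1) hp.norm_le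
  rw [h2] at h4
  have h5 := norm_mul_sub_mul_le h4 hpp hp'.norm_le h1
  rw [h3] at h5
  have h6 := norm_mul_sub_mul_le hee h5 (norm_le_of_sub h5 h1) he
  rw [← mul_assoc e, hep] at h6
  linarith

theorem corner_conj {R : Type*} [CStarAlgebra R] {S T Z W : R} (hTS : T * S = 1)
    (hS : ‖S - 1‖ ≤ 72 / 4000) (hW : ‖W‖ ≤ 1) (hZ : ‖Z - W‖ ≤ 76 / 4000) :
    ‖T * Z * S - W‖ ≤ 1 / 10 := by
  have h1 : ‖(1 : R)‖ ≤ 1 := IsStarProjection.norm_le _ (IsStarProjection.one R)
  have h2 : ‖T‖ ≤ 2 := by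
    have e : T = 1 - T * (S - 1) := by rw [mul_sub, hTS]; simp
    have a1 := norm_sub_le 1 (T * (S - 1))
    rw [← e] at a1
    have a2 := (norm_mul_le T (S - 1)).trans (mul_le_mul_of_nonneg_left hS (norm_nonneg _))
    linarith
  have h3 := norm_le_of_sub hZ hW
  have e : T * Z * S - W = T * (Z * (S - 1) - (S - 1) * Z) + (Z - W) := by
    calc T * Z * S - W = T * (Z * (S - 1) - (S - 1) * Z) + (T * S * Z - W) := by noncomm_ring
      _ = _ := by rw [hTS, one_mul]
  have a1 := (norm_mul_le Z (S - 1)).trans (mul_le_mul h3 hS (norm_nonneg _) (by norm_num))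
  have a2 := (norm_mul_le (S - 1) Z).trans (mul_le_mul hS h3 (norm_nonneg _) (by norm_num))
  have a3 := (norm_sub_le _ _).trans (add_le_add a1 a2)
  have a4 := (norm_mul_le T _).trans (mul_le_mul h2 a3 (norm_nonneg _) (by norm_num))
  rw [e]
  have a5 := norm_add_le (T * (Z * (S - 1) - (S - 1) * Z)) (Z - W)
  linarith

/-- The commuting corner.  PROOF.  `ε = 1/4000`.  `‖X* X - p‖ ≤ 3 ε`, `p'` from `exists_proj_near`
commutes with `Y, Y*` (so with `q'`); `q'` from `Y* Y` commutes with `X, X*`.  `X' = p' X p'` and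
`Y' = q' Y q'` commute with each other and with `e' = p' q'`.  `e = p q`, `‖e' - e‖ ≤ 36 ε`,
`S = e' e + (1 - e') (1 - e)`, `S - 1 = (e' - e) e + e' (e - e')`, `S e = e' S`, `S` is invertible
(`Units.oneSub`/`NormedRing.inverse_one_sub`), `A = S⁻¹ e' X' S`, `B = S⁻¹ e' Y' S`. -/
theorem corner {R : Type*} [CStarAlgebra R] {X Y p q U V : R} (hXY : Commute X Y)
    (hXY' : Commute X (star Y)) (hp : IsStarProjection p) (hq : IsStarProjection q)
    (hpq : Commute p q) (hU : U ∈ unitary R) (hV : V ∈ unitary R) (hUp : Commute U p)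
    (hUq : Commute U q) (hVp : Commute V p) (hVq : Commute V q) (hX : ‖X - p * U‖ ≤ 1 / 4000)
    (hY : ‖Y - q * V‖ ≤ 1 / 4000) :
    ∃ A B : R, A * B = B * A ∧ p * q * A = A ∧ A * (p * q) = A ∧ p * q * B = B ∧
      B * (p * q) = B ∧ ‖A - p * q * U‖ ≤ 1 / 10 ∧ ‖B - p * q * V‖ ≤ 1 / 10 := by
  obtain ⟨p', hp', hpp, hcp⟩ := exists_proj_near (IsSelfAdjoint.star_mul_self X) hp
    (by norm_num) (corner_sq hp hU hUp hX)
  obtain ⟨q', hq', hqq, hcq⟩ := exists_proj_near (IsSelfAdjoint.star_mul_self Y) hq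
    (by norm_num) (corner_sq hq hV hVq hY)
  have c1 : Commute (star X) Y := by simpa using hXY'.star_star
  have c2 : Commute (star X) (star Y) := hXY.star_star
  have c3 : Commute p' Y := hcp _ (c1.mul_left hXY)
  have c4 : Commute p' (star Y) := hcp _ (c2.mul_left hXY')
  have c5 : Commute q' X := hcq _ (hXY'.symm.mul_left hXY.symm)
  have c6 : Commute q' p' := hcq _ (c4.symm.mul_left c3.symm)
  have ip := hp'.isIdempotentElem.eq
  have iq := hq'.isIdempotentElem.eq
  set X' := p' * X * p' with hX'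
  set Y' := q' * Y * q' with hY'
  have d1 : Commute X' p' := by
    change p' * X * p' * p' = p' * (p' * X * p')
    rw [mul_assoc _ p' p', ip, ← mul_assoc, ← mul_assoc, ip]
  have d2 : Commute Y' q' := by
    change q' * Y * q' * q' = q' * (q' * Y * q')
    rw [mul_assoc _ q' q', iq, ← mul_assoc, ← mul_assoc, iq]
  have d3 : Commute X' q' := ((c6.mul_right c5).mul_right c6).symm
  have d4 : Commute Y' p' := ((c6.symm.mul_right c3).mul_right c6.symm).symm
  have d5 : Commute X' Y := ((c3.symm.mul_right hXY.symm).mul_right c3.symm).symm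
  have d6 : Commute X' Y' := (d3.mul_right d5).mul_right d3
  have he := hp.mul hq hpq
  have he' := hp'.mul hq' c6.symm
  set e := p * q with hedef
  set e' := p' * q' with he'def
  have d7 : Commute X' e' := d1.mul_right d3
  have d8 : Commute Y' e' := d4.mul_right d2
  have ie := he.isIdempotentElem.eq
  have ie' := he'.isIdempotentElem.eq
  have hee : ‖e' - e‖ ≤ 36 / 4000 :=
    (norm_mul_sub_mul_le hpp hqq hq'.norm_le hp.norm_le).trans (by norm_num)
  have hep : e * p = e := by
    rw [hedef, mul_assoc, ← hpq.eq, ← mul_assoc, hp.isIdempotentElem.eq]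
  have heq : e * q = e := by rw [hedef, mul_assoc, hq.isIdempotentElem.eq]
  set S := e' * e + (1 - e') * (1 - e) with hS
  have hS1 : ‖S - 1‖ ≤ 72 / 4000 := by
    have e1 : S - 1 = (e' - e) * e + e' * (e - e') := by
      calc S - 1 = (e' - e) * e + e' * (e - e') + (e * e - e) + (e' * e' - e') := by
            rw [hS]; noncomm_ring
        _ = _ := by rw [ie, ie', sub_self, sub_self, add_zero, add_zero]
    have a1 := (norm_mul_le (e' - e) e).trans
      (mul_le_mul hee he.norm_le (norm_nonneg _) (by norm_num))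
    have a2 := (norm_mul_le e' (e - e')).trans
      (mul_le_mul he'.norm_le ((norm_sub_rev _ _).trans_le hee) (norm_nonneg _) zero_le_one)
    rw [e1]
    linarith [norm_add_le ((e' - e) * e) (e' * (e - e'))]
  have hSe : S * e = e' * S := by
    have l : S * e = e' * e := by
      calc S * e = e' * (e * e) + (1 - e') * (e - e * e) := by rw [hS]; noncomm_ring
        _ = _ := by rw [ie, sub_self, mul_zero, add_zero]
    have r : e' * S = e' * e := by
      calc e' * S = e' * e' * e + (e' - e' * e') * (1 - e) := by rw [hS]; noncomm_ring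
        _ = _ := by rw [ie', sub_self, zero_mul, add_zero]
    rw [l, r]
  have hu : IsUnit S := by
    have := isUnit_one_sub_of_norm_lt_one (x := 1 - S) (by rw [norm_sub_rev]; linarith)
    rwa [sub_sub_cancel] at this
  obtain ⟨T, hST, hTS⟩ := isUnit_iff_exists.1 hu
  have heT : e * T = T * e' := by
    calc e * T = T * S * e * T := by rw [hTS, one_mul]
      _ = T * e' * (S * T) := by rw [mul_assoc T S e, hSe]; simp only [mul_assoc]
      _ = T * e' := by rw [hST, mul_one]
  have left : ∀ Z, e * (T * (e' * Z) * S) = T * (e' * Z) * S := fun Z => by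
    rw [← mul_assoc, ← mul_assoc, heT, mul_assoc T e', ← mul_assoc e', ie']
  have right : ∀ Z, Commute Z e' → T * (e' * Z) * S * e = T * (e' * Z) * S := fun Z hZ => by
    rw [mul_assoc _ S e, hSe, ← mul_assoc, mul_assoc T _ e', mul_assoc e' Z, hZ.eq,
      ← mul_assoc e', ie']
  have prod : ∀ Z Z', T * Z * S * (T * Z' * S) = T * (Z * Z') * S := fun Z Z' => by
    calc T * Z * S * (T * Z' * S) = T * Z * (S * T) * Z' * S := by simp only [mul_assoc]
      _ = _ := by rw [hST, mul_one, mul_assoc T]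
  have hWn : ∀ W ∈ unitary R, ‖e * W‖ ≤ 1 := fun W hW => by
    rw [CStarRing.norm_mul_mem_unitary _ hW]
    exact he.norm_le
  refine ⟨T * (e' * X') * S, T * (e' * Y') * S, ?_, left _, right _ d7, left _, right _ d8,
    corner_conj hTS hS1 (hWn U hU) (corner_compress hp hp' hU hUp hX hpp he.norm_le hee hep),
    corner_conj hTS hS1 (hWn V hV) (corner_compress hq hq' hV hVq hY hqq he.norm_le hee heq)⟩
  rw [prod, prod,
    (((Commute.refl e').mul_right d8.symm).mul_left (d7.mul_right d6)).eq]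

end Crest.Agent.R78
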